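import Vale.Agent.P224.R2.H627.Pr
import Vale.Agent.P224.R2.H925.LawT1

/-!
Instances of the law with the tangent line, with kernel checked rational bounds of the weights.
-/

namespace Vale.Agent.P224.R2.H627

open MeasureTheory Set Filter Function Real Module Vale.Agent.P224 Vale.Agent.P224.FV
open Vale.Agent.P224.SM2 Vale.Agent.P224.R2.H820 Vale.Agent.P224.R2.H728
open Vale.Agent.P224.R2.H582 Vale.Agent.P224.R2.H925
open scoped Topology RealInnerProductSpace ContDiff Manifold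

set_option linter.unusedSectionVars false

variable {m : ℕ}

/-- the second coefficient -/
noncomputable def beM (m : ℕ) (T : ℝ) : ℝ := be m (31 / 10) T (eM m T) (rM m T)

lemma beM_eq (T : ℝ) : beM m T
    = m * (m + 1) * T * (2 * (1 - T) * rM m T - eM m T + 31 / 10 * T ^ 4 * eM m T) := rfl

lemma al_eq {T lam : ℝ} (hT : T ∈ Ioo (0 : ℝ) 1) : al m T (yM m T) (rM m T) lam
    = m * (T * yM m T + m * rM m T)
      - (m + 1) * (m + 2) * T ^ 2 * rM m T / (1 - T ^ 2) * ((1 - T ^ 2) * lam) := by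
  have hk : 0 < 1 - T ^ 2 := by nlinarith [hT.1, hT.2]
  unfold al
  field_simp

lemma al_nonneg_M (hm : 17 ≤ m) {T lam : ℝ} (hT : T ∈ Ioo (0 : ℝ) 1)
    (hl : Adm (2 / m) (1 - T ^ 2) ((1 - T ^ 2) * lam)) : 0 ≤ al m T (yM m T) (rM m T) lam := by
  rw [al_eq hT]
  exact alpha_nonneg2 hm hT hl

lemma conv_M (hm : 17 ≤ m) {T lam : ℝ} (hT : T ∈ Ioo (0 : ℝ) 1)
    (hl : Adm (2 / m) (1 - T ^ 2) ((1 - T ^ 2) * lam)) :
    (m + 3) * beM m T ≤ (m + 1) * al m T (yM m T) (rM m T) lam * (1 - T) := by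
  rw [al_eq hT, beM_eq]
  exact conv_cond2 hm hT hl

lemma pos_M (hm : 17 ≤ m) {T lam : ℝ} (hT : T ∈ Ioo (0 : ℝ) 1)
    (hl : Adm (2 / m) (1 - T ^ 2) ((1 - T ^ 2) * lam)) :
    beM m T ≤ al m T (yM m T) (rM m T) lam * (1 - T) := by
  have h1 := al_nonneg_M hm hT hl
  have h2 := conv_M hm hT hl
  have hm0 : (0 : ℝ) ≤ m := Nat.cast_nonneg m
  rcases le_total (beM m T) 0 with h | h
  · have : 0 ≤ al m T (yM m T) (rM m T) lam * (1 - T) := mul_nonneg h1 (by linarith [hT.2])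
    linarith
  · have h3 : 0 ≤ al m T (yM m T) (rM m T) lam * (1 - T) := mul_nonneg h1 (by linarith [hT.2])
    by_contra hc
    push Not at hc
    nlinarith

lemma abs_M (hm : 17 ≤ m) {T : ℝ} (hT : T ∈ Ioo (0 : ℝ) 1) :
    m * (m + 1) * (T * |2 * rM m T - eM m T| - 2 * T ^ 2 * rM m T) ≤ beM m T := by
  rw [beM_eq]
  exact abs_le_beta2 hm hT

/-- the numbers of the law with `T₁ = 1/2` -/
theorem W_half {σ l0 l1 l2 l3 l4 w0 w1 : ℚ} (hm : 17 ≤ m) (hσ : 0 ≤ σ) (h0 : 0 ≤ l0) (h1 : 0 ≤ l1)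
    (h2 : 0 ≤ l2) (h3 : 0 ≤ l3) (h4 : 0 ≤ l4)
    (hadm : ∀ T ∈ Ioo (1 / 2 : ℝ) 1,
      Adm (2 / m) (1 - T ^ 2) ((1 - T ^ 2) * lamP l0 l1 l2 l3 l4 T))
    (c0 : lowOK m (w0 + prQ m σ) (w0L m (31 / 10) σ l0 l1 l2 l3 l4) = true)
    (c1 : lowOK m (-w1) (ng (w1L m (31 / 10) σ l0 l1 l2 l3 l4)) = true) :
    IntervalIntegrable (fun T => b0 m (31 / 10) σ T (yM m T) (eM m T) (rM m T)
      (lamP l0 l1 l2 l3 l4 T)) volume 0 (1 / 2)
    ∧ IntervalIntegrable (fun T => H582.b1 m (31 / 10) σ T (yM m T) (eM m T) (rM m T)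
      (lamP l0 l1 l2 l3 l4 T)) volume 0 (1 / 2)
    ∧ (w0 : ℝ) ≤ ∫ T in (0 : ℝ)..(1 / 2), b0 m (31 / 10) σ T (yM m T) (eM m T) (rM m T)
      (lamP l0 l1 l2 l3 l4 T)
    ∧ ∫ T in (0 : ℝ)..(1 / 2), H582.b1 m (31 / 10) σ T (yM m T) (eM m T) (rM m T)
      (lamP l0 l1 l2 l3 l4 T) ≤ (w1 : ℝ) := by
  have hm4 : 4 ≤ m := by omega
  have hσ' : (0 : ℝ) ≤ σ := by exact_mod_cast hσ
  have hl : ∀ T : ℝ, 0 ≤ lamP l0 l1 l2 l3 l4 T := by
    intro T
    have g0 : (0 : ℝ) ≤ l0 := by exact_mod_cast h0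
    have g1 : (0 : ℝ) ≤ l1 := by exact_mod_cast h1
    have g2 : (0 : ℝ) ≤ l2 := by exact_mod_cast h2
    have g3 : (0 : ℝ) ≤ l3 := by exact_mod_cast h3
    have g4 : (0 : ℝ) ≤ l4 := by exact_mod_cast h4
    unfold lamP
    positivity
  have cy' := H582.contOn_yM hm4
  have ce := contOn_eM hm4
  have cr := contOn_rM hm4
  obtain ⟨i0, e0⟩ := int_b0 (m := m) (κ := 31 / 10) (σ := σ) (l0 := l0) (l1 := l1) (l2 := l2)
    (l3 := l3) (l4 := l4) cy' ce cr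
  obtain ⟨i1, e1⟩ := int_b1 (m := m) (κ := 31 / 10) (σ := σ) (l0 := l0) (l1 := l1) (l2 := l2)
    (l3 := l3) (l4 := l4) cy' ce cr
  have s1 : uIcc (0 : ℝ) (1 / 2) ⊆ uIcc 0 1 := by
    rw [uIcc_of_le (by norm_num), uIcc_of_le (by norm_num)]
    exact Icc_subset_Icc le_rfl (by norm_num)
  have s2 : uIcc (1 / 2 : ℝ) 1 ⊆ uIcc 0 1 := by
    rw [uIcc_of_le (by norm_num), uIcc_of_le (by norm_num)]
    exact Icc_subset_Icc (by norm_num) le_rfl
  have j0 := i0.mono_set s1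
  have j1 := i1.mono_set s1
  have k0 := i0.mono_set s2
  have k1 := i1.mono_set s2
  have a0 := intervalIntegral.integral_add_adjacent_intervals j0 k0
  have a1 := intervalIntegral.integral_add_adjacent_intervals j1 k1
  refine ⟨j0, j1, ?_, ?_⟩
  · have h5 := lowOK_sound hm c0
    rw [← w0_eq] at h5
    have h6 := int_b0_half (κ := 31 / 10) hm (by norm_num) hσ' (fun T _ => hl T) k0
    have h7 := le_prQ (m := m) hσ
    push_cast at h5
    unfold YM EM RM at h5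
    rw [← e0, ← a0] at h5
    linarith
  · have h5 := upOK_sound hm c1
    rw [← w1_eq] at h5
    push_cast at h5
    unfold YM EM RM at h5
    rw [← e1, ← a1] at h5
    have h6 : 0 ≤ ∫ T in (1 / 2 : ℝ)..1, H582.b1 m (31 / 10) σ T (yM m T) (eM m T) (rM m T)
        (lamP l0 l1 l2 l3 l4 T) := by
      have h7 := intervalIntegral.integral_mono_on_of_le_Ioo (a := (1 / 2 : ℝ)) (b := 1)
        (by norm_num) (f := fun _ => (0 : ℝ)) (intervalIntegrable_const) k1 fun T hT => ?_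
      · simp only [intervalIntegral.integral_zero] at h7
        exact h7
      · have hT' : T ∈ Ioo (0 : ℝ) 1 := ⟨by linarith [hT.1], hT.2⟩
        have hc := certO_M hm4
        have hy := yM_nonneg hm4 (T := T) ⟨hT'.1.le, hT'.2.le⟩
        have h8 := le_b1 (m := m) (κ := 31 / 10) (σ := σ) (T := T) (by norm_num) hσ' hT'.1.le
          hT'.2.le hy (hc.e0 T hT') (hc.r0 T hT') (hl T)
        have h9 := tb_nonneg (m := m) (σ := σ) (T := T) hσ' hT'.1.le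
          (al_nonneg_M hm hT' (hadm T hT)) (conv_M hm hT' (hadm T hT))
        unfold beM at h9
        linarith
    linarith

/-- the coefficient list of `m (m + 1) E_1` -/
def e1L (m : ℚ) : List (ℚ × ℚ × ℚ) := [(0, 0, 0), (0, m * (m + 1), 0)]

lemma e1L_val : lc3 (YM m) (EM m) (RM m) (e1L m) 0 = m * (m + 1) * EM m 1 := by
  simp only [e1L, lc3]
  push_cast
  ring

theorem le_e1 {w : ℚ} (hm : 17 ≤ m) (h : lowOK m w (e1L m) = true) :
    (w : ℝ) ≤ m * (m + 1) * EM m 1 := by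
  have h1 := lowOK_sound hm h
  rwa [e1L_val] at h1

theorem e1_le {w : ℚ} (hm : 17 ≤ m) (h : lowOK m (-w) (ng (e1L m)) = true) :
    m * (m + 1) * EM m 1 ≤ (w : ℝ) := by
  have h1 := upOK_sound hm h
  rwa [e1L_val] at h1

/-- minus the base point of the tangent -/
def sgQ (m : ℚ) : ℚ := 16 * (m + 2) / ((m + 1) * (7 * m + 23))

lemma sgQ_nonneg (m : ℕ) : 0 ≤ sgQ m := by
  unfold sgQ
  positivity

/-- the numbers of the law for one dimension -/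
structure NRow where
  m : ℕ
  w0 : ℚ
  w1 : ℚ
  e1 : ℚ
  e2 : ℚ
  g : ℚ

/-- the check of the numbers of one dimension -/
def nrowOK (l0 l1 l2 l3 l4 : ℚ) (r : NRow) : Bool :=
  decide (17 ≤ r.m) && lowOK r.m (r.w0 + prQ r.m (sgQ r.m)) (w0L r.m (31 / 10) (sgQ r.m) l0 l1 l2 l3 l4)
    && lowOK r.m (-r.w1) (ng (w1L r.m (31 / 10) (sgQ r.m) l0 l1 l2 l3 l4))
    && lowOK r.m r.e1 (e1L r.m) && lowOK r.m (-r.e2) (ng (e1L r.m)) && decide (gq2 r.m ≤ r.g)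

/-- what the check gives -/
theorem nrow_sound {l0 l1 l2 l3 l4 : ℚ} {r : NRow} (h : nrowOK l0 l1 l2 l3 l4 r = true) :
    17 ≤ r.m ∧ lowOK r.m (r.w0 + prQ r.m (sgQ r.m)) (w0L r.m (31 / 10) (sgQ r.m) l0 l1 l2 l3 l4)
      = true ∧ lowOK r.m (-r.w1) (ng (w1L r.m (31 / 10) (sgQ r.m) l0 l1 l2 l3 l4)) = true
    ∧ (r.e1 : ℝ) ≤ r.m * (r.m + 1) * EM r.m 1 ∧ r.m * (r.m + 1) * EM r.m 1 ≤ (r.e2 : ℝ)
    ∧ r.m * rM r.m 0 ≤ (r.g : ℝ) := by
  simp only [nrowOK, Bool.and_eq_true, decide_eq_true_eq] at h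
  obtain ⟨⟨⟨⟨⟨h1, h2⟩, h3⟩, h4⟩, h5⟩, h6⟩ := h
  refine ⟨h1, h2, h3, le_e1 h1 h4, e1_le h1 h5, (le_gq2 h1).trans ?_⟩
  exact_mod_cast h6

/-- the threshold function: `17 (1 - T ^ 10)` below `1/2`, the maximum of `35/2` and
`23/2 / (1 - T ^ 2)` above -/
noncomputable def lamS (T : ℝ) : ℝ :=
  if T < 1 / 2 then lamP 17 17 17 17 17 T else max (35 / 2) (23 / 2 / (1 - T ^ 2)) / (1 - T ^ 2)

lemma lamP_eq (T : ℝ) : (1 - T ^ 2) * lamP 17 17 17 17 17 T = 17 * (1 - T ^ 10) := by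
  unfold lamP
  ring

lemma admP17 (m : ℕ) {T : ℝ} (_ : T ∈ Ioo (0 : ℝ) 1) :
    Adm (2 / m) (1 - T ^ 2) ((1 - T ^ 2) * lamP 17 17 17 17 17 T) := by
  refine Or.inl (Or.inl ?_)
  rw [lamP_eq]
  have : 0 ≤ T ^ 10 := by positivity
  linarith

lemma lamS_mul {T : ℝ} (hT : T ∈ Ioo (0 : ℝ) 1) : (1 - T ^ 2) * lamS T
    = if T < 1 / 2 then 17 * (1 - T ^ 10) else max (35 / 2) (23 / 2 / (1 - T ^ 2)) := by
  have hk : 0 < 1 - T ^ 2 := by nlinarith [hT.1, hT.2]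
  unfold lamS
  split_ifs
  · exact lamP_eq T
  · exact mul_div_cancel₀ _ hk.ne'

lemma adm_lamS (m : ℕ) {T : ℝ} (hT : T ∈ Ioo (0 : ℝ) 1) :
    Adm (2 / m) (1 - T ^ 2) ((1 - T ^ 2) * lamS T) := by
  have hk : 0 < 1 - T ^ 2 := by nlinarith [hT.1, hT.2]
  rw [lamS_mul hT]
  split_ifs
  · refine Or.inl (Or.inl ?_)
    have : 0 ≤ T ^ 10 := by positivity
    linarith
  · refine Or.inl ?_
    rcases le_total (23 / 2 / (1 - T ^ 2)) (35 / 2) with h | h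
    · rw [max_eq_left h]
      exact Or.inl le_rfl
    · rw [max_eq_right h, mul_div_cancel₀ _ hk.ne']
      exact Or.inr le_rfl

section

variable {V W M : Type*} [NormedAddCommGroup V] [InnerProductSpace ℝ V] [FiniteDimensional ℝ V]
  [NormedAddCommGroup W] [InnerProductSpace ℝ W] [FiniteDimensional ℝ W]
  [TopologicalSpace M] [ChartedSpace V M]
  [MeasurableSpace V] [BorelSpace V] [MeasurableSpace M] [BorelSpace M]
  [MeasurableSpace W] [BorelSpace W] [IsManifold 𝓘(ℝ, V) ∞ M]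
  [CompactSpace M] [T2Space M]

/-- the law with the tangent line below `T₁ = 1/2`, with rational bounds of the weights -/
theorem law_half [Nonempty M] (hm : 17 ≤ finrank ℝ V) (hW : finrank ℝ W = finrank ℝ V + 2)
    {F : M → W} (hF : SphImm V F) (hmin : ∀ x n, IsUnitNormal V F x n → meanCurv V F x n = 0)
    {N : M → W} (hNs : ContMDiff 𝓘(ℝ, V) 𝓘(ℝ, W) ∞ N) (hN : ∀ x, IsUnitNormal V F x (N x))
    (hinj : Injective F) {ι : Type*} [Fintype ι] [DecidableEq ι] (b : OrthonormalBasis ι ℝ W)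
    {m : ℕ} (hmm : m = finrank ℝ V) {lam τ : ℝ → ℝ}
    {σ l0 l1 l2 l3 l4 w0 w1 : ℚ} (hσ : 0 ≤ σ) (h0 : 0 ≤ l0) (h1 : 0 ≤ l1)
    (h2 : 0 ≤ l2) (h3 : 0 ≤ l3) (h4 : 0 ≤ l4)
    (hlam : ∀ T ∈ Ioo (0 : ℝ) (1 / 2), lam T = lamP l0 l1 l2 l3 l4 T)
    (hadm : ∀ T ∈ Ioo (0 : ℝ) 1, Adm (2 / m) (1 - T ^ 2) ((1 - T ^ 2) * lam T))
    (hadmP : ∀ T ∈ Ioo (1 / 2 : ℝ) 1,
      Adm (2 / m) (1 - T ^ 2) ((1 - T ^ 2) * lamP l0 l1 l2 l3 l4 T))
    (c0 : lowOK m (w0 + prQ m σ) (w0L m (31 / 10) σ l0 l1 l2 l3 l4) = true)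
    (c1 : lowOK m (-w1) (ng (w1L m (31 / 10) σ l0 l1 l2 l3 l4)) = true)
    (hτi : IntervalIntegrable τ volume 0 1)
    (hτ : ∀ T ∈ Ioo (0 : ℝ) 1, (m + 1) * (m + 2) * T ^ 2 * rM m T / (1 - T ^ 2) / 2
      * E2 (volM V F) F N (TK m T ((1 - T ^ 2) * lam T))
      ≤ τ T * (volM V F).real univ ^ 2) :
    ∃ W0 W1 : ℝ, (w0 : ℝ) ≤ W0 ∧ W1 ≤ (w1 : ℝ) ∧
    2 * lamM m * (sphereVol m / (volM V F).real univ)
        + (W0 * Qpt (nrm (volM V F)) m (co b F) (co b N)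
        + W1 * min (Qpts (nrm (volM V F)) m (co b F) (co b N)
          + σ * Qpt (nrm (volM V F)) m (co b F) (co b N)) 0
        + m / ((m + 2) * (m + 4)) * Qcs (nrm (volM V F)) (co b F) (co b N)
        + m * (m + 1) * EM m 1 * Qcss (nrm (volM V F)) m (co b F) (co b N)
        - ∫ T in (0 : ℝ)..1, τ T)
      ≤ 1 + m * rM m 0 * ∑ i, m1 (nrm (volM V F)) (co b N) i ^ 2 := by
  have hm' : 17 ≤ m := hmm ▸ hm
  have hm4 : 4 ≤ m := by omega
  obtain ⟨i0, i1, j0, j1⟩ := W_half hm' hσ h0 h1 h2 h3 h4 hadmP c0 c1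
  have hσ' : (0 : ℝ) ≤ σ := by exact_mod_cast hσ
  have hl : ∀ T : ℝ, 0 ≤ lamP l0 l1 l2 l3 l4 T := by
    intro T
    have g0 : (0 : ℝ) ≤ l0 := by exact_mod_cast h0
    have g1 : (0 : ℝ) ≤ l1 := by exact_mod_cast h1
    have g2 : (0 : ℝ) ≤ l2 := by exact_mod_cast h2
    have g3 : (0 : ℝ) ≤ l3 := by exact_mod_cast h3
    have g4 : (0 : ℝ) ≤ l4 := by exact_mod_cast h4
    unfold lamP
    positivity
  have hc := certO_M hm4
  have sub : ∀ T ∈ Ioo (0 : ℝ) (1 / 2), T ∈ Ioo (0 : ℝ) 1 := fun T hT =>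
    ⟨hT.1, by linarith [hT.2]⟩
  refine ⟨_, _, j0, j1, ?_⟩
  refine law_T1 (by omega) hW hF hmin hNs hN hinj b hσ' (by norm_num) (by norm_num) hmm
    (lam := lam) (be' := beM m) (τ := τ) (fun T hT => abs_M hm' hT)
    (fun T hT => al_nonneg_M hm' hT (hadm T hT))
    (fun T hT => conv_M hm' (sub T hT) (hadm T (sub T hT)))
    (fun T hT => ?_) i0 i1 (fun T hT => ?_) (fun T hT => ?_) hτi hτ
  · have hT' : T ∈ Ioo (0 : ℝ) 1 := ⟨by linarith [hT.1], hT.2⟩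
    exact pos_M hm' hT' (hadm T hT')
  · have hT' := sub T hT
    rw [hlam T hT]
    have hy := yM_nonneg hm4 (T := T) ⟨hT'.1.le, hT'.2.le⟩
    exact b0_le (by norm_num) hσ' hT'.1.le hT'.2.le hy (hc.e0 T hT') (hc.r0 T hT') (hl T)
  · have hT' := sub T hT
    rw [hlam T hT]
    have hy := yM_nonneg hm4 (T := T) ⟨hT'.1.le, hT'.2.le⟩
    exact le_b1 (by norm_num) hσ' hT'.1.le hT'.2.le hy (hc.e0 T hT') (hc.r0 T hT') (hl T)

/-- the law without the first two terms -/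
theorem law_zero [Nonempty M] (hm : 17 ≤ finrank ℝ V) (hW : finrank ℝ W = finrank ℝ V + 2)
    {F : M → W} (hF : SphImm V F) (hmin : ∀ x n, IsUnitNormal V F x n → meanCurv V F x n = 0)
    {N : M → W} (hNs : ContMDiff 𝓘(ℝ, V) 𝓘(ℝ, W) ∞ N) (hN : ∀ x, IsUnitNormal V F x (N x))
    (hinj : Injective F) {ι : Type*} [Fintype ι] [DecidableEq ι] (b : OrthonormalBasis ι ℝ W)
    {m : ℕ} (hmm : m = finrank ℝ V) {lam τ : ℝ → ℝ}
    (hadm : ∀ T ∈ Ioo (0 : ℝ) 1, Adm (2 / m) (1 - T ^ 2) ((1 - T ^ 2) * lam T))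
    (hτi : IntervalIntegrable τ volume 0 1)
    (hτ : ∀ T ∈ Ioo (0 : ℝ) 1, (m + 1) * (m + 2) * T ^ 2 * rM m T / (1 - T ^ 2) / 2
      * E2 (volM V F) F N (TK m T ((1 - T ^ 2) * lam T))
      ≤ τ T * (volM V F).real univ ^ 2) :
    2 * lamM m * (sphereVol m / (volM V F).real univ)
        + (0 * Qpt (nrm (volM V F)) m (co b F) (co b N)
        + 0 * min (Qpts (nrm (volM V F)) m (co b F) (co b N)
          + 0 * Qpt (nrm (volM V F)) m (co b F) (co b N)) 0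
        + m / ((m + 2) * (m + 4)) * Qcs (nrm (volM V F)) (co b F) (co b N)
        + m * (m + 1) * EM m 1 * Qcss (nrm (volM V F)) m (co b F) (co b N)
        - ∫ T in (0 : ℝ)..1, τ T)
      ≤ 1 + m * rM m 0 * ∑ i, m1 (nrm (volM V F)) (co b N) i ^ 2 := by
  have hm' : 17 ≤ m := hmm ▸ hm
  have e : ∀ T : ℝ, T ∈ Ioo (0 : ℝ) 0 → False := fun T hT => by
    have := hT.1.trans hT.2
    exact lt_irrefl _ this
  have h := law_T1 (by omega) hW hF hmin hNs hN hinj b (σ := 0) le_rfl (T1 := 0) le_rfl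
    zero_le_one hmm (lam := lam) (be' := beM m) (B0 := fun _ => 0) (B1 := fun _ => 0) (τ := τ)
    (fun T hT => abs_M hm' hT)
    (fun T hT => al_nonneg_M hm' hT (hadm T hT))
    (fun T hT => (e T hT).elim)
    (fun T hT => by
      rcases eq_or_lt_of_le hT.1 with h0 | h0
      · rw [← h0]
        have hr : 0 ≤ rM m 0 := by
          refine rF_nonneg (cn_nonneg (by omega)) ⟨le_rfl, zero_le_one⟩
        simp only [beM, be, al]
        simp only [mul_zero, zero_mul, sub_zero, zero_add, mul_one]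
        norm_num
        positivity
      · exact pos_M hm' ⟨h0, hT.2⟩ (hadm T ⟨h0, hT.2⟩))
    intervalIntegrable_const intervalIntegrable_const
    (fun T hT => (e T hT).elim) (fun T hT => (e T hT).elim) hτi hτ
  simpa using h

/-- the law for one row of numbers, threshold function `lamS` -/
theorem law_row [Nonempty M] {r : NRow} (hr : nrowOK 17 17 17 17 17 r = true)
    (hmm : r.m = finrank ℝ V) (hW : finrank ℝ W = finrank ℝ V + 2)
    {F : M → W} (hF : SphImm V F) (hmin : ∀ x n, IsUnitNormal V F x n → meanCurv V F x n = 0)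
    {N : M → W} (hNs : ContMDiff 𝓘(ℝ, V) 𝓘(ℝ, W) ∞ N) (hN : ∀ x, IsUnitNormal V F x (N x))
    (hinj : Injective F) {ι : Type*} [Fintype ι] [DecidableEq ι] (b : OrthonormalBasis ι ℝ W)
    {τ : ℝ → ℝ} (hτi : IntervalIntegrable τ volume 0 1)
    (hτ : ∀ T ∈ Ioo (0 : ℝ) 1, (r.m + 1) * (r.m + 2) * T ^ 2 * rM r.m T / (1 - T ^ 2) / 2
      * E2 (volM V F) F N (TK r.m T ((1 - T ^ 2) * lamS T))
      ≤ τ T * (volM V F).real univ ^ 2) :
    ∃ W0 W1 : ℝ, (r.w0 : ℝ) ≤ W0 ∧ W1 ≤ (r.w1 : ℝ) ∧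
    2 * lamM r.m * (sphereVol r.m / (volM V F).real univ)
        + (W0 * Qpt (nrm (volM V F)) r.m (co b F) (co b N)
        + W1 * min (Qpts (nrm (volM V F)) r.m (co b F) (co b N)
          + (sgQ r.m : ℚ) * Qpt (nrm (volM V F)) r.m (co b F) (co b N)) 0
        + r.m / ((r.m + 2) * (r.m + 4)) * Qcs (nrm (volM V F)) (co b F) (co b N)
        + r.m * (r.m + 1) * EM r.m 1 * Qcss (nrm (volM V F)) r.m (co b F) (co b N)
        - ∫ T in (0 : ℝ)..1, τ T)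
      ≤ 1 + r.m * rM r.m 0 * ∑ i, m1 (nrm (volM V F)) (co b N) i ^ 2 := by
  obtain ⟨h17, c0, c1, -, -, -⟩ := nrow_sound hr
  refine law_half (by omega) hW hF hmin hNs hN hinj b hmm (sgQ_nonneg r.m) (by norm_num)
    (by norm_num) (by norm_num) (by norm_num) (by norm_num) (fun T hT => ?_)
    (fun T hT => adm_lamS r.m hT) (fun T hT => ?_) c0 c1 hτi hτ
  · unfold lamS
    rw [if_pos hT.2]
    norm_num
  · have := admP17 r.m (T := T) ⟨by linarith [hT.1], hT.2⟩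
    norm_num at this ⊢
    exact this

end

end Vale.Agent.P224.R2.H627
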