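import Vale.Agent.P224.R2.H627.Cond

/-!
The scalar conditions for the weights `yM`, `eM`, `rM` of dimension m.
-/

namespace Vale.Agent.P224.R2.H627

open MeasureTheory Set Filter Function Real Vale.Agent.P224.SM2 Vale.Agent.P224.R2.H820
open scoped Topology

variable {m : ℕ} {T l : ℝ}

lemma sv_T (T : ℝ) : T ^ 2 * (2 - sv T ^ 2) = sv T ^ 2 := by
  have h : (0 : ℝ) < 1 + T ^ 2 := by positivity
  rw [sv_sq]
  unfold hv
  field_simp
  ring

section abstract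

variable {s W E ρ K y e r : ℝ}

/-- positivity of α, for arbitrary functions with the bounds -/
theorem alpha_of (hm : 0 < m) (hT : T ∈ Ioo (0 : ℝ) 1) (hb : Bds T s (2 / m) W E ρ) (hK : 0 ≤ K)
    (hy : √2 * (T * y) = K * (s * W)) (hr : √2 * (m * r) = K * ρ)
    (hl : l ≤ 17 ∨ (31 / 100 ≤ T ^ 2 ∧ l ≤ 91 / 5)) :
    0 ≤ m * (T * y + m * r) - (m + 1) * (m + 2) * T ^ 2 * r / (1 - T ^ 2) * l := by
  have hm0 : (0 : ℝ) < m := by exact_mod_cast hm
  have hk : 0 < 1 - T ^ 2 := by nlinarith [hT.1, hT.2]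
  have h2 : 0 < √(2 : ℝ) := by positivity
  have hs0 := hb.s0
  have hs1 := hb.s1
  have h3 : 0 < 1 - s ^ 2 := by nlinarith
  have hl' : l ≤ 17 ∨ (137 / 200 ≤ s ∧ l ≤ 91 / 5) := by
    rcases hl with hl | ⟨h31, hl⟩
    · exact Or.inl hl
    · refine Or.inr ⟨?_, hl⟩
      by_contra hc
      push Not at hc
      have h4 : s ^ 2 < 18769 / 40000 := by nlinarith
      nlinarith [hb.Ts]
  have h1 := hb.alpha hl'
  have eT : T ^ 2 / (1 - T ^ 2) = s ^ 2 / (2 * (1 - s ^ 2)) := by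
    rw [div_eq_div_iff hk.ne' (by positivity)]
    nlinarith [hb.Ts]
  rw [← eT] at h1
  have e1 : √2 * (m * (T * y + m * r) - (m + 1) * (m + 2) * T ^ 2 * r / (1 - T ^ 2) * l)
      = m * K * (s * W + ρ - l * ((1 + 2 / m / 2) * (1 + 2 / m)) * (T ^ 2 / (1 - T ^ 2)) * ρ) := by
    have e2 : √2 * (m * (T * y + m * r) - (m + 1) * (m + 2) * T ^ 2 * r / (1 - T ^ 2) * l)
      = m * (√2 * (T * y)) + m * (√2 * (m * r))
        - (m + 1) * (m + 2) / m * T ^ 2 / (1 - T ^ 2) * l * (√2 * (m * r)) := by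
      field_simp
    rw [e2, hy, hr]
    field_simp
  have e3 : 0 ≤ √2 * (m * (T * y + m * r) - (m + 1) * (m + 2) * T ^ 2 * r / (1 - T ^ 2) * l) := by
    rw [e1]
    positivity
  exact nonneg_of_mul_nonneg_right e3 h2

/-- the absolute value -/
theorem abs_of (hm : 0 < m) (hT : T ∈ Ioo (0 : ℝ) 1) (hb : Bds T s (2 / m) W E ρ) (hK : 0 ≤ K)
    (he : √2 * (m * e) = K * ((1 - T ^ 2) * (s * (2 - s ^ 2) * E / 2)))
    (hr : √2 * (m * r) = K * ρ) :
    m * (m + 1) * (T * |2 * r - e| - 2 * T ^ 2 * r)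
      ≤ m * (m + 1) * T * (2 * (1 - T) * r - e + 18 / 5 * T ^ 4 * e) := by
  have hm0 : (0 : ℝ) < m := by exact_mod_cast hm
  have hk : 0 < 1 - T ^ 2 := by nlinarith [hT.1, hT.2]
  have h2 : 0 < √(2 : ℝ) := by positivity
  have hs0 := hb.s0
  have hs1 := hb.s1
  have h3 : 0 < 1 - s ^ 2 := by nlinarith
  have h4 : 0 < 2 - s ^ 2 := by nlinarith
  have ek : (1 - T ^ 2) * (2 - s ^ 2) = 2 * (1 - s ^ 2) := by nlinarith [hb.Ts]
  have he' : √2 * (m * e) = K * (s * (1 - s ^ 2) * E) := by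
    rw [he]
    have : (1 - T ^ 2) * (s * (2 - s ^ 2) * E / 2) = (1 - T ^ 2) * (2 - s ^ 2) * (s * E / 2) := by
      ring
    rw [this, ek]
    ring
  have he0 : 0 ≤ e := by
    have h5 : 0 ≤ √2 * (m * e) := by
      rw [he']
      have := hb.E0
      positivity
    have h6 := nonneg_of_mul_nonneg_right h5 h2
    exact nonneg_of_mul_nonneg_right h6 hm0
  have h7 : 0 ≤ 2 * r - (1 - 9 / 5 * T ^ 4) * e := by
    have h8 : √2 * m * (2 * r - (1 - 9 / 5 * T ^ 4) * e)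
        = K * (2 * ρ - (1 - 9 / 5 * T ^ 4) * (s * (1 - s ^ 2) * E)) := by
      have : √2 * m * (2 * r - (1 - 9 / 5 * T ^ 4) * e)
        = 2 * (√2 * (m * r)) - (1 - 9 / 5 * T ^ 4) * (√2 * (m * e)) := by ring
      rw [this, hr, he']
      ring
    have h9 : 0 ≤ √2 * m * (2 * r - (1 - 9 / 5 * T ^ 4) * e) := by
      rw [h8]
      exact mul_nonneg hK hb.er
    exact nonneg_of_mul_nonneg_right h9 (by positivity)
  have h10 : |2 * r - e| ≤ 2 * r - e + 18 / 5 * T ^ 4 * e := by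
    have : 0 ≤ T ^ 4 * e := by positivity
    exact abs_le.2 ⟨by linarith, by linarith⟩
  have h11 := mul_le_mul_of_nonneg_left h10 hT.1.le
  have h12 : T * |2 * r - e| - 2 * T ^ 2 * r
      ≤ T * (2 * (1 - T) * r - e + 18 / 5 * T ^ 4 * e) := by
    linarith
  have h13 := mul_le_mul_of_nonneg_left h12 (by positivity : (0 : ℝ) ≤ m * (m + 1))
  linarith

/-- the convexity condition, for arbitrary functions with the bounds -/
theorem conv_of (hm : 0 < m) (hT : T ∈ Ioo (0 : ℝ) 1) (hb : Bds T s (2 / m) W E ρ) (hK : 0 ≤ K)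
    (hy : √2 * (T * y) = K * (s * W)) (hr : √2 * (m * r) = K * ρ)
    (he : √2 * (m * e) = K * ((1 - T ^ 2) * (s * (2 - s ^ 2) * E / 2)))
    (hl : l ≤ 17 ∨ (31 / 100 ≤ T ^ 2 ∧ l ≤ 91 / 5)) :
    (m + 3) * (m * (m + 1) * T * (2 * (1 - T) * r - e + 18 / 5 * T ^ 4 * e))
      ≤ (m + 1) * (m * (T * y + m * r) - (m + 1) * (m + 2) * T ^ 2 * r / (1 - T ^ 2) * l)
        * (1 - T) := by
  have hm0 : (0 : ℝ) < m := by exact_mod_cast hm
  have hk : 0 < 1 - T ^ 2 := by nlinarith [hT.1, hT.2]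
  have hk1 : 0 < 1 - T := by linarith [hT.2]
  have h2 : 0 < √(2 : ℝ) := by positivity
  have hs0 := hb.s0
  have hs1 := hb.s1
  have h3 : 0 < 1 - s ^ 2 := by nlinarith
  have hl' : l ≤ 17 ∨ (137 / 200 ≤ s ∧ l ≤ 91 / 5) := by
    rcases hl with hl | ⟨h31, hl⟩
    · exact Or.inl hl
    · refine Or.inr ⟨?_, hl⟩
      by_contra hc
      push Not at hc
      have h4 : s ^ 2 < 18769 / 40000 := by nlinarith
      nlinarith [hb.Ts]
  have h1 := hb.conv hl'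
  have eT : T ^ 2 / (1 - T ^ 2) = s ^ 2 / (2 * (1 - s ^ 2)) := by
    rw [div_eq_div_iff hk.ne' (by positivity)]
    nlinarith [hb.Ts]
  rw [← eT] at h1
  have e1 : √2 * ((m + 1) * (m * (T * y + m * r) - (m + 1) * (m + 2) * T ^ 2 * r / (1 - T ^ 2) * l)
        * (1 - T) - (m + 3) * (m * (m + 1) * T * (2 * (1 - T) * r - e + 18 / 5 * T ^ 4 * e)))
      = m * (m + 1) * K * (1 - T) * (s * W + ρ
        - l * ((1 + 2 / m / 2) * (1 + 2 / m)) * (T ^ 2 / (1 - T ^ 2)) * ρ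
        - (1 + 3 * (2 / m) / 2) * T
          * (2 * ρ - (1 + T) * (s * (2 - s ^ 2) * E / 2) * (1 - 18 / 5 * T ^ 4))) := by
    have e2 : √2 * ((m + 1) * (m * (T * y + m * r) - (m + 1) * (m + 2) * T ^ 2 * r / (1 - T ^ 2) * l)
        * (1 - T) - (m + 3) * (m * (m + 1) * T * (2 * (1 - T) * r - e + 18 / 5 * T ^ 4 * e)))
      = (m + 1) * (1 - T) * (m * (√2 * (T * y)) + m * (√2 * (m * r))
        - (m + 1) * (m + 2) / m * T ^ 2 / (1 - T ^ 2) * l * (√2 * (m * r)))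
        - (m + 3) * (m + 1) * T * (2 * (1 - T) * (√2 * (m * r)) - √2 * (m * e)
          + 18 / 5 * T ^ 4 * (√2 * (m * e))) := by
      field_simp
    rw [e2, hy, hr, he]
    field_simp
    ring
  have e3 : 0 ≤ √2 * ((m + 1) * (m * (T * y + m * r) - (m + 1) * (m + 2) * T ^ 2 * r / (1 - T ^ 2) * l)
        * (1 - T) - (m + 3) * (m * (m + 1) * T * (2 * (1 - T) * r - e + 18 / 5 * T ^ 4 * e))) := by
    rw [e1]
    positivity
  have e4 := nonneg_of_mul_nonneg_right e3 h2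
  linarith

end abstract

/-- the certified bounds of the weights of dimension m -/
theorem bds_M (hm : 18 ≤ m) (hT : T ∈ Ioo (0 : ℝ) 1) :
    Bds T (sv T) (2 / m) (Wf (m / 2) (cn m) T) (Ef (m / 2) (cn m) T) (√2 * Rf (m / 2) (cn m) T) := by
  have ha := nine_le hm
  have hn := nrm_cn (m := m) (by omega)
  have hc := hn.pos ha
  have hm0 : (0 : ℝ) < m := by linarith
  have et : ∀ x : ℝ, x / ((m : ℝ) / 2) = x * (2 / m) := by
    intro x
    field_simp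
  have hh : hv T = 1 - sv T ^ 2 := by rw [sv_sq]; ring
  have hs0 := sv_pos hT
  have hs1 := sv_lt_one hT
  have j1 : J1 (sv T) = (1 - sv T) ^ 2 * Q1 (sv T) := by unfold J1 Q1; ring
  have j2 : J2 (sv T) = (1 - sv T) ^ 2 * Q2 (sv T) := by unfold J2 Q2; ring
  have j4 : J4 (sv T) = (1 - sv T) ^ 2 * Q4 (sv T) := by unfold J4 Q4; ring
  have hW := Wf_ge' ha hn hT
  have hW0 := (Wf_pos (T := T) hc (by linarith : 2 ≤ (m : ℝ) / 2)).le
  have hE0 := Ef_nonneg hc.le (by linarith : 2 ≤ (m : ℝ) / 2) hT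
  have hR0 := Rf_nonneg hc.le (by linarith : 2 ≤ (m : ℝ) / 2) (T := T) ⟨hT.1.le, hT.2.le⟩
  have hEl := Ef_ge ha hn hT
  have hEu := Ef_le ha hn hT
  have hRl := Rf_ge ha hn hT
  have hRu := Rf_le ha hn hT
  unfold qL at hEl
  unfold qU at hEu
  unfold GLo at hRl
  unfold GUp at hRu
  rw [et, hh] at hW hEl hEu
  rw [et, j1, j2, j4] at hRl hRu
  have hR0' : 0 ≤ √2 * Rf (m / 2) (cn m) T := by positivity
  refine ⟨hT.1, hs0, hs1, sv_T T, by positivity, ?_, hW0, hE0, hR0', ?_, ?_, ?_, ?_, ?_⟩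
  · rw [div_le_div_iff₀ hm0 (by norm_num)]
    linarith
  · unfold wW
    linarith
  · unfold wL
    linarith
  · unfold wU
    linarith
  · unfold kL
    linarith
  · unfold kU
    linarith

lemma hy_M (T : ℝ) : √2 * (T * yM m T) = (1 - T ^ 2) ^ ((m : ℝ) / 2 - 1)
    * (sv T * Wf (m / 2) (cn m) T) := by
  rw [yM_eq]
  unfold yh sv
  ring

lemma hr_M (T : ℝ) : √2 * (m * rM m T) = (1 - T ^ 2) ^ ((m : ℝ) / 2 - 1)
    * (√2 * Rf (m / 2) (cn m) T) := by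
  rw [rM_eq]
  unfold rh
  ring

lemma he_M (hT : T ∈ Ioo (0 : ℝ) 1) : √2 * (m * eM m T) = (1 - T ^ 2) ^ ((m : ℝ) / 2 - 1)
    * ((1 - T ^ 2) * (sv T * (2 - sv T ^ 2) * Ef (m / 2) (cn m) T / 2)) := by
  have hk : 0 < 1 - T ^ 2 := by nlinarith [hT.1, hT.2]
  rw [eM_eq hT]
  have e1 : (1 - T ^ 2) ^ ((m : ℝ) / 2) = (1 - T ^ 2) ^ ((m : ℝ) / 2 - 1) * (1 - T ^ 2) := by
    rw [← rpow_add_one hk.ne']
    ring_nf
  have e2 : 2 - sv T ^ 2 = 2 / (1 + T ^ 2) := by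
    rw [sv_sq, ← one_add_hv]
    ring
  rw [e1, e2]
  unfold eh sv
  field_simp

/-- positivity of α for the weights of dimension m -/
theorem alpha_nonneg (hm : 18 ≤ m) (hT : T ∈ Ioo (0 : ℝ) 1)
    (hl : l ≤ 17 ∨ (31 / 100 ≤ T ^ 2 ∧ l ≤ 91 / 5)) :
    0 ≤ m * (T * yM m T + m * rM m T) - (m + 1) * (m + 2) * T ^ 2 * rM m T / (1 - T ^ 2) * l := by
  have hk : 0 < 1 - T ^ 2 := by nlinarith [hT.1, hT.2]
  exact alpha_of (by omega) hT (bds_M hm hT) (rpow_pos_of_pos hk _).le (hy_M T) (hr_M T) hl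

/-- the bound of the absolute value for the weights of dimension m -/
theorem abs_le_beta (hm : 18 ≤ m) (hT : T ∈ Ioo (0 : ℝ) 1) :
    m * (m + 1) * (T * |2 * rM m T - eM m T| - 2 * T ^ 2 * rM m T)
      ≤ m * (m + 1) * T * (2 * (1 - T) * rM m T - eM m T + 18 / 5 * T ^ 4 * eM m T) := by
  have hk : 0 < 1 - T ^ 2 := by nlinarith [hT.1, hT.2]
  exact abs_of (by omega) hT (bds_M hm hT) (rpow_pos_of_pos hk _).le (he_M hT) (hr_M T)

/-- the convexity condition for the weights of dimension m -/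
theorem conv_cond (hm : 18 ≤ m) (hT : T ∈ Ioo (0 : ℝ) 1)
    (hl : l ≤ 17 ∨ (31 / 100 ≤ T ^ 2 ∧ l ≤ 91 / 5)) :
    (m + 3) * (m * (m + 1) * T * (2 * (1 - T) * rM m T - eM m T + 18 / 5 * T ^ 4 * eM m T))
      ≤ (m + 1) * (m * (T * yM m T + m * rM m T)
        - (m + 1) * (m + 2) * T ^ 2 * rM m T / (1 - T ^ 2) * l) * (1 - T) := by
  have hk : 0 < 1 - T ^ 2 := by nlinarith [hT.1, hT.2]
  exact conv_of (by omega) hT (bds_M hm hT) (rpow_pos_of_pos hk _).le (hy_M T) (hr_M T) (he_M hT) hl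

end Vale.Agent.P224.R2.H627
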