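import Vale.Agent.P224.R2.H627.Sharp

/-!
Sharp two sided bounds of the normalised weight R, for all `a ≥ 17 / 2`.
-/

namespace Vale.Agent.P224.R2.H627

open MeasureTheory Set Filter Function Real Vale.Agent.P224.SM2 Vale.Agent.P224.R2.H820
open scoped Topology

variable {a c : ℝ} {T : ℝ}

/-- `int_s^1 (1 - x ^ 2) ^ 3` -/
noncomputable def J3 (s : ℝ) : ℝ :=
  16 / 35 - 1 * s + 1 * s ^ 3 - 3 / 5 * s ^ 5 + 1 / 7 * s ^ 7

lemma hasDerivAt_J3 (s : ℝ) : HasDerivAt J3 (-(1 - s ^ 2) ^ 3) s := by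
  have e : J3 = evR [16 / 35, -(1), 0, 1, 0, -(3 / 5), 0, 1 / 7] := by
    funext x
    simp only [J3, evR]
    ring
  rw [e]
  refine (hasDerivAt_evR _ s).congr_deriv ?_
  simp only [evR, evD]
  ring

lemma J3_one : J3 1 = 0 := by unfold J3; norm_num

/-- `int_s^1 (1 - x ^ 2) ^ 5` -/
noncomputable def J5 (s : ℝ) : ℝ :=
  256 / 693 - 1 * s + 5 / 3 * s ^ 3 - 2 * s ^ 5 + 10 / 7 * s ^ 7 - 5 / 9 * s ^ 9 + 1 / 11 *
      s ^ 11

lemma hasDerivAt_J5 (s : ℝ) : HasDerivAt J5 (-(1 - s ^ 2) ^ 5) s := by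
  have e : J5 = evR [256 / 693, -(1), 0, 5 / 3, 0, -(2), 0, 10 / 7, 0, -(5 / 9), 0, 1 / 11] := by
    funext x
    simp only [J5, evR]
    ring
  rw [e]
  refine (hasDerivAt_evR _ s).congr_deriv ?_
  simp only [evR, evD]
  ring

lemma J5_one : J5 1 = 0 := by unfold J5; norm_num

/-- `int_s^1 (1 - x ^ 2) ^ 6` -/
noncomputable def J6 (s : ℝ) : ℝ :=
  1024 / 3003 - 1 * s + 2 * s ^ 3 - 3 * s ^ 5 + 20 / 7 * s ^ 7 - 5 / 3 * s ^ 9 + 6 / 11 * s
      ^ 11 - 1 / 13 * s ^ 13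

lemma hasDerivAt_J6 (s : ℝ) : HasDerivAt J6 (-(1 - s ^ 2) ^ 6) s := by
  have e : J6 = evR [1024 / 3003, -(1), 0, 2, 0, -(3), 0, 20 / 7, 0, -(5 / 3), 0, 6 / 11, 0, -(1 / 13)] := by
    funext x
    simp only [J6, evR]
    ring
  rw [e]
  refine (hasDerivAt_evR _ s).congr_deriv ?_
  simp only [evR, evD]
  ring

lemma J6_one : J6 1 = 0 := by unfold J6; norm_num

/-- upper bound of √2 R -/
noncomputable def GSp (t s : ℝ) : ℝ :=
  (1 - 7 / 8 * t + 61 / 20 * t ^ 2) * J1 s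
    + (-(2 * t) - 1639 / 100 * t ^ 2) * J2 s
    + (35 / 8 * t + 6331 / 100 * t ^ 2) * J3 s
    + (-(6089 / 50 * t ^ 2)) * J4 s
    + (7417 / 100 * t ^ 2) * J5 s

/-- lower bound of √2 R -/
noncomputable def GSm (t s : ℝ) : ℝ :=
  (1 - 7 / 8 * t - 73 / 20 * t ^ 2) * J1 s
    + (-(2 * t) + 2867 / 50 * t ^ 2) * J2 s
    + (35 / 8 * t - 25269 / 100 * t ^ 2) * J3 s
    + (9783 / 20 * t ^ 2) * J4 s
    + (-(23651 / 50 * t ^ 2)) * J5 s
    + (9243 / 50 * t ^ 2) * J6 s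

lemma hasDerivAt_GSp (t s : ℝ) : HasDerivAt (GSp t) (-evR (EpL t) (1 - s ^ 2)) s := by
  have h1 := ((((((hasDerivAt_J1 s).const_mul (1 - 7 / 8 * t + 61 / 20 * t ^ 2)).fun_add
    ((hasDerivAt_J2 s).const_mul (-(2 * t) - 1639 / 100 * t ^ 2))).fun_add
    ((hasDerivAt_J3 s).const_mul (35 / 8 * t + 6331 / 100 * t ^ 2))).fun_add
    ((hasDerivAt_J4 s).const_mul (-(6089 / 50 * t ^ 2)))).fun_add
    ((hasDerivAt_J5 s).const_mul (7417 / 100 * t ^ 2)))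
  refine h1.congr_deriv ?_
  simp only [EpL, evR]
  ring

lemma GSp_one (t : ℝ) : GSp t 1 = 0 := by
  unfold GSp
  rw [J1_one, J2_one, J3_one, J4_one, J5_one]
  ring

lemma continuous_GSp (t : ℝ) : Continuous (GSp t) :=
  continuous_iff_continuousAt.2 fun s => (hasDerivAt_GSp t s).continuousAt

lemma hasDerivAt_GSm (t s : ℝ) : HasDerivAt (GSm t) (-evR (EmL t) (1 - s ^ 2)) s := by
  have h1 := (((((((hasDerivAt_J1 s).const_mul (1 - 7 / 8 * t - 73 / 20 * t ^ 2)).fun_add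
    ((hasDerivAt_J2 s).const_mul (-(2 * t) + 2867 / 50 * t ^ 2))).fun_add
    ((hasDerivAt_J3 s).const_mul (35 / 8 * t - 25269 / 100 * t ^ 2))).fun_add
    ((hasDerivAt_J4 s).const_mul (9783 / 20 * t ^ 2))).fun_add
    ((hasDerivAt_J5 s).const_mul (-(23651 / 50 * t ^ 2)))).fun_add
    ((hasDerivAt_J6 s).const_mul (9243 / 50 * t ^ 2)))
  refine h1.congr_deriv ?_
  simp only [EmL, evR]
  ring

lemma GSm_one (t : ℝ) : GSm t 1 = 0 := by
  unfold GSm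
  rw [J1_one, J2_one, J3_one, J4_one, J5_one, J6_one]
  ring

lemma continuous_GSm (t : ℝ) : Continuous (GSm t) :=
  continuous_iff_continuousAt.2 fun s => (hasDerivAt_GSm t s).continuousAt

lemma GSp_zero (t : ℝ) : GSp t 0 = 2 / 3 + 7 / 20 * t + 25559 / 173250 * t ^ 2 := by
  unfold GSp J1 J2 J3 J4 J5
  ring

lemma GSm_zero (t : ℝ) : GSm t 0 = 2 / 3 + 7 / 20 * t - 52567 / 173250 * t ^ 2 := by
  unfold GSm J1 J2 J3 J4 J5 J6
  ring

theorem sh_Rp (ha : 17 / 2 ≤ a) (hn : Nrm a c) (hT : T ∈ Ioo (0 : ℝ) 1) :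
    √2 * Rf a c T ≤ GSp (1 / a) (sv T) := by
  have hc := hn.pos' ha
  have h2 : 0 < √(2 : ℝ) := by positivity
  have h := Rf_le_of (a := a) (c := c) (G := fun s => GSp (1 / a) s / √2)
    (G' := fun s => -evR (EpL (1 / a)) (1 - s ^ 2) / √2)
    hc.le (by linarith) (fun s _ => (hasDerivAt_GSp _ s).div_const _)
    ((hasDerivAt_GSp _ 1).continuousAt.div_const _) (by rw [GSp_one]; simp) (fun T hT => ?_) hT
  · rw [le_div_iff₀ h2] at h
    linarith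
  · have h1 := sh_Ep ha hn T hT
    rw [sv_sq, mul_div_cancel₀ _ h2.ne', sub_sub_cancel]
    linarith

theorem sh_Rm (ha : 17 / 2 ≤ a) (hn : Nrm a c) (hT : T ∈ Ioo (0 : ℝ) 1) :
    GSm (1 / a) (sv T) ≤ √2 * Rf a c T := by
  have hc := hn.pos' ha
  have h2 : 0 < √(2 : ℝ) := by positivity
  have h := Rf_ge_of (a := a) (c := c) (G := fun s => GSm (1 / a) s / √2)
    (G' := fun s => -evR (EmL (1 / a)) (1 - s ^ 2) / √2)
    hc.le (by linarith) (fun s _ => (hasDerivAt_GSm _ s).div_const _)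
    ((hasDerivAt_GSm _ 1).continuousAt.div_const _) (by rw [GSm_one]; simp) (fun T hT => ?_) hT
  · rw [div_le_iff₀ h2] at h
    linarith
  · have h1 := sh_Em ha hn T hT
    rw [sv_sq, mul_div_cancel₀ _ h2.ne', sub_sub_cancel]
    linarith

theorem sh_Rp0 (ha : 17 / 2 ≤ a) (hn : Nrm a c) : √2 * Rf a c 0 ≤ GSp (1 / a) 0 := by
  have h1 := (tendsto_Rf_zero (hn.pos' ha).le (by linarith : 2 ≤ a)).const_mul √2
  have h2 : Tendsto (fun T => GSp (1 / a) (sv T)) (𝓝[>] 0) (𝓝 (GSp (1 / a) (sv 0))) :=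
    (((continuous_GSp (1 / a)).comp continuous_sv).tendsto 0).mono_left nhdsWithin_le_nhds
  rw [sv_zero] at h2
  refine le_of_tendsto_of_tendsto h1 h2 ?_
  filter_upwards [Ioo_mem_nhdsGT (zero_lt_one (α := ℝ))] with x hx
  exact sh_Rp ha hn hx

theorem sh_Rm0 (ha : 17 / 2 ≤ a) (hn : Nrm a c) : GSm (1 / a) 0 ≤ √2 * Rf a c 0 := by
  have h1 := (tendsto_Rf_zero (hn.pos' ha).le (by linarith : 2 ≤ a)).const_mul √2
  have h2 : Tendsto (fun T => GSm (1 / a) (sv T)) (𝓝[>] 0) (𝓝 (GSm (1 / a) (sv 0))) :=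
    (((continuous_GSm (1 / a)).comp continuous_sv).tendsto 0).mono_left nhdsWithin_le_nhds
  rw [sv_zero] at h2
  refine le_of_tendsto_of_tendsto h2 h1 ?_
  filter_upwards [Ioo_mem_nhdsGT (zero_lt_one (α := ℝ))] with x hx
  exact sh_Rm ha hn hx

section dim

variable {m : ℕ}

lemma half17_le (hm : 17 ≤ m) : (17 / 2 : ℝ) ≤ (m : ℝ) / 2 := by
  have : (17 : ℝ) ≤ m := by exact_mod_cast hm
  linarith

lemma one_div_half (m : ℕ) : 1 / ((m : ℝ) / 2) = 2 / m := by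
  rw [one_div_div]

/-- `m r (0) ≤ (2 / 3 + .7 / m + .5902 / m ^ 2) / √2` -/
theorem rM_zero_le2 (hm : 17 ≤ m) :
    √2 * (m * rM m 0) ≤ 2 / 3 + 7 / 10 / m + 51118 / 86625 / m ^ 2 := by
  have h := sh_Rp0 (half17_le hm) (nrm_cn (m := m) (by omega))
  have e := rM_eq (m := m) 0
  rw [show (1 : ℝ) - 0 ^ 2 = 1 by norm_num, one_rpow, one_mul] at e
  rw [one_div_half, GSp_zero] at h
  rw [e]
  refine h.trans (le_of_eq ?_)
  have : (m : ℝ) ≠ 0 := by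
    have : (17 : ℝ) ≤ m := by exact_mod_cast hm
    linarith
  field_simp
  ring

/-- `(2 / 3 + .7 / m - 1.2137 / m ^ 2) / √2 ≤ m r (0)` -/
theorem rM_zero_ge2 (hm : 17 ≤ m) :
    2 / 3 + 7 / 10 / m - 105134 / 86625 / m ^ 2 ≤ √2 * (m * rM m 0) := by
  have h := sh_Rm0 (half17_le hm) (nrm_cn (m := m) (by omega))
  have e := rM_eq (m := m) 0
  rw [show (1 : ℝ) - 0 ^ 2 = 1 by norm_num, one_rpow, one_mul] at e
  rw [one_div_half, GSm_zero] at h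
  rw [e]
  refine le_trans (le_of_eq ?_) h
  have : (m : ℝ) ≠ 0 := by
    have : (17 : ℝ) ≤ m := by exact_mod_cast hm
    linarith
  field_simp
  ring

end dim

end Vale.Agent.P224.R2.H627
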