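import Vale.Agent.P224.R2.H627.DCond
import Vale.Agent.P224.R2.H627.ShR
import Vale.Agent.P224.R2.H627.CondM

/-!
The sharper scalar conditions for the weights of dimension `m ≥ 17`, and for all weights which are
close to them.
-/

namespace Vale.Agent.P224.R2.H627

open MeasureTheory Set Filter Function Real Vale.Agent.P224.SM2 Vale.Agent.P224.R2.H820
open scoped Topology

variable {m : ℕ} {T l : ℝ}

lemma Ep_aux1 {h : ℝ} (h0 : 0 ≤ h) (h1 : h ≤ 1) :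
    0 ≤ 335 / 1224 + 2 / 17 * h - 35 / 136 * h ^ 2 := by
  nlinarith [mul_nonneg h0 (sub_nonneg.2 h1)]

lemma Ep_aux2 {h : ℝ} (h0 : 0 ≤ h) (h1 : h ≤ 1) :
    0 ≤ 14719 / 52020 + 3339 / 7225 * h - 40199 / 28900 * h ^ 2 + 12178 / 7225 * h ^ 3
      - 7417 / 7225 * h ^ 4 := by
  have h := chk_sound 9 [183987500, 30051000, -9044775, 1096020, -66753]
    (by decide +kernel) (10 * h - 0) (by linarith) (by norm_num; linarith)
  simp only [ev] at h
  push_cast at h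
  nlinarith

lemma evR_Ep_le {t h : ℝ} (ht : 0 ≤ t) (ht1 : t ≤ 2 / 17) (h0 : 0 ≤ h) (h1 : h ≤ 1) :
    evR (EpL t) h ≤ 11 / 9 * h := by
  simp only [EpL, evR]
  have k : 0 ≤ 2 / 9 + t * (7 / 8 + 2 * h - 35 / 8 * h ^ 2)
      + t ^ 2 * (-(61 / 20 - 1639 / 100 * h + 6331 / 100 * h ^ 2 - 6089 / 50 * h ^ 3
        + 7417 / 100 * h ^ 4)) := by
    have k1 := Ep_aux1 h0 h1
    have k2 := Ep_aux2 h0 h1
    refine bern2 (c := 17 / 2) (by positivity) (by linarith) (by norm_num) (by norm_num) ?_ ?_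
    · norm_num
      linarith
    · norm_num
      linarith
  have := mul_nonneg h0 k
  linarith

lemma evR_Wp_le {t h : ℝ} (ht : 0 ≤ t) (ht1 : t ≤ 2 / 17) (h0 : 0 ≤ h) (h1 : h ≤ 1) :
    evR (WpL t) h ≤ 10 / 9 := by
  simp only [WpL, evR]
  have h2 : h ^ 2 ≤ 1 := pow_le_one₀ h0 h1
  have h4 : h ^ 4 ≤ 1 := pow_le_one₀ h0 h1
  have h6 : h ^ 6 ≤ 1 := pow_le_one₀ h0 h1
  have t2 : 0 ≤ t ^ 2 := sq_nonneg t
  have k0 : 0 ≤ 3 / 8 * t - 69 / 200 * t ^ 2 := by nlinarith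
  have k1 := mul_le_mul_of_nonneg_left h2 k0
  have k2 := mul_le_mul_of_nonneg_left h4 (by positivity : 0 ≤ 131 / 200 * t ^ 2)
  have k3 := mul_le_mul_of_nonneg_left h6 (by positivity : 0 ≤ 11 / 100 * t ^ 2)
  have k4 : t ^ 2 ≤ 4 / 289 := by nlinarith
  have k5 : t ^ 3 ≤ 8 / 4913 := by
    have : t ^ 3 = t * t ^ 2 := by ring
    rw [this]
    nlinarith
  nlinarith

lemma sh_R_le {a c : ℝ} (ha : 17 / 2 ≤ a) (hn : Nrm a c) (hT : T ∈ Ioo (0 : ℝ) 1) :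
    √2 * Rf a c T ≤ 11 / 9 * J1 (sv T) := by
  have hc := hn.pos' ha
  have h2 : 0 < √(2 : ℝ) := by positivity
  have ht := inv_bds ha
  have h := Rf_le_of (a := a) (c := c) (G := fun s => 11 / 9 * J1 s / √2)
    (G' := fun s => 11 / 9 * (-(1 - s ^ 2)) / √2)
    hc.le (by linarith) (fun s _ => ((hasDerivAt_J1 s).const_mul _).div_const _)
    (((hasDerivAt_J1 1).const_mul (11 / 9)).continuousAt.div_const _) (by rw [J1_one]; simp)
    (fun T hT => ?_) hT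
  · rw [le_div_iff₀ h2] at h
    linarith
  · have h1 := sh_Ep ha hn T hT
    have h3 := evR_Ep_le ht.1.le ht.2 (hv_pos hT).le (hv_lt_one hT).le
    rw [sv_sq, mul_div_cancel₀ _ h2.ne', sub_sub_cancel]
    linarith

lemma vW_eq (s t : ℝ) : vW s t = evR (WmL t) (1 - s ^ 2) - 1 / 2 * t ^ 2 := by
  simp only [vW, WmL, evR]
  ring

lemma vL_eq (s t : ℝ) : vL s t = evR (EmL t) (1 - s ^ 2) - 11 / 20 * t ^ 2 * (1 - s ^ 2) := by
  simp only [vL, EmL, evR]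
  ring

lemma vU_eq (s t : ℝ) : vU s t = evR (EpL t) (1 - s ^ 2) + 11 / 20 * t ^ 2 * (1 - s ^ 2) := by
  simp only [vU, EpL, evR]
  ring

lemma j1_eq (s : ℝ) : J1 s = (1 - s) ^ 2 * Q1 s := by unfold J1 Q1; ring
lemma j2_eq (s : ℝ) : J2 s = (1 - s) ^ 2 * Q2 s := by unfold J2 Q2; ring
lemma j3_eq (s : ℝ) : J3 s = (1 - s) ^ 2 * Q3 s := by unfold J3 Q3; ring
lemma j4_eq (s : ℝ) : J4 s = (1 - s) ^ 2 * Q4 s := by unfold J4 Q4; ring
lemma j5_eq (s : ℝ) : J5 s = (1 - s) ^ 2 * Q5 s := by unfold J5 Q5; ring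
lemma j6_eq (s : ℝ) : J6 s = (1 - s) ^ 2 * Q6 s := by unfold J6 Q6; ring

lemma uL_eq (s t : ℝ) : (1 - s) ^ 2 * uL s t = GSm t s - 11 / 20 * t ^ 2 * J1 s := by
  unfold GSm uL
  rw [j1_eq, j2_eq, j3_eq, j4_eq, j5_eq, j6_eq]
  ring

lemma uU_eq (s t : ℝ) : (1 - s) ^ 2 * uU s t = GSp t s + 11 / 20 * t ^ 2 * J1 s := by
  unfold GSp uU
  rw [j1_eq, j2_eq, j3_eq, j4_eq, j5_eq]
  ring

lemma close_lo {d k F X lo : ℝ} (h1 : (1 - d) * F ≤ X) (h2 : d * F ≤ k) (h3 : lo ≤ F) :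
    lo - k ≤ X := by linarith

lemma close_up {d k F X up : ℝ} (h1 : X ≤ (1 + d) * F) (h2 : d * F ≤ k) (h3 : F ≤ up) :
    X ≤ up + k := by linarith

/-- functions which are close to the weights of dimension m satisfy the bounds -/
theorem bds2_close (hm : 17 ≤ m) (hT : T ∈ Ioo (0 : ℝ) 1) {W E ρ : ℝ}
    (hW : (1 - 9 / 20 * (2 / m) ^ 2) * Wf (m / 2) (cn m) T ≤ W)
    (hE1 : (1 - 9 / 20 * (2 / m) ^ 2) * Ef (m / 2) (cn m) T ≤ E)
    (hE2 : E ≤ (1 + 9 / 20 * (2 / m) ^ 2) * Ef (m / 2) (cn m) T)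
    (hR1 : (1 - 9 / 20 * (2 / m) ^ 2) * (√2 * Rf (m / 2) (cn m) T) ≤ ρ)
    (hR2 : ρ ≤ (1 + 9 / 20 * (2 / m) ^ 2) * (√2 * Rf (m / 2) (cn m) T)) :
    Bds2 T (sv T) (2 / m) W E ρ := by
  have ha := half17_le hm
  have hn := nrm_cn (m := m) (by omega)
  have hc := hn.pos' ha
  have ht := inv_bds ha
  have eh : hv T = 1 - sv T ^ 2 := by rw [sv_sq]; ring
  have hs0 := sv_pos hT
  have hs1 := sv_lt_one hT
  have hW0 := (Wf_pos (T := T) hc (by linarith : 2 ≤ (m : ℝ) / 2)).le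
  have hE0 := Ef_nonneg hc.le (by linarith : 2 ≤ (m : ℝ) / 2) hT
  have hR0 := Rf_nonneg hc.le (by linarith : 2 ≤ (m : ℝ) / 2) (T := T) ⟨hT.1.le, hT.2.le⟩
  have hR0' : 0 ≤ √2 * Rf (m / 2) (cn m) T := by positivity
  have hWl := sh_Wm ha hn T hT
  have hWu := (sh_Wp ha hn T ⟨hT.1.le, hT.2⟩).trans
    (evR_Wp_le ht.1.le ht.2 (hv_pos hT).le (hv_lt_one hT).le)
  have hEl := sh_Em ha hn T hT
  have hEu := sh_Ep ha hn T hT
  have hEx := hEu.trans (evR_Ep_le ht.1.le ht.2 (hv_pos hT).le (hv_lt_one hT).le)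
  have hRl := sh_Rm ha hn hT
  have hRu := sh_Rp ha hn hT
  have hRx := sh_R_le ha hn hT
  rw [one_div_half] at hWl hEl hEu hRl hRu ht
  rw [eh] at hWl hEl hEu hEx
  have t2 : 0 ≤ 9 / 20 * (2 / (m : ℝ)) ^ 2 := by positivity
  have d0 : 0 ≤ 1 - 9 / 20 * (2 / (m : ℝ)) ^ 2 := by nlinarith [ht.1, ht.2]
  have kW := mul_le_mul_of_nonneg_left hWu t2
  have kE := mul_le_mul_of_nonneg_left hEx t2
  have kR := mul_le_mul_of_nonneg_left hRx t2
  refine ⟨hT.1, hs0, hs1, sv_T T, ht.1.le, ht.2, (mul_nonneg d0 hW0).trans hW,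
    (mul_nonneg d0 hE0).trans hE1, (mul_nonneg d0 hR0').trans hR1, ?_, ?_, ?_, ?_, ?_⟩
  · rw [vW_eq]
    exact close_lo hW (kW.trans_eq (by ring)) hWl
  · rw [vL_eq]
    exact close_lo hE1 (kE.trans_eq (by ring)) hEl
  · rw [vU_eq]
    exact close_up hE2 (kE.trans_eq (by ring)) hEu
  · rw [uL_eq]
    exact close_lo hR1 (kR.trans_eq (by ring)) hRl
  · rw [uU_eq]
    exact close_up hR2 (kR.trans_eq (by ring)) hRu

/-- the bounds of the weights of dimension m -/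
theorem bds2_M (hm : 17 ≤ m) (hT : T ∈ Ioo (0 : ℝ) 1) :
    Bds2 T (sv T) (2 / m) (Wf (m / 2) (cn m) T) (Ef (m / 2) (cn m) T)
      (√2 * Rf (m / 2) (cn m) T) := by
  have ha := half17_le hm
  have hn := nrm_cn (m := m) (by omega)
  have hc := hn.pos' ha
  have hW0 := (Wf_pos (T := T) hc (by linarith : 2 ≤ (m : ℝ) / 2)).le
  have hE0 := Ef_nonneg hc.le (by linarith : 2 ≤ (m : ℝ) / 2) hT
  have hR0 := Rf_nonneg hc.le (by linarith : 2 ≤ (m : ℝ) / 2) (T := T) ⟨hT.1.le, hT.2.le⟩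
  have hR0' : 0 ≤ √2 * Rf (m / 2) (cn m) T := by positivity
  have h0 : 0 ≤ 9 / 20 * (2 / (m : ℝ)) ^ 2 := by positivity
  refine bds2_close hm hT ?_ ?_ ?_ ?_ ?_ <;> nlinarith [mul_nonneg h0 hW0, mul_nonneg h0 hE0,
    mul_nonneg h0 hR0']

section abstract

variable {s W E ρ K y e r : ℝ}

/-- positivity of α and convexity, for arbitrary functions with the bounds -/
theorem both_of2 (hm : 0 < m) (hT : T ∈ Ioo (0 : ℝ) 1) (hb : Bds2 T s (2 / m) W E ρ) (hK : 0 ≤ K)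
    (hy : √2 * (T * y) = K * (s * W)) (hr : √2 * (m * r) = K * ρ)
    (he : √2 * (m * e) = K * ((1 - T ^ 2) * (s * (2 - s ^ 2) * E / 2)))
    (hl : Adm (2 / m) (1 - T ^ 2) l) :
    0 ≤ m * (T * y + m * r) - (m + 1) * (m + 2) * T ^ 2 * r / (1 - T ^ 2) * l ∧
    (m + 3) * (m * (m + 1) * T * (2 * (1 - T) * r - e + 31 / 10 * T ^ 4 * e))
      ≤ (m + 1) * (m * (T * y + m * r) - (m + 1) * (m + 2) * T ^ 2 * r / (1 - T ^ 2) * l)
        * (1 - T) := by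
  have hm0 : (0 : ℝ) < m := by exact_mod_cast hm
  have hk : 0 < 1 - T ^ 2 := by nlinarith [hT.1, hT.2]
  have hk1 : 0 < 1 - T := by linarith [hT.2]
  have h2 : 0 < √(2 : ℝ) := by positivity
  have hs0 := hb.s0
  have hs1 := hb.s1
  have h3 : 0 < 1 - s ^ 2 := by nlinarith
  have h1 := hb.both hl
  have eT : T ^ 2 / (1 - T ^ 2) = s ^ 2 / (2 * (1 - s ^ 2)) := by
    rw [div_eq_div_iff hk.ne' (by positivity)]
    nlinarith [hb.Ts]
  rw [← eT] at h1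
  obtain ⟨h1a, h1b⟩ := h1
  refine ⟨?_, ?_⟩
  · have e1 : √2 * (m * (T * y + m * r) - (m + 1) * (m + 2) * T ^ 2 * r / (1 - T ^ 2) * l)
        = m * K * (s * W + ρ - l * ((1 + 2 / m / 2) * (1 + 2 / m)) * (T ^ 2 / (1 - T ^ 2)) * ρ) := by
      have e2 : √2 * (m * (T * y + m * r) - (m + 1) * (m + 2) * T ^ 2 * r / (1 - T ^ 2) * l)
        = m * (√2 * (T * y)) + m * (√2 * (m * r))
          - (m + 1) * (m + 2) / m * T ^ 2 / (1 - T ^ 2) * l * (√2 * (m * r)) := by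
        field_simp
      rw [e2, hy, hr]
      field_simp
    have e3 : 0 ≤ √2 * (m * (T * y + m * r)
        - (m + 1) * (m + 2) * T ^ 2 * r / (1 - T ^ 2) * l) := by
      rw [e1]
      positivity
    exact nonneg_of_mul_nonneg_right e3 h2
  · have e1 : √2 * ((m + 1) * (m * (T * y + m * r)
          - (m + 1) * (m + 2) * T ^ 2 * r / (1 - T ^ 2) * l)
          * (1 - T) - (m + 3) * (m * (m + 1) * T * (2 * (1 - T) * r - e + 31 / 10 * T ^ 4 * e)))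
        = m * (m + 1) * K * (1 - T) * (s * W + ρ
          - l * ((1 + 2 / m / 2) * (1 + 2 / m)) * (T ^ 2 / (1 - T ^ 2)) * ρ
          - (1 + 3 * (2 / m) / 2) * T
            * (2 * ρ - (1 + T) * (s * (2 - s ^ 2) * E / 2) * (1 - 31 / 10 * T ^ 4))) := by
      have e2 : √2 * ((m + 1) * (m * (T * y + m * r)
          - (m + 1) * (m + 2) * T ^ 2 * r / (1 - T ^ 2) * l)
          * (1 - T) - (m + 3) * (m * (m + 1) * T * (2 * (1 - T) * r - e + 31 / 10 * T ^ 4 * e)))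
        = (m + 1) * (1 - T) * (m * (√2 * (T * y)) + m * (√2 * (m * r))
          - (m + 1) * (m + 2) / m * T ^ 2 / (1 - T ^ 2) * l * (√2 * (m * r)))
          - (m + 3) * (m + 1) * T * (2 * (1 - T) * (√2 * (m * r)) - √2 * (m * e)
            + 31 / 10 * T ^ 4 * (√2 * (m * e))) := by
        field_simp
      rw [e2, hy, hr, he]
      field_simp
      ring
    have e3 : 0 ≤ √2 * ((m + 1) * (m * (T * y + m * r)
          - (m + 1) * (m + 2) * T ^ 2 * r / (1 - T ^ 2) * l)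
          * (1 - T) - (m + 3) * (m * (m + 1) * T * (2 * (1 - T) * r - e + 31 / 10 * T ^ 4 * e))) := by
      rw [e1]
      positivity
    have e4 := nonneg_of_mul_nonneg_right e3 h2
    linarith

/-- the absolute value -/
theorem abs_of2 (hm : 0 < m) (hT : T ∈ Ioo (0 : ℝ) 1) (hb : Bds2 T s (2 / m) W E ρ) (hK : 0 ≤ K)
    (he : √2 * (m * e) = K * ((1 - T ^ 2) * (s * (2 - s ^ 2) * E / 2)))
    (hr : √2 * (m * r) = K * ρ) :
    m * (m + 1) * (T * |2 * r - e| - 2 * T ^ 2 * r)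
      ≤ m * (m + 1) * T * (2 * (1 - T) * r - e + 31 / 10 * T ^ 4 * e) := by
  have hm0 : (0 : ℝ) < m := by exact_mod_cast hm
  have hk : 0 < 1 - T ^ 2 := by nlinarith [hT.1, hT.2]
  have h2 : 0 < √(2 : ℝ) := by positivity
  have hs0 := hb.s0
  have hs1 := hb.s1
  have h3 : 0 < 1 - s ^ 2 := by nlinarith
  have h4 : 0 < 2 - s ^ 2 := by nlinarith
  have ek : (1 - T ^ 2) * (2 - s ^ 2) = 2 * (1 - s ^ 2) := by nlinarith [hb.Ts]
  have he' : √2 * (m * e) = K * (s * (1 - s ^ 2) * E) := by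
    rw [he]
    have : (1 - T ^ 2) * (s * (2 - s ^ 2) * E / 2) = (1 - T ^ 2) * (2 - s ^ 2) * (s * E / 2) := by
      ring
    rw [this, ek]
    ring
  have he0 : 0 ≤ e := by
    have h5 : 0 ≤ √2 * (m * e) := by
      rw [he']
      have := hb.E0
      positivity
    have h6 := nonneg_of_mul_nonneg_right h5 h2
    exact nonneg_of_mul_nonneg_right h6 hm0
  have h7 : 0 ≤ 2 * r - (1 - 31 / 20 * T ^ 4) * e := by
    have h8 : √2 * m * (2 * r - (1 - 31 / 20 * T ^ 4) * e)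
        = K * (2 * ρ - (1 - 31 / 20 * T ^ 4) * (s * (1 - s ^ 2) * E)) := by
      have : √2 * m * (2 * r - (1 - 31 / 20 * T ^ 4) * e)
        = 2 * (√2 * (m * r)) - (1 - 31 / 20 * T ^ 4) * (√2 * (m * e)) := by ring
      rw [this, hr, he']
      ring
    have h9 : 0 ≤ √2 * m * (2 * r - (1 - 31 / 20 * T ^ 4) * e) := by
      rw [h8]
      exact mul_nonneg hK hb.er
    exact nonneg_of_mul_nonneg_right h9 (by positivity)
  have h10 : |2 * r - e| ≤ 2 * r - e + 31 / 10 * T ^ 4 * e := by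
    have : 0 ≤ T ^ 4 * e := by positivity
    exact abs_le.2 ⟨by linarith, by linarith⟩
  have h11 := mul_le_mul_of_nonneg_left h10 hT.1.le
  have h12 : T * |2 * r - e| - 2 * T ^ 2 * r
      ≤ T * (2 * (1 - T) * r - e + 31 / 10 * T ^ 4 * e) := by
    linarith
  have h13 := mul_le_mul_of_nonneg_left h12 (by positivity : (0 : ℝ) ≤ m * (m + 1))
  linarith

end abstract

/-- positivity of α for the weights of dimension m -/
theorem alpha_nonneg2 (hm : 17 ≤ m) (hT : T ∈ Ioo (0 : ℝ) 1) (hl : Adm (2 / m) (1 - T ^ 2) l) :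
    0 ≤ m * (T * yM m T + m * rM m T) - (m + 1) * (m + 2) * T ^ 2 * rM m T / (1 - T ^ 2) * l := by
  have hk : 0 < 1 - T ^ 2 := by nlinarith [hT.1, hT.2]
  exact (both_of2 (by omega) hT (bds2_M hm hT) (rpow_pos_of_pos hk _).le (hy_M T) (hr_M T)
    (he_M hT) hl).1

/-- the convexity condition for the weights of dimension m -/
theorem conv_cond2 (hm : 17 ≤ m) (hT : T ∈ Ioo (0 : ℝ) 1) (hl : Adm (2 / m) (1 - T ^ 2) l) :
    (m + 3) * (m * (m + 1) * T * (2 * (1 - T) * rM m T - eM m T + 31 / 10 * T ^ 4 * eM m T))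
      ≤ (m + 1) * (m * (T * yM m T + m * rM m T)
        - (m + 1) * (m + 2) * T ^ 2 * rM m T / (1 - T ^ 2) * l) * (1 - T) := by
  have hk : 0 < 1 - T ^ 2 := by nlinarith [hT.1, hT.2]
  exact (both_of2 (by omega) hT (bds2_M hm hT) (rpow_pos_of_pos hk _).le (hy_M T) (hr_M T)
    (he_M hT) hl).2

/-- the bound of the absolute value for the weights of dimension m -/
theorem abs_le_beta2 (hm : 17 ≤ m) (hT : T ∈ Ioo (0 : ℝ) 1) :
    m * (m + 1) * (T * |2 * rM m T - eM m T| - 2 * T ^ 2 * rM m T)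
      ≤ m * (m + 1) * T * (2 * (1 - T) * rM m T - eM m T + 31 / 10 * T ^ 4 * eM m T) := by
  have hk : 0 < 1 - T ^ 2 := by nlinarith [hT.1, hT.2]
  exact abs_of2 (by omega) hT (bds2_M hm hT) (rpow_pos_of_pos hk _).le (he_M hT) (hr_M T)

end Vale.Agent.P224.R2.H627
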