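import Vale.Agent.P224.R2.H627.Wt

/-!
Explicit two sided bounds of the normalised weight r, and the bounds in the notation of
dimension m.
-/

namespace Vale.Agent.P224.R2.H627

open MeasureTheory Set Filter Function Real Vale.Agent.P224.SM2 Vale.Agent.P224.R2.H820
open scoped Topology

variable {a c : ℝ} {T : ℝ}

/-- `int_s^1 (1 - x ^ 2) ^ k` -/
noncomputable def J1 (s : ℝ) : ℝ := 2 / 3 - s + s ^ 3 / 3
noncomputable def J2 (s : ℝ) : ℝ := 8 / 15 - s + 2 / 3 * s ^ 3 - s ^ 5 / 5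
noncomputable def J4 (s : ℝ) : ℝ :=
  128 / 315 - s + 4 / 3 * s ^ 3 - 6 / 5 * s ^ 5 + 4 / 7 * s ^ 7 - s ^ 9 / 9

lemma hasDerivAt_J1 (s : ℝ) : HasDerivAt J1 (-(1 - s ^ 2)) s := by
  have h1 := ((hasDerivAt_id' s).const_sub (2 / 3)).fun_add ((hasDerivAt_pow 3 s).div_const 3)
  refine h1.congr_deriv ?_
  push_cast
  ring

lemma hasDerivAt_J2 (s : ℝ) : HasDerivAt J2 (-(1 - s ^ 2) ^ 2) s := by
  have h1 := (((hasDerivAt_id' s).const_sub (8 / 15)).fun_add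
    ((hasDerivAt_pow 3 s).const_mul (2 / 3))).fun_sub ((hasDerivAt_pow 5 s).div_const 5)
  refine h1.congr_deriv ?_
  push_cast
  ring

lemma hasDerivAt_J4 (s : ℝ) : HasDerivAt J4 (-(1 - s ^ 2) ^ 4) s := by
  have h1 := (((((hasDerivAt_id' s).const_sub (128 / 315)).fun_add
    ((hasDerivAt_pow 3 s).const_mul (4 / 3))).fun_sub
    ((hasDerivAt_pow 5 s).const_mul (6 / 5))).fun_add
    ((hasDerivAt_pow 7 s).const_mul (4 / 7))).fun_sub ((hasDerivAt_pow 9 s).div_const 9)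
  refine h1.congr_deriv ?_
  push_cast
  ring

/-- upper bound of √2 R -/
noncomputable def GUp (a s : ℝ) : ℝ :=
  J1 s + (-(69 / 100) * J1 s - 43 / 100 * J2 s + 289 / 100 * J4 s) / a

/-- lower bound of √2 R -/
noncomputable def GLo (a s : ℝ) : ℝ :=
  J1 s + (-(107 / 100) * J1 s - 95 / 100 * J2 s + 351 / 100 * J4 s) / a

lemma hasDerivAt_GUp (a s : ℝ) : HasDerivAt (GUp a) (-qU a (1 - s ^ 2)) s := by
  have h1 := (hasDerivAt_J1 s).fun_add (((((hasDerivAt_J1 s).const_mul (-(69 / 100))).fun_sub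
    ((hasDerivAt_J2 s).const_mul (43 / 100))).fun_add
    ((hasDerivAt_J4 s).const_mul (289 / 100))).div_const a)
  refine h1.congr_deriv ?_
  unfold qU
  ring

lemma hasDerivAt_GLo (a s : ℝ) : HasDerivAt (GLo a) (-qL a (1 - s ^ 2)) s := by
  have h1 := (hasDerivAt_J1 s).fun_add (((((hasDerivAt_J1 s).const_mul (-(107 / 100))).fun_sub
    ((hasDerivAt_J2 s).const_mul (95 / 100))).fun_add
    ((hasDerivAt_J4 s).const_mul (351 / 100))).div_const a)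
  refine h1.congr_deriv ?_
  unfold qL
  ring

lemma J1_one : J1 1 = 0 := by unfold J1; norm_num
lemma J2_one : J2 1 = 0 := by unfold J2; norm_num
lemma J4_one : J4 1 = 0 := by unfold J4; norm_num

lemma GUp_one (a : ℝ) : GUp a 1 = 0 := by
  unfold GUp
  rw [J1_one, J2_one, J4_one]
  ring

lemma GLo_one (a : ℝ) : GLo a 1 = 0 := by
  unfold GLo
  rw [J1_one, J2_one, J4_one]
  ring

lemma GUp_zero (a : ℝ) : GUp a 0 = 2 / 3 + 7639 / 15750 / a := by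
  unfold GUp J1 J2 J4
  ring

lemma GLo_zero (a : ℝ) : GLo a 0 = 2 / 3 + 361 / 1750 / a := by
  unfold GLo J1 J2 J4
  ring

theorem Rf_le (ha : 9 ≤ a) (hn : Nrm a c) (hT : T ∈ Ioo (0 : ℝ) 1) :
    √2 * Rf a c T ≤ GUp a (sv T) := by
  have hc := hn.pos ha
  have h2 : 0 < √(2 : ℝ) := by positivity
  have h := Rf_le_of (a := a) (c := c) (G := fun s => GUp a s / √2) (G' := fun s => -qU a (1 - s ^ 2) / √2)
    hc.le (by linarith) (fun s _ => (hasDerivAt_GUp a s).div_const _)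
    ((hasDerivAt_GUp a 1).continuousAt.div_const _) (by rw [GUp_one]; simp) (fun T hT => ?_) hT
  · rw [le_div_iff₀ h2] at h
    linarith
  · have h1 := Ef_le ha hn hT
    rw [sv_sq, mul_div_cancel₀ _ h2.ne', sub_sub_cancel]
    linarith

theorem Rf_ge (ha : 9 ≤ a) (hn : Nrm a c) (hT : T ∈ Ioo (0 : ℝ) 1) :
    GLo a (sv T) ≤ √2 * Rf a c T := by
  have hc := hn.pos ha
  have h2 : 0 < √(2 : ℝ) := by positivity
  have h := Rf_ge_of (a := a) (c := c) (G := fun s => GLo a s / √2) (G' := fun s => -qL a (1 - s ^ 2) / √2)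
    hc.le (by linarith) (fun s _ => (hasDerivAt_GLo a s).div_const _)
    ((hasDerivAt_GLo a 1).continuousAt.div_const _) (by rw [GLo_one]; simp) (fun T hT => ?_) hT
  · rw [div_le_iff₀ h2] at h
    linarith
  · have h1 := Ef_ge ha hn hT
    rw [sv_sq, mul_div_cancel₀ _ h2.ne', sub_sub_cancel]
    linarith

lemma continuous_GUp (a : ℝ) : Continuous (GUp a) :=
  continuous_iff_continuousAt.2 fun s => (hasDerivAt_GUp a s).continuousAt

lemma continuous_GLo (a : ℝ) : Continuous (GLo a) :=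
  continuous_iff_continuousAt.2 fun s => (hasDerivAt_GLo a s).continuousAt

lemma tendsto_Rf_zero (hc : 0 ≤ c) (ha : 2 ≤ a) : Tendsto (Rf a c) (𝓝[>] 0) (𝓝 (Rf a c 0)) := by
  have h := (continuousOn_Rf (c := c) hc ha) 0 ⟨le_rfl, zero_le_one⟩
  refine h.mono_left (nhdsWithin_le_iff.2 ?_)
  filter_upwards [Ioo_mem_nhdsGT (zero_lt_one (α := ℝ))] with x hx
  exact ⟨hx.1.le, hx.2.le⟩

theorem Rf_le' (ha : 9 ≤ a) (hn : Nrm a c) (hT : T ∈ Ico (0 : ℝ) 1) :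
    √2 * Rf a c T ≤ GUp a (sv T) := by
  rcases eq_or_lt_of_le hT.1 with h | h
  · subst h
    have h1 := (tendsto_Rf_zero (hn.pos ha).le (by linarith : 2 ≤ a)).const_mul √2
    have h2 : Tendsto (fun T => GUp a (sv T)) (𝓝[>] 0) (𝓝 (GUp a (sv 0))) :=
      (((continuous_GUp a).comp continuous_sv).tendsto 0).mono_left nhdsWithin_le_nhds
    refine le_of_tendsto_of_tendsto h1 h2 ?_
    filter_upwards [Ioo_mem_nhdsGT (zero_lt_one (α := ℝ))] with x hx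
    exact Rf_le ha hn hx
  · exact Rf_le ha hn ⟨h, hT.2⟩

theorem Rf_ge' (ha : 9 ≤ a) (hn : Nrm a c) (hT : T ∈ Ico (0 : ℝ) 1) :
    GLo a (sv T) ≤ √2 * Rf a c T := by
  rcases eq_or_lt_of_le hT.1 with h | h
  · subst h
    have h1 := (tendsto_Rf_zero (hn.pos ha).le (by linarith : 2 ≤ a)).const_mul √2
    have h2 : Tendsto (fun T => GLo a (sv T)) (𝓝[>] 0) (𝓝 (GLo a (sv 0))) :=
      (((continuous_GLo a).comp continuous_sv).tendsto 0).mono_left nhdsWithin_le_nhds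
    refine le_of_tendsto_of_tendsto h2 h1 ?_
    filter_upwards [Ioo_mem_nhdsGT (zero_lt_one (α := ℝ))] with x hx
    exact Rf_ge ha hn hx
  · exact Rf_ge ha hn ⟨h, hT.2⟩

theorem Rf_zero_le (ha : 9 ≤ a) (hn : Nrm a c) : √2 * Rf a c 0 ≤ 2 / 3 + 7639 / 15750 / a := by
  have h := Rf_le' ha hn ⟨le_rfl, one_pos⟩
  rwa [sv_zero, GUp_zero] at h

theorem Rf_zero_ge (ha : 9 ≤ a) (hn : Nrm a c) : 2 / 3 + 361 / 1750 / a ≤ √2 * Rf a c 0 := by
  have h := Rf_ge' ha hn ⟨le_rfl, one_pos⟩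
  rwa [sv_zero, GLo_zero] at h

section dim

variable {m : ℕ}

/-- normalised weights of dimension m: `yM = (1 - T ^ 2) ^ (m / 2 - 1) yh`,
`m eM = (1 - T ^ 2) ^ (m / 2) eh`, `m rM = (1 - T ^ 2) ^ (m / 2 - 1) rh` -/
noncomputable def yh (m : ℕ) (T : ℝ) : ℝ := Wf (m / 2) (cn m) T / √(1 + T ^ 2)
noncomputable def eh (m : ℕ) (T : ℝ) : ℝ :=
  T / ((1 + T ^ 2) * √(1 + T ^ 2)) * Ef (m / 2) (cn m) T
noncomputable def rh (m : ℕ) (T : ℝ) : ℝ := Rf (m / 2) (cn m) T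

lemma yM_eq (T : ℝ) : yM m T = (1 - T ^ 2) ^ ((m : ℝ) / 2 - 1) * yh m T := yF_eq

lemma rM_eq (T : ℝ) : m * rM m T = (1 - T ^ 2) ^ ((m : ℝ) / 2 - 1) * rh m T := by
  have h : 2 * ((m : ℝ) / 2) * rF (m / 2) (cn m) T
      = (1 - T ^ 2) ^ ((m : ℝ) / 2 - 1) * Rf (m / 2) (cn m) T := by
    unfold rF Rf hF
    ring
  rw [show 2 * ((m : ℝ) / 2) = m by ring] at h
  exact h

lemma eM_eq {T : ℝ} (hT : T ∈ Ioo (0 : ℝ) 1) : m * eM m T = (1 - T ^ 2) ^ ((m : ℝ) / 2) * eh m T := by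
  have h := eF_eq (a := (m : ℝ) / 2) (c := cn m) hT
  rw [show 2 * ((m : ℝ) / 2) = m by ring] at h
  exact h

lemma nine_le (hm : 18 ≤ m) : (9 : ℝ) ≤ (m : ℝ) / 2 := by
  have : (18 : ℝ) ≤ m := by exact_mod_cast hm
  linarith

/-- `m r (0) ≤ (2 / 3 + .9701 / m) / √2`, that is `.4715 + .686 / m` -/
theorem rM_zero_le (hm : 18 ≤ m) : √2 * (m * rM m 0) ≤ 2 / 3 + 7639 / 7875 / m := by
  have h := Rf_zero_le (nine_le hm) (nrm_cn (m := m) (by omega))
  have e := rM_eq (m := m) 0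
  rw [show (1 : ℝ) - 0 ^ 2 = 1 by norm_num, one_rpow, one_mul] at e
  rw [e]
  refine h.trans (le_of_eq ?_)
  have : (m : ℝ) ≠ 0 := by
    have : (18 : ℝ) ≤ m := by exact_mod_cast hm
    linarith
  field_simp
  ring

theorem rM_zero_ge (hm : 18 ≤ m) : 2 / 3 + 361 / 875 / m ≤ √2 * (m * rM m 0) := by
  have h := Rf_zero_ge (nine_le hm) (nrm_cn (m := m) (by omega))
  have e := rM_eq (m := m) 0
  rw [show (1 : ℝ) - 0 ^ 2 = 1 by norm_num, one_rpow, one_mul] at e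
  rw [e]
  refine le_trans (le_of_eq ?_) h
  have : (m : ℝ) ≠ 0 := by
    have : (18 : ℝ) ≤ m := by exact_mod_cast hm
    linarith
  field_simp
  ring

end dim

end Vale.Agent.P224.R2.H627
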