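import Vale.Agent.P224.R2.H627.CPolA
import Vale.Agent.P224.R2.H627.CPolB
import Vale.Agent.P224.R2.H627.CPolC
import Vale.Agent.P224.R2.H627.WtR

/-!
The scalar conditions on the weights which are needed for the lower bound of the defect.
-/

namespace Vale.Agent.P224.R2.H627

open MeasureTheory Set Filter Function Real Vale.Agent.P224.SM2 Vale.Agent.P224.R2.H820
open scoped Topology

lemma Tu_aux {z : ℝ} (h0 : 0 ≤ z) (h1 : z ≤ 1) : 0 ≤ 45521 / 5000000000 + 70711 / 10000000000 * z + 352903133 / 2500000000 * z ^ 2 - 283540471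
      / 2500000000 * z ^ 3 - 1759849 / 125000000 * z ^ 4 - 337561 / 25000000 * z ^ 5 := by
  have h := chk_sound 9 [22760500, 1767775, 3529031330, -283540471, -3519698, -337561]
    (by decide +kernel) (10 * z - 0) (by linarith) (by norm_num; linarith)
  have e : ev [22760500, 1767775, 3529031330, -283540471, -3519698, -337561] (10 * z - 0)
      = 2500000000000 * (45521 / 5000000000 + 70711 / 10000000000 * z + 352903133 / 2500000000 * z ^ 2 - 283540471
      / 2500000000 * z ^ 3 - 1759849 / 125000000 * z ^ 4 - 337561 / 25000000 * z ^ 5) := by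
    simp only [ev]
    push_cast
    ring
  rw [e] at h
  exact nonneg_of_mul_nonneg_right h (by norm_num)


lemma le_Tu {s T : ℝ} (hs0 : 0 ≤ s) (hs1 : s ≤ 1) (_hT : 0 ≤ T) (hTs : T ^ 2 * (2 - s ^ 2) = s ^ 2) :
    T ≤ Tu s := by
  have h := Tu_aux (z := s ^ 2) (sq_nonneg s) (by nlinarith)
  set p : ℝ := 70711 / 100000 + 17678 / 100000 * s ^ 2 + 1162 / 10000 * s ^ 4 with hp
  have h1 : 1 ≤ p ^ 2 * (2 - s ^ 2) := by
    have e : p ^ 2 * (2 - s ^ 2) - 1 = 45521 / 5000000000 + 70711 / 10000000000 * s ^ 2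
      + 352903133 / 2500000000 * (s ^ 2) ^ 2 - 283540471
      / 2500000000 * (s ^ 2) ^ 3 - 1759849 / 125000000 * (s ^ 2) ^ 4
      - 337561 / 25000000 * (s ^ 2) ^ 5 := by
      rw [hp]
      ring
    linarith
  have hp0 : 0 ≤ p := by positivity
  have h2 : 0 < 2 - s ^ 2 := by nlinarith
  have h3 : T ^ 2 ≤ (s * p) ^ 2 := by
    have h4 : T ^ 2 * (2 - s ^ 2) ≤ (s * p) ^ 2 * (2 - s ^ 2) := by
      rw [hTs]
      have := mul_le_mul_of_nonneg_left h1 (sq_nonneg s)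
      nlinarith
    exact le_of_mul_le_mul_right h4 h2
  have h5 := abs_le_of_sq_le_sq h3 (mul_nonneg hs0 hp0)
  have h6 : Tu s = s * p := rfl
  rw [h6]
  exact (le_abs_self T).trans h5

/-- the bounds of the normalised weights at a given level: `s = √(1 - h)`, `t = 1 / a`,
`W`, `E` and `ρ = √2 R` -/
structure Bds (T s t W E ρ : ℝ) : Prop where
  T0 : 0 < T
  s0 : 0 < s
  s1 : s < 1
  Ts : T ^ 2 * (2 - s ^ 2) = s ^ 2
  t0 : 0 ≤ t
  t1 : t ≤ 1 / 9
  W0 : 0 ≤ W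
  E0 : 0 ≤ E
  R0 : 0 ≤ ρ
  Wl : wW s t ≤ W
  El : wL s t ≤ E
  Eu : E ≤ wU s t
  Rl : (1 - s) ^ 2 * kL s t ≤ ρ
  Ru : ρ ≤ (1 - s) ^ 2 * kU s t

variable {T s t W E ρ l : ℝ}

/-- positivity of α -/
lemma Bds.alpha (h : Bds T s t W E ρ) (hl : l ≤ 17 ∨ (137 / 200 ≤ s ∧ l ≤ 91 / 5)) :
    0 ≤ s * W + ρ - l * ((1 + t / 2) * (1 + t)) * (s ^ 2 / (2 * (1 - s ^ 2))) * ρ := by
  obtain ⟨hT0, hs0, hs1, hTs, ht0, ht1, hW0, hE0, hR0, hWl, hEl, hEu, hRl, hRu⟩ := h
  have key : ∀ l0 : ℝ, l ≤ l0 → 0 ≤ gU l0 s t →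
      0 ≤ s * W + ρ - l * ((1 + t / 2) * (1 + t)) * (s ^ 2 / (2 * (1 - s ^ 2))) * ρ := by
    intro l0 hl0 hg
    have h1 : 0 < 1 - s := by linarith
    have h2 : 0 < 1 + s := by linarith
    have h3 : 0 < 1 - s ^ 2 := by nlinarith
    set g := (1 + t / 2) * (1 + t) with hgd
    have hg0 : 0 ≤ g := by positivity
    set X := g * (s ^ 2 / (2 * (1 - s ^ 2))) with hX
    have hX0 : 0 ≤ X := by positivity
    have e1 : l * g * (s ^ 2 / (2 * (1 - s ^ 2))) * ρ = l * X * ρ := by rw [hX]; ring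
    rw [e1]
    have e2 : l * X * ρ ≤ l0 * X * ρ := by
      have := mul_le_mul_of_nonneg_right hl0 (mul_nonneg hX0 hR0)
      linarith
    rcases le_total (l0 * X) 1 with hx | hx
    · have := mul_le_mul_of_nonneg_right hx hR0
      have := mul_nonneg hs0.le hW0
      linarith
    · have e3 : (l0 * X - 1) * ρ ≤ (l0 * X - 1) * ((1 - s) ^ 2 * kU s t) :=
        mul_le_mul_of_nonneg_left hRu (by linarith)
      have e4 : gU l0 s t = 2 * (1 + s) * (s * wW s t - (l0 * X - 1) * ((1 - s) ^ 2 * kU s t)) := by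
        rw [gU, hX]
        have : (1 - s ^ 2) = (1 - s) * (1 + s) := by ring
        rw [this]
        field_simp
        ring
      rw [e4] at hg
      have e5 := nonneg_of_mul_nonneg_right hg (by positivity)
      have e6 := mul_le_mul_of_nonneg_left hWl hs0.le
      linarith
  rcases hl with hl | ⟨hs, hl⟩
  · exact key 17 hl (gU17_nonneg hs0.le hs1.le ht0 ht1)
  · exact key (91 / 5) hl (gU18_nonneg hs hs1.le ht0 ht1)

/-- the bound of e - 2 r -/
lemma Bds.er (h : Bds T s t W E ρ) :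
    0 ≤ 2 * ρ - (1 - 9 / 5 * T ^ 4) * (s * (1 - s ^ 2) * E) := by
  obtain ⟨hT0, hs0, hs1, hTs, ht0, ht1, hW0, hE0, hR0, hWl, hEl, hEu, hRl, hRu⟩ := h
  have h2 : 0 < 2 - s ^ 2 := by nlinarith
  have h3 : 0 < 1 - s ^ 2 := by nlinarith
  have e1 : (2 - s ^ 2) ^ 2 * T ^ 4 = s ^ 4 := by
    have : (T ^ 2 * (2 - s ^ 2)) ^ 2 = (s ^ 2) ^ 2 := by rw [hTs]
    nlinarith
  have e2 : (2 - s ^ 2) ^ 2 * (2 * ρ - (1 - 9 / 5 * T ^ 4) * (s * (1 - s ^ 2) * E))
      = 2 * ρ * (2 - s ^ 2) ^ 2 - ((2 - s ^ 2) ^ 2 - 9 / 5 * s ^ 4) * (s * (1 - s ^ 2) * E) := by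
    rw [← e1]
    ring
  have e3 : 0 ≤ (2 - s ^ 2) ^ 2 * (2 * ρ - (1 - 9 / 5 * T ^ 4) * (s * (1 - s ^ 2) * E)) := by
    rw [e2]
    have k1 : 2 * ((1 - s) ^ 2 * kL s t) * (2 - s ^ 2) ^ 2 ≤ 2 * ρ * (2 - s ^ 2) ^ 2 :=
      mul_le_mul_of_nonneg_right (by linarith) (sq_nonneg _)
    have hs : 0 ≤ s * (1 - s ^ 2) := by positivity
    rcases le_total s (23 / 25) with hc | hc
    · have k2 := gF1_nonneg hs0.le hc ht0 ht1
      unfold gF1 at k2
      have hz : s ^ 2 ≤ 529 / 625 := by nlinarith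
      have k3 : 0 ≤ (2 - s ^ 2) ^ 2 - 9 / 5 * s ^ 4 := by
        have : s ^ 4 = (s ^ 2) ^ 2 := by ring
        rw [this]
        nlinarith [sq_nonneg s]
      have k4 := mul_le_mul_of_nonneg_left (mul_le_mul_of_nonneg_left hEu hs) k3
      linarith
    · have k2 := gF2_nonneg hc hs1.le ht0 ht1
      unfold gF2 at k2
      have k3 := mul_le_mul_of_nonneg_left hEu (mul_nonneg hs (sq_nonneg (2 - s ^ 2)))
      have k4 := mul_le_mul_of_nonneg_left hEl (mul_nonneg hs (by positivity : 0 ≤ 9 / 5 * s ^ 4))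
      linarith
  exact nonneg_of_mul_nonneg_right e3 (by positivity)

lemma T4_le {T s : ℝ} (hTs : T ^ 2 * (2 - s ^ 2) = s ^ 2) (h : 19 * s ^ 2 ≤ 2) :
    T ^ 4 ≤ 1 / 100 := by
  have hT2 : T ^ 2 ≤ 1 / 10 := by nlinarith [sq_nonneg T]
  have : T ^ 4 = (T ^ 2) ^ 2 := by ring
  rw [this]
  nlinarith [sq_nonneg T]

/-- the convexity condition -/
lemma Bds.conv (h : Bds T s t W E ρ) (hl : l ≤ 17 ∨ (137 / 200 ≤ s ∧ l ≤ 91 / 5)) :
    0 ≤ s * W + ρ - l * ((1 + t / 2) * (1 + t)) * (s ^ 2 / (2 * (1 - s ^ 2))) * ρ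
      - (1 + 3 * t / 2) * T * (2 * ρ - (1 + T) * (s * (2 - s ^ 2) * E / 2) * (1 - 18 / 5 * T ^ 4)) := by
  obtain ⟨hT0, hs0, hs1, hTs, ht0, ht1, hW0, hE0, hR0, hWl, hEl, hEu, hRl, hRu⟩ := h
  have key : ∀ l0 : ℝ, l ≤ l0 → 17 ≤ l0 → 0 ≤ gA l0 s t → 0 ≤ gA l0 s t + Tu s * gB s t →
      0 ≤ s * W + ρ - l * ((1 + t / 2) * (1 + t)) * (s ^ 2 / (2 * (1 - s ^ 2))) * ρ
        - (1 + 3 * t / 2) * T
          * (2 * ρ - (1 + T) * (s * (2 - s ^ 2) * E / 2) * (1 - 18 / 5 * T ^ 4)) := by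
    intro l0 hl0 h17 hA hC
    have h1 : 0 < 1 - s := by linarith
    have h2 : 0 < 1 + s := by linarith
    have h3 : 0 < 1 - s ^ 2 := by nlinarith
    have h2' : 0 < 2 - s ^ 2 := by nlinarith
    set g := (1 + t / 2) * (1 + t) with hgd
    have hg1 : 1 ≤ g := by nlinarith
    set f := 1 + 3 * t / 2 with hf
    have hf1 : 1 ≤ f := by linarith
    set X := g * (s ^ 2 / (2 * (1 - s ^ 2))) with hX
    have hX0 : 0 ≤ X := by positivity
    have e1 : l * g * (s ^ 2 / (2 * (1 - s ^ 2))) * ρ = l * X * ρ := by rw [hX]; ring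
    rw [e1]
    have e2 : l * X * ρ ≤ l0 * X * ρ := by
      have := mul_le_mul_of_nonneg_right hl0 (mul_nonneg hX0 hR0)
      linarith
    have eT : (2 - s ^ 2) ^ 2 * T ^ 4 = s ^ 4 := by
      have : (T ^ 2 * (2 - s ^ 2)) ^ 2 = (s ^ 2) ^ 2 := by rw [hTs]
      nlinarith
    rcases le_total (l0 * X - 1 + 2 * f * T) 0 with hx | hx
    · have hX1 : X ≤ 1 / 17 := by
        have : 0 ≤ f * T := by positivity
        have : 17 * X ≤ l0 * X := mul_le_mul_of_nonneg_right h17 hX0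
        linarith
      have hs2 : s ^ 2 / (2 * (1 - s ^ 2)) ≤ 1 / 17 := by
        have h0 : 0 ≤ s ^ 2 / (2 * (1 - s ^ 2)) := by positivity
        have := mul_le_mul_of_nonneg_right hg1 h0
        linarith
      rw [div_le_div_iff₀ (by positivity) (by norm_num)] at hs2
      have hT4 : T ^ 4 ≤ 1 / 100 := T4_le hTs (by linarith)
      have k1 : 0 ≤ (1 + T) * (s * (2 - s ^ 2) * E / 2) * (1 - 18 / 5 * T ^ 4) := by
        have : 0 ≤ 1 - 18 / 5 * T ^ 4 := by linarith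
        positivity
      have k2 := mul_nonneg (by positivity : 0 ≤ f * T) k1
      have k3 := mul_le_mul_of_nonneg_right hx hR0
      have k4 := mul_nonneg hs0.le hW0
      linear_combination k2 + k3 + k4 + e2
    · have e3 : (l0 * X - 1 + 2 * f * T) * ρ ≤ (l0 * X - 1 + 2 * f * T) * ((1 - s) ^ 2 * kU s t) :=
        mul_le_mul_of_nonneg_left hRu hx
      -- the energy part
      have e4 : gE s t ≤ (2 - s ^ 2) ^ 2 * (1 - 18 / 5 * T ^ 4) * E := by
        have k1 : (2 - s ^ 2) ^ 2 * (1 - 18 / 5 * T ^ 4) * E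
            = (2 - s ^ 2) ^ 2 * E - 18 / 5 * s ^ 4 * E := by
          rw [← eT]
          ring
        rw [k1, gE]
        have k2 := mul_le_mul_of_nonneg_left hEl (sq_nonneg (2 - s ^ 2))
        have k3 := mul_le_mul_of_nonneg_left hEu (by positivity : 0 ≤ 18 / 5 * s ^ 4)
        linarith
      have e5 : 0 ≤ gA l0 s t + T * gB s t := by
        have hTu := le_Tu hs0.le hs1.le hT0.le hTs
        rcases le_total 0 (gB s t) with hb | hb
        · have := mul_nonneg hT0.le hb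
          linarith
        · have := mul_le_mul_of_nonpos_right hTu hb
          linarith
      set U := s * wW s t - (l0 * X - 1) * ((1 - s) ^ 2 * kU s t) with hU
      have e6 : gU l0 s t = 2 * (1 + s) * U := by
        rw [gU, hU, hX]
        have : (1 - s ^ 2) = (1 - s) * (1 + s) := by ring
        rw [this]
        field_simp
        ring
      have e7 : gA l0 s t + T * gB s t = 2 * (1 + s) * ((2 - s ^ 2) ^ 2 * (U
          - 2 * f * T * ((1 - s) ^ 2 * kU s t)) + f * T * (1 + T) * (2 - s ^ 2) * s / 2 * gE s t) := by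
        rw [gA, gB, e6]
        have : s ^ 3 = T ^ 2 * (2 - s ^ 2) * s := by rw [hTs]; ring
        rw [this]
        ring
      rw [e7] at e5
      have e8 := nonneg_of_mul_nonneg_right e5 (by positivity)
      have e9 : f * T * (1 + T) * (2 - s ^ 2) * s / 2 * gE s t
          ≤ f * T * (1 + T) * (2 - s ^ 2) * s / 2 * ((2 - s ^ 2) ^ 2 * (1 - 18 / 5 * T ^ 4) * E) :=
        mul_le_mul_of_nonneg_left e4 (by positivity)
      have e10 : 0 ≤ (2 - s ^ 2) ^ 2 * (U - 2 * f * T * ((1 - s) ^ 2 * kU s t)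
          + f * T * ((1 + T) * (s * (2 - s ^ 2) * E / 2) * (1 - 18 / 5 * T ^ 4))) := by
        linear_combination e8 + e9
      have e11 := nonneg_of_mul_nonneg_right e10 (by positivity)
      have e12 := mul_le_mul_of_nonneg_left hWl hs0.le
      linear_combination e11 + e12 + e3 + e2
  rcases hl with hl | ⟨hs, hl⟩
  · exact key 17 hl le_rfl (gA17_nonneg hs0.le hs1.le ht0 ht1) (gC17_nonneg hs0.le hs1.le ht0 ht1)
  · exact key (91 / 5) hl (by norm_num) (gA18_nonneg hs hs1.le ht0 ht1)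
      (gC18_nonneg hs hs1.le ht0 ht1)

end Vale.Agent.P224.R2.H627
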