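import Vale.Agent.P224.R2.H627.DPola1
import Vale.Agent.P224.R2.H627.DPola2
import Vale.Agent.P224.R2.H627.DPolb1
import Vale.Agent.P224.R2.H627.DPolb2
import Vale.Agent.P224.R2.H627.DPolc1
import Vale.Agent.P224.R2.H627.DPolc2
import Vale.Agent.P224.R2.H627.DPolF
import Vale.Agent.P224.R2.H627.Cond

/-!
The scalar conditions on the weights, sharper version with tolerance.
-/

namespace Vale.Agent.P224.R2.H627

open Set Real

/-- the bounds of the normalised weights at a given level: `s = √(1 - h)`, `t = 1 / a`,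
`W`, `E` and `ρ = √2 R` -/
structure Bds2 (T s t W E ρ : ℝ) : Prop where
  T0 : 0 < T
  s0 : 0 < s
  s1 : s < 1
  Ts : T ^ 2 * (2 - s ^ 2) = s ^ 2
  t0 : 0 ≤ t
  t1 : t ≤ 2 / 17
  W0 : 0 ≤ W
  E0 : 0 ≤ E
  R0 : 0 ≤ ρ
  Wl : vW s t ≤ W
  El : vL s t ≤ E
  Eu : E ≤ vU s t
  Rl : (1 - s) ^ 2 * uL s t ≤ ρ
  Ru : ρ ≤ (1 - s) ^ 2 * uU s t

/-- the admissible thresholds -/
def Adm (t k l : ℝ) : Prop :=
  (l ≤ 35 / 2 ∨ k * l ≤ 23 / 2) ∨ (t ≤ 1 / 18 ∧ (l ≤ 91 / 5 ∨ k * l ≤ 61 / 5))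
    ∨ (t ≤ 1 / 50 ∧ (l ≤ 93 / 5 ∨ k * l ≤ 63 / 5))

variable {T s t W E ρ l : ℝ}

lemma Bds2.kap (h : Bds2 T s t W E ρ) : (1 - T ^ 2) * (2 - s ^ 2) = 2 * (1 - s ^ 2) := by
  nlinarith [h.Ts]

lemma Bds2.kpos (h : Bds2 T s t W E ρ) : 0 < 1 - T ^ 2 := by
  have h1 := h.kap
  have hs0 := h.s0
  have hs1 := h.s1
  have h2 : 0 < 2 - s ^ 2 := by nlinarith
  have h3 : 0 < 1 - s ^ 2 := by nlinarith
  by_contra hc
  push Not at hc
  have := mul_nonneg_of_nonpos_of_nonpos hc (neg_nonpos.2 h2.le)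
  nlinarith

lemma Bds2.alpha_key (h : Bds2 T s t W E ρ) {X X0 : ℝ} (hX : X ≤ X0)
    (h0 : 0 ≤ s * vW s t - (X0 - 1) * ((1 - s) ^ 2 * uU s t)) : 0 ≤ s * W + ρ - X * ρ := by
  have e2 : X * ρ ≤ X0 * ρ := mul_le_mul_of_nonneg_right hX h.R0
  rcases le_total X0 1 with hx | hx
  · have := mul_le_mul_of_nonneg_right hx h.R0
    have := mul_nonneg h.s0.le h.W0
    linarith
  · have e3 : (X0 - 1) * ρ ≤ (X0 - 1) * ((1 - s) ^ 2 * uU s t) :=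
      mul_le_mul_of_nonneg_left h.Ru (by linarith)
    have e6 := mul_le_mul_of_nonneg_left h.Wl h.s0.le
    linarith

lemma abs_T4 (hTs : T ^ 2 * (2 - s ^ 2) = s ^ 2) (h3 : 0 < 1 - s ^ 2)
    (hs2 : s ^ 2 / (2 * (1 - s ^ 2)) ≤ 1 / 11) : T ^ 4 ≤ 1 / 100 := by
  rw [div_le_div_iff₀ (by positivity) (by norm_num)] at hs2
  have hT2 : T ^ 2 ≤ 1 / 12 := by nlinarith [sq_nonneg T]
  have : T ^ 4 = (T ^ 2) ^ 2 := by ring
  rw [this]
  nlinarith [sq_nonneg T]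

lemma abs_case1 {f X0 : ℝ} (hT0 : 0 < T) (hs0 : 0 < s) (h2' : 0 < 2 - s ^ 2) (hf1 : 1 ≤ f)
    (hW0 : 0 ≤ W) (hE0 : 0 ≤ E) (hR0 : 0 ≤ ρ) (hT4 : T ^ 4 ≤ 1 / 100)
    (hx : X0 - 1 + 2 * f * T ≤ 0) :
    0 ≤ s * W + ρ - X0 * ρ - f * T
      * (2 * ρ - (1 + T) * (s * (2 - s ^ 2) * E / 2) * (1 - 31 / 10 * T ^ 4)) := by
  have k1 : 0 ≤ (1 + T) * (s * (2 - s ^ 2) * E / 2) * (1 - 31 / 10 * T ^ 4) := by
    have : 0 ≤ 1 - 31 / 10 * T ^ 4 := by linarith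
    positivity
  have k2 := mul_nonneg (by positivity : 0 ≤ f * T) k1
  have k3 := mul_le_mul_of_nonneg_right hx hR0
  have k4 := mul_nonneg hs0.le hW0
  linear_combination k2 + k3 + k4

lemma abs_case2 {f X0 w u D : ℝ} (hT0 : 0 < T) (hs0 : 0 < s) (h2' : 0 < 2 - s ^ 2) (hf1 : 1 ≤ f)
    (hx : 0 ≤ X0 - 1 + 2 * f * T) (hRu : ρ ≤ u) (hWl : w ≤ W)
    (e4 : D ≤ (2 - s ^ 2) ^ 2 * (1 - 31 / 10 * T ^ 4) * E)
    (h0 : 0 ≤ (2 - s ^ 2) ^ 2 * (s * w - (X0 - 1) * u - 2 * f * T * u)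
        + f * T * (1 + T) * (2 - s ^ 2) * s / 2 * D) :
    0 ≤ s * W + ρ - X0 * ρ - f * T
      * (2 * ρ - (1 + T) * (s * (2 - s ^ 2) * E / 2) * (1 - 31 / 10 * T ^ 4)) := by
  have e3 : (X0 - 1 + 2 * f * T) * ρ ≤ (X0 - 1 + 2 * f * T) * u :=
    mul_le_mul_of_nonneg_left hRu hx
  have e9 : f * T * (1 + T) * (2 - s ^ 2) * s / 2 * D
      ≤ f * T * (1 + T) * (2 - s ^ 2) * s / 2 * ((2 - s ^ 2) ^ 2 * (1 - 31 / 10 * T ^ 4) * E) :=
    mul_le_mul_of_nonneg_left e4 (by positivity)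
  have e10 : 0 ≤ (2 - s ^ 2) ^ 2 * (s * w - (X0 - 1) * u - 2 * f * T * u
      + f * T * ((1 + T) * (s * (2 - s ^ 2) * E / 2) * (1 - 31 / 10 * T ^ 4))) := by
    linear_combination h0 + e9
  have e11 := nonneg_of_mul_nonneg_right e10 (by positivity)
  have e12 := mul_le_mul_of_nonneg_left hWl hs0.le
  linear_combination e11 + e12 + e3

lemma abs_E {a b v₁ v₂ : ℝ} (eT : (2 - s ^ 2) ^ 2 * T ^ 4 = s ^ 4) (hEl : v₁ ≤ E)
    (hEu : E ≤ v₂) (ha : a = v₁ * (2 - s ^ 2) ^ 2 - 31 / 10 * s ^ 4 * v₂)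
    (hb : b = (2 - s ^ 2) ^ 2 * (1 - 31 / 10 * T ^ 4) * E) : a ≤ b := by
  have k1 : b = (2 - s ^ 2) ^ 2 * E - 31 / 10 * s ^ 4 * E := by
    rw [hb, ← eT]
    ring
  rw [k1, ha]
  have k2 := mul_le_mul_of_nonneg_left hEl (sq_nonneg (2 - s ^ 2))
  have k3 := mul_le_mul_of_nonneg_left hEu (by positivity : 0 ≤ 31 / 10 * s ^ 4)
  linarith

lemma Bds2.conv_key (h : Bds2 T s t W E ρ) {X X0 : ℝ} (hX : X ≤ X0)
    (h17 : 11 * (s ^ 2 / (2 * (1 - s ^ 2))) ≤ X0)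
    (h0 : 0 ≤ (2 - s ^ 2) ^ 2 * (s * vW s t - (X0 - 1) * ((1 - s) ^ 2 * uU s t)
          - 2 * (1 + 3 * t / 2) * T * ((1 - s) ^ 2 * uU s t))
        + (1 + 3 * t / 2) * T * (1 + T) * (2 - s ^ 2) * s / 2 * dE s t) :
    0 ≤ s * W + ρ - X * ρ - (1 + 3 * t / 2) * T
      * (2 * ρ - (1 + T) * (s * (2 - s ^ 2) * E / 2) * (1 - 31 / 10 * T ^ 4)) := by
  have hs0 := h.s0
  have hs1 := h.s1
  have ht0 := h.t0
  have hT0 := h.T0
  have hTs := h.Ts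
  have h3 : 0 < 1 - s ^ 2 := by nlinarith
  have h2' : 0 < 2 - s ^ 2 := by nlinarith
  have hf1 : 1 ≤ 1 + 3 * t / 2 := by linarith
  have e2 : X * ρ ≤ X0 * ρ := mul_le_mul_of_nonneg_right hX h.R0
  have eT : (2 - s ^ 2) ^ 2 * T ^ 4 = s ^ 4 := by
    have : (T ^ 2 * (2 - s ^ 2)) ^ 2 = (s ^ 2) ^ 2 := by rw [hTs]
    nlinarith
  have key : 0 ≤ s * W + ρ - X0 * ρ - (1 + 3 * t / 2) * T
      * (2 * ρ - (1 + T) * (s * (2 - s ^ 2) * E / 2) * (1 - 31 / 10 * T ^ 4)) := by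
    rcases le_total (X0 - 1 + 2 * (1 + 3 * t / 2) * T) 0 with hx | hx
    · have h5 : 0 ≤ (1 + 3 * t / 2) * T := by positivity
      have hX1 : X0 ≤ 1 := by linarith
      exact abs_case1 hT0 hs0 h2' hf1 h.W0 h.E0 h.R0 (abs_T4 hTs h3 (by linarith)) hx
    · exact abs_case2 hT0 hs0 h2' hf1 hx h.Ru h.Wl (abs_E eT h.El h.Eu rfl rfl) h0
  linarith

/-- what the polynomial inequalities give, first type -/
lemma Bds2.type1 (h : Bds2 T s t W E ρ) {l0 : ℝ} (hl : l ≤ l0) (h11 : 11 ≤ l0)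
    (hU : 0 ≤ dU l0 s t) (hA : 0 ≤ dA l0 s t) (hC : 0 ≤ dA l0 s t + Tu s * dB s t) :
    0 ≤ s * W + ρ - l * ((1 + t / 2) * (1 + t)) * (s ^ 2 / (2 * (1 - s ^ 2))) * ρ ∧
    0 ≤ s * W + ρ - l * ((1 + t / 2) * (1 + t)) * (s ^ 2 / (2 * (1 - s ^ 2))) * ρ
      - (1 + 3 * t / 2) * T
        * (2 * ρ - (1 + T) * (s * (2 - s ^ 2) * E / 2) * (1 - 31 / 10 * T ^ 4)) := by
  have hT0 := h.T0
  have hs0 := h.s0
  have hs1 := h.s1
  have ht0 := h.t0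
  have h1 : 0 < 1 - s := by linarith
  have h2 : 0 < 1 + s := by linarith
  have h3 : 0 < 1 - s ^ 2 := by nlinarith
  set g := (1 + t / 2) * (1 + t) with hgd
  have hg1 : 1 ≤ g := by nlinarith
  set Z := s ^ 2 / (2 * (1 - s ^ 2)) with hZ
  have hZ0 : 0 ≤ Z := by positivity
  have hX : l * g * Z ≤ l0 * g * Z :=
    mul_le_mul_of_nonneg_right (mul_le_mul_of_nonneg_right hl (by positivity)) hZ0
  have e6 : dU l0 s t = 2 * (1 + s) * (s * vW s t - (l0 * g * Z - 1) * ((1 - s) ^ 2 * uU s t)) := by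
    rw [dU, hZ]
    have : (1 - s ^ 2) = (1 - s) * (1 + s) := by ring
    rw [this]
    field_simp
    ring
  refine ⟨?_, ?_⟩
  · rw [e6] at hU
    exact h.alpha_key hX (nonneg_of_mul_nonneg_right hU (by positivity))
  · refine h.conv_key hX ?_ ?_
    · have h5 : 11 ≤ l0 * g := by nlinarith
      exact mul_le_mul_of_nonneg_right h5 hZ0
    · have e5 : 0 ≤ dA l0 s t + T * dB s t := by
        have hTu := le_Tu hs0.le hs1.le hT0.le h.Ts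
        rcases le_total 0 (dB s t) with hb | hb
        · have := mul_nonneg hT0.le hb
          linarith
        · have := mul_le_mul_of_nonpos_right hTu hb
          linarith
      have e7 : dA l0 s t + T * dB s t = 2 * (1 + s) * ((2 - s ^ 2) ^ 2 * (s * vW s t
          - (l0 * g * Z - 1) * ((1 - s) ^ 2 * uU s t)
          - 2 * (1 + 3 * t / 2) * T * ((1 - s) ^ 2 * uU s t))
          + (1 + 3 * t / 2) * T * (1 + T) * (2 - s ^ 2) * s / 2 * dE s t) := by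
        rw [dA, dB, e6]
        have : s ^ 3 = T ^ 2 * (2 - s ^ 2) * s := by rw [h.Ts]; ring
        rw [this]
        ring
      rw [e7] at e5
      exact nonneg_of_mul_nonneg_right e5 (by positivity)

/-- what the polynomial inequalities give, second type -/
lemma Bds2.type2 (h : Bds2 T s t W E ρ) {l0 : ℝ} (hl : (1 - T ^ 2) * l ≤ l0) (h11 : 11 ≤ l0)
    (hU : 0 ≤ dV l0 s t) (hA : 0 ≤ dA4 l0 s t) (hC : 0 ≤ dA4 l0 s t + Tu s * dB4 s t) :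
    0 ≤ s * W + ρ - l * ((1 + t / 2) * (1 + t)) * (s ^ 2 / (2 * (1 - s ^ 2))) * ρ ∧
    0 ≤ s * W + ρ - l * ((1 + t / 2) * (1 + t)) * (s ^ 2 / (2 * (1 - s ^ 2))) * ρ
      - (1 + 3 * t / 2) * T
        * (2 * ρ - (1 + T) * (s * (2 - s ^ 2) * E / 2) * (1 - 31 / 10 * T ^ 4)) := by
  have hk := h.kap
  have hT0 := h.T0
  have hs0 := h.s0
  have hs1 := h.s1
  have ht0 := h.t0
  have h1 : 0 < 1 - s := by linarith
  have h2 : 0 < 1 + s := by linarith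
  have h3 : 0 < 1 - s ^ 2 := by nlinarith
  have h4 : 0 < 2 - s ^ 2 := by nlinarith
  set g := (1 + t / 2) * (1 + t) with hgd
  have hg1 : 1 ≤ g := by nlinarith
  set Z := s ^ 2 / (2 * (1 - s ^ 2)) with hZ
  have hZ0 : 0 ≤ Z := by positivity
  set V := (2 - s ^ 2) / (2 * (1 - s ^ 2)) with hV
  have hV1 : 1 ≤ V := by
    rw [hV, le_div_iff₀ (by positivity)]
    nlinarith [sq_nonneg s]
  have hl2 : l ≤ l0 * V := by
    rw [hV, mul_div_assoc', le_div_iff₀ (by positivity), ← hk]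
    have := mul_le_mul_of_nonneg_right hl h4.le
    linarith
  have hX : l * g * Z ≤ l0 * V * g * Z :=
    mul_le_mul_of_nonneg_right (mul_le_mul_of_nonneg_right hl2 (by positivity)) hZ0
  have e6 : dV l0 s t = 4 * (1 + s) ^ 2
      * (s * vW s t - (l0 * V * g * Z - 1) * ((1 - s) ^ 2 * uU s t)) := by
    rw [dV, hZ, hV]
    have : (1 - s ^ 2) = (1 - s) * (1 + s) := by ring
    rw [this]
    field_simp
    ring
  refine ⟨?_, ?_⟩
  · rw [e6] at hU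
    exact h.alpha_key hX (nonneg_of_mul_nonneg_right hU (by positivity))
  · refine h.conv_key hX ?_ ?_
    · have h5 : 11 ≤ l0 * V := by nlinarith
      have h6 : 11 ≤ l0 * V * g := by nlinarith
      exact mul_le_mul_of_nonneg_right h6 hZ0
    · have e5 : 0 ≤ dA4 l0 s t + T * dB4 s t := by
        have hTu := le_Tu hs0.le hs1.le hT0.le h.Ts
        rcases le_total 0 (dB4 s t) with hb | hb
        · have := mul_nonneg hT0.le hb
          linarith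
        · have := mul_le_mul_of_nonpos_right hTu hb
          linarith
      have e7 : dA4 l0 s t + T * dB4 s t = 4 * (1 + s) ^ 2 * ((2 - s ^ 2) ^ 2 * (s * vW s t
          - (l0 * V * g * Z - 1) * ((1 - s) ^ 2 * uU s t)
          - 2 * (1 + 3 * t / 2) * T * ((1 - s) ^ 2 * uU s t))
          + (1 + 3 * t / 2) * T * (1 + T) * (2 - s ^ 2) * s / 2 * dE s t) := by
        rw [dA4, dB4, e6]
        have : s ^ 3 = T ^ 2 * (2 - s ^ 2) * s := by rw [h.Ts]; ring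
        rw [this]
        ring
      rw [e7] at e5
      exact nonneg_of_mul_nonneg_right e5 (by positivity)

/-- positivity of α and the convexity condition -/
theorem Bds2.both (h : Bds2 T s t W E ρ) (hl : Adm t (1 - T ^ 2) l) :
    0 ≤ s * W + ρ - l * ((1 + t / 2) * (1 + t)) * (s ^ 2 / (2 * (1 - s ^ 2))) * ρ ∧
    0 ≤ s * W + ρ - l * ((1 + t / 2) * (1 + t)) * (s ^ 2 / (2 * (1 - s ^ 2))) * ρ
      - (1 + 3 * t / 2) * T
        * (2 * ρ - (1 + T) * (s * (2 - s ^ 2) * E / 2) * (1 - 31 / 10 * T ^ 4)) := by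
  have h0 := h.s0.le
  have h1 := h.s1.le
  have t0 := h.t0
  have t1 := h.t1
  rcases hl with (hl | hl) | ⟨ht, hl | hl⟩ | ⟨ht, hl | hl⟩
  · exact h.type1 hl (by norm_num) (dU_a_nonneg h0 h1 t0 t1) (dA_a_nonneg h0 h1 t0 t1)
      (dC_a_nonneg h0 h1 t0 t1)
  · exact h.type2 hl (by norm_num) (dV_a_nonneg h0 h1 t0 t1) (dG_a_nonneg h0 h1 t0 t1)
      (dH_a_nonneg h0 h1 t0 t1)
  · exact h.type1 hl (by norm_num) (dU_b_nonneg h0 h1 t0 ht) (dA_b_nonneg h0 h1 t0 ht)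
      (dC_b_nonneg h0 h1 t0 ht)
  · exact h.type2 hl (by norm_num) (dV_b_nonneg h0 h1 t0 ht) (dG_b_nonneg h0 h1 t0 ht)
      (dH_b_nonneg h0 h1 t0 ht)
  · exact h.type1 hl (by norm_num) (dU_c_nonneg h0 h1 t0 ht) (dA_c_nonneg h0 h1 t0 ht)
      (dC_c_nonneg h0 h1 t0 ht)
  · exact h.type2 hl (by norm_num) (dV_c_nonneg h0 h1 t0 ht) (dG_c_nonneg h0 h1 t0 ht)
      (dH_c_nonneg h0 h1 t0 ht)

/-- the bound of e - 2 r -/
theorem Bds2.er (h : Bds2 T s t W E ρ) :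
    0 ≤ 2 * ρ - (1 - 31 / 20 * T ^ 4) * (s * (1 - s ^ 2) * E) := by
  obtain ⟨hT0, hs0, hs1, hTs, ht0, ht1, hW0, hE0, hR0, hWl, hEl, hEu, hRl, hRu⟩ := h
  have h2 : 0 < 2 - s ^ 2 := by nlinarith
  have h3 : 0 < 1 - s ^ 2 := by nlinarith
  have e1 : (2 - s ^ 2) ^ 2 * T ^ 4 = s ^ 4 := by
    have : (T ^ 2 * (2 - s ^ 2)) ^ 2 = (s ^ 2) ^ 2 := by rw [hTs]
    nlinarith
  have e2 : (2 - s ^ 2) ^ 2 * (2 * ρ - (1 - 31 / 20 * T ^ 4) * (s * (1 - s ^ 2) * E))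
      = 2 * ρ * (2 - s ^ 2) ^ 2 - ((2 - s ^ 2) ^ 2 - 31 / 20 * s ^ 4) * (s * (1 - s ^ 2) * E) := by
    rw [← e1]
    ring
  have e3 : 0 ≤ (2 - s ^ 2) ^ 2 * (2 * ρ - (1 - 31 / 20 * T ^ 4) * (s * (1 - s ^ 2) * E)) := by
    rw [e2]
    have k1 : 2 * ((1 - s) ^ 2 * uL s t) * (2 - s ^ 2) ^ 2 ≤ 2 * ρ * (2 - s ^ 2) ^ 2 :=
      mul_le_mul_of_nonneg_right (by linarith) (sq_nonneg _)
    have hs : 0 ≤ s * (1 - s ^ 2) := by positivity
    rcases le_total s (23 / 25) with hc | hc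
    · have k2 := dF1_nonneg hs0.le hc ht0 ht1
      unfold dF1 at k2
      have hz : s ^ 2 ≤ 529 / 625 := by nlinarith
      have k3 : 0 ≤ (2 - s ^ 2) ^ 2 - 31 / 20 * s ^ 4 := by
        have : s ^ 4 = (s ^ 2) ^ 2 := by ring
        rw [this]
        nlinarith [sq_nonneg s]
      have k4 := mul_le_mul_of_nonneg_left (mul_le_mul_of_nonneg_left hEu hs) k3
      linarith
    · have k2 := dF2_nonneg hc hs1.le ht0 ht1
      unfold dF2 at k2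
      have k3 := mul_le_mul_of_nonneg_left hEu (mul_nonneg hs (sq_nonneg (2 - s ^ 2)))
      have k4 := mul_le_mul_of_nonneg_left hEl (mul_nonneg hs (by positivity : 0 ≤ 31 / 20 * s ^ 4))
      linarith
  exact nonneg_of_mul_nonneg_right e3 (by positivity)

end Vale.Agent.P224.R2.H627
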