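import Vale.Agent.P224.R2.H627.Qm

/-!
Rational bounds of the constants and of all linear combinations of the moments.
-/

namespace Vale.Agent.P224.R2.H627

open Real Vale.Agent.P224.SM2 Vale.Agent.P224.R2.H820

/-- Newton iteration for the integer square root -/
def nwt : ℕ → ℕ → ℕ → ℕ
  | 0, _, s => s
  | k + 1, n, s => nwt k n ((s + n / s) / 2)

def bN (q : ℚ) : ℕ := q.num.toNat * 10 ^ 20 / q.den

/-- lower bound of the square root -/
def blo (q : ℚ) : ℚ :=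
  let n := bN q
  let s := nwt 14 n (10 ^ 10)
  if s * s ≤ n then (s : ℚ) / 10 ^ 10 else 0

/-- upper bound of the square root -/
def bhi (q : ℚ) : ℚ :=
  let n := bN q
  let s := nwt 14 n (10 ^ 10)
  if n + 1 ≤ (s + 1) * (s + 1) then ((s : ℚ) + 1) / 10 ^ 10 else q + 1

lemma num_toNat {q : ℚ} (hq : 0 ≤ q) : (q.num.toNat : ℚ) = q * q.den := by
  have h1 : (0 : ℤ) ≤ q.num := Rat.num_nonneg.2 hq
  have h2 : ((q.num.toNat : ℤ) : ℚ) = q.num := by rw [Int.toNat_of_nonneg h1]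
  rw [Rat.mul_den_eq_num, ← h2, Int.cast_natCast]

lemma bN_le {q : ℚ} (hq : 0 ≤ q) : (bN q : ℚ) ≤ q * 10 ^ 20 := by
  unfold bN
  have h1 : (0 : ℚ) < q.den := by exact_mod_cast q.den_pos
  have h := Nat.cast_div_le (α := ℚ) (m := q.num.toNat * 10 ^ 20) (n := q.den)
  refine h.trans (le_of_eq ?_)
  rw [Nat.cast_mul, num_toNat hq, Nat.cast_pow, Nat.cast_ofNat, mul_right_comm,
    mul_div_cancel_right₀ _ h1.ne']

lemma lt_bN {q : ℚ} (hq : 0 ≤ q) : q * 10 ^ 20 ≤ bN q + 1 := by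
  unfold bN
  have h1 : (0 : ℚ) < q.den := by exact_mod_cast q.den_pos
  have h := Nat.lt_div_mul_add (a := q.num.toNat * 10 ^ 20) (b := q.den) q.den_pos
  have h2 : ((q.num.toNat * 10 ^ 20 : ℕ) : ℚ)
      < ((q.num.toNat * 10 ^ 20 / q.den * q.den + q.den : ℕ) : ℚ) := by exact_mod_cast h
  push_cast at h2
  rw [num_toNat hq] at h2
  have h3 : q.den * (q * 10 ^ 20) < q.den
      * (((q.num.toNat * 10 ^ 20 / q.den : ℕ) : ℚ) + 1) := by
    push_cast
    linarith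
  exact (lt_of_mul_lt_mul_left h3 h1.le).le

lemma blo_nonneg (q : ℚ) : 0 ≤ blo q := by
  unfold blo
  simp only
  split_ifs <;> positivity

lemma blo_sq {q : ℚ} (hq : 0 ≤ q) : blo q ^ 2 ≤ q := by
  unfold blo
  simp only
  split_ifs with h
  · have h1 := bN_le hq
    have h2 : ((nwt 14 (bN q) (10 ^ 10) : ℕ) : ℚ) * (nwt 14 (bN q) (10 ^ 10) : ℕ) ≤ bN q := by
      exact_mod_cast h
    rw [div_pow, div_le_iff₀ (by positivity)]
    nlinarith
  · simpa using hq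

lemma bhi_sq {q : ℚ} (hq : 0 ≤ q) : q ≤ bhi q ^ 2 := by
  unfold bhi
  simp only
  split_ifs with h
  · have h1 := lt_bN hq
    have h2 : ((bN q : ℚ) + 1) ≤ ((nwt 14 (bN q) (10 ^ 10) : ℕ) + 1)
        * ((nwt 14 (bN q) (10 ^ 10) : ℕ) + 1) := by exact_mod_cast h
    rw [div_pow, le_div_iff₀ (by positivity)]
    nlinarith
  · nlinarith

lemma bhi_nonneg {q : ℚ} (hq : 0 ≤ q) : 0 ≤ bhi q := by
  unfold bhi
  simp only
  split_ifs <;> positivity

def piL : ℚ := 314159265358979323846 / 10 ^ 20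
def piU : ℚ := 314159265358979323847 / 10 ^ 20

lemma piL_le : (piL : ℝ) ≤ π := by
  have h := pi_gt_d20
  refine le_trans (le_of_eq ?_) h.le
  unfold piL
  norm_num

lemma le_piU : π ≤ (piU : ℝ) := by
  have h := pi_lt_d20
  refine h.le.trans (le_of_eq ?_)
  unfold piU
  norm_num

/-- lower bound of `B_0` -/
def b1 (m : ℚ) : ℚ := blo (piL / (2 * m - 1 + 1 / (4 * m - 2)))
/-- upper bound of `B_0` -/
def b2 (m : ℚ) : ℚ := bhi (piU / (2 * m - 1 + 1 / (4 * m - 1)))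

variable {m : ℕ}

lemma b1_le (hm : 4 ≤ m) : (b1 m : ℝ) ≤ BM m := by
  have h2 : (4 : ℚ) ≤ m := by exact_mod_cast hm
  have h3 : (0 : ℚ) < 4 * m - 2 := by linarith
  have h0 : (0 : ℚ) < 2 * m - 1 + 1 / (4 * m - 2) := by
    have : (0 : ℚ) < 1 / (4 * m - 2) := by positivity
    linarith
  have hq : (0 : ℚ) ≤ piL / (2 * m - 1 + 1 / (4 * m - 2)) :=
    div_nonneg (by unfold piL; positivity) h0.le
  have h := blo_sq hq
  have h4 := BM_sq_ge (m := m) (by omega)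
  have h7 : (0 : ℝ) ≤ 2 * m - 1 + 1 / (4 * m - 2) := by exact_mod_cast h0.le
  unfold b1
  generalize blo (piL / (2 * m - 1 + 1 / (4 * m - 2))) = B at *
  have h6 : ((B ^ 2 : ℚ) : ℝ) ≤ ((piL / (2 * m - 1 + 1 / (4 * m - 2)) : ℚ) : ℝ) :=
    Rat.cast_le.2 h
  have h5 : (B : ℝ) ^ 2 ≤ BM m ^ 2 := by
    refine le_trans ?_ h4
    push_cast at h6
    exact h6.trans (div_le_div_of_nonneg_right piL_le h7)
  exact (le_abs_self _).trans (abs_le_of_sq_le_sq h5 (BM_pos (by omega)).le)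

lemma le_b2 (hm : 4 ≤ m) : BM m ≤ (b2 m : ℝ) := by
  have h2 : (4 : ℚ) ≤ m := by exact_mod_cast hm
  have h3 : (0 : ℚ) < 4 * m - 1 := by linarith
  have h0 : (0 : ℚ) < 2 * m - 1 + 1 / (4 * m - 1) := by
    have : (0 : ℚ) < 1 / (4 * m - 1) := by positivity
    linarith
  have hq : (0 : ℚ) ≤ piU / (2 * m - 1 + 1 / (4 * m - 1)) :=
    div_nonneg (by unfold piU; positivity) h0.le
  have h := bhi_sq hq
  have h8 := bhi_nonneg hq
  have h4 := BM_sq_le (m := m) (by omega)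
  have h7 : (0 : ℝ) ≤ 2 * m - 1 + 1 / (4 * m - 1) := by exact_mod_cast h0.le
  unfold b2
  generalize bhi (piU / (2 * m - 1 + 1 / (4 * m - 1))) = B at *
  have h6 : ((piU / (2 * m - 1 + 1 / (4 * m - 1)) : ℚ) : ℝ) ≤ ((B ^ 2 : ℚ) : ℝ) :=
    Rat.cast_le.2 h
  have h5 : BM m ^ 2 ≤ (B : ℝ) ^ 2 := by
    refine h4.trans ?_
    push_cast at h6
    exact (div_le_div_of_nonneg_right le_piU h7).trans h6
  have h9 : (0 : ℝ) ≤ B := Rat.cast_nonneg.2 h8
  exact (le_abs_self _).trans (abs_le_of_sq_le_sq h5 h9)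

/-- lower bound of `m r (0)` -/
def gq1 (m : ℚ) : ℚ := 70710678118 / 10 ^ 11 * (2 / 3 + 7 / 10 / m - 105134 / 86625 / m ^ 2)
/-- upper bound of `m r (0)` -/
def gq2 (m : ℚ) : ℚ := 70710678119 / 10 ^ 11 * (2 / 3 + 7 / 10 / m + 51118 / 86625 / m ^ 2)
def xq1 (m : ℚ) : ℚ := (1 + 2 / 3 / m - 14 / 5 / m ^ 2) / m
def xq2 (m : ℚ) : ℚ := (1 + 2 / 3 / m + 19 / 100 / m ^ 2) / m
def yq1 (m : ℚ) : ℚ := piL / 2 / (m - 1 + 1 / (2 * m - 2))
def yq2 (m : ℚ) : ℚ := piU / 2 / (m - 1 + 1 / (2 * m - 1))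

lemma gq1_nonneg {m : ℚ} (hm : 17 ≤ m) : 0 ≤ 2 / 3 + 7 / 10 / m - 105134 / 86625 / m ^ 2 := by
  have h0 : 0 < m := by linarith
  have h1 : 105134 / 86625 / m ^ 2 ≤ 2 / 3 := by
    rw [div_le_iff₀ (by positivity)]
    nlinarith
  have h2 : 0 ≤ 7 / 10 / m := by positivity
  linarith

lemma gq1_le (hm : 17 ≤ m) : (gq1 m : ℝ) ≤ m * rM m 0 := by
  have hm' : (17 : ℚ) ≤ m := by exact_mod_cast hm
  have h := rM_zero_ge2 hm
  have h0 : (0 : ℝ) ≤ 2 / 3 + 7 / 10 / m - 105134 / 86625 / m ^ 2 := by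
    have h9 := (Rat.cast_le (K := ℝ)).2 (gq1_nonneg hm')
    push_cast at h9
    exact h9
  have h2 : √(2 : ℝ) ^ 2 = 2 := sq_sqrt (by norm_num)
  have h3 : 0 < √(2 : ℝ) := by positivity
  have h5 : 70710678118 / 10 ^ 11 * √(2 : ℝ) ≤ 1 := by
    have : (70710678118 / 10 ^ 11 * √(2 : ℝ)) ^ 2 ≤ 1 ^ 2 := by
      rw [mul_pow, h2]
      norm_num
    exact (le_abs_self _).trans (abs_le_of_sq_le_sq this (by norm_num))
  have h6 : 0 ≤ (m : ℝ) * rM m 0 := by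
    have : 0 ≤ √(2 : ℝ) * (m * rM m 0) := h0.trans h
    exact nonneg_of_mul_nonneg_right this h3
  unfold gq1
  push_cast
  have h7 := mul_le_mul_of_nonneg_left h (by norm_num : (0 : ℝ) ≤ 70710678118 / 10 ^ 11)
  have h8 := mul_le_mul_of_nonneg_right h5 h6
  linarith

lemma le_gq2 (hm : 17 ≤ m) : m * rM m 0 ≤ (gq2 m : ℝ) := by
  have h := rM_zero_le2 hm
  have h2 : √(2 : ℝ) ^ 2 = 2 := sq_sqrt (by norm_num)
  have h3 : 0 < √(2 : ℝ) := by positivity
  have h5 : 1 ≤ 70710678119 / 10 ^ 11 * √(2 : ℝ) := by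
    have : 1 ^ 2 ≤ (70710678119 / 10 ^ 11 * √(2 : ℝ)) ^ 2 := by
      rw [mul_pow, h2]
      norm_num
    have h9 := abs_le_of_sq_le_sq this (by positivity)
    rwa [abs_one] at h9
  have hm' : (17 : ℚ) ≤ m := by exact_mod_cast hm
  have h0 : (0 : ℝ) ≤ 2 / 3 + 7 / 10 / m - 105134 / 86625 / m ^ 2 := by
    have h9 := (Rat.cast_le (K := ℝ)).2 (gq1_nonneg hm')
    push_cast at h9
    exact h9
  have h6 : 0 ≤ (m : ℝ) * rM m 0 := by
    have : 0 ≤ √(2 : ℝ) * (m * rM m 0) := h0.trans (rM_zero_ge2 hm)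
    exact nonneg_of_mul_nonneg_right this h3
  unfold gq2
  push_cast
  have h7 := mul_le_mul_of_nonneg_left h (by norm_num : (0 : ℝ) ≤ 70710678119 / 10 ^ 11)
  have h8 := mul_le_mul_of_nonneg_right h5 h6
  linarith

/-- rational lower bound of `A + B Y_0 + C R_0 + D r (0)` -/
def lowv (m : ℚ) (v : ℚ × ℚ × ℚ × ℚ) : ℚ :=
  let B := v.2.1
  let C := v.2.2.1 / m
  let D := v.2.2.2 / m
  let B1 := b1 m
  let B2 := b2 m
  let Y := if 0 ≤ B then B * (yq1 m / B2) else B * (yq2 m / B1)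
  let X := if 0 ≤ C then -(C * xq2 m) else -(C * xq1 m)
  let g := (if 0 ≤ C then C * B1 else C * B2) + D
  let G := if 0 ≤ g then g * gq1 m else g * gq2 m
  v.1 + Y + X + G

theorem lowv_le (hm : 17 ≤ m) (h1 : 0 < b1 m) (v : ℚ × ℚ × ℚ × ℚ) :
    ((lowv m v : ℚ) : ℝ) ≤ val4 m v := by
  obtain ⟨A, B, C0, D0⟩ := v
  have hmR : (17 : ℝ) ≤ m := by exact_mod_cast hm
  have hm0 : (0 : ℝ) < m := by linarith
  have k1 := b1_le (m := m) (by omega)
  have k2 := le_b2 (m := m) (by omega)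
  have k3 := gq1_le hm
  have k4 := le_gq2 hm
  have k5 := mRM_le hm
  have k6 := mRM_ge hm
  have k7 := YB_le (m := m) (by omega)
  have k8 := YB_ge (m := m) (by omega)
  have k9 := BM_pos (m := m) (by omega)
  have k10 := piL_le
  have k11 := le_piU
  have h1' : (0 : ℝ) < b1 m := by exact_mod_cast h1
  have hY := (YM_pos (m := m) (by omega) 0).le
  unfold lowv val4
  simp only
  generalize b1 (m : ℚ) = B1 at *
  generalize b2 (m : ℚ) = B2 at *
  have hB2 : (0 : ℝ) < B2 := k9.trans_le k2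
  have hg : (0 : ℝ) ≤ m * rM m 0 := by
    have h0 : (0 : ℚ) ≤ gq1 m := by
      unfold gq1
      have hm' : (17 : ℚ) ≤ m := by exact_mod_cast hm
      exact mul_nonneg (by norm_num) (gq1_nonneg hm')
    have : (0 : ℝ) ≤ gq1 m := by exact_mod_cast h0
    linarith
  -- bounds of Y_0
  have hY1 : ((yq1 m / B2 : ℚ) : ℝ) ≤ YM m 0 := by
    have e : ((yq1 m / B2 : ℚ) : ℝ) = (piL : ℝ) / 2 / (m - 1 + 1 / (2 * m - 2)) / B2 := by
      unfold yq1
      push_cast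
      ring
    rw [e, div_le_iff₀ hB2]
    have h5 : (0 : ℝ) ≤ m - 1 + 1 / (2 * m - 2) := by
      have h6 : (0 : ℝ) < 2 * m - 2 := by linarith
      have h7 : (0 : ℝ) < 1 / (2 * m - 2) := by positivity
      linarith
    have h6 : (piL : ℝ) / 2 / (m - 1 + 1 / (2 * m - 2)) ≤ π / 2 / (m - 1 + 1 / (2 * m - 2)) :=
      div_le_div_of_nonneg_right (by linarith) h5
    have h7 := mul_le_mul_of_nonneg_left k2 hY
    linarith
  have hY2 : YM m 0 ≤ ((yq2 m / B1 : ℚ) : ℝ) := by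
    have e : ((yq2 m / B1 : ℚ) : ℝ) = (piU : ℝ) / 2 / (m - 1 + 1 / (2 * m - 1)) / B1 := by
      unfold yq2
      push_cast
      ring
    rw [e, le_div_iff₀ h1']
    have h5 : (0 : ℝ) ≤ m - 1 + 1 / (2 * m - 1) := by
      have h6 : (0 : ℝ) < 2 * m - 1 := by linarith
      have h7 : (0 : ℝ) < 1 / (2 * m - 1) := by positivity
      linarith
    have h6 : π / 2 / (m - 1 + 1 / (2 * m - 1)) ≤ (piU : ℝ) / 2 / (m - 1 + 1 / (2 * m - 1)) :=
      div_le_div_of_nonneg_right (by linarith) h5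
    have h7 := mul_le_mul_of_nonneg_left k1 hY
    linarith
  have pY : ((if 0 ≤ B then B * (yq1 m / B2) else B * (yq2 m / B1) : ℚ) : ℝ) ≤ B * YM m 0 := by
    split_ifs with hB
    · have hB' : (0 : ℝ) ≤ B := by exact_mod_cast hB
      rw [Rat.cast_mul]
      exact mul_le_mul_of_nonneg_left hY1 hB'
    · have hB' : (B : ℝ) ≤ 0 := by exact_mod_cast (le_of_not_ge hB)
      rw [Rat.cast_mul]
      exact mul_le_mul_of_nonpos_left hY2 hB'
  -- the part with R_0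
  set X : ℝ := m * rM m 0 * BM m - m * RM m 0 with hX
  have hX1 : ((xq1 m : ℚ) : ℝ) ≤ X := by
    unfold xq1
    push_cast
    linarith
  have hX2 : X ≤ ((xq2 m : ℚ) : ℝ) := by
    unfold xq2
    push_cast
    linarith
  have hC : ((C0 / (m : ℚ) : ℚ) : ℝ) = (C0 : ℝ) / m := by push_cast; ring
  have hD : ((D0 / (m : ℚ) : ℚ) : ℝ) = (D0 : ℝ) / m := by push_cast; ring
  generalize (C0 / (m : ℚ) : ℚ) = C at *
  generalize (D0 / (m : ℚ) : ℚ) = D at *
  have pX : ((if 0 ≤ C then -(C * xq2 m) else -(C * xq1 m) : ℚ) : ℝ) ≤ -(C * X) := by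
    split_ifs with hB
    · have hB' : (0 : ℝ) ≤ C := by exact_mod_cast hB
      rw [Rat.cast_neg, Rat.cast_mul]
      exact neg_le_neg (mul_le_mul_of_nonneg_left hX2 hB')
    · have hB' : (C : ℝ) ≤ 0 := by exact_mod_cast (le_of_not_ge hB)
      rw [Rat.cast_neg, Rat.cast_mul]
      exact neg_le_neg (mul_le_mul_of_nonpos_left hX1 hB')
  have pg : (((if 0 ≤ C then C * B1 else C * B2) + D : ℚ) : ℝ) ≤ C * BM m + D := by
    split_ifs with hB
    · have hB' : (0 : ℝ) ≤ C := by exact_mod_cast hB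
      rw [Rat.cast_add, Rat.cast_mul]
      linarith [mul_le_mul_of_nonneg_left k1 hB']
    · have hB' : (C : ℝ) ≤ 0 := by exact_mod_cast (le_of_not_ge hB)
      rw [Rat.cast_add, Rat.cast_mul]
      linarith [mul_le_mul_of_nonpos_left k2 hB']
  generalize ((if 0 ≤ C then C * B1 else C * B2) + D : ℚ) = g at *
  have pG : ((if 0 ≤ g then g * gq1 m else g * gq2 m : ℚ) : ℝ) ≤ (C * BM m + D) * (m * rM m 0) := by
    have h9 := mul_le_mul_of_nonneg_right pg hg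
    refine le_trans ?_ h9
    split_ifs with hB
    · have hB' : (0 : ℝ) ≤ g := by exact_mod_cast hB
      rw [Rat.cast_mul]
      exact mul_le_mul_of_nonneg_left k3 hB'
    · have hB' : (g : ℝ) ≤ 0 := by exact_mod_cast (le_of_not_ge hB)
      rw [Rat.cast_mul]
      exact mul_le_mul_of_nonpos_left k4 hB'
  have e : (A : ℝ) + B * YM m 0 + C0 * RM m 0 + D0 * rM m 0
      = A + B * YM m 0 + -(C * X) + (C * BM m + D) * (m * rM m 0) := by
    rw [hC, hD, hX]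
    field_simp
    ring
  rw [e]
  push_cast at pY pX pG ⊢
  linarith

/-- the check -/
def lowOK (m : ℕ) (w : ℚ) (l : List (ℚ × ℚ × ℚ)) : Bool :=
  decide (0 < b1 m) && decide (w ≤ lowv m (red m l))

theorem lowOK_sound {w : ℚ} {l : List (ℚ × ℚ × ℚ)} (hm : 17 ≤ m) (h : lowOK m w l = true) :
    (w : ℝ) ≤ lc3 (YM m) (EM m) (RM m) l 0 := by
  rw [lowOK, Bool.and_eq_true, decide_eq_true_eq, decide_eq_true_eq] at h
  rw [← red_val (by omega) l]
  exact (Rat.cast_le.2 h.2).trans (lowv_le hm h.1 _)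

end Vale.Agent.P224.R2.H627
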