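import Vale.Agent.P224.R2.H627.PkR

/-!
The polynomial inequalities of one block of dimensions, by a kernel computation.
-/

namespace Vale.Agent.P224.R2.H627

open Rf

theorem pk_d_L : pkL 0 41 50 387 20 1 200 2 = true := by decide +kernel

theorem pk_d_K : pkK 0 41 50 133 10 1 200 0 = true := by decide +kernel

theorem pk_d_F : pkF 81 19 100 133 10 1 200 0 = true := by decide +kernel

theorem pk_d : Pk (387 / 20) (133 / 10) (1 / 200) := by
  have h1 := pkL_sound pk_d_L
  have h2 := pkK_sound pk_d_K
  have h3 := pkF_sound pk_d_F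
  push_cast at h1 h2 h3
  norm_num at h1 h2 h3
  exact pk_of (by norm_num) (by norm_num) (by norm_num) (by norm_num) h1 h2 h3

end Vale.Agent.P224.R2.H627
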