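import Vale.Agent.P224.R2.H627.Ode

/-!
Two sided bounds of the normalised weights, uniform in `a ≥ 9`.
-/

namespace Vale.Agent.P224.R2.H627

open MeasureTheory Set Filter Function Real Vale.Agent.P224.SM2 Vale.Agent.P224.R2.H820
open scoped Topology

variable {a c : ℝ} {T : ℝ}

section general

variable {q q' : ℝ → ℝ}

lemma tendsto_comp_hv (hq : ContinuousAt q 0) :
    Tendsto (fun T => q (hv T)) (𝓝[<] 1) (𝓝 (q 0)) := by
  have h1 : Tendsto (fun T => q (hv T)) (𝓝[<] 1) (𝓝 (q 0)) := hq.tendsto.comp tendsto_hv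
  exact h1

/-- upper comparison for P -/
theorem Pf_le_of (hc : 0 ≤ c) (ha : 3 ≤ a) (hq : ∀ h ∈ Ioo (0 : ℝ) 1, HasDerivAt q (q' h) h)
    (hq0 : ContinuousAt q 0) (hq1 : 0 ≤ q 0)
    (hres : ∀ T ∈ Ioo (0 : ℝ) 1, 3 / 4 * Wf a c T
      ≤ (a / hv T - 3 * hv T) * q (hv T) + (1 - hv T ^ 2) * q' (hv T))
    (hT : T ∈ Ioo (0 : ℝ) 1) : Pf a c T ≤ q (hv T) := by
  have ha2 : 2 ≤ a := by linarith
  have h := cmp (X := fun T => q (hv T) - Pf a c T) (A := fun T => a / hv T - 3 * hv T)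
    (B := fun T => (a / hv T - 3 * hv T) * q (hv T) + (1 - hv T ^ 2) * q' (hv T)
      - 3 / 4 * Wf a c T) (l := q 0 - 0) ?_ ?_ ?_ ?_ ?_ hT
  · simpa using h
  · intro T hT
    have h1 := (hasDerivAt_comp_hv hT.1.ne' (hq _ ⟨hv_pos hT, hv_lt_one hT⟩)).fun_sub
      (hasDerivAt_Pf (c := c) ha2 hT)
    refine h1.congr_deriv ?_
    have hT0 := hT.1.ne'
    field_simp
    ring
  · intro T hT
    have h1 := hv_pos hT
    have h2 := hv_lt_one hT
    have h3 : a ≤ a / hv T := by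
      rw [le_div_iff₀ h1]
      nlinarith
    linarith
  · intro T hT
    have := hres T hT
    linarith
  · exact (tendsto_comp_hv hq0).sub (tendsto_Pf hc ha2)
  · simpa using hq1

/-- lower comparison for P -/
theorem Pf_ge_of (hc : 0 ≤ c) (ha : 3 ≤ a) (hq : ∀ h ∈ Ioo (0 : ℝ) 1, HasDerivAt q (q' h) h)
    (hq0 : ContinuousAt q 0) (hq1 : q 0 ≤ 0)
    (hres : ∀ T ∈ Ioo (0 : ℝ) 1, (a / hv T - 3 * hv T) * q (hv T) + (1 - hv T ^ 2) * q' (hv T)
      ≤ 3 / 4 * Wf a c T)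
    (hT : T ∈ Ioo (0 : ℝ) 1) : q (hv T) ≤ Pf a c T := by
  have ha2 : 2 ≤ a := by linarith
  have h := cmp (X := fun T => Pf a c T - q (hv T)) (A := fun T => a / hv T - 3 * hv T)
    (B := fun T => 3 / 4 * Wf a c T - ((a / hv T - 3 * hv T) * q (hv T)
      + (1 - hv T ^ 2) * q' (hv T))) (l := 0 - q 0) ?_ ?_ ?_ ?_ ?_ hT
  · simpa using h
  · intro T hT
    have h1 := (hasDerivAt_Pf (c := c) ha2 hT).fun_sub
      (hasDerivAt_comp_hv hT.1.ne' (hq _ ⟨hv_pos hT, hv_lt_one hT⟩))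
    refine h1.congr_deriv ?_
    have hT0 := hT.1.ne'
    field_simp
    ring
  · intro T hT
    have h1 := hv_pos hT
    have h2 := hv_lt_one hT
    have h3 : a ≤ a / hv T := by
      rw [le_div_iff₀ h1]
      nlinarith
    linarith
  · intro T hT
    have := hres T hT
    linarith
  · exact (tendsto_Pf hc ha2).sub (tendsto_comp_hv hq0)
  · simpa using hq1

/-- upper comparison for E -/
theorem Ef_le_of (hc : 0 ≤ c) (ha : 2 ≤ a) (hq : ∀ h ∈ Ioo (0 : ℝ) 1, HasDerivAt q (q' h) h)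
    (hq0 : ContinuousAt q 0) (hq1 : 0 ≤ q 0)
    (hres : ∀ T ∈ Ioo (0 : ℝ) 1, a * (Wf a c T - 2 * (1 - hv T) * Pf a c T)
      ≤ (a / hv T + (1 - 3 * hv T) / 2) * q (hv T) + (1 - hv T ^ 2) * q' (hv T))
    (hT : T ∈ Ioo (0 : ℝ) 1) : Ef a c T ≤ q (hv T) := by
  have h := cmp (X := fun T => q (hv T) - Ef a c T)
    (A := fun T => a / hv T + (1 - 3 * hv T) / 2)
    (B := fun T => (a / hv T + (1 - 3 * hv T) / 2) * q (hv T) + (1 - hv T ^ 2) * q' (hv T)
      - a * (Wf a c T - 2 * (1 - hv T) * Pf a c T)) (l := q 0 - 0) ?_ ?_ ?_ ?_ ?_ hT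
  · simpa using h
  · intro T hT
    have h1 := (hasDerivAt_comp_hv hT.1.ne' (hq _ ⟨hv_pos hT, hv_lt_one hT⟩)).fun_sub
      (hasDerivAt_Ef (c := c) ha hT)
    refine h1.congr_deriv ?_
    have hT0 := hT.1.ne'
    field_simp
    ring
  · intro T hT
    have h1 := hv_pos hT
    have h2 := hv_lt_one hT
    have h3 : a ≤ a / hv T := by
      rw [le_div_iff₀ h1]
      nlinarith
    linarith
  · intro T hT
    have := hres T hT
    linarith
  · exact (tendsto_comp_hv hq0).sub (tendsto_Ef hc ha)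
  · simpa using hq1

/-- lower comparison for E -/
theorem Ef_ge_of (hc : 0 ≤ c) (ha : 2 ≤ a) (hq : ∀ h ∈ Ioo (0 : ℝ) 1, HasDerivAt q (q' h) h)
    (hq0 : ContinuousAt q 0) (hq1 : q 0 ≤ 0)
    (hres : ∀ T ∈ Ioo (0 : ℝ) 1, (a / hv T + (1 - 3 * hv T) / 2) * q (hv T)
      + (1 - hv T ^ 2) * q' (hv T) ≤ a * (Wf a c T - 2 * (1 - hv T) * Pf a c T))
    (hT : T ∈ Ioo (0 : ℝ) 1) : q (hv T) ≤ Ef a c T := by
  have h := cmp (X := fun T => Ef a c T - q (hv T))
    (A := fun T => a / hv T + (1 - 3 * hv T) / 2)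
    (B := fun T => a * (Wf a c T - 2 * (1 - hv T) * Pf a c T)
      - ((a / hv T + (1 - 3 * hv T) / 2) * q (hv T) + (1 - hv T ^ 2) * q' (hv T)))
    (l := 0 - q 0) ?_ ?_ ?_ ?_ ?_ hT
  · simpa using h
  · intro T hT
    have h1 := (hasDerivAt_Ef (c := c) ha hT).fun_sub
      (hasDerivAt_comp_hv hT.1.ne' (hq _ ⟨hv_pos hT, hv_lt_one hT⟩))
    refine h1.congr_deriv ?_
    have hT0 := hT.1.ne'
    field_simp
    ring
  · intro T hT
    have h1 := hv_pos hT
    have h2 := hv_lt_one hT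
    have h3 : a ≤ a / hv T := by
      rw [le_div_iff₀ h1]
      nlinarith
    linarith
  · intro T hT
    have := hres T hT
    linarith
  · exact (tendsto_Ef hc ha).sub (tendsto_comp_hv hq0)
  · simpa using hq1

/-- upper bound of W from the left end -/
theorem Wf_le_of (ha : 2 ≤ a) (hq : ∀ h ∈ Ioo (0 : ℝ) 1, HasDerivAt q (q' h) h)
    (hq0 : ContinuousOn q (Ioc 0 1)) (hq1 : Wf a c 0 ≤ q 1)
    (hres : ∀ T ∈ Ioo (0 : ℝ) 1, q' (hv T) ≤ Pf a c T)
    (hT : T ∈ Ico (0 : ℝ) 1) : Wf a c T ≤ q (hv T) := by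
  have hmono : MonotoneOn (fun T => q (hv T) - Wf a c T) (Ico 0 1) := by
    refine monotoneOn_of_deriv_nonneg (convex_Ico 0 1) ?_ ?_ ?_
    · refine ContinuousOn.sub ?_ (continuous_Wf ha).continuousOn
      refine hq0.comp continuous_hv.continuousOn fun x hx => ?_
      rcases eq_or_lt_of_le hx.1 with h | h
      · rw [← h, hv_zero]
        exact ⟨one_pos, le_rfl⟩
      · exact ⟨hv_pos ⟨h, hx.2⟩, (hv_lt_one ⟨h, hx.2⟩).le⟩
    · rw [interior_Ico]
      intro x hx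
      exact ((hasDerivAt_comp_hv hx.1.ne' (hq _ ⟨hv_pos hx, hv_lt_one hx⟩)).fun_sub
        (hasDerivAt_Wf (c := c) ha hx)).differentiableAt.differentiableWithinAt
    · rw [interior_Ico]
      intro x hx
      rw [((hasDerivAt_comp_hv hx.1.ne' (hq _ ⟨hv_pos hx, hv_lt_one hx⟩)).fun_sub
        (hasDerivAt_Wf (c := c) ha hx)).deriv]
      have h1 := hres x hx
      have h2 := hv_pos hx
      have h3 := hv_lt_one hx
      have h4 : 0 ≤ 1 - hv x ^ 2 := by nlinarith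
      have e : -(1 - hv x ^ 2) * q' (hv x) / x - -(1 - hv x ^ 2) * Pf a c x / x
          = (1 - hv x ^ 2) * (Pf a c x - q' (hv x)) / x := by ring
      rw [e]
      exact div_nonneg (mul_nonneg h4 (by linarith)) hx.1.le
  have h := hmono (a := 0) ⟨le_rfl, one_pos⟩ hT hT.1
  simp only [hv_zero] at h
  linarith

/-- lower bound of W from the left end -/
theorem Wf_ge_of (ha : 2 ≤ a) (hq : ∀ h ∈ Ioo (0 : ℝ) 1, HasDerivAt q (q' h) h)
    (hq0 : ContinuousOn q (Ioc 0 1)) (hq1 : q 1 ≤ Wf a c 0)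
    (hres : ∀ T ∈ Ioo (0 : ℝ) 1, Pf a c T ≤ q' (hv T))
    (hT : T ∈ Ico (0 : ℝ) 1) : q (hv T) ≤ Wf a c T := by
  have hmono : MonotoneOn (fun T => Wf a c T - q (hv T)) (Ico 0 1) := by
    refine monotoneOn_of_deriv_nonneg (convex_Ico 0 1) ?_ ?_ ?_
    · refine ContinuousOn.sub (continuous_Wf ha).continuousOn ?_
      refine hq0.comp continuous_hv.continuousOn fun x hx => ?_
      rcases eq_or_lt_of_le hx.1 with h | h
      · rw [← h, hv_zero]
        exact ⟨one_pos, le_rfl⟩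
      · exact ⟨hv_pos ⟨h, hx.2⟩, (hv_lt_one ⟨h, hx.2⟩).le⟩
    · rw [interior_Ico]
      intro x hx
      exact ((hasDerivAt_Wf (c := c) ha hx).fun_sub (hasDerivAt_comp_hv hx.1.ne'
        (hq _ ⟨hv_pos hx, hv_lt_one hx⟩))).differentiableAt.differentiableWithinAt
    · rw [interior_Ico]
      intro x hx
      rw [((hasDerivAt_Wf (c := c) ha hx).fun_sub (hasDerivAt_comp_hv hx.1.ne'
        (hq _ ⟨hv_pos hx, hv_lt_one hx⟩))).deriv]
      have h1 := hres x hx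
      have h2 := hv_pos hx
      have h3 := hv_lt_one hx
      have h4 : 0 ≤ 1 - hv x ^ 2 := by nlinarith
      have e : -(1 - hv x ^ 2) * Pf a c x / x - -(1 - hv x ^ 2) * q' (hv x) / x
          = (1 - hv x ^ 2) * (q' (hv x) - Pf a c x) / x := by ring
      rw [e]
      exact div_nonneg (mul_nonneg h4 (by linarith)) hx.1.le
  have h := hmono (a := 0) ⟨le_rfl, one_pos⟩ hT hT.1
  simp only [hv_zero] at h
  linarith

/-- the variable s, `s ^ 2 = 1 - h` -/
noncomputable def sv (T : ℝ) : ℝ := √2 * T / √(1 + T ^ 2)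

lemma sv_sq (T : ℝ) : sv T ^ 2 = 1 - hv T := by
  have h2 : √2 ^ 2 = 2 := sq_sqrt (by norm_num)
  unfold sv
  rw [one_sub_hv, div_pow, mul_pow, root_sq, h2]

lemma sv_nonneg (hT : 0 ≤ T) : 0 ≤ sv T := by
  have := root_pos T
  unfold sv
  positivity

lemma sv_pos (hT : T ∈ Ioo (0 : ℝ) 1) : 0 < sv T := by
  have := root_pos T
  have h := hT.1
  unfold sv
  positivity

lemma sv_lt_one (hT : T ∈ Ioo (0 : ℝ) 1) : sv T < 1 := by
  have h1 := sv_sq T
  have h2 := hv_pos hT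
  have h3 := sv_pos hT
  nlinarith

lemma sv_zero : sv 0 = 0 := by
  unfold sv
  simp

lemma sv_one : sv 1 = 1 := by
  unfold sv
  rw [show (1 : ℝ) + 1 ^ 2 = 2 by norm_num]
  have : √(2 : ℝ) ≠ 0 := by positivity
  field_simp

lemma continuous_sv : Continuous sv := by
  unfold sv
  exact Continuous.div (by fun_prop) (by fun_prop) fun T => (root_pos T).ne'

lemma hasDerivAt_sv (hT : T ≠ 0) : HasDerivAt sv (sv T * (1 + hv T) / 2 / T) T := by
  have h1 := ((hasDerivAt_id' T).const_mul √2).fun_div (hasDerivAt_root T) (root_pos T).ne'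
  refine h1.congr_deriv ?_
  have h3 := root_pos T
  have h4 := root_sq T
  rw [one_add_hv]
  unfold sv
  have h5 : (1 : ℝ) + T ^ 2 ≠ 0 := by positivity
  field_simp
  rw [h4]
  ring

lemma sv_coef (T : ℝ) : T / ((1 + T ^ 2) * √(1 + T ^ 2)) = sv T * (1 + hv T) / (2 * √2) := by
  have h3 := root_pos T
  have h2 : √(2 : ℝ) ≠ 0 := by positivity
  rw [one_add_hv]
  unfold sv
  have h5 : (1 : ℝ) + T ^ 2 ≠ 0 := by positivity
  field_simp

/-- upper comparison for R -/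
theorem Rf_le_of {G G' : ℝ → ℝ} (hc : 0 ≤ c) (ha : 2 ≤ a)
    (hG : ∀ s ∈ Ioo (0 : ℝ) 1, HasDerivAt G (G' s) s) (hG0 : ContinuousAt G 1) (hG1 : 0 ≤ G 1)
    (hres : ∀ T ∈ Ioo (0 : ℝ) 1, √2 * G' (sv T) ≤ -Ef a c T) (hT : T ∈ Ioo (0 : ℝ) 1) :
    Rf a c T ≤ G (sv T) := by
  have h := cmp (X := fun T => G (sv T) - Rf a c T) (A := fun _ => 0)
    (B := fun T => -(G' (sv T) * (sv T * (1 + hv T) / 2))
      - T / ((1 + T ^ 2) * √(1 + T ^ 2)) * Ef a c T) (l := G 1 - 0) ?_ ?_ ?_ ?_ ?_ hT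
  · simpa using h
  · intro T hT
    have h1 := ((hG _ ⟨sv_pos hT, sv_lt_one hT⟩).comp T (hasDerivAt_sv hT.1.ne')).fun_sub
      (hasDerivAt_Rf (c := c) hc ha hT)
    refine h1.congr_deriv ?_
    have hT0 := hT.1.ne'
    have h3 := (root_pos T).ne'
    have h5 : (1 : ℝ) + T ^ 2 ≠ 0 := by positivity
    field_simp
    ring
  · intro T _
    exact le_rfl
  · intro T hT
    have h1 := hres T hT
    have h2 := sv_pos hT
    have h3 := hv_pos hT
    have h5 : √(2 : ℝ) ^ 2 = 2 := sq_sqrt (by norm_num)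
    have h6 : 0 < √(2 : ℝ) := by positivity
    rw [sv_coef]
    have h7 : 0 ≤ sv T * (1 + hv T) / (2 * √2) := by positivity
    have h8 := mul_le_mul_of_nonneg_left h1 h7
    have e : sv T * (1 + hv T) / (2 * √2) * (√2 * G' (sv T))
        = G' (sv T) * (sv T * (1 + hv T) / 2) := by
      field_simp
    rw [e] at h8
    linarith
  · have h1 : Tendsto (fun T => G (sv T)) (𝓝[<] 1) (𝓝 (G 1)) := by
      have h2 := continuous_sv.continuousAt.tendsto (x := 1)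
      rw [sv_one] at h2
      exact (hG0.tendsto.comp h2).mono_left nhdsWithin_le_nhds
    exact h1.sub (tendsto_Rf hc ha)
  · simpa using hG1

/-- lower comparison for R -/
theorem Rf_ge_of {G G' : ℝ → ℝ} (hc : 0 ≤ c) (ha : 2 ≤ a)
    (hG : ∀ s ∈ Ioo (0 : ℝ) 1, HasDerivAt G (G' s) s) (hG0 : ContinuousAt G 1) (hG1 : G 1 ≤ 0)
    (hres : ∀ T ∈ Ioo (0 : ℝ) 1, -Ef a c T ≤ √2 * G' (sv T)) (hT : T ∈ Ioo (0 : ℝ) 1) :
    G (sv T) ≤ Rf a c T := by
  have h := cmp (X := fun T => Rf a c T - G (sv T)) (A := fun _ => 0)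
    (B := fun T => G' (sv T) * (sv T * (1 + hv T) / 2)
      + T / ((1 + T ^ 2) * √(1 + T ^ 2)) * Ef a c T) (l := 0 - G 1) ?_ ?_ ?_ ?_ ?_ hT
  · simpa using h
  · intro T hT
    have h1 := (hasDerivAt_Rf (c := c) hc ha hT).fun_sub
      ((hG _ ⟨sv_pos hT, sv_lt_one hT⟩).comp T (hasDerivAt_sv hT.1.ne'))
    refine h1.congr_deriv ?_
    have hT0 := hT.1.ne'
    have h3 := (root_pos T).ne'
    have h5 : (1 : ℝ) + T ^ 2 ≠ 0 := by positivity
    field_simp
    ring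
  · intro T _
    exact le_rfl
  · intro T hT
    have h1 := hres T hT
    have h2 := sv_pos hT
    have h3 := hv_pos hT
    have h5 : √(2 : ℝ) ^ 2 = 2 := sq_sqrt (by norm_num)
    have h6 : 0 < √(2 : ℝ) := by positivity
    rw [sv_coef]
    have h7 : 0 ≤ sv T * (1 + hv T) / (2 * √2) := by positivity
    have h8 := mul_le_mul_of_nonneg_left h1 h7
    have e : sv T * (1 + hv T) / (2 * √2) * (√2 * G' (sv T))
        = G' (sv T) * (sv T * (1 + hv T) / 2) := by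
      field_simp
    rw [e] at h8
    linarith
  · have h1 : Tendsto (fun T => G (sv T)) (𝓝[<] 1) (𝓝 (G 1)) := by
      have h2 := continuous_sv.continuousAt.tendsto (x := 1)
      rw [sv_one] at h2
      exact (hG0.tendsto.comp h2).mono_left nhdsWithin_le_nhds
    exact (tendsto_Rf hc ha).sub h1
  · simpa using hG1

end general

end Vale.Agent.P224.R2.H627
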