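import Mathlib

/-!
A decision procedure for the positivity of a polynomial with integer coefficients on `[0, n]`:
Taylor shift by one and a trivial lower bound on `[0, 1]`.
-/

namespace Vale.Agent.P224.R2.H627

/-- evaluation of a list of coefficients -/
def ev : List ℤ → ℝ → ℝ
  | [], _ => 0
  | c :: l, x => c + x * ev l x

/-- `(c + x r) ` at `x + 1`, with `r` already shifted: `c + (1 + x) r` -/
def mulX (p : ℤ) : List ℤ → List ℤ
  | [] => [p]
  | b :: r => (p + b) :: mulX b r

lemma ev_mulX (p : ℤ) (r : List ℤ) (x : ℝ) : ev (mulX p r) x = p + (1 + x) * ev r x := by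
  induction r generalizing p with
  | nil => simp [mulX, ev]
  | cons b r ih =>
    simp only [mulX, ev, ih]
    push_cast
    ring

/-- Taylor shift by one -/
def shift1 : List ℤ → List ℤ
  | [] => []
  | c :: l => mulX c (shift1 l)

lemma ev_shift1 (l : List ℤ) (x : ℝ) : ev (shift1 l) x = ev l (x + 1) := by
  induction l with
  | nil => simp [shift1, ev]
  | cons c l ih =>
    simp only [shift1, ev_mulX, ev, ih]
    ring

/-- a lower bound on `[0, 1]` -/
def lbd : List ℤ → ℤ
  | [] => 0
  | c :: l => c + min (lbd l) 0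

lemma lbd_le (l : List ℤ) {x : ℝ} (h0 : 0 ≤ x) (h1 : x ≤ 1) : (lbd l : ℝ) ≤ ev l x := by
  induction l with
  | nil => simp [lbd, ev]
  | cons c l ih =>
    simp only [lbd, ev]
    push_cast
    have h2 : min (lbd l : ℝ) 0 ≤ x * ev l x := by
      rcases le_total (lbd l : ℝ) 0 with h | h
      · rw [min_eq_left h]
        calc (lbd l : ℝ) ≤ x * lbd l := by nlinarith
          _ ≤ x * ev l x := mul_le_mul_of_nonneg_left ih h0
      · rw [min_eq_right h]
        exact mul_nonneg h0 (h.trans ih)
    linarith

/-- the check on `[0, n + 1]` -/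
def chk : ℕ → List ℤ → Bool
  | 0, l => decide (0 ≤ lbd l)
  | n + 1, l => decide (0 ≤ lbd l) && chk n (shift1 l)

theorem chk_sound : ∀ (n : ℕ) (l : List ℤ), chk n l = true → ∀ x : ℝ, 0 ≤ x → x ≤ n + 1 →
    0 ≤ ev l x := by
  intro n
  induction n with
  | zero =>
    intro l h x h0 h1
    simp only [chk, decide_eq_true_eq] at h
    have h3 := lbd_le l h0 (by simpa using h1)
    have h4 : (0 : ℝ) ≤ lbd l := by exact_mod_cast h
    exact h4.trans h3
  | succ n ih =>
    intro l h x h0 h1
    simp only [chk, Bool.and_eq_true, decide_eq_true_eq] at h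
    rcases le_total x 1 with h2 | h2
    · have h3 := lbd_le l h0 h2
      have h4 : (0 : ℝ) ≤ lbd l := by exact_mod_cast h.1
      exact h4.trans h3
    · have h3 := ih (shift1 l) h.2 (x - 1) (by linarith) (by push_cast at h1; linarith)
      rwa [ev_shift1, sub_add_cancel] at h3

end Vale.Agent.P224.R2.H627
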