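import Vale.Agent.P224.R2.H627.WtR
import Vale.Agent.P224.R2.H627.Chk

/-!
Comparison theorems with polynomial test functions given by lists of coefficients.
-/

namespace Vale.Agent.P224.R2.H627

open MeasureTheory Set Filter Function Real Vale.Agent.P224.SM2 Vale.Agent.P224.R2.H820
open scoped Topology

variable {a c : ℝ} {T : ℝ}

/-- evaluation of a list of real coefficients -/
noncomputable def evR : List ℝ → ℝ → ℝ
  | [], _ => 0
  | c :: l, x => c + x * evR l x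

/-- derivative of `evR` -/
noncomputable def evD : List ℝ → ℝ → ℝ
  | [], _ => 0
  | _ :: l, x => evR l x + x * evD l x

lemma hasDerivAt_evR (l : List ℝ) (x : ℝ) : HasDerivAt (evR l) (evD l x) x := by
  induction l with
  | nil => exact hasDerivAt_const x 0
  | cons c l ih =>
    refine (((hasDerivAt_id' x).fun_mul ih).const_add c).congr_deriv ?_
    simp [evD]

lemma continuous_evR (l : List ℝ) : Continuous (evR l) :=
  continuous_iff_continuousAt.2 fun x => (hasDerivAt_evR l x).continuousAt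

theorem Pf_ge_l (hc : 0 ≤ c) (ha : 3 ≤ a) (l : List ℝ) {Wb : ℝ → ℝ}
    (hW : ∀ T ∈ Ioo (0 : ℝ) 1, Wb (hv T) ≤ Wf a c T) (hl : evR l 0 ≤ 0)
    (h : ∀ h : ℝ, 0 < h → h < 1 → (a / h - 3 * h) * evR l h + (1 - h ^ 2) * evD l h
      ≤ 3 / 4 * Wb h) : ∀ T ∈ Ioo (0 : ℝ) 1, evR l (hv T) ≤ Pf a c T := by
  intro T hT
  refine Pf_ge_of (q' := evD l) hc ha (fun h _ => hasDerivAt_evR l h)
    (continuous_evR l).continuousAt hl (fun T hT => ?_) hT
  have h1 := h _ (hv_pos hT) (hv_lt_one hT)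
  have h2 := hW T hT
  linarith

theorem Pf_le_l (hc : 0 ≤ c) (ha : 3 ≤ a) (l : List ℝ) {Wb : ℝ → ℝ}
    (hW : ∀ T ∈ Ioo (0 : ℝ) 1, Wf a c T ≤ Wb (hv T)) (hl : 0 ≤ evR l 0)
    (h : ∀ h : ℝ, 0 < h → h < 1 → 3 / 4 * Wb h
      ≤ (a / h - 3 * h) * evR l h + (1 - h ^ 2) * evD l h) :
    ∀ T ∈ Ioo (0 : ℝ) 1, Pf a c T ≤ evR l (hv T) := by
  intro T hT
  refine Pf_le_of (q' := evD l) hc ha (fun h _ => hasDerivAt_evR l h)
    (continuous_evR l).continuousAt hl (fun T hT => ?_) hT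
  have h1 := h _ (hv_pos hT) (hv_lt_one hT)
  have h2 := hW T hT
  linarith

theorem Ef_ge_l (hc : 0 ≤ c) (ha : 2 ≤ a) (l : List ℝ) {Wb Pb : ℝ → ℝ}
    (hW : ∀ T ∈ Ioo (0 : ℝ) 1, Wb (hv T) ≤ Wf a c T)
    (hP : ∀ T ∈ Ioo (0 : ℝ) 1, Pf a c T ≤ Pb (hv T)) (hl : evR l 0 ≤ 0)
    (h : ∀ h : ℝ, 0 < h → h < 1 → (a / h + (1 - 3 * h) / 2) * evR l h + (1 - h ^ 2) * evD l h
      ≤ a * (Wb h - 2 * (1 - h) * Pb h)) : ∀ T ∈ Ioo (0 : ℝ) 1, evR l (hv T) ≤ Ef a c T := by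
  intro T hT
  refine Ef_ge_of (q' := evD l) hc ha (fun h _ => hasDerivAt_evR l h)
    (continuous_evR l).continuousAt hl (fun T hT => ?_) hT
  have h1 := h _ (hv_pos hT) (hv_lt_one hT)
  have h2 := hW T hT
  have h3 := mul_le_mul_of_nonneg_left (hP T hT)
    (by linarith [hv_lt_one hT] : 0 ≤ 2 * (1 - hv T))
  have h4 : a * (Wb (hv T) - 2 * (1 - hv T) * Pb (hv T))
      ≤ a * (Wf a c T - 2 * (1 - hv T) * Pf a c T) :=
    mul_le_mul_of_nonneg_left (by linarith) (by linarith)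
  linarith

theorem Ef_le_l (hc : 0 ≤ c) (ha : 2 ≤ a) (l : List ℝ) {Wb Pb : ℝ → ℝ}
    (hW : ∀ T ∈ Ioo (0 : ℝ) 1, Wf a c T ≤ Wb (hv T))
    (hP : ∀ T ∈ Ioo (0 : ℝ) 1, Pb (hv T) ≤ Pf a c T) (hl : 0 ≤ evR l 0)
    (h : ∀ h : ℝ, 0 < h → h < 1 → a * (Wb h - 2 * (1 - h) * Pb h)
      ≤ (a / h + (1 - 3 * h) / 2) * evR l h + (1 - h ^ 2) * evD l h) :
    ∀ T ∈ Ioo (0 : ℝ) 1, Ef a c T ≤ evR l (hv T) := by
  intro T hT
  refine Ef_le_of (q' := evD l) hc ha (fun h _ => hasDerivAt_evR l h)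
    (continuous_evR l).continuousAt hl (fun T hT => ?_) hT
  have h1 := h _ (hv_pos hT) (hv_lt_one hT)
  have h2 := hW T hT
  have h3 := mul_le_mul_of_nonneg_left (hP T hT)
    (by linarith [hv_lt_one hT] : 0 ≤ 2 * (1 - hv T))
  have h4 : a * (Wf a c T - 2 * (1 - hv T) * Pf a c T)
      ≤ a * (Wb (hv T) - 2 * (1 - hv T) * Pb (hv T)) :=
    mul_le_mul_of_nonneg_left (by linarith) (by linarith)
  linarith

/-- upper bound of W from `h = 1` -/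
theorem Wf_le_l (ha : 2 ≤ a) (l : List ℝ) {Pb : ℝ → ℝ}
    (hP : ∀ T ∈ Ioo (0 : ℝ) 1, Pb (hv T) ≤ Pf a c T) (hl : Wf a c 0 ≤ evR l 1)
    (h : ∀ h : ℝ, 0 < h → h < 1 → evD l h ≤ Pb h) :
    ∀ T ∈ Ico (0 : ℝ) 1, Wf a c T ≤ evR l (hv T) := by
  intro T hT
  refine Wf_le_of (q' := evD l) ha (fun h _ => hasDerivAt_evR l h)
    (continuous_evR l).continuousOn hl (fun T hT => ?_) hT
  exact (h _ (hv_pos hT) (hv_lt_one hT)).trans (hP T hT)

/-- lower bound of W from `h = 1` -/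
theorem Wf_ge_l (ha : 2 ≤ a) (l : List ℝ) {Pb : ℝ → ℝ}
    (hP : ∀ T ∈ Ioo (0 : ℝ) 1, Pf a c T ≤ Pb (hv T)) (hl : evR l 1 ≤ Wf a c 0)
    (h : ∀ h : ℝ, 0 < h → h < 1 → Pb h ≤ evD l h) :
    ∀ T ∈ Ico (0 : ℝ) 1, evR l (hv T) ≤ Wf a c T := by
  intro T hT
  refine Wf_ge_of (q' := evD l) ha (fun h _ => hasDerivAt_evR l h)
    (continuous_evR l).continuousOn hl (fun T hT => ?_) hT
  exact (hP T hT).trans (h _ (hv_pos hT) (hv_lt_one hT))

/-- lower bound of W from `h = 0` -/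
theorem Wf_ge_r (ha : 2 ≤ a) (l : List ℝ) {Pb : ℝ → ℝ}
    (hP : ∀ T ∈ Ioo (0 : ℝ) 1, Pb (hv T) ≤ Pf a c T) (hl : evR l 0 ≤ Wf a c 1)
    (h : ∀ h : ℝ, 0 < h → h < 1 → evD l h ≤ Pb h) :
    ∀ T ∈ Ioo (0 : ℝ) 1, evR l (hv T) ≤ Wf a c T := by
  intro T hT
  have k := cmp (X := fun T => Wf a c T - evR l (hv T)) (A := fun _ => 0)
    (B := fun T => (1 - hv T ^ 2) * (Pf a c T - evD l (hv T)))
    (l := Wf a c 1 - evR l 0) ?_ ?_ ?_ ?_ ?_ hT
  · linarith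
  · intro T hT
    have hT0 := hT.1.ne'
    refine ((hasDerivAt_Wf (c := c) ha hT).fun_sub
      (hasDerivAt_comp_hv hT0 (hasDerivAt_evR l (hv T)))).congr_deriv ?_
    field_simp
    ring
  · intro T _
    exact le_rfl
  · intro T hT
    have h1 := (h _ (hv_pos hT) (hv_lt_one hT)).trans (hP T hT)
    have h2 := hv_pos hT
    have h3 := hv_lt_one hT
    exact mul_nonneg (by nlinarith) (by linarith)
  · refine (tendsto_Wf ha).sub ?_
    exact ((continuous_evR l).tendsto 0).comp tendsto_hv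
  · linarith

lemma Nrm.pos' (ha : 17 / 2 ≤ a) (hn : Nrm a c) : 0 < c := by
  have hI := II_pos (a := a) (by linarith) 0
  have h : 0 < c * II a 0 := by
    rw [hn]
    exact div_pos (by linarith) (by linarith)
  exact (pos_iff_pos_of_mul_pos h).2 hI

lemma Wf_one_ge2 (ha : 17 / 2 ≤ a) (hn : Nrm a c) : 1 + 1 / (8 * a + 7) ≤ Wf a c 1 := by
  have hI := II_pos (a := a) (by linarith) 0
  have h1 := Rr_ge (a := a) (by linarith)
  have h2 : √(2 : ℝ) ^ 2 = 2 := sq_sqrt (by norm_num)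
  have h3 : 0 < √(2 : ℝ) := by positivity
  have e1 : Wf a c 1 = Rr a / √2 := by
    unfold Wf Rr
    rw [show (1 : ℝ) + 1 ^ 2 = 2 by norm_num]
    have hn' : c = (2 * a - 1) / (2 * a - 2) / II a 0 := by
      rw [eq_div_iff hI.ne']
      exact hn
    rw [hn']
    have h5 : a - 1 ≠ 0 := by linarith
    have h6 : 2 * a - 2 ≠ 0 := by linarith
    field_simp
    rw [h2]
    ring
  rw [e1, le_div_iff₀ h3]
  have e2 : (1 + 1 / (8 * a + 7)) = (8 * a + 8) / (8 * a + 7) := by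
    have : 8 * a + 7 ≠ 0 := by linarith
    field_simp
    ring
  rw [e2, mul_comm]
  exact h1

lemma Wf_ge_one2 (ha : 17 / 2 ≤ a) (hn : Nrm a c) (hT : T ∈ Icc (0 : ℝ) 1) : 1 ≤ Wf a c T := by
  have hc := hn.pos' ha
  have h1 := IS_anti (a := a) (by linarith) hT ⟨zero_le_one, le_rfl⟩ hT.2
  have h2 := Wf_one_ge2 ha hn
  have h3 : 0 < 1 / (8 * a + 7) := by
    have : 0 < 8 * a + 7 := by linarith
    positivity
  have h4 : Wf a c 1 ≤ Wf a c T := by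
    have e : ∀ x, Wf a c x = c * IS a x := fun x => by
      unfold Wf IS
      ring
    rw [e, e]
    exact mul_le_mul_of_nonneg_left h1 hc.le
  linarith

end Vale.Agent.P224.R2.H627
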