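import Vale.Agent.P224.R2.H627.InstR
import Vale.Agent.P224.R2.H925.In

/-!
The conditions of the law for the sharper thresholds, and the threshold functions of the blocks.
-/

namespace Vale.Agent.P224.R2.H627

open MeasureTheory Set Filter Function Real Vale.Agent.P224.SM2 Vale.Agent.P224.R2.H820
open Vale.Agent.P224.R2.H582 Vale.Agent.P224.R2.H925
open scoped Topology

variable {m : ℕ} {L K tm : ℝ}

/-- the conditions of the law for every threshold function below `max L (K / (1 - T ^ 2))` -/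
theorem fra_R (hm : 17 ≤ m) (P : Pk L K tm) (ht : 2 / (m : ℝ) ≤ tm) {lam : ℝ → ℝ}
    (hadm : ∀ T ∈ Ioo (0 : ℝ) 1, (1 - T ^ 2) * lam T ≤ L
      ∨ (1 - T ^ 2) * ((1 - T ^ 2) * lam T) ≤ K) {T1 : ℝ} (hT1 : T1 ≤ 7 / 10) :
    Fra m lam (beR m) T1 where
  hβ := fun T hT => abs_R hm hT
  hrel := fun T hT => rel_R hm hT P ht (hadm T hT)
  hconv := fun T hT => by
    have h7 : T < 7 / 10 := lt_of_lt_of_le hT.2 hT1
    have hT' : T ∈ Ioo (0 : ℝ) 1 := ⟨hT.1, by linarith⟩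
    rw [beR_lt h7]
    exact (near_Mr hm hT' P ht h7.le (hadm T hT')).1
  hpos := fun T hT => by
    rcases eq_or_lt_of_le hT.1 with h0 | h0
    · rw [← h0]
      have hr : 0 ≤ rM m 0 := rF_nonneg (cn_nonneg (by omega)) ⟨le_rfl, zero_le_one⟩
      rw [beR_lt (by norm_num)]
      simp only [beM, be, al]
      simp only [mul_zero, zero_mul, sub_zero, zero_add, mul_one]
      norm_num
      positivity
    · exact pos_R hm ⟨h0, hT.2⟩ P ht (hadm T ⟨h0, hT.2⟩)

/-- the second coefficient below `7/10`, in the form of the evaluator -/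
lemma beR_be {T1 : ℝ} (hT1 : T1 ≤ 7 / 10) :
    ∀ T ∈ Ioo (0 : ℝ) T1, beR m T = be m (31 / 10) T (eM m T) (rM m T) := fun T hT =>
  beR_lt (lt_of_lt_of_le hT.2 hT1)

/-- the threshold function with constants `L`, `K`: `L (1 - T ^ 10)` below `1/2`, the maximum of
`L` and `K / (1 - T ^ 2)` above -/
noncomputable def lamB (L K T : ℝ) : ℝ :=
  if T < 1 / 2 then L * (1 + T ^ 2 + T ^ 4 + T ^ 6 + T ^ 8) else max L (K / (1 - T ^ 2)) / (1 - T ^ 2)

lemma lamB_mul {T : ℝ} (hT : T ∈ Ioo (0 : ℝ) 1) : (1 - T ^ 2) * lamB L K T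
    = if T < 1 / 2 then L * (1 - T ^ 10) else max L (K / (1 - T ^ 2)) := by
  have hk : 0 < 1 - T ^ 2 := by nlinarith [hT.1, hT.2]
  unfold lamB
  split_ifs
  · ring
  · exact mul_div_cancel₀ _ hk.ne'

lemma lamB_adm (hL : 0 ≤ L) {T : ℝ} (hT : T ∈ Ioo (0 : ℝ) 1) :
    (1 - T ^ 2) * lamB L K T ≤ L ∨ (1 - T ^ 2) * ((1 - T ^ 2) * lamB L K T) ≤ K := by
  have hk : 0 < 1 - T ^ 2 := by nlinarith [hT.1, hT.2]
  rw [lamB_mul hT]
  split_ifs
  · left
    have : 0 ≤ L * T ^ 10 := by positivity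
    linarith
  · rcases le_total (K / (1 - T ^ 2)) L with h | h
    · left
      rw [max_eq_left h]
    · right
      rw [max_eq_right h, mul_div_cancel₀ _ hk.ne']

/-- lower bounds of the threshold -/
lemma lamB_ge {T : ℝ} (hT : T ∈ Ioo (0 : ℝ) 1) (hL : 0 ≤ L) (hK0 : 0 ≤ K)
    (hK : 4 / 3 * K ≤ 999 / 1000 * L) :
    999 / 1000 * L ≤ (1 - T ^ 2) * lamB L K T ∧ K / (1 - T ^ 2) ≤ (1 - T ^ 2) * lamB L K T := by
  have hk : 0 < 1 - T ^ 2 := by nlinarith [hT.1, hT.2]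
  rw [lamB_mul hT]
  split_ifs with h
  · have h1 : T ^ 10 ≤ (1 / 2) ^ 10 := pow_le_pow_left₀ hT.1.le h.le 10
    have h2 : L * T ^ 10 ≤ L * (1 / 2) ^ 10 := mul_le_mul_of_nonneg_left h1 hL
    have h3 : 3 / 4 ≤ 1 - T ^ 2 := by nlinarith [hT.1]
    have h4 : K / (1 - T ^ 2) ≤ 4 / 3 * K := by
      rw [div_le_iff₀ hk]
      nlinarith
    constructor
    · linarith
    · linarith
  · constructor
    · refine le_trans ?_ (le_max_left _ _)
      linarith
    · exact le_max_right _ _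

/-- the conditions for the standard threshold function of a block -/
theorem fra_B (hm : 17 ≤ m) (P : Pk L K tm) (ht : 2 / (m : ℝ) ≤ tm) {T1 : ℝ}
    (hT1 : T1 ≤ 7 / 10) : Fra m (lamB L K) (beR m) T1 :=
  fra_R hm P ht (fun _ hT => lamB_adm (by linarith [P.L1]) hT) hT1

end Vale.Agent.P224.R2.H627
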