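import Vale.Agent.P224.R2.H627.DPolDef

/-!
Polynomial inequalities for the scalar conditions of the defect (generated, checked by the kernel).
-/

namespace Vale.Agent.P224.R2.H627

set_option linter.unusedSimpArgs false

lemma bern2 {p0 p1 p2 c t : ℝ} (ht : 0 ≤ c * t) (ht1 : c * t ≤ 1) (hc : 0 < c)
    (h0 : 0 ≤ p0)
    (h1 : 0 ≤ p0 + 1 / 2 * (p1 / c ^ 1))
    (h2 : 0 ≤ p0 + 1 * (p1 / c ^ 1) + 1 * (p2 / c ^ 2))
    : 0 ≤ p0 + t * p1 + t ^ 2 * p2 := by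
  have g : 0 ≤ 1 - c * t := by linarith
  have k0 := mul_nonneg (mul_nonneg (mul_nonneg (by norm_num : (0 : ℝ) ≤ 1) (pow_nonneg ht 0)) (pow_nonneg g 2)) h0
  have k1 := mul_nonneg (mul_nonneg (mul_nonneg (by norm_num : (0 : ℝ) ≤ 2) (pow_nonneg ht 1)) (pow_nonneg g 1)) h1
  have k2 := mul_nonneg (mul_nonneg (mul_nonneg (by norm_num : (0 : ℝ) ≤ 1) (pow_nonneg ht 2)) (pow_nonneg g 0)) h2
  have e : p0 + t * p1 + t ^ 2 * p2 = 1 * (c * t) ^ 0 * (1 - c * t) ^ 2 * (p0) + 2 * (c * t) ^ 1 * (1 - c * t) ^ 1 * (p0 + 1 / 2 * (p1 / c ^ 1)) + 1 * (c * t) ^ 2 * (1 - c * t) ^ 0 * (p0 + 1 * (p1 / c ^ 1) + 1 * (p2 / c ^ 2)) := by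
    field_simp
    ring
  rw [e]
  linarith

lemma bern3 {p0 p1 p2 p3 c t : ℝ} (ht : 0 ≤ c * t) (ht1 : c * t ≤ 1) (hc : 0 < c)
    (h0 : 0 ≤ p0)
    (h1 : 0 ≤ p0 + 1 / 3 * (p1 / c ^ 1))
    (h2 : 0 ≤ p0 + 2 / 3 * (p1 / c ^ 1) + 1 / 3 * (p2 / c ^ 2))
    (h3 : 0 ≤ p0 + 1 * (p1 / c ^ 1) + 1 * (p2 / c ^ 2) + 1 * (p3 / c ^ 3))
    : 0 ≤ p0 + t * p1 + t ^ 2 * p2 + t ^ 3 * p3 := by
  have g : 0 ≤ 1 - c * t := by linarith
  have k0 := mul_nonneg (mul_nonneg (mul_nonneg (by norm_num : (0 : ℝ) ≤ 1) (pow_nonneg ht 0)) (pow_nonneg g 3)) h0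
  have k1 := mul_nonneg (mul_nonneg (mul_nonneg (by norm_num : (0 : ℝ) ≤ 3) (pow_nonneg ht 1)) (pow_nonneg g 2)) h1
  have k2 := mul_nonneg (mul_nonneg (mul_nonneg (by norm_num : (0 : ℝ) ≤ 3) (pow_nonneg ht 2)) (pow_nonneg g 1)) h2
  have k3 := mul_nonneg (mul_nonneg (mul_nonneg (by norm_num : (0 : ℝ) ≤ 1) (pow_nonneg ht 3)) (pow_nonneg g 0)) h3
  have e : p0 + t * p1 + t ^ 2 * p2 + t ^ 3 * p3 = 1 * (c * t) ^ 0 * (1 - c * t) ^ 3 * (p0) + 3 * (c * t) ^ 1 * (1 - c * t) ^ 2 * (p0 + 1 / 3 * (p1 / c ^ 1)) + 3 * (c * t) ^ 2 * (1 - c * t) ^ 1 * (p0 + 2 / 3 * (p1 / c ^ 1) + 1 / 3 * (p2 / c ^ 2)) + 1 * (c * t) ^ 3 * (1 - c * t) ^ 0 * (p0 + 1 * (p1 / c ^ 1) + 1 * (p2 / c ^ 2) + 1 * (p3 / c ^ 3)) := by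
    field_simp
    ring
  rw [e]
  linarith

lemma bern4 {p0 p1 p2 p3 p4 c t : ℝ} (ht : 0 ≤ c * t) (ht1 : c * t ≤ 1) (hc : 0 < c)
    (h0 : 0 ≤ p0)
    (h1 : 0 ≤ p0 + 1 / 4 * (p1 / c ^ 1))
    (h2 : 0 ≤ p0 + 1 / 2 * (p1 / c ^ 1) + 1 / 6 * (p2 / c ^ 2))
    (h3 : 0 ≤ p0 + 3 / 4 * (p1 / c ^ 1) + 1 / 2 * (p2 / c ^ 2) + 1 / 4 * (p3 / c ^ 3))
    (h4 : 0 ≤ p0 + 1 * (p1 / c ^ 1) + 1 * (p2 / c ^ 2) + 1 * (p3 / c ^ 3) + 1 * (p4 / c ^ 4))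
    : 0 ≤ p0 + t * p1 + t ^ 2 * p2 + t ^ 3 * p3 + t ^ 4 * p4 := by
  have g : 0 ≤ 1 - c * t := by linarith
  have k0 := mul_nonneg (mul_nonneg (mul_nonneg (by norm_num : (0 : ℝ) ≤ 1) (pow_nonneg ht 0)) (pow_nonneg g 4)) h0
  have k1 := mul_nonneg (mul_nonneg (mul_nonneg (by norm_num : (0 : ℝ) ≤ 4) (pow_nonneg ht 1)) (pow_nonneg g 3)) h1
  have k2 := mul_nonneg (mul_nonneg (mul_nonneg (by norm_num : (0 : ℝ) ≤ 6) (pow_nonneg ht 2)) (pow_nonneg g 2)) h2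
  have k3 := mul_nonneg (mul_nonneg (mul_nonneg (by norm_num : (0 : ℝ) ≤ 4) (pow_nonneg ht 3)) (pow_nonneg g 1)) h3
  have k4 := mul_nonneg (mul_nonneg (mul_nonneg (by norm_num : (0 : ℝ) ≤ 1) (pow_nonneg ht 4)) (pow_nonneg g 0)) h4
  have e : p0 + t * p1 + t ^ 2 * p2 + t ^ 3 * p3 + t ^ 4 * p4 = 1 * (c * t) ^ 0 * (1 - c * t) ^ 4 * (p0) + 4 * (c * t) ^ 1 * (1 - c * t) ^ 3 * (p0 + 1 / 4 * (p1 / c ^ 1)) + 6 * (c * t) ^ 2 * (1 - c * t) ^ 2 * (p0 + 1 / 2 * (p1 / c ^ 1) + 1 / 6 * (p2 / c ^ 2)) + 4 * (c * t) ^ 3 * (1 - c * t) ^ 1 * (p0 + 3 / 4 * (p1 / c ^ 1) + 1 / 2 * (p2 / c ^ 2) + 1 / 4 * (p3 / c ^ 3)) + 1 * (c * t) ^ 4 * (1 - c * t) ^ 0 * (p0 + 1 * (p1 / c ^ 1) + 1 * (p2 / c ^ 2) + 1 * (p3 / c ^ 3) + 1 * (p4 / c ^ 4)) := by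
    field_simp
    ring
  rw [e]
  linarith

lemma bern5 {p0 p1 p2 p3 p4 p5 c t : ℝ} (ht : 0 ≤ c * t) (ht1 : c * t ≤ 1) (hc : 0 < c)
    (h0 : 0 ≤ p0)
    (h1 : 0 ≤ p0 + 1 / 5 * (p1 / c ^ 1))
    (h2 : 0 ≤ p0 + 2 / 5 * (p1 / c ^ 1) + 1 / 10 * (p2 / c ^ 2))
    (h3 : 0 ≤ p0 + 3 / 5 * (p1 / c ^ 1) + 3 / 10 * (p2 / c ^ 2) + 1 / 10 * (p3 / c ^ 3))
    (h4 : 0 ≤ p0 + 4 / 5 * (p1 / c ^ 1) + 3 / 5 * (p2 / c ^ 2) + 2 / 5 * (p3 / c ^ 3) + 1 / 5 * (p4 / c ^ 4))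
    (h5 : 0 ≤ p0 + 1 * (p1 / c ^ 1) + 1 * (p2 / c ^ 2) + 1 * (p3 / c ^ 3) + 1 * (p4 / c ^ 4) + 1 * (p5 / c ^ 5))
    : 0 ≤ p0 + t * p1 + t ^ 2 * p2 + t ^ 3 * p3 + t ^ 4 * p4 + t ^ 5 * p5 := by
  have g : 0 ≤ 1 - c * t := by linarith
  have k0 := mul_nonneg (mul_nonneg (mul_nonneg (by norm_num : (0 : ℝ) ≤ 1) (pow_nonneg ht 0)) (pow_nonneg g 5)) h0
  have k1 := mul_nonneg (mul_nonneg (mul_nonneg (by norm_num : (0 : ℝ) ≤ 5) (pow_nonneg ht 1)) (pow_nonneg g 4)) h1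
  have k2 := mul_nonneg (mul_nonneg (mul_nonneg (by norm_num : (0 : ℝ) ≤ 10) (pow_nonneg ht 2)) (pow_nonneg g 3)) h2
  have k3 := mul_nonneg (mul_nonneg (mul_nonneg (by norm_num : (0 : ℝ) ≤ 10) (pow_nonneg ht 3)) (pow_nonneg g 2)) h3
  have k4 := mul_nonneg (mul_nonneg (mul_nonneg (by norm_num : (0 : ℝ) ≤ 5) (pow_nonneg ht 4)) (pow_nonneg g 1)) h4
  have k5 := mul_nonneg (mul_nonneg (mul_nonneg (by norm_num : (0 : ℝ) ≤ 1) (pow_nonneg ht 5)) (pow_nonneg g 0)) h5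
  have e : p0 + t * p1 + t ^ 2 * p2 + t ^ 3 * p3 + t ^ 4 * p4 + t ^ 5 * p5 = 1 * (c * t) ^ 0 * (1 - c * t) ^ 5 * (p0) + 5 * (c * t) ^ 1 * (1 - c * t) ^ 4 * (p0 + 1 / 5 * (p1 / c ^ 1)) + 10 * (c * t) ^ 2 * (1 - c * t) ^ 3 * (p0 + 2 / 5 * (p1 / c ^ 1) + 1 / 10 * (p2 / c ^ 2)) + 10 * (c * t) ^ 3 * (1 - c * t) ^ 2 * (p0 + 3 / 5 * (p1 / c ^ 1) + 3 / 10 * (p2 / c ^ 2) + 1 / 10 * (p3 / c ^ 3)) + 5 * (c * t) ^ 4 * (1 - c * t) ^ 1 * (p0 + 4 / 5 * (p1 / c ^ 1) + 3 / 5 * (p2 / c ^ 2) + 2 / 5 * (p3 / c ^ 3) + 1 / 5 * (p4 / c ^ 4)) + 1 * (c * t) ^ 5 * (1 - c * t) ^ 0 * (p0 + 1 * (p1 / c ^ 1) + 1 * (p2 / c ^ 2) + 1 * (p3 / c ^ 3) + 1 * (p4 / c ^ 4) + 1 * (p5 / c ^ 5)) := by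
    field_simp
    ring
  rw [e]
  linarith

lemma vW_exp (s t : ℝ) : vW s t = (1) + t * (1 / 2 - 3 / 4 * s ^ 2 + 3 / 8 * s ^ 4) + t ^ 2 * (-(303 / 1600) - 259 / 100 * s ^ 2 + 1047 / 200 * s ^ 4 - 241 / 50 * s ^ 6 + 461 / 200 * s
      ^ 8 - 33 / 50 * s ^ 10 + 11 / 100 * s ^ 12) := by
  simp only [vW]
  ring

lemma vU_exp (s t : ℝ) : vU s t = (1 - 1 * s ^ 2) + t * (3 / 2 - 33 / 4 * s ^ 2 + 89 / 8 * s ^ 4 - 35 / 8 * s ^ 6) + t ^ 2 * (291 / 100 - 1112 / 25 * s ^ 2 + 4614 / 25 * s ^ 4 - 31789 / 100 * s ^ 6 + 24907 / 100 * s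
      ^ 8 - 7417 / 100 * s ^ 10) := by
  simp only [vU]
  ring

lemma vL_exp (s t : ℝ) : vL s t = (1 - 1 * s ^ 2) + t * (3 / 2 - 33 / 4 * s ^ 2 + 89 / 8 * s ^ 4 - 35 / 8 * s ^ 6) + t ^ 2 * (36 / 25 - 5307 / 100 * s ^ 2 + 27687 / 100 * s ^ 4 - 67091 / 100 * s ^ 6 + 17939 / 20 * s
      ^ 8 - 31807 / 50 * s ^ 10 + 9243 / 50 * s ^ 12) := by
  simp only [vL]
  ring

lemma uU_exp (s t : ℝ) : uU s t = (2 / 3 + 1 / 3 * s) + t * (7 / 20 - 4 / 5 * s - 39 / 20 * s ^ 2 - 7 / 20 * s ^ 3 + 5 / 4 * s ^ 4 + 5 / 8 * s ^ 5) + t ^ 2 * (44542 / 86625 - 651979 / 346500 * s - 247021 / 57750 * s ^ 2 + 2825167 / 346500 * s ^ 3 +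
      356623 / 17325 * s ^ 4 - 90017 / 23100 * s ^ 5 - 140471 / 4950 * s ^ 6 - 36859 / 4950 * s
      ^ 7 + 7417 / 550 * s ^ 8 + 7417 / 1100 * s ^ 9) := by
  simp only [uU, Q1, Q2, Q3, Q4, Q5, Q6]
  ring

lemma uL_exp (s t : ℝ) : uL s t = (2 / 3 + 1 / 3 * s) + t * (7 / 20 - 4 / 5 * s - 39 / 20 * s ^ 2 - 7 / 20 * s ^ 3 + 5 / 4 * s ^ 4 + 5 / 8 * s ^ 5) + t ^ 2 * (-(58046 / 86625) - 240832 / 86625 * s - 141206 / 28875 * s ^ 2 + 3703969 / 346500 * s ^ 3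
      + 910241 / 34650 * s ^ 4 - 78104 / 5775 * s ^ 5 - 263927 / 4950 * s ^ 6 + 27043 / 9900 * s
      ^ 7 + 3233 / 55 * s ^ 8 + 4172 / 275 * s ^ 9 - 711 / 25 * s ^ 10 - 711 / 50 * s ^ 11) := by
  simp only [uL, Q1, Q2, Q3, Q4, Q5, Q6]
  ring

lemma dE_exp (s t : ℝ) : dE s t = (4 - 8 * s ^ 2 + 19 / 10 * s ^ 4 + 21 / 10 * s ^ 6) + t * (6 - 39 * s ^ 2 + 1487 / 20 * s ^ 4 - 1787 / 40 * s ^ 6 - 469 / 80 * s ^ 8 + 147 / 16 * s ^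
      10) + t ^ 2 * (144 / 25 - 5451 / 25 * s ^ 2 + 1312179 / 1000 * s ^ 4 - 1853151 / 500 * s ^ 6 + 2988087 /
      500 * s ^ 8 - 5817811 / 1000 * s ^ 10 + 3408833 / 1000 * s ^ 12 - 1145653 / 1000 * s ^ 14
      + 9243 / 50 * s ^ 16) := by
  rw [dE, vL_exp, vU_exp]
  ring

lemma dB_exp (s t : ℝ) : dB s t = (-(32 / 3) + 40 / 3 * s + 104 / 3 * s ^ 2 - 92 / 3 * s ^ 3 - 44 * s ^ 4 + 277 / 15 * s ^ 5
      + 317 / 15 * s ^ 6 + 29 / 30 * s ^ 7 + 29 / 30 * s ^ 8 - 21 / 10 * s ^ 9 - 21 / 10 * s ^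
      10) + t * (-(108 / 5) + 252 / 5 * s + 468 / 5 * s ^ 2 - 962 / 5 * s ^ 3 - 1097 / 5 * s ^ 4 + 1498 / 5
      * s ^ 5 + 305 * s ^ 6 - 4377 / 20 * s ^ 7 - 4377 / 20 * s ^ 8 + 487 / 10 * s ^ 9 + 487 /
      10 * s ^ 10 + 1739 / 80 * s ^ 11 + 1739 / 80 * s ^ 12 - 147 / 16 * s ^ 13 - 147 / 16 * s ^
      14) + t ^ 2 * (-(1440322 / 86625) + 8268608 / 86625 * s + 11149252 / 86625 * s ^ 2 - 81167588 / 86625 * s
      ^ 3 - 165935981 / 173250 * s ^ 4 + 354092672 / 86625 * s ^ 5 + 613771 / 150 * s ^ 6 -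
      43813297 / 4200 * s ^ 7 - 43813297 / 4200 * s ^ 8 + 1074368599 / 63000 * s ^ 9 +
      1074368599 / 63000 * s ^ 10 - 50759522147 / 2772000 * s ^ 11 - 50759522147 / 2772000 * s ^
      12 + 5084749757 / 396000 * s ^ 13 + 5084749757 / 396000 * s ^ 14 - 62998209 / 11000 * s ^
      15 - 62998209 / 11000 * s ^ 16 + 1515373 / 1000 * s ^ 17 + 1515373 / 1000 * s ^ 18 - 9243
      / 50 * s ^ 19 - 9243 / 50 * s ^ 20) + t ^ 3 * (-(356336 / 28875) + 2159254 / 28875 * s + 2871926 / 28875 * s ^ 2 - 31072369 / 28875 * s ^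
      3 - 31517789 / 28875 * s ^ 4 + 1275050663 / 231000 * s ^ 5 + 1104557 / 200 * s ^ 6 -
      42425407 / 2800 * s ^ 7 - 42425407 / 2800 * s ^ 8 + 534734387 / 21000 * s ^ 9 + 534734387
      / 21000 * s ^ 10 - 3178119167 / 115500 * s ^ 11 - 3178119167 / 115500 * s ^ 12 +
      1272551783 / 66000 * s ^ 13 + 1272551783 / 66000 * s ^ 14 - 188994627 / 22000 * s ^ 15 -
      188994627 / 22000 * s ^ 16 + 4546119 / 2000 * s ^ 17 + 4546119 / 2000 * s ^ 18 - 27729 /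
      100 * s ^ 19 - 27729 / 100 * s ^ 20) := by
  rw [dB, dE_exp, uU_exp]
  ring

lemma dB4_exp (s t : ℝ) : dB4 s t = (-(64 / 3) + 16 / 3 * s + 96 * s ^ 2 + 8 * s ^ 3 - 448 / 3 * s ^ 4 - 766 / 15 * s ^ 5 + 396
      / 5 * s ^ 6 + 221 / 5 * s ^ 7 + 58 / 15 * s ^ 8 - 34 / 15 * s ^ 9 - 42 / 5 * s ^ 10 - 21 /
      5 * s ^ 11) + t * (-(216 / 5) + 288 / 5 * s + 288 * s ^ 2 - 988 / 5 * s ^ 3 - 4118 / 5 * s ^ 4 + 802 / 5 * s
      ^ 5 + 6046 / 5 * s ^ 6 + 1723 / 10 * s ^ 7 - 4377 / 5 * s ^ 8 - 3403 / 10 * s ^ 9 + 974 /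
      5 * s ^ 10 + 1127 / 8 * s ^ 11 + 1739 / 20 * s ^ 12 + 251 / 10 * s ^ 13 - 147 / 4 * s ^ 14
      - 147 / 8 * s ^ 15) + t ^ 2 * (-(2880644 / 86625) + 13656572 / 86625 * s + 11208 / 25 * s ^ 2 - 140036672 / 86625 * s ^ 3
      - 36474573 / 9625 * s ^ 4 + 542249363 / 86625 * s ^ 5 + 1417090849 / 86625 * s ^ 6 -
      8875903 / 700 * s ^ 7 - 43813297 / 1050 * s ^ 8 + 14898898 / 1125 * s ^ 9 + 1074368599 /
      15750 * s ^ 10 - 387478199 / 154000 * s ^ 11 - 50759522147 / 693000 * s ^ 12 - 57448007 /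
      5250 * s ^ 13 + 5084749757 / 99000 * s ^ 14 + 2816814233 / 198000 * s ^ 15 - 62998209 /
      2750 * s ^ 16 - 23164553 / 2750 * s ^ 17 + 1515373 / 250 * s ^ 18 + 1330513 / 500 * s ^ 19
      - 18486 / 25 * s ^ 20 - 9243 / 25 * s ^ 21) + t ^ 3 * (-(712672 / 28875) + 3605836 / 28875 * s + 8712 / 25 * s ^ 2 - 56400886 / 28875 * s ^ 3 -
      41726772 / 9625 * s ^ 4 + 1022908351 / 115500 * s ^ 5 + 1275406999 / 57750 * s ^ 6 -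
      26961609 / 1400 * s ^ 7 - 42425407 / 700 * s ^ 8 + 61869667 / 3000 * s ^ 9 + 534734387 /
      5250 * s ^ 10 - 158053359 / 38500 * s ^ 11 - 3178119167 / 28875 * s ^ 12 - 115291339 /
      7000 * s ^ 13 + 1272551783 / 16500 * s ^ 14 + 352783951 / 16500 * s ^ 15 - 188994627 /
      5500 * s ^ 16 - 69493659 / 5500 * s ^ 17 + 4546119 / 500 * s ^ 18 + 3991539 / 1000 * s ^
      19 - 27729 / 25 * s ^ 20 - 27729 / 50 * s ^ 21) := by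
  rw [dB4, dE_exp, uU_exp]
  ring

lemma TdB_exp (s t : ℝ) : Tu s * dB s t = (-(70711 / 9375 * s) + 70711 / 7500 * s ^ 2 + 848531 / 37500 * s ^ 3 - 483191 / 25000 * s ^
      4 - 393359 / 15000 * s ^ 5 + 13779067 / 1500000 * s ^ 6 + 5596769 / 500000 * s ^ 7 +
      1153831 / 3000000 * s ^ 8 - 2079929 / 3000000 * s ^ 9 + 831783 / 1000000 * s ^ 10 +
      3424949 / 3000000 * s ^ 11 - 388367 / 1500000 * s ^ 12 - 388367 / 1500000 * s ^ 13 - 12201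
      / 50000 * s ^ 14 - 12201 / 50000 * s ^ 15) + t * (-(1909197 / 125000 * s) + 4454793 / 125000 * s ^ 2 + 7795881 / 125000 * s ^ 3 - 31784563 /
      250000 * s ^ 4 - 70551623 / 500000 * s ^ 5 + 45923541 / 250000 * s ^ 6 + 93879669 / 500000
      * s ^ 7 - 248289231 / 2000000 * s ^ 8 - 252654807 / 2000000 * s ^ 9 + 15280737 / 500000 *
      s ^ 10 + 15594477 / 500000 * s ^ 11 - 11603043 / 8000000 * s ^ 12 - 11603043 / 8000000 * s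
      ^ 13 + 24040977 / 8000000 * s ^ 14 + 24040977 / 8000000 * s ^ 15 + 144277 / 160000 * s ^
      16 + 144277 / 160000 * s ^ 17 - 85407 / 80000 * s ^ 18 - 85407 / 80000 * s ^ 19) + t ^ 2 * (-(50923304471 / 4331250000 * s) + 18271298134 / 270703125 * s ^ 2 + 23841023308 /
      270703125 * s ^ 3 - 1398317215711 / 2165625000 * s ^ 4 - 1263642142451 / 1925000000 * s ^
      5 + 329158993529 / 120312500 * s ^ 6 + 47453109508417 / 17325000000 * s ^ 7 -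
      468651674223107 / 69300000000 * s ^ 8 - 3750144924919 / 554400000 * s ^ 9 + 82309469023501
      / 7700000000 * s ^ 10 + 67347154026799 / 6300000000 * s ^ 11 - 3089591231791549 /
      277200000000 * s ^ 12 - 3089591231791549 / 277200000000 * s ^ 13 + 722936841750881 /
      92400000000 * s ^ 14 + 722936841750881 / 92400000000 * s ^ 15 - 77370294698669 /
      19800000000 * s ^ 16 - 77370294698669 / 19800000000 * s ^ 17 + 1919532184483 / 1237500000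
      * s ^ 18 + 1919532184483 / 1237500000 * s ^ 19 - 290575387903 / 550000000 * s ^ 20 -
      290575387903 / 550000000 * s ^ 21 + 717033959 / 5000000 * s ^ 22 + 717033959 / 5000000 * s
      ^ 23 - 5370183 / 250000 * s ^ 24 - 5370183 / 250000 * s ^ 25) + t ^ 3 * (-(1574804681 / 180468750 * s) + 76341504797 / 1443750000 * s ^ 2 + 98388725789 /
      1443750000 * s ^ 3 - 2158986992147 / 2887500000 * s ^ 4 - 727341698157 / 962500000 * s ^ 5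
      + 28655484323259 / 7700000000 * s ^ 6 + 86020103630609 / 23100000000 * s ^ 7 -
      455686871075657 / 46200000000 * s ^ 8 - 18229779453233 / 1848000000 * s ^ 9 +
      61478170979457 / 3850000000 * s ^ 10 + 16767150323881 / 1050000000 * s ^ 11 -
      193071852914389 / 11550000000 * s ^ 12 - 193071852914389 / 11550000000 * s ^ 13 +
      180617400016589 / 15400000000 * s ^ 14 + 180617400016589 / 15400000000 * s ^ 15 -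
      38698538058397 / 6600000000 * s ^ 16 - 38698538058397 / 6600000000 * s ^ 17 +
      15372111150239 / 6600000000 * s ^ 18 + 15372111150239 / 6600000000 * s ^ 19 - 871726163709
      / 1100000000 * s ^ 20 - 871726163709 / 1100000000 * s ^ 21 + 2151101877 / 10000000 * s ^
      22 + 2151101877 / 10000000 * s ^ 23 - 16110549 / 500000 * s ^ 24 - 16110549 / 500000 * s ^
      25) := by
  rw [dB_exp, Tu]
  ring

lemma TdB4_exp (s t : ℝ) : Tu s * dB4 s t = (-(141422 / 9375 * s) + 70711 / 18750 * s ^ 2 + 601043 / 9375 * s ^ 3 + 247489 / 37500 * s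
      ^ 4 - 854092 / 9375 * s ^ 5 - 25556833 / 750000 * s ^ 6 + 15284687 / 375000 * s ^ 7 +
      6946889 / 300000 * s ^ 8 - 463049 / 750000 * s ^ 9 + 20771 / 75000 * s ^ 10 + 2960149 /
      750000 * s ^ 11 + 529643 / 300000 * s ^ 12 - 388367 / 375000 * s ^ 13 - 754397 / 750000 *
      s ^ 14 - 12201 / 12500 * s ^ 15 - 12201 / 25000 * s ^ 16) + t * (-(1909197 / 62500 * s) + 636399 / 15625 * s ^ 2 + 6125337 / 31250 * s ^ 3 - 16192801 /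
      125000 * s ^ 4 - 134120749 / 250000 * s ^ 5 + 21295459 / 250000 * s ^ 6 + 185726751 /
      250000 * s ^ 7 + 25445889 / 200000 * s ^ 8 - 250472019 / 500000 * s ^ 9 - 191531859 /
      1000000 * s ^ 10 + 15437607 / 125000 * s ^ 11 + 237908589 / 4000000 * s ^ 12 - 11603043 /
      2000000 * s ^ 13 + 6218967 / 2000000 * s ^ 14 + 24040977 / 2000000 * s ^ 15 + 31254827 /
      4000000 * s ^ 16 + 144277 / 40000 * s ^ 17 - 26537 / 80000 * s ^ 18 - 85407 / 20000 * s ^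
      19 - 85407 / 40000 * s ^ 20) + t ^ 2 * (-(50923304471 / 2165625000 * s) + 241417465673 / 2165625000 * s ^ 2 + 84224642884 /
      270703125 * s ^ 3 - 1207589029247 / 1082812500 * s ^ 4 - 22559317007747 / 8662500000 * s ^
      5 + 4002901754013 / 962500000 * s ^ 6 + 8622909506963 / 787500000 * s ^ 7 -
      278839236189439 / 34650000000 * s ^ 8 - 42609990447181 / 1575000000 * s ^ 9 +
      136008552798317 / 17325000000 * s ^ 10 + 740801957753149 / 17325000000 * s ^ 11 -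
      126316454612393 / 138600000000 * s ^ 12 - 3089591231791549 / 69300000000 * s ^ 13 -
      460390353269453 / 69300000000 * s ^ 14 + 722936841750881 / 23100000000 * s ^ 15 +
      1085626399471277 / 138600000000 * s ^ 16 - 77370294698669 / 4950000000 * s ^ 17 -
      4241616340631 / 900000000 * s ^ 18 + 1919532184483 / 309375000 * s ^ 19 + 92053640851 /
      45000000 * s ^ 20 - 290575387903 / 137500000 * s ^ 21 - 211701652413 / 275000000 * s ^ 22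
      + 717033959 / 1250000 * s ^ 23 + 609630299 / 2500000 * s ^ 24 - 5370183 / 62500 * s ^ 25 -
      5370183 / 125000 * s ^ 26) + t ^ 3 * (-(1574804681 / 90234375 * s) + 63743067349 / 721875000 * s ^ 2 + 87365115293 / 360937500 *
      s ^ 3 - 1962209540569 / 1443750000 * s ^ 4 - 2170506043309 / 721875000 * s ^ 5 +
      22836750738003 / 3850000000 * s ^ 6 + 7817570754563 / 525000000 * s ^ 7 - 283646663814439
      / 23100000000 * s ^ 8 - 41428698063931 / 1050000000 * s ^ 9 + 281993565422659 /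
      23100000000 * s ^ 10 + 184436583250531 / 2887500000 * s ^ 11 - 4316599675849 / 2887500000
      * s ^ 12 - 193071852914389 / 2887500000 * s ^ 13 - 230435211607789 / 23100000000 * s ^ 14
      + 180617400016589 / 3850000000 * s ^ 15 + 67740608410247 / 5775000000 * s ^ 16 -
      38698538058397 / 1650000000 * s ^ 17 - 1060292132189 / 150000000 * s ^ 18 + 15372111150239
      / 1650000000 * s ^ 19 + 184395530327 / 60000000 * s ^ 20 - 871726163709 / 275000000 * s ^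
      21 - 635104957239 / 550000000 * s ^ 22 + 2151101877 / 2500000 * s ^ 23 + 1828890897 /
      5000000 * s ^ 24 - 16110549 / 125000 * s ^ 25 - 16110549 / 250000 * s ^ 26) := by
  rw [dB4_exp, Tu]
  ring

lemma dF1_exp (s t : ℝ) : dF1 s t = (16 / 3 - 12 * s - 16 / 3 * s ^ 2 + 68 / 3 * s ^ 3 + 4 / 3 * s ^ 4 - 967 / 60 * s ^ 5 + 107
      / 30 * s ^ 7 + 11 / 20 * s ^ 9) + t * (14 / 5 - 18 * s - 14 / 5 * s ^ 2 + 79 * s ^ 3 + 7 / 10 * s ^ 4 - 6339 / 40 * s ^ 5 + 2599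
      / 16 * s ^ 7 - 12527 / 160 * s ^ 9 + 409 / 40 * s ^ 11 + 77 / 32 * s ^ 13) + t ^ 2 * (-(464368 / 86625) - 579 / 25 * s + 464368 / 86625 * s ^ 2 + 8856 / 25 * s ^ 3 - 116092 /
      86625 * s ^ 4 - 3383023 / 2000 * s ^ 5 + 11606061 / 2800 * s ^ 7 - 45883366 / 7875 * s ^ 9
      + 1312840609 / 277200 * s ^ 11 - 25412576 / 12375 * s ^ 13 + 1915759 / 5500 * s ^ 15 +
      24707 / 2000 * s ^ 17) := by
  rw [dF1, uL_exp, vU_exp]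
  ring

lemma dF2_exp (s t : ℝ) : dF2 s t = (16 / 3 - 12 * s - 16 / 3 * s ^ 2 + 68 / 3 * s ^ 3 + 4 / 3 * s ^ 4 - 967 / 60 * s ^ 5 + 107
      / 30 * s ^ 7 + 11 / 20 * s ^ 9) + t * (14 / 5 - 18 * s - 14 / 5 * s ^ 2 + 79 * s ^ 3 + 7 / 10 * s ^ 4 - 6339 / 40 * s ^ 5 + 2599
      / 16 * s ^ 7 - 12527 / 160 * s ^ 9 + 409 / 40 * s ^ 11 + 77 / 32 * s ^ 13) + t ^ 2 * (-(464368 / 86625) - 579 / 25 * s + 464368 / 86625 * s ^ 2 + 8856 / 25 * s ^ 3 - 116092 /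
      86625 * s ^ 4 - 169379 / 100 * s ^ 5 + 57875801 / 14000 * s ^ 7 - 357214043 / 63000 * s ^
      9 + 2803750303 / 693000 * s ^ 11 - 49712503 / 99000 * s ^ 13 - 33592849 / 22000 * s ^ 15 +
      58497 / 50 * s ^ 17 - 286533 / 1000 * s ^ 19) := by
  rw [dF2, uL_exp, vU_exp, vL_exp]
  ring

end Vale.Agent.P224.R2.H627
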