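import Vale.Agent.P224.R2.H627.PkR

/-!
The polynomial inequalities of one block of dimensions, by a kernel computation.
-/

namespace Vale.Agent.P224.R2.H627

open Rf

theorem pk_c_L : pkL 0 41 50 96 5 1 50 3 = true := by decide +kernel

theorem pk_c_K : pkK 0 41 50 53 4 1 50 0 = true := by decide +kernel

theorem pk_c_F : pkF 81 19 100 53 4 1 50 0 = true := by decide +kernel

theorem pk_c : Pk (96 / 5) (53 / 4) (1 / 50) := by
  have h1 := pkL_sound pk_c_L
  have h2 := pkK_sound pk_c_K
  have h3 := pkF_sound pk_c_F
  push_cast at h1 h2 h3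
  norm_num at h1 h2 h3
  exact pk_of (by norm_num) (by norm_num) (by norm_num) (by norm_num) h1 h2 h3

end Vale.Agent.P224.R2.H627
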