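import Vale.Agent.P224.SM2.Ana4
import Vale.Agent.P224.SM2.Gam
import Vale.Agent.P224.R2.H820.Geo

/-!
Exact moments of the coefficient functions.
-/

namespace Vale.Agent.P224.R2.H627

open MeasureTheory Set Filter Function Real Vale.Agent.P224.SM2 Vale.Agent.P224.R2.H820
open scoped Topology

variable {a c : ℝ}

lemma eF_one : eF a c 1 = 0 := by
  unfold eF
  simp

lemma rF_one : rF a c 1 = 0 := by
  unfold rF
  simp

lemma yF_one (ha : 2 ≤ a) : yF a c 1 = 0 := by
  unfold yF
  rw [show (1 : ℝ) - 1 ^ 2 = 0 by norm_num, zero_rpow (by linarith)]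
  simp

lemma ZF_one (ha : 2 ≤ a) : ZF a c 1 = 0 := by
  unfold ZF
  rw [show (1 : ℝ) - 1 ^ 2 = 0 by norm_num, zero_rpow (by linarith)]
  simp

lemma cont_DD : Continuous (DD a) := by
  unfold DD
  fun_prop

lemma contOn_eF (hc : 0 ≤ c) (ha : 2 ≤ a) : ContinuousOn (eF a c) (Icc 0 1) := by
  intro T hT
  rcases eq_or_lt_of_le hT.2 with h | h
  · subst h
    rw [ContinuousWithinAt, eF_one]
    have h1 : Tendsto (fun T : ℝ => (1 - T ^ 2) ^ (a - 1) * (c * II a T)
        * (T * (1 - T ^ 2) ^ 2 / DD a T)) (𝓝[Icc 0 1] 1) (𝓝 0) := by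
      have h2 : Continuous (fun T : ℝ => (1 - T ^ 2) ^ (a - 1) * (c * II a T)
          * (T * (1 - T ^ 2) ^ 2 / DD a T)) := by
        refine ((continuous_kap (by linarith)).mul (continuous_const.mul (continuous_II ha))).mul ?_
        exact Continuous.div (by fun_prop) cont_DD fun T => (DD_pos ha T).ne'
      have h3 := (h2.tendsto 1).mono_left (nhdsWithin_le_nhds (s := Icc (0 : ℝ) 1))
      have e : ((1 : ℝ) - 1 ^ 2) ^ (a - 1) = 0 := by
        rw [show (1 : ℝ) - 1 ^ 2 = 0 by norm_num, zero_rpow (by linarith)]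
      rw [e] at h3
      simpa using h3
    refine squeeze_zero' ?_ ?_ h1
    · filter_upwards [self_mem_nhdsWithin] with T hT
      exact eF_nonneg hc hT
    · filter_upwards [self_mem_nhdsWithin] with T hT
      rcases eq_or_lt_of_le hT.2 with h | h
      · rw [h, eF_one]
        simp
      · rcases eq_or_lt_of_le hT.1 with h' | h'
        · rw [← h', eF_zero ha]
          simp
        · exact eF_le2 hc ha ⟨h', h⟩
  · have h1 := continuousOn_eF hc ha T ⟨hT.1, h⟩
    have h2 : Icc (0 : ℝ) 1 ∩ Iio 1 = Ico 0 1 := by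
      ext x
      simp only [mem_inter_iff, mem_Icc, mem_Iio, mem_Ico]
      constructor
      · rintro ⟨⟨h1, -⟩, h3⟩
        exact ⟨h1, h3⟩
      · rintro ⟨h1, h2⟩
        exact ⟨⟨h1, h2.le⟩, h2⟩
    rw [← h2] at h1
    exact (continuousWithinAt_inter (Iio_mem_nhds h)).1 h1

lemma contOn_rF (hc : 0 ≤ c) (ha : 2 ≤ a) : ContinuousOn (rF a c) (Icc 0 1) := by
  have h1 := intervalIntegral.continuousOn_primitive_interval_left (a := 0) (b := 1)
    (f := hF a c) (μ := volume) (by rw [uIcc_of_le zero_le_one]; exact intOn_hF hc ha)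
  rw [uIcc_of_le zero_le_one] at h1
  exact (continuous_kap (by linarith)).continuousOn.mul h1

/-- integral of the derivative -/
lemma ftc {f g : ℝ → ℝ} (hf : ContinuousOn f (Icc 0 1)) (hg : ContinuousOn g (Icc 0 1))
    (hd : ∀ T ∈ Ioo (0 : ℝ) 1, HasDerivAt f (g T) T) : ∫ T in (0 : ℝ)..1, g T = f 1 - f 0 := by
  refine intervalIntegral.integral_eq_sub_of_hasDerivAt_of_le zero_le_one hf hd ?_
  refine ContinuousOn.intervalIntegrable ?_
  rwa [uIcc_of_le zero_le_one]

lemma intble {g : ℝ → ℝ} (hg : ContinuousOn g (Icc 0 1)) : IntervalIntegrable g volume 0 1 := by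
  refine ContinuousOn.intervalIntegrable ?_
  rwa [uIcc_of_le zero_le_one]

/-- moments -/
noncomputable def Ym (a c : ℝ) (j : ℕ) : ℝ := ∫ T in (0 : ℝ)..1, T ^ j * yF a c T
noncomputable def Zm (a c : ℝ) (j : ℕ) : ℝ := ∫ T in (0 : ℝ)..1, T ^ j * ZF a c T
noncomputable def Em (a c : ℝ) (j : ℕ) : ℝ := ∫ T in (0 : ℝ)..1, T ^ j * eF a c T
noncomputable def Rm (a c : ℝ) (j : ℕ) : ℝ := ∫ T in (0 : ℝ)..1, T ^ j * rF a c T

lemma contOn_pow_mul {f : ℝ → ℝ} (hf : ContinuousOn f (Icc 0 1)) (j : ℕ) :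
    ContinuousOn (fun T => T ^ j * f T) (Icc 0 1) := (continuous_pow j).continuousOn.mul hf

lemma mom_Z (ha : 2 ≤ a) (j : ℕ) : (2 * a + 2 * j + 2) * Zm a c j = 2 * a * Ym a c j := by
  have hy := (continuous_yF (c := c) ha).continuousOn (s := Icc 0 1)
  have hZ := (continuous_ZF (c := c) ha).continuousOn (s := Icc 0 1)
  have hcy := contOn_pow_mul hy j
  have hcZ := contOn_pow_mul hZ j
  have h := ftc (f := fun T => T ^ (j + 1) * ZF a c T)
    (g := fun T => (j + 1 + a) * (T ^ j * ZF a c T) - a * (T ^ j * yF a c T))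
    (contOn_pow_mul hZ (j + 1)) ((continuousOn_const.mul hcZ).sub (continuousOn_const.mul hcy)) ?_
  · rw [intervalIntegral.integral_sub ((intble hcZ).const_mul _) ((intble hcy).const_mul _),
      intervalIntegral.integral_const_mul, intervalIntegral.integral_const_mul, ZF_one ha] at h
    simp only [mul_zero, ne_eq, Nat.add_eq_zero_iff, one_ne_zero, and_false, not_false_eq_true,
      zero_pow, zero_mul, sub_zero] at h
    unfold Zm Ym
    linear_combination 2 * h
  · intro T hT
    have h1 := (hasDerivAt_pow (j + 1) T).fun_mul (hasDerivAt_ZF (c := c) ha hT)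
    refine h1.congr_deriv ?_
    have hT0 := hT.1.ne'
    push_cast
    field_simp
    ring

lemma mom_y (ha : 2 ≤ a) (j : ℕ) :
    (2 * a + j) * Ym a c (j + 2) = Zm a c j + j * Ym a c j := by
  have hy := (continuous_yF (c := c) ha).continuousOn (s := Icc 0 1)
  have hZ := (continuous_ZF (c := c) ha).continuousOn (s := Icc 0 1)
  have hcy := contOn_pow_mul hy j
  have hcy2 := contOn_pow_mul hy (j + 2)
  have hcZ := contOn_pow_mul hZ j
  have h := ftc (f := fun T => T ^ (j + 1) * (1 - T ^ 2) * yF a c T)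
    (g := fun T => T ^ j * ZF a c T + j * (T ^ j * yF a c T)
      - (2 * a + j) * (T ^ (j + 2) * yF a c T))
    (by fun_prop) ((hcZ.add (continuousOn_const.mul hcy)).sub (continuousOn_const.mul hcy2)) ?_
  · rw [intervalIntegral.integral_sub ((intble hcZ).add ((intble hcy).const_mul _))
        ((intble hcy2).const_mul _),
      intervalIntegral.integral_add (intble hcZ) ((intble hcy).const_mul _),
      intervalIntegral.integral_const_mul, intervalIntegral.integral_const_mul, yF_one ha] at h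
    simp only [mul_zero, ne_eq, Nat.add_eq_zero_iff, one_ne_zero, and_false, not_false_eq_true,
      zero_pow, zero_mul, sub_zero] at h
    unfold Zm Ym
    linear_combination -h
  · intro T hT
    have hk := kap_pos ⟨hT.1.le, hT.2⟩
    have h1 := ((hasDerivAt_pow (j + 1) T).fun_mul (hasDerivAt_kap T)).fun_mul
      (hasDerivAt_yF (c := c) ha hT)
    refine h1.congr_deriv ?_
    have hT0 := hT.1.ne'
    push_cast
    field_simp
    ring

lemma mom_e (hc : 0 ≤ c) (ha : 2 ≤ a) (j : ℕ) :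
    (2 * a + 2 * (j + 1)) * Em a c j = Zm a c (j + 1) := by
  have he := contOn_eF hc ha
  have hZ := (continuous_ZF (c := c) ha).continuousOn (s := Icc 0 1)
  have hce := contOn_pow_mul he j
  have hcZ := contOn_pow_mul hZ (j + 1)
  have h := ftc (f := fun T => T ^ (j + 1) * eF a c T)
    (g := fun T => (j + 1 + a) * (T ^ j * eF a c T) - 1 / 2 * (T ^ (j + 1) * ZF a c T))
    (contOn_pow_mul he (j + 1)) ((continuousOn_const.mul hce).sub (continuousOn_const.mul hcZ)) ?_
  · rw [intervalIntegral.integral_sub ((intble hce).const_mul _) ((intble hcZ).const_mul _),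
      intervalIntegral.integral_const_mul, intervalIntegral.integral_const_mul, eF_one] at h
    simp only [mul_zero, ne_eq, Nat.add_eq_zero_iff, one_ne_zero, and_false, not_false_eq_true,
      zero_pow, zero_mul, sub_zero] at h
    unfold Zm Em
    linear_combination 2 * h
  · intro T hT
    have h1 := (hasDerivAt_pow (j + 1) T).fun_mul (hasDerivAt_eF (c := c) ha hT)
    refine h1.congr_deriv ?_
    have hT0 := hT.1.ne'
    push_cast
    field_simp
    ring

lemma mom_r (hc : 0 ≤ c) (ha : 2 ≤ a) (j : ℕ) :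
    (2 * a + (j + 1)) * Rm a c (j + 2) = (j + 1) * Rm a c j - Em a c j := by
  have he := contOn_eF hc ha
  have hr := contOn_rF hc ha
  have hce := contOn_pow_mul he j
  have hcr := contOn_pow_mul hr j
  have hcr2 := contOn_pow_mul hr (j + 2)
  have h := ftc (f := fun T => T ^ (j + 1) * (1 - T ^ 2) * rF a c T)
    (g := fun T => (j + 1) * (T ^ j * rF a c T) - (2 * a + (j + 1)) * (T ^ (j + 2) * rF a c T)
      - T ^ j * eF a c T)
    (by fun_prop) (((continuousOn_const.mul hcr).sub (continuousOn_const.mul hcr2)).sub hce) ?_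
  · rw [intervalIntegral.integral_sub (((intble hcr).const_mul _).sub ((intble hcr2).const_mul _))
        (intble hce),
      intervalIntegral.integral_sub ((intble hcr).const_mul _) ((intble hcr2).const_mul _),
      intervalIntegral.integral_const_mul, intervalIntegral.integral_const_mul, rF_one] at h
    simp only [mul_zero, ne_eq, Nat.add_eq_zero_iff, one_ne_zero, and_false, not_false_eq_true,
      zero_pow, zero_mul, sub_zero] at h
    unfold Rm Em
    linear_combination -h
  · intro T hT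
    have hk := kap_pos ⟨hT.1.le, hT.2⟩
    have h1 := ((hasDerivAt_pow (j + 1) T).fun_mul (hasDerivAt_kap T)).fun_mul
      (hasDerivAt_rF (c := c) hc ha hT)
    refine h1.congr_deriv ?_
    have hT0 := hT.1.ne'
    push_cast
    field_simp
    ring

/-- the integral of `e / T` -/
noncomputable def Ed (a c : ℝ) : ℝ := ∫ T in (0 : ℝ)..1, eF a c T / T

lemma yZ_nonneg (hc : 0 ≤ c) (ha : 2 ≤ a) {T : ℝ} (hT : T ∈ Ico (0 : ℝ) 1) :
    ZF a c T ≤ yF a c T := by
  have hk := kap_pos hT
  have h1 := Jc_le_II ha hT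
  have h2 := Jc_nonneg a T
  have h3 := II_pos ha T
  unfold ZF yF
  have e2 : (1 - T ^ 2) ^ a = (1 - T ^ 2) ^ (a - 1) * (1 - T ^ 2) := by
    rw [← rpow_add_one hk.ne']; congr 1; ring
  rw [e2, mul_assoc]
  refine mul_le_mul_of_nonneg_left ?_ (rpow_nonneg hk.le _)
  have h4 : 1 - T ^ 2 ≤ 1 := by nlinarith [sq_nonneg T]
  calc (1 - T ^ 2) * (c * Jc a T) ≤ 1 * (c * Jc a T) :=
        mul_le_mul_of_nonneg_right h4 (mul_nonneg hc h2)
    _ = c * Jc a T := one_mul _
    _ ≤ c * II a T := mul_le_mul_of_nonneg_left h1 hc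

lemma yF_zero : yF a c 0 = c * II a 0 := by
  unfold yF
  rw [show (1 : ℝ) - 0 ^ 2 = 1 by norm_num, one_rpow, one_mul]

lemma ZF_zero : ZF a c 0 = c * II a 0 := by
  unfold ZF
  rw [show (1 : ℝ) - 0 ^ 2 = 1 by norm_num, one_rpow, one_mul, Jc_zero]

lemma mom_y_one (hc : 0 ≤ c) (ha : 2 ≤ a) :
    a * (2 * a - 1) * Ym a c 1 = (a - 1) * (c * II a 0) := by
  have hy := (continuous_yF (c := c) ha).continuousOn (s := Icc 0 1)
  have hZ := (continuous_ZF (c := c) ha).continuousOn (s := Icc 0 1)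
  have ha0 : 0 < a := by linarith
  -- the derivative of - Z
  have hd1 : ∀ T ∈ Ioo (0 : ℝ) 1, HasDerivAt (fun T => -ZF a c T)
      (a * ((yF a c T - ZF a c T) / T)) T := by
    intro T hT
    have h1 := (hasDerivAt_ZF (c := c) ha hT).fun_neg
    refine h1.congr_deriv ?_
    have hT0 := hT.1.ne'
    field_simp
    ring
  have hi1 : IntervalIntegrable (fun T => a * ((yF a c T - ZF a c T) / T)) volume 0 1 := by
    rw [intervalIntegrable_iff, uIoc_of_le zero_le_one]
    refine intervalIntegral.integrableOn_deriv_of_nonneg hZ.neg hd1 fun T hT => ?_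
    have := yZ_nonneg hc ha (Ioo_subset_Ico_self hT)
    exact mul_nonneg ha0.le (div_nonneg (by linarith) hT.1.le)
  have h1 := intervalIntegral.integral_eq_sub_of_hasDerivAt_of_le zero_le_one hZ.neg hd1 hi1
  have hi2 : IntervalIntegrable (fun T => (yF a c T - ZF a c T) / T) volume 0 1 := by
    have := hi1.const_mul a⁻¹
    refine this.congr (fun T _ => ?_)
    exact inv_mul_cancel_left₀ ha0.ne' _
  have hi2n : IntervalIntegrable (fun T => -((yF a c T - ZF a c T) / T)) volume 0 1 := hi2.neg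
  have hcy := contOn_pow_mul hy 1
  have hd2 : ∀ T ∈ Ioo (0 : ℝ) 1, HasDerivAt (fun T => (1 - T ^ 2) * yF a c T)
      (-((yF a c T - ZF a c T) / T) - (2 * a - 1) * (T ^ 1 * yF a c T)) T := by
    intro T hT
    have hk := kap_pos ⟨hT.1.le, hT.2⟩
    have h1 := (hasDerivAt_kap T).fun_mul (hasDerivAt_yF (c := c) ha hT)
    refine h1.congr_deriv ?_
    have hT0 := hT.1.ne'
    field_simp
    ring
  have h2 := intervalIntegral.integral_eq_sub_of_hasDerivAt_of_le
    (f := fun T => (1 - T ^ 2) * yF a c T) zero_le_one (by fun_prop) hd2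
    (hi2n.sub ((intble hcy).const_mul _))
  rw [intervalIntegral.integral_sub hi2n ((intble hcy).const_mul _),
    intervalIntegral.integral_neg, intervalIntegral.integral_const_mul, yF_one ha, yF_zero] at h2
  rw [intervalIntegral.integral_const_mul] at h1
  simp only [Pi.neg_apply] at h1
  rw [ZF_one ha, ZF_zero] at h1
  simp only [mul_zero] at h2
  unfold Ym
  linear_combination (-a) * h2 - h1

lemma intble_ed (hc : 0 ≤ c) (ha : 2 ≤ a) :
    IntervalIntegrable (fun T => eF a c T / T) volume 0 1 := by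
  have he := contOn_eF hc ha
  have hZ := continuous_ZF (c := c) ha
  have ha0 : 0 < a := by linarith
  have hd : ∀ T ∈ Ioo (0 : ℝ) 1, HasDerivAt (fun T => eF a c T + 1 / 2 * ∫ x in (0 : ℝ)..T, ZF a c x)
      (a * (eF a c T / T)) T := by
    intro T hT
    have h1 := (hasDerivAt_eF (c := c) ha hT).fun_add
      ((intervalIntegral.integral_hasDerivAt_right (hZ.intervalIntegrable 0 T)
        (hZ.stronglyMeasurableAtFilter _ _) hZ.continuousAt).const_mul (1 / 2))
    refine h1.congr_deriv ?_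
    ring
  have h1 := intervalIntegral.integrableOn_deriv_of_nonneg (a := 0) (b := 1)
    (g := fun T => eF a c T + 1 / 2 * ∫ x in (0 : ℝ)..T, ZF a c x)
    (he.add (continuousOn_const.mul (intervalIntegral.continuous_primitive
      (fun x y => hZ.intervalIntegrable x y) 0).continuousOn)) hd ?_
  · rw [← uIoc_of_le zero_le_one, ← intervalIntegrable_iff] at h1
    have := h1.const_mul a⁻¹
    refine this.congr (fun T _ => ?_)
    exact inv_mul_cancel_left₀ ha0.ne' _
  · intro T hT
    exact mul_nonneg ha0.le (div_nonneg (eF_nonneg hc ⟨hT.1.le, hT.2.le⟩) hT.1.le)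

lemma mom_ed (hc : 0 ≤ c) (ha : 2 ≤ a) : 2 * a * Ed a c = Zm a c 0 := by
  have he := contOn_eF hc ha
  have hZ := (continuous_ZF (c := c) ha).continuousOn (s := Icc 0 1)
  have hcZ := contOn_pow_mul hZ 0
  have hi := intble_ed hc ha
  have h := intervalIntegral.integral_eq_sub_of_hasDerivAt_of_le (f := eF a c)
    (f' := fun T => a * (eF a c T / T) - 1 / 2 * (T ^ 0 * ZF a c T)) zero_le_one he ?_
    ((hi.const_mul _).sub ((intble hcZ).const_mul _))
  · rw [intervalIntegral.integral_sub (hi.const_mul _) ((intble hcZ).const_mul _),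
      intervalIntegral.integral_const_mul, intervalIntegral.integral_const_mul, eF_one,
      eF_zero ha] at h
    unfold Ed Zm
    linear_combination 2 * h
  · intro T hT
    refine (hasDerivAt_eF (c := c) ha hT).congr_deriv ?_
    ring

lemma mom_r_one (hc : 0 ≤ c) (ha : 2 ≤ a) : 2 * a * Rm a c 1 = rF a c 0 - Ed a c := by
  have hr := contOn_rF hc ha
  have hcr := contOn_pow_mul hr 1
  have hi := intble_ed hc ha
  have hin : IntervalIntegrable (fun T => -(eF a c T / T)) volume 0 1 := hi.neg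
  have h := intervalIntegral.integral_eq_sub_of_hasDerivAt_of_le
    (f := fun T => (1 - T ^ 2) * rF a c T)
    (f' := fun T => -(eF a c T / T) - 2 * a * (T ^ 1 * rF a c T)) zero_le_one (by fun_prop) ?_
    (hin.sub ((intble hcr).const_mul _))
  · rw [intervalIntegral.integral_sub hin ((intble hcr).const_mul _),
      intervalIntegral.integral_neg, intervalIntegral.integral_const_mul, rF_one] at h
    unfold Ed Rm
    linear_combination -h
  · intro T hT
    have hk := kap_pos ⟨hT.1.le, hT.2⟩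
    have h1 := (hasDerivAt_kap T).fun_mul (hasDerivAt_rF (c := c) hc ha hT)
    refine h1.congr_deriv ?_
    have hT0 := hT.1.ne'
    field_simp
    ring

section

variable {m : ℕ}

lemma half_le (h4 : 4 ≤ m) : (2 : ℝ) ≤ (m : ℝ) / 2 := by
  have : (4 : ℝ) ≤ m := by exact_mod_cast h4
  linarith

lemma m_pos (h4 : 4 ≤ m) : (0 : ℝ) < m := by
  have : (4 : ℝ) ≤ m := by exact_mod_cast h4
  linarith

/-- moments of the four weights of dimension m -/
noncomputable def YM (m j : ℕ) : ℝ := ∫ T in (0 : ℝ)..1, T ^ j * yM m T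
noncomputable def ZZM (m j : ℕ) : ℝ := ∫ T in (0 : ℝ)..1, T ^ j * ZM m T
noncomputable def EM (m j : ℕ) : ℝ := ∫ T in (0 : ℝ)..1, T ^ j * eM m T
noncomputable def RM (m j : ℕ) : ℝ := ∫ T in (0 : ℝ)..1, T ^ j * rM m T
noncomputable def EdM (m : ℕ) : ℝ := ∫ T in (0 : ℝ)..1, eM m T / T

/-- `(m + 2 j + 2) Z_j = m Y_j` -/
theorem ZZM_eq (h4 : 4 ≤ m) (j : ℕ) : ((m : ℝ) + 2 * j + 2) * ZZM m j = m * YM m j := by
  have h := mom_Z (c := cn m) (half_le h4) j
  rw [show 2 * ((m : ℝ) / 2) = m by ring] at h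
  exact h

/-- `(m + j) (m + 2 j + 2) Y_{j + 2} = (j + 1) (m + 2 j) Y_j` -/
theorem YM_rec (h4 : 4 ≤ m) (j : ℕ) : ((m : ℝ) + j) * (m + 2 * j + 2) * YM m (j + 2)
    = (j + 1) * (m + 2 * j) * YM m j := by
  have h := mom_y (c := cn m) (half_le h4) j
  rw [show 2 * ((m : ℝ) / 2) = m by ring] at h
  have h2 := ZZM_eq h4 j
  have h' : ((m : ℝ) + j) * YM m (j + 2) = ZZM m j + j * YM m j := h
  linear_combination ((m : ℝ) + 2 * j + 2) * h' + h2

/-- `(m + 2 j + 2) e_j = Z_{j + 1}` -/
theorem EM_eq (h4 : 4 ≤ m) (j : ℕ) : ((m : ℝ) + 2 * j + 2) * EM m j = ZZM m (j + 1) := by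
  have h := mom_e (cn_nonneg h4) (half_le h4) j
  have h' : (2 * ((m : ℝ) / 2) + 2 * (j + 1)) * EM m j = ZZM m (j + 1) := h
  linear_combination h'

/-- `(m + j + 1) r_{j + 2} = (j + 1) r_j - e_j` -/
theorem RM_rec (h4 : 4 ≤ m) (j : ℕ) : ((m : ℝ) + j + 1) * RM m (j + 2)
    = (j + 1) * RM m j - EM m j := by
  have h := mom_r (cn_nonneg h4) (half_le h4) j
  have h' : (2 * ((m : ℝ) / 2) + (j + 1)) * RM m (j + 2) = (j + 1) * RM m j - EM m j := h
  linear_combination h'

/-- the first moment of y is exactly `1 / m` -/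
theorem YM_one (h4 : 4 ≤ m) : YM m 1 = 1 / m := by
  have hm4 : (4 : ℝ) ≤ m := by exact_mod_cast h4
  have hI := II_pos (half_le h4) 0
  have h := mom_y_one (cn_nonneg h4) (half_le h4)
  have h' : (m : ℝ) / 2 * (2 * (m / 2) - 1) * YM m 1 = ((m : ℝ) / 2 - 1) * (cn m * II (m / 2) 0) := h
  have e : cn m * II (m / 2) 0 = ((m : ℝ) - 1) / (m - 2) := by
    unfold cn
    rw [div_mul_cancel₀ _ hI.ne']
  rw [e] at h'
  have h2 : (m : ℝ) - 2 ≠ 0 := by linarith
  have h3 : (m : ℝ) - 1 ≠ 0 := by linarith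
  have h4 : (m : ℝ) ≠ 0 := by linarith
  have h5 : ((m : ℝ) - 1) * (m * YM m 1) = (m - 1) * 1 := by
    have e2 : ((m : ℝ) / 2 - 1) * ((m - 1) / (m - 2)) = (m - 1) / 2 := by
      field_simp
    rw [e2] at h'
    linear_combination 2 * h'
  have h6 := mul_left_cancel₀ h3 h5
  rw [eq_div_iff h4]
  linarith

/-- `int e = 1 / ((m + 2) (m + 4))` -/
theorem EM_zero (h4 : 4 ≤ m) : EM m 0 = 1 / (((m : ℝ) + 2) * (m + 4)) := by
  have hm := m_pos h4
  have h1 := YM_one h4
  have h2 := ZZM_eq h4 1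
  have h3 := EM_eq h4 0
  rw [h1] at h2
  push_cast at h2 h3
  have h5 : ((m : ℝ) + 4) * ZZM m 1 = 1 := by
    have e : (m : ℝ) * (1 / m) = 1 := by field_simp
    rw [e] at h2
    linear_combination h2
  rw [eq_div_iff (by positivity)]
  have h6 : ((m : ℝ) + 2) * EM m 0 = ZZM m 1 := by
    linear_combination h3
  linear_combination ((m : ℝ) + 4) * h6 + h5

/-- `m int e / T = Z_0` -/
theorem EdM_eq (h4 : 4 ≤ m) : ((m : ℝ) + 2) * EdM m = YM m 0 := by
  have hm := m_pos h4
  have h := mom_ed (cn_nonneg h4) (half_le h4)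
  have h' : 2 * ((m : ℝ) / 2) * EdM m = ZZM m 0 := h
  have h2 := ZZM_eq h4 0
  rw [← h'] at h2
  push_cast at h2
  have h3 : (m : ℝ) * (((m : ℝ) + 2) * EdM m) = m * YM m 0 := by linear_combination h2
  exact mul_left_cancel₀ hm.ne' h3

/-- `m r_1 = r (0) - Y_0 / (m + 2)` -/
theorem RM_one (h4 : 4 ≤ m) : (m : ℝ) * RM m 1 = rM m 0 - YM m 0 / (m + 2) := by
  have hm := m_pos h4
  have h := mom_r_one (cn_nonneg h4) (half_le h4)
  have h' : 2 * ((m : ℝ) / 2) * RM m 1 = rM m 0 - EdM m := h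
  have h2 := EdM_eq h4
  rw [← h2, mul_div_cancel_left₀ _ (by positivity : (m : ℝ) + 2 ≠ 0)]
  linear_combination h'

/-- `(m + 1) r_2 = r_0 - 1 / ((m + 2) (m + 4))` -/
theorem RM_two (h4 : 4 ≤ m) : ((m : ℝ) + 1) * RM m 2 = RM m 0 - 1 / (((m : ℝ) + 2) * (m + 4)) := by
  have h := RM_rec h4 0
  rw [EM_zero h4] at h
  push_cast at h
  rw [zero_add] at h
  linear_combination h

/-- `(m + 2) Y_2 = Y_0` -/
theorem YM_two (h4 : 4 ≤ m) : ((m : ℝ) + 2) * YM m 2 = YM m 0 := by
  have hm := m_pos h4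
  have h := YM_rec h4 0
  push_cast at h
  rw [zero_add] at h
  have h3 : (m : ℝ) * (((m : ℝ) + 2) * YM m 2) = m * YM m 0 := by linear_combination h
  exact mul_left_cancel₀ hm.ne' h3

/-- `Y_3 = 2 (m + 2) / (m (m + 1) (m + 4))` -/
theorem YM_three (h4 : 4 ≤ m) : YM m 3 = 2 * ((m : ℝ) + 2) / (m * (m + 1) * (m + 4)) := by
  have hm := m_pos h4
  have h := YM_rec h4 1
  rw [YM_one h4] at h
  push_cast at h
  rw [eq_div_iff (by positivity)]
  have e : (m : ℝ) * (1 / m) = 1 := by field_simp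
  linear_combination (m : ℝ) * h + 2 * ((m : ℝ) + 2) * e

end

end Vale.Agent.P224.R2.H627
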