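import Vale.Agent.P224.R2.H627.R0

/-!
The constants `B_0 = int (1 - T ^ 2) ^ (m / 2 - 1)`, `Y_0 = int y`, `R_0 = int r`: two sided bounds.
-/

namespace Vale.Agent.P224.R2.H627

open MeasureTheory Set Filter Function Real Vale.Agent.P224.SM2 Vale.Agent.P224.R2.H820
open scoped Topology

variable {m : ℕ}

/-- `B_0 = int (1 - T ^ 2) ^ (m / 2 - 1)` -/
noncomputable def BM (m : ℕ) : ℝ := KM ((m : ℝ) / 2) 0

lemma BM_eq (hm : 2 ≤ m) : BM m = √π / 2 * Gq m := KM_zero_eq hm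

lemma BM_pos (hm : 2 ≤ m) : 0 < BM m := by
  rw [BM_eq hm]
  have h1 : 0 < √π := sqrt_pos.2 pi_pos
  have h2 : (2 : ℝ) ≤ m := by exact_mod_cast hm
  have h3 := Gq_pos (x := (m : ℝ)) (by linarith)
  positivity

/-- `B_0 ^ 2 ≤ π / (2 m - 1 + 1 / (4 m - 1))` -/
theorem BM_sq_le (hm : 3 ≤ m) : BM m ^ 2 ≤ π / (2 * m - 1 + 1 / (4 * m - 1)) := by
  have h2 : (3 : ℝ) ≤ m := by exact_mod_cast hm
  have h := Gq_le (x := (m : ℝ)) (by linarith)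
  rw [BM_eq (by omega), mul_pow, div_pow, sq_sqrt pi_pos.le]
  have h3 := mul_le_mul_of_nonneg_left h (by positivity : 0 ≤ π / 2 ^ 2)
  refine h3.trans (le_of_eq ?_)
  ring

/-- `π / (2 m - 1 + 1 / (4 m - 2)) ≤ B_0 ^ 2` -/
theorem BM_sq_ge (hm : 2 ≤ m) : π / (2 * m - 1 + 1 / (4 * m - 2)) ≤ BM m ^ 2 := by
  have h2 : (2 : ℝ) ≤ m := by exact_mod_cast hm
  have h := Gq_ge (x := (m : ℝ)) (by linarith)
  rw [BM_eq (by omega), mul_pow, div_pow, sq_sqrt pi_pos.le]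
  have h3 := mul_le_mul_of_nonneg_left h (by positivity : 0 ≤ π / 2 ^ 2)
  refine le_trans (le_of_eq ?_) h3
  ring

lemma YB_eq (h4 : 4 ≤ m) : YM m 0 * BM m = π / 8 * Gq (m / 2) ^ 2 := by
  have hm := m_pos h4
  rw [YM_zero_eq h4, BM_eq (by omega)]
  have h1 := (Gq_pos hm).ne'
  have h2 : √π * √π = π := mul_self_sqrt pi_pos.le
  field_simp
  rw [sq, h2]
  ring

/-- `Y_0 B_0 ≤ (π / 2) / (m - 1 + 1 / (2 m - 1))` -/
theorem YB_le (h5 : 5 ≤ m) : YM m 0 * BM m ≤ π / 2 / (m - 1 + 1 / (2 * m - 1)) := by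
  have h2 : (5 : ℝ) ≤ m := by exact_mod_cast h5
  have h := Gq_le (x := (m : ℝ) / 2) (by linarith)
  rw [YB_eq (by omega)]
  rw [show 2 * ((m : ℝ) / 2) = m by ring, show 4 * ((m : ℝ) / 2) = 2 * m by ring] at h
  have h3 := mul_le_mul_of_nonneg_left h (by positivity : 0 ≤ π / 8)
  refine h3.trans (le_of_eq ?_)
  ring

/-- `(π / 2) / (m - 1 + 1 / (2 m - 2)) ≤ Y_0 B_0` -/
theorem YB_ge (h4 : 4 ≤ m) : π / 2 / (m - 1 + 1 / (2 * m - 2)) ≤ YM m 0 * BM m := by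
  have h2 : (4 : ℝ) ≤ m := by exact_mod_cast h4
  have h := Gq_ge (x := (m : ℝ) / 2) (by linarith)
  rw [YB_eq h4]
  rw [show 2 * ((m : ℝ) / 2) = m by ring, show 4 * ((m : ℝ) / 2) = 2 * m by ring] at h
  have h3 := mul_le_mul_of_nonneg_left h (by positivity : 0 ≤ π / 8)
  refine le_trans (le_of_eq ?_) h3
  ring

lemma contOn_kapR (h4 : 4 ≤ m) : ContinuousOn
    (fun T : ℝ => (1 - T ^ 2) ^ ((m : ℝ) / 2 - 1) * Rf (m / 2) (cn m) T) (Icc 0 1) := by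
  have h := half_le h4
  exact (continuous_kap (by linarith)).continuousOn.mul (continuousOn_Rf (cn_nonneg h4) h)

lemma mRM_eq : (m : ℝ) * RM m 0
    = ∫ T in (0 : ℝ)..1, (1 - T ^ 2) ^ ((m : ℝ) / 2 - 1) * Rf (m / 2) (cn m) T := by
  unfold RM
  rw [← intervalIntegral.integral_const_mul]
  refine intervalIntegral.integral_congr fun T _ => ?_
  have h := rM_eq (m := m) T
  unfold rh at h
  simp only [pow_zero, one_mul]
  exact h

lemma mr0_eq : (m : ℝ) * rM m 0 = Rf (m / 2) (cn m) 0 := by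
  have h := rM_eq (m := m) 0
  rw [show (1 : ℝ) - 0 ^ 2 = 1 by norm_num, one_rpow, one_mul] at h
  unfold rh at h
  exact h

lemma int_comb (hm : 2 ≤ m) (c0 c1 c2 c3 c4 c5 c6 : ℝ) :
    ∫ T in (0 : ℝ)..1, (1 - T ^ 2) ^ ((m : ℝ) / 2 - 1) * (c0 - (c1 * T + c2 * (T ^ 3 / 3)
      + c3 * (T ^ 5 / 5) + c4 * (T ^ 7 / 7) + c5 * (T ^ 9 / 9) + c6 * (T ^ 11 / 11)))
    = c0 * KM ((m : ℝ) / 2) 0 - (c1 * KM ((m : ℝ) / 2) 1 + c2 * (KM ((m : ℝ) / 2) 3 / 3)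
      + c3 * (KM ((m : ℝ) / 2) 5 / 5) + c4 * (KM ((m : ℝ) / 2) 7 / 7)
      + c5 * (KM ((m : ℝ) / 2) 9 / 9) + c6 * (KM ((m : ℝ) / 2) 11 / 11)) := by
  have h2 : (2 : ℝ) ≤ m := by exact_mod_cast hm
  have ha : (1 : ℝ) ≤ m / 2 := by linarith
  have i := fun k => intble (contOn_KM ha k)
  have e : ∀ T : ℝ, (1 - T ^ 2) ^ ((m : ℝ) / 2 - 1) * (c0 - (c1 * T + c2 * (T ^ 3 / 3)
      + c3 * (T ^ 5 / 5) + c4 * (T ^ 7 / 7) + c5 * (T ^ 9 / 9) + c6 * (T ^ 11 / 11)))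
      = c0 * (T ^ 0 * (1 - T ^ 2) ^ ((m : ℝ) / 2 - 1))
        + (-c1) * (T ^ 1 * (1 - T ^ 2) ^ ((m : ℝ) / 2 - 1))
        + (-c2 / 3) * (T ^ 3 * (1 - T ^ 2) ^ ((m : ℝ) / 2 - 1))
        + (-c3 / 5) * (T ^ 5 * (1 - T ^ 2) ^ ((m : ℝ) / 2 - 1))
        + (-c4 / 7) * (T ^ 7 * (1 - T ^ 2) ^ ((m : ℝ) / 2 - 1))
        + (-c5 / 9) * (T ^ 9 * (1 - T ^ 2) ^ ((m : ℝ) / 2 - 1))
        + (-c6 / 11) * (T ^ 11 * (1 - T ^ 2) ^ ((m : ℝ) / 2 - 1)) := fun T => by ring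
  simp_rw [e]
  rw [intervalIntegral.integral_add, intervalIntegral.integral_add, intervalIntegral.integral_add,
    intervalIntegral.integral_add, intervalIntegral.integral_add, intervalIntegral.integral_add]
  · simp only [intervalIntegral.integral_const_mul]
    unfold KM
    ring
  all_goals first
    | exact (i _).const_mul _
    | exact ((i _).const_mul _).add ((i _).const_mul _)
    | exact (((i _).const_mul _).add ((i _).const_mul _)).add ((i _).const_mul _)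
    | exact ((((i _).const_mul _).add ((i _).const_mul _)).add ((i _).const_mul _)).add
        ((i _).const_mul _)
    | exact (((((i _).const_mul _).add ((i _).const_mul _)).add ((i _).const_mul _)).add
        ((i _).const_mul _)).add ((i _).const_mul _)
    | exact ((((((i _).const_mul _).add ((i _).const_mul _)).add ((i _).const_mul _)).add
        ((i _).const_mul _)).add ((i _).const_mul _)).add ((i _).const_mul _)

/-- `m R_0` from below, in terms of `m r (0)` and `B_0` -/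
theorem mRM_ge' (hm : 17 ≤ m) :
    m * rM m 0 * BM m - XkU m (2 / m) ≤ m * RM m 0 := by
  have h2 : 2 ≤ m := by omega
  obtain ⟨e1, e3, e5, e7, e9, _⟩ := KM_odd h2
  rw [mRM_eq, mr0_eq]
  have h := int_comb h2 (Rf (m / 2) (cn m) 0) (1 + 3 / 2 * (2 / m) + 59 / 25 * (2 / (m : ℝ)) ^ 2)
    (-(7 / 2) - 1873 / 100 * (2 / m) - 2182 / 25 * (2 / m) ^ 2)
    (691 / 100 + 8851 / 100 * (2 / m) + 76441 / 100 * (2 / m) ^ 2)
    (-(543 / 50) - 6202 / 25 * (2 / m) - 239249 / 100 * (2 / m) ^ 2)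
    (1323 / 100 + 30087 / 100 * (2 / m) + 242489 / 100 * (2 / m) ^ 2) 0
  rw [e1, e3, e5, e7, e9] at h
  have e : Rf (m / 2) (cn m) 0 * BM m - XkU m (2 / m) = ∫ T in (0 : ℝ)..1,
      (1 - T ^ 2) ^ ((m : ℝ) / 2 - 1) * (Rf (m / 2) (cn m) 0 - XpU T (2 / m)) := by
    have e' : ∀ T : ℝ, (1 - T ^ 2) ^ ((m : ℝ) / 2 - 1) * (Rf (m / 2) (cn m) 0 - XpU T (2 / m))
        = (1 - T ^ 2) ^ ((m : ℝ) / 2 - 1) * (Rf (m / 2) (cn m) 0
      - ((1 + 3 / 2 * (2 / m) + 59 / 25 * (2 / (m : ℝ)) ^ 2) * T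
      + (-(7 / 2) - 1873 / 100 * (2 / m) - 2182 / 25 * (2 / m) ^ 2) * (T ^ 3 / 3)
      + (691 / 100 + 8851 / 100 * (2 / m) + 76441 / 100 * (2 / m) ^ 2) * (T ^ 5 / 5)
      + (-(543 / 50) - 6202 / 25 * (2 / m) - 239249 / 100 * (2 / m) ^ 2) * (T ^ 7 / 7)
      + (1323 / 100 + 30087 / 100 * (2 / m) + 242489 / 100 * (2 / m) ^ 2) * (T ^ 9 / 9)
      + 0 * (T ^ 11 / 11))) := fun T => by
      unfold XpU
      ring
    simp_rw [e']
    rw [h]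
    unfold BM XkU
    ring
  rw [e]
  refine intervalIntegral.integral_mono_on zero_le_one (intble ?_)
    (intble (contOn_kapR (by omega))) fun T hT => ?_
  · refine (continuous_kap ?_).continuousOn.mul (continuousOn_const.sub (contXpU _).continuousOn)
    have := half17_le hm
    linarith
  · have h1 := Rf_ge_X (half17_le hm) (nrm_cn (m := m) (by omega)) hT
    rw [one_div_half] at h1
    have h3 : 0 ≤ (1 - T ^ 2) ^ ((m : ℝ) / 2 - 1) :=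
      rpow_nonneg (by nlinarith [hT.1, hT.2]) _
    exact mul_le_mul_of_nonneg_left h1 h3

/-- `m R_0` from above -/
theorem mRM_le' (hm : 17 ≤ m) :
    m * RM m 0 ≤ m * rM m 0 * BM m - XkL m (2 / m) := by
  have h2 : 2 ≤ m := by omega
  obtain ⟨e1, e3, e5, e7, e9, e11⟩ := KM_odd h2
  rw [mRM_eq, mr0_eq]
  have h := int_comb h2 (Rf (m / 2) (cn m) 0) (1 + 3 / 2 * (2 / m) + 199 / 100 * (2 / (m : ℝ)) ^ 2)
    (-(7 / 2) - 377 / 20 * (2 / m) - 2753 / 25 * (2 / m) ^ 2)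
    (27 / 4 + 1841 / 20 * (2 / m) + 31698 / 25 * (2 / m) ^ 2)
    (-(531 / 50) - 17327 / 50 * (2 / m) - 323137 / 50 * (2 / m) ^ 2)
    (311 / 20 + 55977 / 50 * (2 / m) + 337689 / 25 * (2 / m) ^ 2)
    (-(3097 / 100) - 14337 / 10 * (2 / m) - 220473 / 25 * (2 / m) ^ 2)
  rw [e1, e3, e5, e7, e9, e11] at h
  have e : Rf (m / 2) (cn m) 0 * BM m - XkL m (2 / m) = ∫ T in (0 : ℝ)..1,
      (1 - T ^ 2) ^ ((m : ℝ) / 2 - 1) * (Rf (m / 2) (cn m) 0 - XpL T (2 / m)) := by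
    have e' : ∀ T : ℝ, (1 - T ^ 2) ^ ((m : ℝ) / 2 - 1) * (Rf (m / 2) (cn m) 0 - XpL T (2 / m))
        = (1 - T ^ 2) ^ ((m : ℝ) / 2 - 1) * (Rf (m / 2) (cn m) 0
      - ((1 + 3 / 2 * (2 / m) + 199 / 100 * (2 / (m : ℝ)) ^ 2) * T
      + (-(7 / 2) - 377 / 20 * (2 / m) - 2753 / 25 * (2 / m) ^ 2) * (T ^ 3 / 3)
      + (27 / 4 + 1841 / 20 * (2 / m) + 31698 / 25 * (2 / m) ^ 2) * (T ^ 5 / 5)
      + (-(531 / 50) - 17327 / 50 * (2 / m) - 323137 / 50 * (2 / m) ^ 2) * (T ^ 7 / 7)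
      + (311 / 20 + 55977 / 50 * (2 / m) + 337689 / 25 * (2 / m) ^ 2) * (T ^ 9 / 9)
      + (-(3097 / 100) - 14337 / 10 * (2 / m) - 220473 / 25 * (2 / m) ^ 2) * (T ^ 11 / 11))) :=
      fun T => by
        unfold XpL
        ring
    simp_rw [e']
    rw [h]
    unfold BM XkL
    ring
  rw [e]
  refine intervalIntegral.integral_mono_on zero_le_one
    (intble (contOn_kapR (by omega))) (intble ?_) fun T hT => ?_
  · refine (continuous_kap ?_).continuousOn.mul (continuousOn_const.sub (contXpL _).continuousOn)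
    have := half17_le hm
    linarith
  · have h1 := Rf_le_X (half17_le hm) (nrm_cn (m := m) (by omega)) hT
    rw [one_div_half] at h1
    have h3 : 0 ≤ (1 - T ^ 2) ^ ((m : ℝ) / 2 - 1) :=
      rpow_nonneg (by nlinarith [hT.1, hT.2]) _
    exact mul_le_mul_of_nonneg_left h1 h3

lemma XkU_le {m : ℝ} (hm : 17 ≤ m) :
    XkU m (2 / m) ≤ (1 + 2 / 3 / m + 19 / 100 / m ^ 2) / m := by
  obtain ⟨x, rfl, hx⟩ : ∃ x : ℝ, m = x + 17 ∧ 0 ≤ x := ⟨m - 17, by ring, by linarith⟩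
  have e : (1 + 2 / 3 / (x + 17) + 19 / 100 / (x + 17) ^ 2) / (x + 17) - XkU (x + 17) (2 / (x + 17))
      = (14682197 / 300 + 17816216 / 875 * x + 333589 / 210 * x ^ 2 + 43544 / 875 * x ^ 3 + 1 /
      1500 * x ^ 4)
        / ((x + 17) ^ 3 * (x + 17 + 2) * (x + 17 + 4) * (x + 17 + 6) * (x + 17 + 8)) := by
    unfold XkU
    field_simp
    ring
  have h : 0 ≤ (14682197 / 300 + 17816216 / 875 * x + 333589 / 210 * x ^ 2 + 43544 / 875 * x ^ 3 + 1 /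
      1500 * x ^ 4)
        / ((x + 17) ^ 3 * (x + 17 + 2) * (x + 17 + 4) * (x + 17 + 6) * (x + 17 + 8)) := by
    positivity
  linarith

lemma XkL_ge {m : ℝ} (hm : 17 ≤ m) :
    (1 + 2 / 3 / m - 14 / 5 / m ^ 2) / m ≤ XkL m (2 / m) := by
  obtain ⟨x, rfl, hx⟩ : ∃ x : ℝ, m = x + 17 ∧ 0 ≤ x := ⟨m - 17, by ring, by linarith⟩
  have e : XkL (x + 17) (2 / (x + 17)) - (1 + 2 / 3 / (x + 17) - 14 / 5 / (x + 17) ^ 2) / (x + 17)
      = (30081804 / 385 + 2495211986 / 28875 * x + 38363816 / 5775 * x ^ 2 + 827156 / 2625 * x ^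
      3 + 15724 / 525 * x ^ 4 + 82 / 75 * x ^ 5)
        / ((x + 17) ^ 3 * (x + 17 + 2) * (x + 17 + 4) * (x + 17 + 6) * (x + 17 + 8)
          * (x + 17 + 10)) := by
    unfold XkL
    field_simp
    ring
  have h : 0 ≤ (30081804 / 385 + 2495211986 / 28875 * x + 38363816 / 5775 * x ^ 2 + 827156 / 2625 * x ^
      3 + 15724 / 525 * x ^ 4 + 82 / 75 * x ^ 5)
        / ((x + 17) ^ 3 * (x + 17 + 2) * (x + 17 + 4) * (x + 17 + 6) * (x + 17 + 8)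
          * (x + 17 + 10)) := by
    positivity
  linarith

/-- `m R_0 ≥ m r (0) B_0 - (1 + (2 / 3) / m + .19 / m ^ 2) / m` -/
theorem mRM_ge (hm : 17 ≤ m) :
    m * rM m 0 * BM m - (1 + 2 / 3 / m + 19 / 100 / m ^ 2) / m ≤ m * RM m 0 := by
  have h2 : (17 : ℝ) ≤ m := by exact_mod_cast hm
  linarith [mRM_ge' hm, XkU_le h2]

/-- `m R_0 ≤ m r (0) B_0 - (1 + (2 / 3) / m - 2.8 / m ^ 2) / m` -/
theorem mRM_le (hm : 17 ≤ m) :
    m * RM m 0 ≤ m * rM m 0 * BM m - (1 + 2 / 3 / m - 14 / 5 / m ^ 2) / m := by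
  have h2 : (17 : ℝ) ≤ m := by exact_mod_cast hm
  linarith [mRM_le' hm, XkL_ge h2]

end Vale.Agent.P224.R2.H627
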