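import Vale.Agent.P224.R2.H627.PolDef

/-!
Polynomial inequalities for the scalar conditions of the defect (generated, checked by the kernel).
-/

namespace Vale.Agent.P224.R2.H627

set_option linter.unusedSimpArgs false

noncomputable def gU (l s t : ℝ) : ℝ := 2 * (1 + s) * (s * wW s t + (1 - s) ^ 2 * kU s t)
  - l * ((1 + t / 2) * (1 + t)) * s ^ 2 * (1 - s) * kU s t
noncomputable def gE (s t : ℝ) : ℝ := wL s t * (2 - s ^ 2) ^ 2 - 18 / 5 * s ^ 4 * wU s t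
noncomputable def gA (l s t : ℝ) : ℝ := (2 - s ^ 2) ^ 2 * gU l s t
  + (1 + s) * (1 + 3 * t / 2) * (s ^ 3 * gE s t)
noncomputable def gB (s t : ℝ) : ℝ := (1 + s) * (1 + 3 * t / 2)
  * ((2 - s ^ 2) * s * gE s t - 4 * (2 - s ^ 2) ^ 2 * ((1 - s) ^ 2 * kU s t))
noncomputable def gF1 (s t : ℝ) : ℝ := 2 * ((1 - s) ^ 2 * kL s t) * (2 - s ^ 2) ^ 2
  - ((2 - s ^ 2) ^ 2 - 9 / 5 * s ^ 4) * (s * (1 - s ^ 2) * wU s t)
noncomputable def gF2 (s t : ℝ) : ℝ := 2 * ((1 - s) ^ 2 * kL s t) * (2 - s ^ 2) ^ 2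
  - s * (1 - s ^ 2) * ((2 - s ^ 2) ^ 2 * wU s t - 9 / 5 * s ^ 4 * wL s t)

end Vale.Agent.P224.R2.H627
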