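import Mathlib

/-!
A comparison lemma for linear first order equations on (0, 1) with a condition at the right end.
-/

namespace Vale.Agent.P224.R2.H627

open Set Filter
open scoped Topology

/-- if `T X' = A X - B` with `A, B ≥ 0` and `X` has a nonnegative limit at `1`, then `X ≥ 0` -/
theorem cmp {X A B : ℝ → ℝ} {l : ℝ} (hd : ∀ T ∈ Ioo (0 : ℝ) 1, HasDerivAt X ((A T * X T - B T) / T) T)
    (hA : ∀ T ∈ Ioo (0 : ℝ) 1, 0 ≤ A T) (hB : ∀ T ∈ Ioo (0 : ℝ) 1, 0 ≤ B T)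
    (hl : Tendsto X (𝓝[<] 1) (𝓝 l)) (hl0 : 0 ≤ l) {T : ℝ} (hT : T ∈ Ioo (0 : ℝ) 1) : 0 ≤ X T := by
  by_contra hneg
  rw [not_le] at hneg
  have hcont : ContinuousOn X (Ioo 0 1) := fun x hx => (hd x hx).continuousAt.continuousWithinAt
  -- a point close to 1 where X > X T / 2
  have hev : ∀ᶠ x in 𝓝[<] (1 : ℝ), X T / 2 < X x := hl.eventually_const_lt (by linarith)
  obtain ⟨b, hb, hbT⟩ := (hev.and (Ioo_mem_nhdsLT hT.2)).exists
  have hTb : T ≤ b := hbT.1.le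
  have hsub : Icc T b ⊆ Ioo (0 : ℝ) 1 := fun x hx => ⟨hT.1.trans_le hx.1, hx.2.trans_lt hbT.2⟩
  set S : Set ℝ := {x | x ∈ Icc T b ∧ X T / 2 ≤ X x} with hS
  have hSc : IsClosed S := by
    have := (hcont.mono hsub).preimage_isClosed_of_isClosed isClosed_Icc (isClosed_Ici (a := X T / 2))
    exact this
  have hSne : S.Nonempty := ⟨b, ⟨hTb, le_rfl⟩, hb.le⟩
  have hSb : BddBelow S := ⟨T, fun x hx => hx.1.1⟩
  have hcS := hSc.csInf_mem hSne hSb
  set c := sInf S with hc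
  have hcI : c ∈ Icc T b := hcS.1
  have hlt : ∀ x ∈ Ico T c, X x < X T / 2 := by
    intro x hx
    by_contra h
    rw [not_lt] at h
    have : c ≤ x := csInf_le hSb ⟨⟨hx.1, hx.2.le.trans hcI.2⟩, h⟩
    linarith [hx.2]
  have hanti : AntitoneOn X (Icc T c) := by
    have hsub' : Icc T c ⊆ Ioo (0 : ℝ) 1 := fun x hx => hsub ⟨hx.1, hx.2.trans hcI.2⟩
    refine antitoneOn_of_deriv_nonpos (convex_Icc T c) (hcont.mono hsub') ?_ ?_
    · rw [interior_Icc]
      exact fun x hx => (hd x (hsub' ⟨hx.1.le, hx.2.le⟩)).differentiableAt.differentiableWithinAt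
    · rw [interior_Icc]
      intro x hx
      have hx' := hsub' ⟨hx.1.le, hx.2.le⟩
      rw [(hd x hx').deriv]
      have h1 := hlt x ⟨hx.1.le, hx.2⟩
      have h2 : A x * X x ≤ 0 := mul_nonpos_of_nonneg_of_nonpos (hA x hx') (by linarith)
      exact div_nonpos_of_nonpos_of_nonneg (by linarith [hB x hx']) hx'.1.le
  have h1 := hanti ⟨le_rfl, hcI.1⟩ ⟨hcI.1, le_rfl⟩ hcI.1
  have h2 := hcS.2
  linarith

end Vale.Agent.P224.R2.H627
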