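import Mathlib.Analysis.SpecialFunctions.Gamma.BohrMollerup

/-!
Sharp two sided bounds of the quotient of two values of the Gamma function.
-/

namespace Vale.Agent.P224.R2.H627

open Filter Real
open scoped Topology

/-- quotient of two values of Gamma -/
noncomputable def Gq (x : ℝ) : ℝ := Gamma (x / 2) / Gamma ((x + 1) / 2)

variable {x : ℝ}

lemma Gq_pos (hx : 0 < x) : 0 < Gq x :=
  div_pos (Gamma_pos_of_pos (by positivity)) (Gamma_pos_of_pos (by positivity))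

lemma Gq_add_two (hx : 0 < x) : Gq (x + 2) = Gq x * (x / (x + 1)) := by
  unfold Gq
  have e1 : (x + 2) / 2 = x / 2 + 1 := by ring
  have e2 : (x + 2 + 1) / 2 = (x + 1) / 2 + 1 := by ring
  have h2 : Gamma ((x + 1) / 2) ≠ 0 := (Gamma_pos_of_pos (by positivity)).ne'
  rw [e1, e2, Gamma_add_one (by positivity), Gamma_add_one (by positivity)]
  field_simp

lemma Gq_mul (hx : 0 < x) : Gq x * Gq (x + 1) = 2 / x := by
  unfold Gq
  have e1 : (x + 1 + 1) / 2 = x / 2 + 1 := by ring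
  have h1 : Gamma (x / 2) ≠ 0 := (Gamma_pos_of_pos (by positivity)).ne'
  have h2 : Gamma ((x + 1) / 2) ≠ 0 := (Gamma_pos_of_pos (by positivity)).ne'
  rw [e1, Gamma_add_one (by positivity)]
  field_simp

lemma Gq_succ_le (hx : 0 < x) : Gq (x + 1) ≤ Gq x := by
  have h0 : 0 < x / 2 := by positivity
  have h1 := Gamma_pos_of_pos h0
  have h2 : 0 < Gamma ((x + 1) / 2) := Gamma_pos_of_pos (by positivity)
  have h3 : 0 < Gamma (x / 2 + 1) := Gamma_pos_of_pos (by positivity)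
  unfold Gq
  have e1 : (x + 1 + 1) / 2 = x / 2 + 1 := by ring
  rw [e1, div_le_div_iff₀ h3 h2]
  have h := Gamma_mul_add_mul_le_rpow_Gamma_mul_rpow_Gamma h0 (by positivity : 0 < x / 2 + 1)
    (by norm_num : (0 : ℝ) < 1 / 2) (by norm_num : (0 : ℝ) < 1 / 2) (by norm_num)
  rw [show 1 / 2 * (x / 2) + 1 / 2 * (x / 2 + 1) = (x + 1) / 2 by ring, ← sqrt_eq_rpow,
    ← sqrt_eq_rpow, ← sqrt_mul h1.le] at h
  have h5 := mul_self_le_mul_self h2.le h
  rwa [mul_self_sqrt (by positivity)] at h5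

lemma Gq_sq_ge (hx : 0 < x) : 2 / x ≤ Gq x ^ 2 := by
  rw [← Gq_mul hx, sq]
  exact mul_le_mul_of_nonneg_left (Gq_succ_le hx) (Gq_pos hx).le

lemma Gq_sq_le (hx : 1 < x) : Gq x ^ 2 ≤ 2 / (x - 1) := by
  have h0 : 0 < x - 1 := by linarith
  have h1 := Gq_succ_le h0
  have h2 := Gq_mul h0
  rw [sub_add_cancel] at h1 h2
  rw [← h2, sq]
  exact mul_le_mul_of_nonneg_right h1 (Gq_pos (by linarith)).le

lemma tendsto_inv_lin {c : ℝ} (hc : 0 < c) (x : ℝ) :
    Tendsto (fun k : ℕ => 1 / (x + c * k)) atTop (𝓝 0) := by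
  refine tendsto_const_nhds.div_atTop ?_
  exact tendsto_atTop_add_const_left _ _ (tendsto_natCast_atTop_atTop.const_mul_atTop hc)

/-- telescoping: lower bound -/
theorem Gq_lower {φ : ℝ → ℝ} (hx : 1 ≤ x) (h1 : ∀ y : ℝ, x ≤ y → (2 * y - 1) / 4 ≤ φ y)
    (h2 : ∀ y : ℝ, x ≤ y → y ^ 2 * φ (y + 2) ≤ (y + 1) ^ 2 * φ y) : 1 ≤ Gq x ^ 2 * φ x := by
  have key : ∀ k : ℕ, Gq (x + 2 * k) ^ 2 * φ (x + 2 * k) ≤ Gq x ^ 2 * φ x := by
    intro k
    induction k with
    | zero => simp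
    | succ k ih =>
      refine le_trans ?_ ih
      have hy : x ≤ x + 2 * k := by
        have : (0 : ℝ) ≤ k := Nat.cast_nonneg k
        linarith
      have hy0 : 0 < x + 2 * k := by linarith
      push_cast
      rw [show x + 2 * ((k : ℝ) + 1) = x + 2 * k + 2 by ring, Gq_add_two hy0]
      set y := x + 2 * (k : ℝ)
      have h3 := h2 y hy
      have e : (Gq y * (y / (y + 1))) ^ 2 * φ (y + 2)
          = Gq y ^ 2 * ((y ^ 2 * φ (y + 2)) / (y + 1) ^ 2) := by
        field_simp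
      rw [e]
      refine mul_le_mul_of_nonneg_left ?_ (sq_nonneg _)
      rw [div_le_iff₀ (by positivity)]
      linarith
  have lim : Tendsto (fun k : ℕ => 1 - 1 / 2 * (1 / (x + 2 * k))) atTop (𝓝 (1 - 1 / 2 * 0)) :=
    ((tendsto_inv_lin (by norm_num : (0 : ℝ) < 2) x).const_mul _).const_sub _
  have h5 := le_of_tendsto' lim (b := Gq x ^ 2 * φ x) fun k => ?_
  · linarith
  · refine le_trans ?_ (key k)
    have hk : (0 : ℝ) ≤ k := Nat.cast_nonneg k
    have hy : x ≤ x + 2 * k := by linarith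
    have hy0 : 0 < x + 2 * k := by linarith
    have h6 := h1 _ hy
    have h7 := Gq_sq_ge hy0
    have h8 : 0 ≤ 2 * (x + 2 * k) - 1 := by linarith
    set y := x + 2 * (k : ℝ)
    have h9 : 2 / y * ((2 * y - 1) / 4) ≤ Gq y ^ 2 * φ y :=
      mul_le_mul h7 h6 (by positivity) (sq_nonneg _)
    have e : 2 / y * ((2 * y - 1) / 4) = 1 - 1 / 2 * (1 / y) := by
      field_simp
      ring
    linarith

/-- telescoping: upper bound -/
theorem Gq_upper {φ : ℝ → ℝ} (hx : 1 < x) (h0 : ∀ y : ℝ, x ≤ y → 0 ≤ φ y)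
    (h1 : ∀ y : ℝ, x ≤ y → φ y ≤ y / 2)
    (h2 : ∀ y : ℝ, x ≤ y → (y + 1) ^ 2 * φ y ≤ y ^ 2 * φ (y + 2)) : Gq x ^ 2 * φ x ≤ 1 := by
  have key : ∀ k : ℕ, Gq x ^ 2 * φ x ≤ Gq (x + 2 * k) ^ 2 * φ (x + 2 * k) := by
    intro k
    induction k with
    | zero => simp
    | succ k ih =>
      refine le_trans ih ?_
      have hy : x ≤ x + 2 * k := by
        have : (0 : ℝ) ≤ k := Nat.cast_nonneg k
        linarith
      have hy0 : 0 < x + 2 * k := by linarith
      push_cast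
      rw [show x + 2 * ((k : ℝ) + 1) = x + 2 * k + 2 by ring, Gq_add_two hy0]
      set y := x + 2 * (k : ℝ)
      have h3 := h2 y hy
      have e : (Gq y * (y / (y + 1))) ^ 2 * φ (y + 2)
          = Gq y ^ 2 * ((y ^ 2 * φ (y + 2)) / (y + 1) ^ 2) := by
        field_simp
      rw [e]
      refine mul_le_mul_of_nonneg_left ?_ (sq_nonneg _)
      rw [le_div_iff₀ (by positivity)]
      linarith
  have lim : Tendsto (fun k : ℕ => 1 + 1 / ((x - 1) + 2 * k)) atTop (𝓝 (1 + 0)) :=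
    (tendsto_inv_lin (by norm_num : (0 : ℝ) < 2) (x - 1)).const_add _
  have h5 := ge_of_tendsto' lim (b := Gq x ^ 2 * φ x) fun k => ?_
  · linarith
  · refine (key k).trans ?_
    have hk : (0 : ℝ) ≤ k := Nat.cast_nonneg k
    have hy : x ≤ x + 2 * k := by linarith
    have hy1 : 1 < x + 2 * k := by linarith
    have h6 := h1 _ hy
    have h7 := Gq_sq_le hy1
    have e1 : x - 1 + 2 * (k : ℝ) = x + 2 * k - 1 := by ring
    rw [e1]
    set y := x + 2 * (k : ℝ)
    have hy2 : 0 < y - 1 := by linarith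
    have h9 : Gq y ^ 2 * φ y ≤ 2 / (y - 1) * (y / 2) :=
      mul_le_mul h7 h6 (h0 y hy) (by positivity)
    have e : 2 / (y - 1) * (y / 2) = 1 + 1 / (y - 1) := by
      field_simp
      ring
    linarith

/-- sharp lower bound -/
theorem Gq_ge (hx : 1 ≤ x) : 4 / (2 * x - 1 + 1 / (4 * x - 2)) ≤ Gq x ^ 2 := by
  have hp : ∀ y : ℝ, 1 ≤ y → 0 < 1 / (4 * y - 2) := fun y hy => by
    have : 0 < 4 * y - 2 := by linarith
    positivity
  have h := Gq_lower (φ := fun y => (2 * y - 1 + 1 / (4 * y - 2)) / 4) hx (fun y hy => ?_)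
    fun y hy => ?_
  · have h1 := hp x hx
    have h2 : 0 < 2 * x - 1 + 1 / (4 * x - 2) := by linarith
    rw [div_le_iff₀ h2]
    linarith
  · have h1 := hp y (by linarith)
    linarith
  · have hy1 : 0 < 4 * y - 2 := by linarith
    have hy2 : 0 < 4 * (y + 2) - 2 := by linarith
    have e : (y + 1) ^ 2 * ((2 * y - 1 + 1 / (4 * y - 2)) / 4)
        - y ^ 2 * ((2 * (y + 2) - 1 + 1 / (4 * (y + 2) - 2)) / 4)
        = 9 / 2 / ((4 * y - 2) * (4 * (y + 2) - 2)) := by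
      have h1 := hy1.ne'
      have h2 := hy2.ne'
      rw [eq_div_iff (mul_ne_zero h1 h2)]
      have e1 : 1 / (4 * y - 2) * (4 * y - 2) = 1 := by
        rw [one_div, inv_mul_cancel₀ h1]
      have e2 : 1 / (4 * (y + 2) - 2) * (4 * (y + 2) - 2) = 1 := by
        rw [one_div, inv_mul_cancel₀ h2]
      linear_combination (y + 1) ^ 2 / 4 * (4 * (y + 2) - 2) * e1 - y ^ 2 / 4 * (4 * y - 2) * e2
    have : 0 ≤ 9 / 2 / ((4 * y - 2) * (4 * (y + 2) - 2)) := by positivity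
    linarith

/-- sharp upper bound -/
theorem Gq_le (hx : 7 / 3 ≤ x) : Gq x ^ 2 ≤ 4 / (2 * x - 1 + 1 / (4 * x - 1)) := by
  have hp : ∀ y : ℝ, 1 ≤ y → 0 < 1 / (4 * y - 1) ∧ 1 / (4 * y - 1) ≤ 1 := fun y hy => by
    have : 0 < 4 * y - 1 := by linarith
    refine ⟨by positivity, ?_⟩
    rw [div_le_one this]
    linarith
  have h := Gq_upper (φ := fun y => (2 * y - 1 + 1 / (4 * y - 1)) / 4) (by linarith : 1 < x)
    (fun y hy => ?_) (fun y hy => ?_) fun y hy => ?_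
  · have h1 := (hp x (by linarith)).1
    have h2 : 0 < 2 * x - 1 + 1 / (4 * x - 1) := by linarith
    rw [le_div_iff₀ h2]
    linarith
  · have h1 := (hp y (by linarith)).1
    have : 0 ≤ 2 * y - 1 + 1 / (4 * y - 1) := by linarith
    positivity
  · have h1 := (hp y (by linarith)).2
    linarith
  · have hy1 : 0 < 4 * y - 1 := by linarith
    have hy2 : 0 < 4 * (y + 2) - 1 := by linarith
    have e : y ^ 2 * ((2 * (y + 2) - 1 + 1 / (4 * (y + 2) - 1)) / 4)
        - (y + 1) ^ 2 * ((2 * y - 1 + 1 / (4 * y - 1)) / 4)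
        = (6 * y - 14) / 4 / ((4 * y - 1) * (4 * (y + 2) - 1)) := by
      have h1 := hy1.ne'
      have h2 := hy2.ne'
      rw [eq_div_iff (mul_ne_zero h1 h2)]
      have e1 : 1 / (4 * y - 1) * (4 * y - 1) = 1 := by
        rw [one_div, inv_mul_cancel₀ h1]
      have e2 : 1 / (4 * (y + 2) - 1) * (4 * (y + 2) - 1) = 1 := by
        rw [one_div, inv_mul_cancel₀ h2]
      linear_combination y ^ 2 / 4 * (4 * y - 1) * e2 - (y + 1) ^ 2 / 4 * (4 * (y + 2) - 1) * e1
    have h3 : 0 ≤ 6 * y - 14 := by linarith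
    have : 0 ≤ (6 * y - 14) / 4 / ((4 * y - 1) * (4 * (y + 2) - 1)) := by positivity
    linarith

end Vale.Agent.P224.R2.H627
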