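import Vale.Agent.P224.R2.H627.RCond2
import Vale.Agent.P224.R2.H627.DCondM

/-!
The relaxed scalar conditions for the weights of dimension m.
-/

namespace Vale.Agent.P224.R2.H627

open MeasureTheory Set Filter Function Real Vale.Agent.P224.SM2 Vale.Agent.P224.R2.H820
open scoped Topology

section abstract

variable {m : ℕ} {T s W E ρ l L K tm k y e r : ℝ}

lemma root2_pos : 0 < √(2 : ℝ) := by positivity

/-- the first coefficient in terms of the normalised weights -/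
lemma al_norm (hm : 0 < m) (hT : T ∈ Ioo (0 : ℝ) 1) (hTs : T ^ 2 * (2 - s ^ 2) = s ^ 2)
    (hs : 0 < 1 - s ^ 2) (hy : √2 * (T * y) = k * (s * W)) (hr : √2 * (m * r) = k * ρ) :
    √2 * (m * (T * y + m * r) - (m + 1) * (m + 2) * T ^ 2 * r / (1 - T ^ 2) * l)
      = m * k * (s * W + ρ - l * ((1 + 2 / m / 2) * (1 + 2 / m)) * (s ^ 2 / (2 * (1 - s ^ 2))) * ρ)
    := by
  have hm0 : (0 : ℝ) < m := by exact_mod_cast hm
  have hk : 0 < 1 - T ^ 2 := by nlinarith [hT.1, hT.2]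
  have eT : T ^ 2 / (1 - T ^ 2) = s ^ 2 / (2 * (1 - s ^ 2)) := by
    rw [div_eq_div_iff hk.ne' (by positivity)]
    linear_combination hTs
  rw [← eT]
  have e2 : √2 * (m * (T * y + m * r) - (m + 1) * (m + 2) * T ^ 2 * r / (1 - T ^ 2) * l)
    = m * (√2 * (T * y)) + m * (√2 * (m * r))
      - (m + 1) * (m + 2) / m * T ^ 2 / (1 - T ^ 2) * l * (√2 * (m * r)) := by
    field_simp
  rw [e2, hy, hr]
  field_simp

/-- the conditions below `7/10` -/
theorem near_of (hm : 0 < m) (hT : T ∈ Ioo (0 : ℝ) 1) (hb : Bds2 T s (2 / m) W E ρ) (hk0 : 0 ≤ k)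
    (hy : √2 * (T * y) = k * (s * W)) (hr : √2 * (m * r) = k * ρ)
    (he : √2 * (m * e) = k * ((1 - T ^ 2) * (s * (2 - s ^ 2) * E / 2)))
    (P : Pk L K tm) (ht : 2 / (m : ℝ) ≤ tm) (hT7 : T ≤ 7 / 10)
    (hl : l ≤ L ∨ (1 - T ^ 2) * l ≤ K) :
    (m + 3) * (m * (m + 1) * T * (2 * (1 - T) * r - e + 31 / 10 * T ^ 4 * e))
      ≤ (m + 1) * (m * (T * y + m * r) - (m + 1) * (m + 2) * T ^ 2 * r / (1 - T ^ 2) * l)
        * (1 - T) ∧
    m * (m + 1) * T * (2 * (1 - T) * r - e + 31 / 10 * T ^ 4 * e)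
      ≤ (m * (T * y + m * r) - (m + 1) * (m + 2) * T ^ 2 * r / (1 - T ^ 2) * l) * (1 + T) := by
  have hm0 : (0 : ℝ) < m := by exact_mod_cast hm
  have hs0 := hb.s0
  have hs1 := hb.s1
  have h3 : 0 < 1 - s ^ 2 := by nlinarith
  have hk1 : 0 < 1 - T := by linarith [hT.2]
  have ea := al_norm (l := l) hm hT hb.Ts h3 hy hr
  have eb : √2 * (m * (m + 1) * T * (2 * (1 - T) * r - e + 31 / 10 * T ^ 4 * e))
      = (m + 1) * T * (1 - T) * k
        * (2 * ρ - (1 + T) * (s * (2 - s ^ 2) * E / 2) * (1 - 31 / 10 * T ^ 4)) := by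
    have e1 : √2 * (m * (m + 1) * T * (2 * (1 - T) * r - e + 31 / 10 * T ^ 4 * e))
        = (m + 1) * T * (2 * (1 - T) * (√2 * (m * r)) - √2 * (m * e)
          + 31 / 10 * T ^ 4 * (√2 * (m * e))) := by ring
    rw [e1, hr, he]
    ring
  have h : 0 ≤ 1 * (s * W + ρ - l * ((1 + 2 / m / 2) * (1 + 2 / m)) * (s ^ 2 / (2 * (1 - s ^ 2))) * ρ)
      - ((1 + 3 * (2 / (m : ℝ)) / 2) * T)
        * (2 * ρ - (1 + T) * (s * (2 - s ^ 2) * E / 2) * (1 - 31 / 10 * T ^ 4)) ∧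
    0 ≤ (1 + T) * (s * W + ρ - l * ((1 + 2 / m / 2) * (1 + 2 / m)) * (s ^ 2 / (2 * (1 - s ^ 2))) * ρ)
      - ((1 + 2 / (m : ℝ) / 2) * T * (1 - T))
        * (2 * ρ - (1 + T) * (s * (2 - s ^ 2) * E / 2) * (1 - 31 / 10 * T ^ 4)) := by
    rcases hl with hl | hl
    · exact hb.near1 P ht hT7 hl
    · exact hb.near2 P ht hT7 hl
  generalize s * W + ρ - l * ((1 + 2 / m / 2) * (1 + 2 / m)) * (s ^ 2 / (2 * (1 - s ^ 2))) * ρ = A
    at ea h
  generalize 2 * ρ - (1 + T) * (s * (2 - s ^ 2) * E / 2) * (1 - 31 / 10 * T ^ 4) = B at eb h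
  generalize m * (T * y + m * r) - (m + 1) * (m + 2) * T ^ 2 * r / (1 - T ^ 2) * l = α at ea ⊢
  generalize m * (m + 1) * T * (2 * (1 - T) * r - e + 31 / 10 * T ^ 4 * e) = β at eb ⊢
  obtain ⟨h1, h2⟩ := h
  constructor
  · have e1 : √2 * ((m + 1) * α * (1 - T) - (m + 3) * β)
        = m * (m + 1) * k * (1 - T) * (1 * A - ((1 + 3 * (2 / (m : ℝ)) / 2) * T) * B) := by
      have : √2 * ((m + 1) * α * (1 - T) - (m + 3) * β)
        = (m + 1) * (1 - T) * (√2 * α) - (m + 3) * (√2 * β) := by ring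
      rw [this, ea, eb]
      field_simp
    have e2 : 0 ≤ √2 * ((m + 1) * α * (1 - T) - (m + 3) * β) := by
      rw [e1]
      positivity
    have := nonneg_of_mul_nonneg_right e2 root2_pos
    linarith
  · have e1 : √2 * (α * (1 + T) - β)
        = m * k * ((1 + T) * A - ((1 + 2 / (m : ℝ) / 2) * T * (1 - T)) * B) := by
      have : √2 * (α * (1 + T) - β) = (1 + T) * (√2 * α) - √2 * β := by ring
      rw [this, ea, eb]
      field_simp
    have e2 : 0 ≤ √2 * (α * (1 + T) - β) := by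
      rw [e1]
      positivity
    have := nonneg_of_mul_nonneg_right e2 root2_pos
    linarith

/-- the conditions above `7/10` -/
theorem far_of2 (hm : 0 < m) (hT : T ∈ Ioo (0 : ℝ) 1) (hb : Bds2 T s (2 / m) W E ρ) (hk0 : 0 ≤ k)
    (hy : √2 * (T * y) = k * (s * W)) (hr : √2 * (m * r) = k * ρ)
    (he : √2 * (m * e) = k * ((1 - T ^ 2) * (s * (2 - s ^ 2) * E / 2)))
    (P : Pk L K tm) (ht : 2 / (m : ℝ) ≤ tm) (hT7 : 7 / 10 ≤ T)
    (hl : l ≤ L ∨ (1 - T ^ 2) * l ≤ K) :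
    0 ≤ m * (T * y + m * r) - (m + 1) * (m + 2) * T ^ 2 * r / (1 - T ^ 2) * l ∧
    m * (m + 1) * (T * |2 * r - e| - 2 * T ^ 2 * r)
      ≤ (m * (T * y + m * r) - (m + 1) * (m + 2) * T ^ 2 * r / (1 - T ^ 2) * l) * (1 - T) := by
  have hm0 : (0 : ℝ) < m := by exact_mod_cast hm
  have hs0 := hb.s0
  have hs1 := hb.s1
  have h3 : 0 < 1 - s ^ 2 := by nlinarith
  have hk1 : 0 < 1 - T := by linarith [hT.2]
  have hkp := hb.kpos
  have hT0 := hT.1
  have ea := al_norm (l := l) hm hT hb.Ts h3 hy hr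
  have hl' : (1 - T ^ 2) * l ≤ K := by
    rcases hl with hl | hl
    · have a1 : (1 - T ^ 2) * l ≤ (1 - T ^ 2) * L := mul_le_mul_of_nonneg_left hl hkp.le
      have a2 : 1 - T ^ 2 ≤ 51 / 100 := by nlinarith
      have a3 : (1 - T ^ 2) * L ≤ 51 / 100 * 20 :=
        mul_le_mul a2 P.L2 (by linarith [P.L1]) (by norm_num)
      linarith [P.K1]
    · exact hl
  obtain ⟨h0, h1, h2⟩ := hb.far2 P ht hT7 hT.2 hl'
  have e3 : √2 * (m * e) = k * (s * (1 - s ^ 2) * E) := by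
    rw [he]
    have : (1 - T ^ 2) * (s * (2 - s ^ 2) * E / 2) = (1 - T ^ 2) * (2 - s ^ 2) * (s * E / 2) := by
      ring
    rw [this, hb.kap]
    ring
  have eb1 : √2 * (m * (m + 1) * (T * (2 * r - e) - 2 * T ^ 2 * r))
      = (m + 1) * T * (1 - T) * k * (2 * ρ - (1 + T) * (s * (2 - s ^ 2) * E / 2)) := by
    have e1 : √2 * (m * (m + 1) * (T * (2 * r - e) - 2 * T ^ 2 * r))
        = (m + 1) * T * (2 * (1 - T) * (√2 * (m * r)) - √2 * (m * e)) := by ring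
    rw [e1, hr, he]
    ring
  have eb2 : √2 * (m * (m + 1) * (T * -(2 * r - e) - 2 * T ^ 2 * r))
      = (m + 1) * T * k * (s * (1 - s ^ 2) * E - 2 * (1 + T) * ρ) := by
    have e1 : √2 * (m * (m + 1) * (T * -(2 * r - e) - 2 * T ^ 2 * r))
        = (m + 1) * T * (√2 * (m * e) - 2 * (1 + T) * (√2 * (m * r))) := by ring
    rw [e1, hr, e3]
    ring
  generalize s * W + ρ - l * ((1 + 2 / m / 2) * (1 + 2 / m)) * (s ^ 2 / (2 * (1 - s ^ 2))) * ρ = A
    at ea h0 h1 h2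
  generalize 2 * ρ - (1 + T) * (s * (2 - s ^ 2) * E / 2) = B at eb1 h1
  generalize s * (1 - s ^ 2) * E - 2 * (1 + T) * ρ = C at eb2 h2
  generalize m * (T * y + m * r) - (m + 1) * (m + 2) * T ^ 2 * r / (1 - T ^ 2) * l = α at ea ⊢
  constructor
  · have e2 : 0 ≤ √2 * α := by
      rw [ea]
      positivity
    exact nonneg_of_mul_nonneg_right e2 root2_pos
  · rcases le_total 0 (2 * r - e) with hh | hh
    · rw [abs_of_nonneg hh]
      generalize m * (m + 1) * (T * (2 * r - e) - 2 * T ^ 2 * r) = β at eb1 ⊢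
      have e1 : √2 * (α * (1 - T) - β)
          = m * k * (1 - T) * (A - (1 + 2 / (m : ℝ) / 2) * T * B) := by
        have : √2 * (α * (1 - T) - β) = (1 - T) * (√2 * α) - √2 * β := by ring
        rw [this, ea, eb1]
        field_simp
      have e2 : 0 ≤ √2 * (α * (1 - T) - β) := by
        rw [e1]
        positivity
      have := nonneg_of_mul_nonneg_right e2 root2_pos
      linarith
    · rw [abs_of_nonpos hh]
      generalize m * (m + 1) * (T * -(2 * r - e) - 2 * T ^ 2 * r) = β at eb2 ⊢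
      have e1 : √2 * ((α * (1 - T) - β) * (1 + T))
          = m * k * ((1 - T ^ 2) * A - (1 + 2 / (m : ℝ) / 2) * T * (1 + T) * C) := by
        have : √2 * ((α * (1 - T) - β) * (1 + T))
          = (1 - T ^ 2) * (√2 * α) - (1 + T) * (√2 * β) := by ring
        rw [this, ea, eb2]
        field_simp
      have e2 : 0 ≤ √2 * ((α * (1 - T) - β) * (1 + T)) := by
        rw [e1]
        positivity
      have e4 := nonneg_of_mul_nonneg_right e2 root2_pos
      have := nonneg_of_mul_nonneg_left e4 (by linarith : 0 < 1 + T)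
      linarith

end abstract

section

variable {m : ℕ} {T l L K tm : ℝ}

/-- the conditions below `7/10` for the weights of dimension m -/
theorem near_M (hm : 17 ≤ m) (hT : T ∈ Ioo (0 : ℝ) 1) (P : Pk L K tm) (ht : 2 / (m : ℝ) ≤ tm)
    (hT7 : T ≤ 7 / 10) (hl : l ≤ L ∨ (1 - T ^ 2) * l ≤ K) :
    (m + 3) * (m * (m + 1) * T * (2 * (1 - T) * rM m T - eM m T + 31 / 10 * T ^ 4 * eM m T))
      ≤ (m + 1) * (m * (T * yM m T + m * rM m T)
        - (m + 1) * (m + 2) * T ^ 2 * rM m T / (1 - T ^ 2) * l) * (1 - T) ∧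
    m * (m + 1) * T * (2 * (1 - T) * rM m T - eM m T + 31 / 10 * T ^ 4 * eM m T)
      ≤ (m * (T * yM m T + m * rM m T)
        - (m + 1) * (m + 2) * T ^ 2 * rM m T / (1 - T ^ 2) * l) * (1 + T) := by
  have hk : 0 < 1 - T ^ 2 := by nlinarith [hT.1, hT.2]
  exact near_of (by omega) hT (bds2_M hm hT) (rpow_pos_of_pos hk _).le (hy_M T) (hr_M T)
    (he_M hT) P ht hT7 hl

/-- the conditions above `7/10` for the weights of dimension m -/
theorem far_M (hm : 17 ≤ m) (hT : T ∈ Ioo (0 : ℝ) 1) (P : Pk L K tm) (ht : 2 / (m : ℝ) ≤ tm)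
    (hT7 : 7 / 10 ≤ T) (hl : l ≤ L ∨ (1 - T ^ 2) * l ≤ K) :
    0 ≤ m * (T * yM m T + m * rM m T)
        - (m + 1) * (m + 2) * T ^ 2 * rM m T / (1 - T ^ 2) * l ∧
    m * (m + 1) * (T * |2 * rM m T - eM m T| - 2 * T ^ 2 * rM m T)
      ≤ (m * (T * yM m T + m * rM m T)
        - (m + 1) * (m + 2) * T ^ 2 * rM m T / (1 - T ^ 2) * l) * (1 - T) := by
  have hk : 0 < 1 - T ^ 2 := by nlinarith [hT.1, hT.2]
  exact far_of2 (by omega) hT (bds2_M hm hT) (rpow_pos_of_pos hk _).le (hy_M T) (hr_M T)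
    (he_M hT) P ht hT7 hl

end

end Vale.Agent.P224.R2.H627
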