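import Vale.Agent.P224.R2.H627.Inst
import Vale.Agent.P224.R2.H627.LawR
import Vale.Agent.P224.R2.H627.RCondM

/-!
Instances of the relaxed law, with kernel checked rational bounds of the weights.
-/

namespace Vale.Agent.P224.R2.H627

open MeasureTheory Set Filter Function Real Module Vale.Agent.P224 Vale.Agent.P224.FV
open Vale.Agent.P224.SM2 Vale.Agent.P224.R2.H820 Vale.Agent.P224.R2.H728
open Vale.Agent.P224.R2.H582 Vale.Agent.P224.R2.H925
open scoped Topology RealInnerProductSpace ContDiff Manifold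

set_option linter.unusedSectionVars false

variable {m : ℕ}

lemma near_Mr (hm : 17 ≤ m) {T lam L K tm : ℝ} (hT : T ∈ Ioo (0 : ℝ) 1) (P : Pk L K tm)
    (ht : 2 / (m : ℝ) ≤ tm) (hT7 : T ≤ 7 / 10)
    (hl : (1 - T ^ 2) * lam ≤ L ∨ (1 - T ^ 2) * ((1 - T ^ 2) * lam) ≤ K) :
    (m + 3) * beM m T ≤ (m + 1) * al m T (yM m T) (rM m T) lam * (1 - T) ∧
    beM m T ≤ al m T (yM m T) (rM m T) lam * (1 + T) := by
  rw [al_eq hT, beM_eq]
  exact near_M hm hT P ht hT7 hl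

/-- the second coefficient, exact above `7/10` -/
noncomputable def beR (m : ℕ) (T : ℝ) : ℝ :=
  if T < 7 / 10 then beM m T else m * (m + 1) * (T * |2 * rM m T - eM m T| - 2 * T ^ 2 * rM m T)

lemma beR_lt {T : ℝ} (h : T < 7 / 10) : beR m T = beM m T := if_pos h

lemma abs_R (hm : 17 ≤ m) {T : ℝ} (hT : T ∈ Ioo (0 : ℝ) 1) :
    m * (m + 1) * (T * |2 * rM m T - eM m T| - 2 * T ^ 2 * rM m T) ≤ beR m T := by
  unfold beR
  split_ifs
  · exact abs_M hm hT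
  · exact le_rfl

lemma pos_R (hm : 17 ≤ m) {T lam L K tm : ℝ} (hT : T ∈ Ioo (0 : ℝ) 1) (P : Pk L K tm)
    (ht : 2 / (m : ℝ) ≤ tm)
    (hl : (1 - T ^ 2) * lam ≤ L ∨ (1 - T ^ 2) * ((1 - T ^ 2) * lam) ≤ K) :
    beR m T ≤ al m T (yM m T) (rM m T) lam * (1 - T) := by
  unfold beR
  split_ifs with h7
  · obtain ⟨h1, h2⟩ := near_Mr hm hT P ht h7.le hl
    have hm0 : (0 : ℝ) ≤ m := Nat.cast_nonneg m
    rcases le_total 0 (al m T (yM m T) (rM m T) lam) with ha | ha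
    · have h3 : 0 ≤ al m T (yM m T) (rM m T) lam * (1 - T) := mul_nonneg ha (by linarith [hT.2])
      by_contra hc
      push Not at hc
      nlinarith
    · refine h2.trans (mul_le_mul_of_nonpos_left ?_ ha)
      linarith [hT.1]
  · push Not at h7
    rw [al_eq hT]
    exact (far_M hm hT P ht h7 hl).2

lemma rel_R (hm : 17 ≤ m) {T lam L K tm : ℝ} (hT : T ∈ Ioo (0 : ℝ) 1) (P : Pk L K tm)
    (ht : 2 / (m : ℝ) ≤ tm)
    (hl : (1 - T ^ 2) * lam ≤ L ∨ (1 - T ^ 2) * ((1 - T ^ 2) * lam) ≤ K) :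
    beR m T ≤ al m T (yM m T) (rM m T) lam * (1 + T) := by
  rcases lt_or_ge T (7 / 10) with h7 | h7
  · rw [beR_lt h7]
    exact (near_Mr hm hT P ht h7.le hl).2
  · refine (pos_R hm hT P ht hl).trans ?_
    refine mul_le_mul_of_nonneg_left (by linarith [hT.1]) ?_
    rw [al_eq hT]
    exact (far_M hm hT P ht h7 hl).1

/-- the numbers of the relaxed law with `T₁ = 1/2` -/
theorem W_halfR {σ l0 l1 l2 l3 l4 w0 w1 : ℚ} (hm : 17 ≤ m) (hσ : 0 ≤ σ) (hσ1 : σ ≤ 1) (h0 : 0 ≤ l0) (h1 : 0 ≤ l1)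
    (h2 : 0 ≤ l2) (h3 : 0 ≤ l3) (h4 : 0 ≤ l4)
    {L K tm : ℝ} (P : Pk L K tm) (ht : 2 / (m : ℝ) ≤ tm)
    (hadm : ∀ T ∈ Ioo (1 / 2 : ℝ) 1, (1 - T ^ 2) * lamP l0 l1 l2 l3 l4 T ≤ L)
    (c0 : lowOK m (w0 + prQ m σ) (w0L m (31 / 10) σ l0 l1 l2 l3 l4) = true)
    (c1 : lowOK m (-w1) (ng (w1L m (31 / 10) σ l0 l1 l2 l3 l4)) = true) :
    IntervalIntegrable (fun T => b0 m (31 / 10) σ T (yM m T) (eM m T) (rM m T)
      (lamP l0 l1 l2 l3 l4 T)) volume 0 (1 / 2)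
    ∧ IntervalIntegrable (fun T => H582.b1 m (31 / 10) σ T (yM m T) (eM m T) (rM m T)
      (lamP l0 l1 l2 l3 l4 T)) volume 0 (1 / 2)
    ∧ (w0 : ℝ) ≤ ∫ T in (0 : ℝ)..(1 / 2), b0 m (31 / 10) σ T (yM m T) (eM m T) (rM m T)
      (lamP l0 l1 l2 l3 l4 T)
    ∧ ∫ T in (0 : ℝ)..(1 / 2), H582.b1 m (31 / 10) σ T (yM m T) (eM m T) (rM m T)
      (lamP l0 l1 l2 l3 l4 T) ≤ (w1 : ℝ) := by
  have hm4 : 4 ≤ m := by omega
  have hσ' : (0 : ℝ) ≤ σ := by exact_mod_cast hσ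
  have hl : ∀ T : ℝ, 0 ≤ lamP l0 l1 l2 l3 l4 T := by
    intro T
    have g0 : (0 : ℝ) ≤ l0 := by exact_mod_cast h0
    have g1 : (0 : ℝ) ≤ l1 := by exact_mod_cast h1
    have g2 : (0 : ℝ) ≤ l2 := by exact_mod_cast h2
    have g3 : (0 : ℝ) ≤ l3 := by exact_mod_cast h3
    have g4 : (0 : ℝ) ≤ l4 := by exact_mod_cast h4
    unfold lamP
    positivity
  have cy' := H582.contOn_yM hm4
  have ce := contOn_eM hm4
  have cr := contOn_rM hm4
  obtain ⟨i0, e0⟩ := int_b0 (m := m) (κ := 31 / 10) (σ := σ) (l0 := l0) (l1 := l1) (l2 := l2)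
    (l3 := l3) (l4 := l4) cy' ce cr
  obtain ⟨i1, e1⟩ := int_b1 (m := m) (κ := 31 / 10) (σ := σ) (l0 := l0) (l1 := l1) (l2 := l2)
    (l3 := l3) (l4 := l4) cy' ce cr
  have s1 : uIcc (0 : ℝ) (1 / 2) ⊆ uIcc 0 1 := by
    rw [uIcc_of_le (by norm_num), uIcc_of_le (by norm_num)]
    exact Icc_subset_Icc le_rfl (by norm_num)
  have s2 : uIcc (1 / 2 : ℝ) 1 ⊆ uIcc 0 1 := by
    rw [uIcc_of_le (by norm_num), uIcc_of_le (by norm_num)]
    exact Icc_subset_Icc (by norm_num) le_rfl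
  have j0 := i0.mono_set s1
  have j1 := i1.mono_set s1
  have k0 := i0.mono_set s2
  have k1 := i1.mono_set s2
  have a0 := intervalIntegral.integral_add_adjacent_intervals j0 k0
  have a1 := intervalIntegral.integral_add_adjacent_intervals j1 k1
  refine ⟨j0, j1, ?_, ?_⟩
  · have h5 := lowOK_sound hm c0
    rw [← w0_eq] at h5
    have h6 := int_b0_half (κ := 31 / 10) hm (by norm_num) hσ' (fun T _ => hl T) k0
    have h7 := le_prQ (m := m) hσ
    push_cast at h5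
    unfold YM EM RM at h5
    rw [← e0, ← a0] at h5
    linarith
  · have h5 := upOK_sound hm c1
    rw [← w1_eq] at h5
    push_cast at h5
    unfold YM EM RM at h5
    rw [← e1, ← a1] at h5
    have h6 : 0 ≤ ∫ T in (1 / 2 : ℝ)..1, H582.b1 m (31 / 10) σ T (yM m T) (eM m T) (rM m T)
        (lamP l0 l1 l2 l3 l4 T) := by
      have h7 := intervalIntegral.integral_mono_on_of_le_Ioo (a := (1 / 2 : ℝ)) (b := 1)
        (by norm_num) (f := fun _ => (0 : ℝ)) (intervalIntegrable_const) k1 fun T hT => ?_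
      · simp only [intervalIntegral.integral_zero] at h7
        exact h7
      · have hT' : T ∈ Ioo (0 : ℝ) 1 := ⟨by linarith [hT.1], hT.2⟩
        have hc := certO_M hm4
        have hy := yM_nonneg hm4 (T := T) ⟨hT'.1.le, hT'.2.le⟩
        have h8 := le_b1 (m := m) (κ := 31 / 10) (σ := σ) (T := T) (by norm_num) hσ' hT'.1.le
          hT'.2.le hy (hc.e0 T hT') (hc.r0 T hT') (hl T)
        have h9 : 0 ≤ tb (m + 1) T (al m T (yM m T) (rM m T) (lamP l0 l1 l2 l3 l4 T))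
            (beM m T) (-σ) := by
          rcases le_total T (7 / 10) with h7 | h7
          · obtain ⟨c1, c2⟩ := near_Mr hm hT' P ht h7 (Or.inl (hadm T hT))
            have hσ1' : (σ : ℝ) ≤ 1 := by exact_mod_cast hσ1
            exact tb_nonneg_r hσ' hσ1' hT'.1.le hT'.2 c2 c1
          · have had : Adm (2 / m) (1 - T ^ 2) ((1 - T ^ 2) * lamP l0 l1 l2 l3 l4 T) := by
              refine Or.inl (Or.inr ?_)
              have hk : 0 < 1 - T ^ 2 := by nlinarith [hT'.1, hT'.2]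
              have a1 := mul_le_mul_of_nonneg_left (hadm T hT) hk.le
              have a2 : 1 - T ^ 2 ≤ 51 / 100 := by nlinarith
              have a3 : (1 - T ^ 2) * L ≤ 51 / 100 * 20 :=
                mul_le_mul a2 P.L2 (by linarith [P.L1]) (by norm_num)
              linarith
            exact tb_nonneg hσ' hT'.1.le (al_nonneg_M hm hT' had) (conv_M hm hT' had)
        unfold beM at h9
        linarith
    linarith

section

variable {V W M : Type*} [NormedAddCommGroup V] [InnerProductSpace ℝ V] [FiniteDimensional ℝ V]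
  [NormedAddCommGroup W] [InnerProductSpace ℝ W] [FiniteDimensional ℝ W]
  [TopologicalSpace M] [ChartedSpace V M]
  [MeasurableSpace V] [BorelSpace V] [MeasurableSpace M] [BorelSpace M]
  [MeasurableSpace W] [BorelSpace W] [IsManifold 𝓘(ℝ, V) ∞ M]
  [CompactSpace M] [T2Space M]

/-- the relaxed law with the tangent line below `T₁ = 1/2`, with rational bounds of the weights -/
theorem law_halfR [Nonempty M] (hm : 17 ≤ finrank ℝ V) (hW : finrank ℝ W = finrank ℝ V + 2)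
    {F : M → W} (hF : SphImm V F) (hmin : ∀ x n, IsUnitNormal V F x n → meanCurv V F x n = 0)
    {N : M → W} (hNs : ContMDiff 𝓘(ℝ, V) 𝓘(ℝ, W) ∞ N) (hN : ∀ x, IsUnitNormal V F x (N x))
    (hinj : Injective F) {ι : Type*} [Fintype ι] [DecidableEq ι] (b : OrthonormalBasis ι ℝ W)
    {m : ℕ} (hmm : m = finrank ℝ V) {lam τ : ℝ → ℝ}
    {σ l0 l1 l2 l3 l4 w0 w1 : ℚ} (hσ : 0 ≤ σ) (hσ1 : σ ≤ 1) (h0 : 0 ≤ l0) (h1 : 0 ≤ l1)
    (h2 : 0 ≤ l2) (h3 : 0 ≤ l3) (h4 : 0 ≤ l4)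
    (hlam : ∀ T ∈ Ioo (0 : ℝ) (1 / 2), lam T = lamP l0 l1 l2 l3 l4 T)
    {L K tm : ℝ} (P : Pk L K tm) (ht : 2 / (m : ℝ) ≤ tm)
    (hadm : ∀ T ∈ Ioo (0 : ℝ) 1, (1 - T ^ 2) * lam T ≤ L
      ∨ (1 - T ^ 2) * ((1 - T ^ 2) * lam T) ≤ K)
    (hadmP : ∀ T ∈ Ioo (1 / 2 : ℝ) 1, (1 - T ^ 2) * lamP l0 l1 l2 l3 l4 T ≤ L)
    (c0 : lowOK m (w0 + prQ m σ) (w0L m (31 / 10) σ l0 l1 l2 l3 l4) = true)
    (c1 : lowOK m (-w1) (ng (w1L m (31 / 10) σ l0 l1 l2 l3 l4)) = true)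
    (hτi : IntervalIntegrable τ volume 0 1)
    (hτ : ∀ T ∈ Ioo (0 : ℝ) 1, (m + 1) * (m + 2) * T ^ 2 * rM m T / (1 - T ^ 2) / 2
      * E2 (volM V F) F N (TK m T ((1 - T ^ 2) * lam T))
      ≤ τ T * (volM V F).real univ ^ 2) :
    ∃ W0 W1 : ℝ, (w0 : ℝ) ≤ W0 ∧ W1 ≤ (w1 : ℝ) ∧
    2 * lamM m * (sphereVol m / (volM V F).real univ)
        + (W0 * Qpt (nrm (volM V F)) m (co b F) (co b N)
        + W1 * min (Qpts (nrm (volM V F)) m (co b F) (co b N)
          + σ * Qpt (nrm (volM V F)) m (co b F) (co b N)) 0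
        + m / ((m + 2) * (m + 4)) * Qcs (nrm (volM V F)) (co b F) (co b N)
        + m * (m + 1) * EM m 1 * Qcss (nrm (volM V F)) m (co b F) (co b N)
        - ∫ T in (0 : ℝ)..1, τ T)
      ≤ 1 + m * rM m 0 * ∑ i, m1 (nrm (volM V F)) (co b N) i ^ 2 := by
  have hm' : 17 ≤ m := hmm ▸ hm
  have hm4 : 4 ≤ m := by omega
  obtain ⟨i0, i1, j0, j1⟩ := W_halfR hm' hσ hσ1 h0 h1 h2 h3 h4 P ht hadmP c0 c1
  have hσ1' : (σ : ℝ) ≤ 1 := by exact_mod_cast hσ1
  have hσ' : (0 : ℝ) ≤ σ := by exact_mod_cast hσ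
  have hl : ∀ T : ℝ, 0 ≤ lamP l0 l1 l2 l3 l4 T := by
    intro T
    have g0 : (0 : ℝ) ≤ l0 := by exact_mod_cast h0
    have g1 : (0 : ℝ) ≤ l1 := by exact_mod_cast h1
    have g2 : (0 : ℝ) ≤ l2 := by exact_mod_cast h2
    have g3 : (0 : ℝ) ≤ l3 := by exact_mod_cast h3
    have g4 : (0 : ℝ) ≤ l4 := by exact_mod_cast h4
    unfold lamP
    positivity
  have hc := certO_M hm4
  have sub : ∀ T ∈ Ioo (0 : ℝ) (1 / 2), T ∈ Ioo (0 : ℝ) 1 := fun T hT =>
    ⟨hT.1, by linarith [hT.2]⟩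
  refine ⟨_, _, j0, j1, ?_⟩
  refine law_T1r (by omega) hW hF hmin hNs hN hinj b hσ' hσ1' (by norm_num) (by norm_num) hmm
    (lam := lam) (be' := beR m) (τ := τ) (fun T hT => abs_R hm' hT)
    (fun T hT => rel_R hm' hT P ht (hadm T hT))
    (fun T hT => ?_) (fun T hT => ?_) i0 i1 (fun T hT => ?_) (fun T hT => ?_) hτi hτ
  · have hT7 : T < 7 / 10 := by linarith [hT.2]
    rw [beR_lt hT7]
    exact (near_Mr hm' (sub T hT) P ht hT7.le (hadm T (sub T hT))).1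
  · have hT' : T ∈ Ioo (0 : ℝ) 1 := ⟨by linarith [hT.1], hT.2⟩
    exact pos_R hm' hT' P ht (hadm T hT')
  · have hT' := sub T hT
    have hT7 : T < 7 / 10 := by linarith [hT.2]
    rw [hlam T hT, beR_lt hT7]
    have hy := yM_nonneg hm4 (T := T) ⟨hT'.1.le, hT'.2.le⟩
    exact b0_le (by norm_num) hσ' hT'.1.le hT'.2.le hy (hc.e0 T hT') (hc.r0 T hT') (hl T)
  · have hT' := sub T hT
    have hT7 : T < 7 / 10 := by linarith [hT.2]
    rw [hlam T hT, beR_lt hT7]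
    have hy := yM_nonneg hm4 (T := T) ⟨hT'.1.le, hT'.2.le⟩
    exact le_b1 (by norm_num) hσ' hT'.1.le hT'.2.le hy (hc.e0 T hT') (hc.r0 T hT') (hl T)

/-- the relaxed law without the first two terms -/
theorem law_zeroR [Nonempty M] (hm : 17 ≤ finrank ℝ V) (hW : finrank ℝ W = finrank ℝ V + 2)
    {F : M → W} (hF : SphImm V F) (hmin : ∀ x n, IsUnitNormal V F x n → meanCurv V F x n = 0)
    {N : M → W} (hNs : ContMDiff 𝓘(ℝ, V) 𝓘(ℝ, W) ∞ N) (hN : ∀ x, IsUnitNormal V F x (N x))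
    (hinj : Injective F) {ι : Type*} [Fintype ι] [DecidableEq ι] (b : OrthonormalBasis ι ℝ W)
    {m : ℕ} (hmm : m = finrank ℝ V) {lam τ : ℝ → ℝ}
    {L K tm : ℝ} (P : Pk L K tm) (ht : 2 / (m : ℝ) ≤ tm)
    (hadm : ∀ T ∈ Ioo (0 : ℝ) 1, (1 - T ^ 2) * lam T ≤ L
      ∨ (1 - T ^ 2) * ((1 - T ^ 2) * lam T) ≤ K)
    (hτi : IntervalIntegrable τ volume 0 1)
    (hτ : ∀ T ∈ Ioo (0 : ℝ) 1, (m + 1) * (m + 2) * T ^ 2 * rM m T / (1 - T ^ 2) / 2
      * E2 (volM V F) F N (TK m T ((1 - T ^ 2) * lam T))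
      ≤ τ T * (volM V F).real univ ^ 2) :
    2 * lamM m * (sphereVol m / (volM V F).real univ)
        + (0 * Qpt (nrm (volM V F)) m (co b F) (co b N)
        + 0 * min (Qpts (nrm (volM V F)) m (co b F) (co b N)
          + 0 * Qpt (nrm (volM V F)) m (co b F) (co b N)) 0
        + m / ((m + 2) * (m + 4)) * Qcs (nrm (volM V F)) (co b F) (co b N)
        + m * (m + 1) * EM m 1 * Qcss (nrm (volM V F)) m (co b F) (co b N)
        - ∫ T in (0 : ℝ)..1, τ T)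
      ≤ 1 + m * rM m 0 * ∑ i, m1 (nrm (volM V F)) (co b N) i ^ 2 := by
  have hm' : 17 ≤ m := hmm ▸ hm
  have e : ∀ T : ℝ, T ∈ Ioo (0 : ℝ) 0 → False := fun T hT => by
    have := hT.1.trans hT.2
    exact lt_irrefl _ this
  have h := law_T1r (by omega) hW hF hmin hNs hN hinj b (σ := 0) le_rfl zero_le_one (T1 := 0) le_rfl
    zero_le_one hmm (lam := lam) (be' := beR m) (B0 := fun _ => 0) (B1 := fun _ => 0) (τ := τ)
    (fun T hT => abs_R hm' hT)
    (fun T hT => rel_R hm' hT P ht (hadm T hT))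
    (fun T hT => (e T hT).elim)
    (fun T hT => by
      rcases eq_or_lt_of_le hT.1 with h0 | h0
      · rw [← h0]
        have hr : 0 ≤ rM m 0 := by
          refine rF_nonneg (cn_nonneg (by omega)) ⟨le_rfl, zero_le_one⟩
        rw [beR_lt (by norm_num)]
        simp only [beM, be, al]
        simp only [mul_zero, zero_mul, sub_zero, zero_add, mul_one]
        norm_num
        positivity
      · exact pos_R hm' ⟨h0, hT.2⟩ P ht (hadm T ⟨h0, hT.2⟩))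
    intervalIntegrable_const intervalIntegrable_const
    (fun T hT => (e T hT).elim) (fun T hT => (e T hT).elim) hτi hτ
  simpa using h

end

end Vale.Agent.P224.R2.H627
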