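import Vale.Agent.P224.R2.H627.Y0

/-!
The moments of `(1 - T ^ 2) ^ (a - 1)`.
-/

namespace Vale.Agent.P224.R2.H627

open MeasureTheory Set Filter Function Real Vale.Agent.P224.SM2 Vale.Agent.P224.R2.H820
open scoped Topology

variable {a : ℝ} {m : ℕ}

/-- moments of `(1 - T ^ 2) ^ (a - 1)` -/
noncomputable def KM (a : ℝ) (k : ℕ) : ℝ := ∫ T in (0 : ℝ)..1, T ^ k * (1 - T ^ 2) ^ (a - 1)

lemma contOn_KM (ha : 1 ≤ a) (k : ℕ) :
    ContinuousOn (fun T : ℝ => T ^ k * (1 - T ^ 2) ^ (a - 1)) (Icc 0 1) :=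
  contOn_pow_mul (continuous_kap (by linarith)).continuousOn k

lemma hasDerivAt_kap_pow {T : ℝ} (hT : T ∈ Ioo (0 : ℝ) 1) :
    HasDerivAt (fun T : ℝ => (1 - T ^ 2) ^ a) (-(2 * a) * (T * (1 - T ^ 2) ^ (a - 1))) T := by
  have hk := kap_pos ⟨hT.1.le, hT.2⟩
  refine ((hasDerivAt_kap T).rpow_const (Or.inl hk.ne')).congr_deriv ?_
  ring

lemma KM_one (ha : 1 ≤ a) : 2 * a * KM a 1 = 1 := by
  have h := ftc (f := fun T : ℝ => (1 - T ^ 2) ^ a)
    (g := fun T => -(2 * a) * (T ^ 1 * (1 - T ^ 2) ^ (a - 1)))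
    (continuous_kap (by linarith)).continuousOn ((contOn_KM ha 1).const_smul (-(2 * a))) ?_
  · rw [intervalIntegral.integral_const_mul] at h
    have e1 : (1 - (1 : ℝ) ^ 2) ^ a = 0 := by
      rw [one_pow, sub_self, zero_rpow (by linarith)]
    have e2 : (1 - (0 : ℝ) ^ 2) ^ a = 1 := by simp
    rw [e1, e2] at h
    unfold KM
    linarith
  · intro T hT
    exact (hasDerivAt_kap_pow (a := a) hT).congr_deriv (by ring)

lemma KM_rec (ha : 1 ≤ a) (k : ℕ) : (2 * a + k + 1) * KM a (k + 2) = (k + 1) * KM a k := by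
  have h := ftc (f := fun T : ℝ => T ^ (k + 1) * (1 - T ^ 2) ^ a)
    (g := fun T => (k + 1) * (T ^ k * (1 - T ^ 2) ^ (a - 1))
      - (2 * a + k + 1) * (T ^ (k + 2) * (1 - T ^ 2) ^ (a - 1)))
    (contOn_pow_mul (continuous_kap (by linarith)).continuousOn (k + 1))
    (((contOn_KM ha k).const_smul ((k : ℝ) + 1)).sub ((contOn_KM ha (k + 2)).const_smul
      (2 * a + k + 1))) ?_
  · rw [intervalIntegral.integral_sub ((intble (contOn_KM ha k)).const_mul _)
      ((intble (contOn_KM ha (k + 2))).const_mul _),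
      intervalIntegral.integral_const_mul, intervalIntegral.integral_const_mul] at h
    have e1 : (1 - (1 : ℝ) ^ 2) ^ a = 0 := by
      rw [one_pow, sub_self, zero_rpow (by linarith)]
    rw [e1] at h
    simp only [mul_zero, ne_eq, Nat.add_eq_zero_iff, one_ne_zero, and_false, not_false_eq_true,
      zero_pow, zero_mul, sub_zero] at h
    unfold KM
    linarith
  · intro T hT
    have hk := kap_pos ⟨hT.1.le, hT.2⟩
    refine ((hasDerivAt_pow (k + 1) T).fun_mul (hasDerivAt_kap_pow (a := a) hT)).congr_deriv ?_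
    have e : (1 - T ^ 2) ^ a = (1 - T ^ 2) ^ (a - 1) * (1 - T ^ 2) := by
      rw [← rpow_add_one hk.ne']
      ring_nf
    rw [e]
    push_cast
    ring

lemma KM_succ (ha : 1 ≤ a) : KM (a + 1) 0 = KM a 0 * (2 * a / (2 * a + 1)) := by
  have h := KM_rec ha 0
  have h2 : KM (a + 1) 0 = KM a 0 - KM a 2 := by
    unfold KM
    rw [← intervalIntegral.integral_sub (intble (contOn_KM ha 0)) (intble (contOn_KM ha 2))]
    refine intervalIntegral.integral_congr_ae ?_
    have : ∀ᵐ T : ℝ, T ≠ 1 := by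
      simp [ae_iff, measure_singleton]
    filter_upwards [this] with T hT1 hT
    rw [uIoc_of_le zero_le_one] at hT
    have hk := kap_pos ⟨hT.1.le, lt_of_le_of_ne hT.2 hT1⟩
    have e : (1 - T ^ 2) ^ (a + 1 - 1) = (1 - T ^ 2) ^ (a - 1) * (1 - T ^ 2) := by
      rw [← rpow_add_one hk.ne']
      ring_nf
    rw [e]
    ring
  push_cast at h
  have h0 : 2 * a + 1 ≠ 0 := by linarith
  rw [h2, mul_div_assoc', eq_div_iff h0]
  linear_combination -h

lemma KM_two : KM 1 0 = 1 := by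
  unfold KM
  simp

lemma KM_three : KM (3 / 2) 0 = π / 4 := by
  have h : ∫ x in (-1 : ℝ)..1, √(1 - x ^ 2) = π / 2 := integral_sqrt_one_sub_sq
  have hc : Continuous fun x : ℝ => √(1 - x ^ 2) := by fun_prop
  rw [← intervalIntegral.integral_add_adjacent_intervals (b := 0)
    (hc.intervalIntegrable _ _) (hc.intervalIntegrable _ _)] at h
  have h2 : ∫ x in (-1 : ℝ)..0, √(1 - x ^ 2) = ∫ x in (0 : ℝ)..1, √(1 - x ^ 2) := by
    have := intervalIntegral.integral_comp_neg (a := 0) (b := 1) (f := fun x : ℝ => √(1 - x ^ 2))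
    simp only [even_two, Even.neg_pow, neg_zero] at this
    exact this.symm
  rw [h2] at h
  unfold KM
  have e : ∀ T : ℝ, T ^ 0 * (1 - T ^ 2) ^ ((3 / 2 : ℝ) - 1) = √(1 - T ^ 2) := by
    intro T
    rw [pow_zero, one_mul, sqrt_eq_rpow]
    norm_num
  simp_rw [e]
  linarith

lemma Gq_two : √π / 2 * Gq 2 = 1 := by
  unfold Gq
  have e : ((2 : ℝ) + 1) / 2 = 1 / 2 + 1 := by norm_num
  have h : √π ≠ 0 := (sqrt_pos.2 pi_pos).ne'
  rw [e, Gamma_add_one (by norm_num), Gamma_one_half_eq, div_self (by norm_num : (2 : ℝ) ≠ 0),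
    Gamma_one]
  field_simp

lemma Gq_three : √π / 2 * Gq 3 = π / 4 := by
  unfold Gq
  have e : (3 : ℝ) / 2 = 1 / 2 + 1 := by norm_num
  have e2 : ((3 : ℝ) + 1) / 2 = 1 + 1 := by norm_num
  rw [e2, Gamma_add_one (by norm_num), Gamma_one, e, Gamma_add_one (by norm_num),
    Gamma_one_half_eq]
  have : √π * √π = π := mul_self_sqrt pi_pos.le
  linear_combination this / 4

/-- the exact value of the moment of order zero -/
theorem KM_zero_eq (hm : 2 ≤ m) : KM ((m : ℝ) / 2) 0 = √π / 2 * Gq m := by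
  have key : ∀ k : ℕ, KM (((2 + 2 * k : ℕ) : ℝ) / 2) 0 = √π / 2 * Gq ((2 + 2 * k : ℕ) : ℝ) ∧
      KM (((3 + 2 * k : ℕ) : ℝ) / 2) 0 = √π / 2 * Gq ((3 + 2 * k : ℕ) : ℝ) := by
    intro k
    induction k with
    | zero =>
      refine ⟨?_, ?_⟩
      · norm_num
        rw [KM_two, Gq_two]
      · norm_num
        rw [KM_three, Gq_three]
    | succ k ih =>
      have hk : (0 : ℝ) ≤ k := Nat.cast_nonneg k
      obtain ⟨h1, h2⟩ := ih
      push_cast at h1 h2 ⊢
      refine ⟨?_, ?_⟩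
      · rw [show (2 + 2 * ((k : ℝ) + 1)) / 2 = (2 + 2 * k) / 2 + 1 by ring,
          KM_succ (by linarith), show 2 + 2 * ((k : ℝ) + 1) = 2 + 2 * k + 2 by ring,
          Gq_add_two (by positivity), h1]
        rw [show 2 * ((2 + 2 * (k : ℝ)) / 2) = 2 + 2 * k by ring]
        ring
      · rw [show (3 + 2 * ((k : ℝ) + 1)) / 2 = (3 + 2 * k) / 2 + 1 by ring,
          KM_succ (by linarith), show 3 + 2 * ((k : ℝ) + 1) = 3 + 2 * k + 2 by ring,
          Gq_add_two (by positivity), h2]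
        rw [show 2 * ((3 + 2 * (k : ℝ)) / 2) = 3 + 2 * k by ring]
        ring
  obtain ⟨k, hk | hk⟩ : ∃ k, m = 2 + 2 * k ∨ m = 3 + 2 * k := ⟨(m - 2) / 2, by omega⟩
  · rw [hk]
    exact (key k).1
  · rw [hk]
    exact (key k).2

end Vale.Agent.P224.R2.H627
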