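import Vale.Agent.P224.R2.H925.LawU

/-!
The laws with relaxed conditions: the first coefficient may be negative, as long as
`be' ≤ al (1 + T)`.
-/

namespace Vale.Agent.P224.R2.H627

open MeasureTheory Set Filter Function Real Module Vale.Agent.P224 Vale.Agent.P224.FV
open Vale.Agent.P224.SM2 Vale.Agent.P224.R2.H820 Vale.Agent.P224.R2.H728
open Vale.Agent.P224.R2.H582 Vale.Agent.P224.R2.H925
open scoped Topology RealInnerProductSpace ContDiff Manifold

set_option linter.unusedSectionVars false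

lemma rel_conv {q T v α β : ℝ} (hq : 0 ≤ q) (h1 : (q + 2) * β ≤ q * α * (1 - T))
    (h2 : β ≤ α * (1 + T)) (hT0 : 0 ≤ T) (hv1 : 1 - T ≤ v) (hv2 : v ≤ 1 + T) :
    (q + 2) * β ≤ q * α * v := by
  rcases le_total 0 α with h | h
  · exact h1.trans (mul_le_mul_of_nonneg_left hv1 (mul_nonneg hq h))
  · have h3 : α * (1 + T) ≤ α * v := mul_le_mul_of_nonpos_left hv2 h
    have h4 : α * (1 + T) ≤ 0 := mul_nonpos_of_nonpos_of_nonneg h (by linarith)
    have h5 := mul_le_mul_of_nonneg_left h3 hq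
    have h6 := mul_le_mul_of_nonneg_left h2 (by linarith : 0 ≤ q + 2)
    linarith

lemma rel_slope {q T v α β : ℝ} (hq : 0 ≤ q) (h1 : (q + 2) * β ≤ q * α * (1 - T))
    (h2 : β ≤ α * (1 + T)) (hT0 : 0 ≤ T) (hT1 : T < 1) (hv1 : 1 - T ≤ v) (hv2 : v ≤ 1 + T) :
    (q + 1) * β ≤ q * α * v := by
  rcases le_total 0 β with hb | hb
  · have := rel_conv hq h1 h2 hT0 hv1 hv2
    linarith
  · rcases le_total 0 α with h | h
    · have h3 : 0 ≤ q * α * v := mul_nonneg (mul_nonneg hq h) (by linarith)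
      have h4 : (q + 1) * β ≤ 0 := mul_nonpos_of_nonneg_of_nonpos (by linarith) hb
      linarith
    · have h3 : α * (1 + T) ≤ α * v := mul_le_mul_of_nonpos_left hv2 h
      have h5 := mul_le_mul_of_nonneg_left h3 hq
      have h6 := mul_le_mul_of_nonneg_left h2 hq
      linarith

lemma rel_pos {T v α β : ℝ} (h1 : β ≤ α * (1 - T)) (h2 : β ≤ α * (1 + T)) (hv1 : 1 - T ≤ v)
    (hv2 : v ≤ 1 + T) : β ≤ α * v := by
  rcases le_total 0 α with h | h
  · exact h1.trans (mul_le_mul_of_nonneg_left hv1 h)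
  · exact h2.trans (mul_le_mul_of_nonpos_left hv2 h)

lemma v_mem {T s : ℝ} (hT0 : 0 ≤ T) (hs : s ∈ Icc (-1 : ℝ) 1) :
    1 - T ≤ 1 - T * s ∧ 1 - T * s ≤ 1 + T := by
  constructor
  · nlinarith [hs.2]
  · nlinarith [hs.1]

/-- tangent line of a combination `α ker (q) - β ker (q+1)` which is convex on `[-1,1]` -/
lemma comb_tangent_r {T s s0 α β : ℝ} {q : ℕ} (hT0 : 0 ≤ T) (hT1 : T < 1)
    (hs : s ∈ Icc (-1 : ℝ) 1) (hs0 : s0 ∈ Ico (-1 : ℝ) 1) (hrel : β ≤ α * (1 + T))
    (hconv : (q + 2) * β ≤ q * α * (1 - T)) :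
    (α * SM2.ker T q s0 - β * SM2.ker T (q + 1) s0)
      + T * (q * α * SM2.ker T (q + 1) s0 - (q + 1) * β * SM2.ker T (q + 2) s0) * (s - s0)
      ≤ α * SM2.ker T q s - β * SM2.ker T (q + 1) s := by
  set f : ℝ → ℝ := fun s => α * SM2.ker T q s - β * SM2.ker T (q + 1) s with hf
  set f' : ℝ → ℝ := fun s =>
    T * (q * α * SM2.ker T (q + 1) s - (q + 1) * β * SM2.ker T (q + 2) s) with hf'
  set f'' : ℝ → ℝ := fun s =>
    T ^ 2 * (q + 1) * SM2.ker T (q + 3) s * (q * α * (1 - T * s) - (q + 2) * β) with hf''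
  have hv : ∀ s ≤ 1, 0 < 1 - T * s := fun s hs => by nlinarith
  have hd : ∀ s ≤ 1, HasDerivAt f (f' s) s := by
    intro s hs
    have h0 := (hv s hs).ne'
    have h1 := (hasDerivAt_ker (q := q) h0).const_mul α
    have h2 := (hasDerivAt_ker (q := q + 1) h0).const_mul β
    refine (h1.sub h2).congr_deriv ?_
    simp only [hf']
    push_cast
    ring
  have hd' : ∀ s ≤ 1, HasDerivAt f' (f'' s) s := by
    intro s hs
    have h0 := (hv s hs).ne'
    have h1 := ((hasDerivAt_ker (q := q + 1) h0).const_mul (q * α))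
    have h2 := ((hasDerivAt_ker (q := q + 2) h0).const_mul ((q + 1) * β))
    refine ((h1.sub h2).const_mul T).congr_deriv ?_
    simp only [hf'']
    have e : SM2.ker T (q + 2) s = SM2.ker T (q + 3) s * (1 - T * s) := by
      unfold SM2.ker
      rw [pow_succ (1 - T * s) (q + 2)]
      field_simp
    push_cast
    rw [show q + 1 + 1 = q + 2 from rfl, show q + 2 + 1 = q + 3 from rfl, e]
    ring
  have hpos : ∀ s ∈ Icc (-1 : ℝ) 1, 0 ≤ f'' s := by
    intro s hs
    have h0 := hv s hs.2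
    have h1 := (ker_pos (q + 3) h0).le
    have h2 : (q + 2) * β ≤ q * α * (1 - T * s) :=
      rel_conv (Nat.cast_nonneg q) hconv hrel hT0 (v_mem hT0 hs).1 (v_mem hT0 hs).2
    simp only [hf'']
    exact mul_nonneg (by positivity) (by linarith)
  have hcv : ConvexOn ℝ (Icc (-1) 1) f := by
    refine convexOn_of_hasDerivWithinAt2_nonneg (convex_Icc (-1) 1) (f' := f') (f'' := f'')
      ?_ ?_ ?_ ?_
    · exact fun s hs => (hd s hs.2).continuousAt.continuousWithinAt
    · intro s hs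
      rw [interior_Icc] at hs
      exact (hd s hs.2.le).hasDerivWithinAt
    · intro s hs
      rw [interior_Icc] at hs
      exact (hd' s hs.2.le).hasDerivWithinAt
    · intro s hs
      rw [interior_Icc] at hs
      exact hpos s ⟨hs.1.le, hs.2.le⟩
  have hs0' : s0 ∈ Icc (-1 : ℝ) 1 := ⟨hs0.1, hs0.2.le⟩
  have key : f s0 + f' s0 * (s - s0) ≤ f s := by
    rcases lt_trichotomy s s0 with h | h | h
    · have h1 := hcv.slope_le_of_hasDerivAt (x := s) (y := s0) hs hs0' h (hd s0 hs0.2.le)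
      rw [slope_def_field, div_le_iff₀ (by linarith)] at h1
      linarith
    · rw [h]; simp
    · have h1 := hcv.le_slope_of_hasDerivAt (x := s0) (y := s) hs0' hs h (hd s0 hs0.2.le)
      rw [slope_def_field, le_div_iff₀ (by linarith)] at h1
      linarith
  exact key

lemma tb_nonneg_r {m : ℕ} {σ T α β : ℝ} (hσ : 0 ≤ σ) (hσ1 : σ ≤ 1) (hT0 : 0 ≤ T) (hT1 : T < 1)
    (hrel : β ≤ α * (1 + T))
    (hconv : (m + 3) * β ≤ (m + 1) * α * (1 - T)) : 0 ≤ tb (m + 1) T α β (-σ) := by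
  unfold tb
  refine mul_nonneg hT0 ?_
  have hv : 0 < 1 - T * (-σ) := by
    have := mul_nonneg hT0 hσ
    linarith
  have e2 : SM2.ker T (m + 1 + 1) (-σ) = SM2.ker T (m + 1 + 2) (-σ) * (1 - T * (-σ)) := by
    have h3 := ker_succ_div T (-σ) (m + 1 + 1) 1
    rw [pow_one] at h3
    rw [show m + 1 + 2 = m + 1 + 1 + 1 from rfl, h3, div_mul_cancel₀ _ hv.ne']
  rw [e2]
  have hk := (ker_pos (m + 1 + 2) hv).le
  have hs : -σ ∈ Icc (-1 : ℝ) 1 := ⟨by linarith, by linarith⟩
  have h3 := rel_slope (q := (m : ℝ) + 1) (by positivity) (by linarith : (m + 1 + 2) * β ≤ _)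
    hrel hT0 hT1 (v_mem hT0 hs).1 (v_mem hT0 hs).2
  have h4 : 0 ≤ ((m : ℝ) + 1) * α * (1 - T * (-σ)) - ((m : ℝ) + 1 + 1) * β := by linarith
  have h5 := mul_nonneg hk h4
  push_cast
  linarith

section

variable {X : Type*} [MeasurableSpace X] {E : Type*} [NormedAddCommGroup E]
  [InnerProductSpace ℝ E] [MeasurableSpace E] [BorelSpace E] [SecondCountableTopology E]
  {μ : Measure X} [IsFiniteMeasure μ] {m : ℕ} {p n : X → E} {y Z e r : ℝ → ℝ}

/-- the defect at level T in terms of the means at level zero -/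
theorem DF_ge_zero_r (h : Two μ m p n) (hc : CertO m y Z e r) {T l α β ε G s0 s1 : ℝ}
    (hT : T ∈ Ioo (0 : ℝ) 1)
    (hα : α ≤ m * (T * y T + m * r T) - (m + 1) * (m + 2) * T ^ 2 * r T / (1 - T ^ 2) * l)
    (hβ : m * (m + 1) * (T * |2 * r T - e T| - 2 * T ^ 2 * r T) ≤ β) (hε : ε ≤ m * e T)
    (hG : (m + 1) * (m + 2) * T ^ 2 * r T / (1 - T ^ 2) / 2 ≤ G)
    (hrel : β ≤ α * (1 + T)) (hε0 : 0 ≤ ε) (hs0 : s0 ∈ Ico (-1 : ℝ) 1) (hs1 : s1 < 1)
    (hconv : (m + 3) * β ≤ (m + 1) * α * (1 - T)) :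
    ta (m + 1) T ε 0 s1 * E2 μ p n Ck
      + tb (m + 1) T ε 0 s1 * (E2 μ p n (fun k => Ck k * k.1) - s1 * E2 μ p n Ck)
      + 1 / 2 * (ta (m + 1) T α β s0 * E2 μ p n Xk
        + tb (m + 1) T α β s0 * (E2 μ p n (fun k => Xk k * k.1) - s0 * E2 μ p n Xk))
      - G * E2 μ p n (TK m T l) ≤ DF μ m p n y e r T := by
  have hT' : T ∈ Ico (0 : ℝ) 1 := ⟨hT.1.le, hT.2⟩
  refine le_trans ?_ (DF_ge_level h hc hT hα hβ hε hG)
  have m1 := measurable_ker T (m + 1)
  have m2 := measurable_ker T (m + 2)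
  have c1 := contOn_ker' hT' (m + 1)
  have c2 := contOn_ker' hT' (m + 2)
  have mX : Measurable Xk := by unfold Xk; fun_prop
  have cX : ContinuousOn Xk KK := by unfold Xk; fun_prop
  have mC : Measurable Ck := by unfold Ck; fun_prop
  have cC : ContinuousOn Ck KK := by unfold Ck; fun_prop
  have mXs : Measurable (fun k : R4 => Xk k * k.1) := by fun_prop
  have cXs : ContinuousOn (fun k : R4 => Xk k * k.1) KK := cX.mul (by fun_prop)
  have mCs : Measurable (fun k : R4 => Ck k * k.1) := by fun_prop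
  have cCs : ContinuousOn (fun k : R4 => Ck k * k.1) KK := cC.mul (by fun_prop)
  -- the part with the second square
  have p1 : ta (m + 1) T ε 0 s1 * E2 μ p n Ck
      + tb (m + 1) T ε 0 s1 * (E2 μ p n (fun k => Ck k * k.1) - s1 * E2 μ p n Ck)
      ≤ ε * E2 μ p n (fun k => ker T (m + 1) k.1 * Ck k) := by
    have e1 : ta (m + 1) T ε 0 s1 * E2 μ p n Ck
        + tb (m + 1) T ε 0 s1 * (E2 μ p n (fun k => Ck k * k.1) - s1 * E2 μ p n Ck)
        = E2 μ p n (fun k => (ta (m + 1) T ε 0 s1 - tb (m + 1) T ε 0 s1 * s1) * Ck k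
          + tb (m + 1) T ε 0 s1 * (Ck k * k.1)) := by
      rw [E2_add h (mC.const_mul _) (continuousOn_const.mul cC) (mCs.const_mul _)
        (continuousOn_const.mul cCs), E2_mul, E2_mul]
      ring
    rw [e1, ← E2_mul]
    refine E2_mono h ((mC.const_mul _).add (mCs.const_mul _))
      ((continuousOn_const.mul cC).add (continuousOn_const.mul cCs)) ((m1.comp measurable_fst).mul mC |>.const_mul _)
      (continuousOn_const.mul (c1.mul cC)) fun q => ?_
    have hk := h.pr_mem q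
    set k := SM2.pr p n q
    have h1 := comb_tangent (T := T) (s := k.1) (s0 := s1) (α := ε) (β := 0) (q := m + 1) hT.1.le
      hT.2 hk.1.2 hs1 hε0 (by
        rw [mul_zero]
        have : 0 < 1 - T := by linarith [hT.2]
        positivity)
    have hC : 0 ≤ Ck k := sq_nonneg _
    have h2 := mul_le_mul_of_nonneg_right h1 hC
    unfold ta tb
    rw [zero_mul, sub_zero] at h2 
    linarith
  have p2 : ta (m + 1) T α β s0 * E2 μ p n Xk
        + tb (m + 1) T α β s0 * (E2 μ p n (fun k => Xk k * k.1) - s0 * E2 μ p n Xk)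
      ≤ E2 μ p n (fun k => Xk k * (α * ker T (m + 1) k.1 - β * ker T (m + 2) k.1)) := by
    have e1 : ta (m + 1) T α β s0 * E2 μ p n Xk
        + tb (m + 1) T α β s0 * (E2 μ p n (fun k => Xk k * k.1) - s0 * E2 μ p n Xk)
        = E2 μ p n (fun k => (ta (m + 1) T α β s0 - tb (m + 1) T α β s0 * s0) * Xk k
          + tb (m + 1) T α β s0 * (Xk k * k.1)) := by
      rw [E2_add h (mX.const_mul _) (continuousOn_const.mul cX) (mXs.const_mul _)
        (continuousOn_const.mul cXs), E2_mul, E2_mul]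
      ring
    rw [e1]
    refine E2_mono h ((mX.const_mul _).add (mXs.const_mul _))
      ((continuousOn_const.mul cX).add (continuousOn_const.mul cXs))
      (mX.mul (((m1.comp measurable_fst).const_mul _).sub ((m2.comp measurable_fst).const_mul _)))
      (cX.mul ((continuousOn_const.mul c1).sub (continuousOn_const.mul c2))) fun q => ?_
    have hk := h.pr_mem q
    set k := SM2.pr p n q
    have h1 := comb_tangent_r (T := T) (s := k.1) (s0 := s0) (α := α) (β := β) (q := m + 1) hT.1.le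
      hT.2 hk.1 hs0 hrel (by push_cast; linarith)
    have hX : 0 ≤ Xk k := sq_nonneg _
    have h2 := mul_le_mul_of_nonneg_left h1 hX
    unfold ta tb
    linarith
  linarith

/-- the defect is bounded below by the second square and the tail -/
theorem DF_ge_C_r (h : Two μ m p n) (hc : CertO m y Z e r) {T l α β ε G s1 : ℝ}
    (hT : T ∈ Ioo (0 : ℝ) 1)
    (hα : α ≤ m * (T * y T + m * r T) - (m + 1) * (m + 2) * T ^ 2 * r T / (1 - T ^ 2) * l)
    (hβ : m * (m + 1) * (T * |2 * r T - e T| - 2 * T ^ 2 * r T) ≤ β) (hε : ε ≤ m * e T)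
    (hG : (m + 1) * (m + 2) * T ^ 2 * r T / (1 - T ^ 2) / 2 ≤ G)
    (hrel : β ≤ α * (1 + T)) (hε0 : 0 ≤ ε) (hs1 : s1 < 1) (hpos : β ≤ α * (1 - T)) :
    ta (m + 1) T ε 0 s1 * E2 μ p n Ck
      + tb (m + 1) T ε 0 s1 * (E2 μ p n (fun k => Ck k * k.1) - s1 * E2 μ p n Ck)
      - G * E2 μ p n (TK m T l) ≤ DF μ m p n y e r T := by
  have hT' : T ∈ Ico (0 : ℝ) 1 := ⟨hT.1.le, hT.2⟩
  refine le_trans ?_ (DF_ge_level h hc hT hα hβ hε hG)
  have m1 := measurable_ker T (m + 1)
  have c1 := contOn_ker' hT' (m + 1)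
  have mC : Measurable Ck := by unfold Ck; fun_prop
  have cC : ContinuousOn Ck KK := by unfold Ck; fun_prop
  have mCs : Measurable (fun k : R4 => Ck k * k.1) := by fun_prop
  have cCs : ContinuousOn (fun k : R4 => Ck k * k.1) KK := cC.mul (by fun_prop)
  have p1 : ta (m + 1) T ε 0 s1 * E2 μ p n Ck
      + tb (m + 1) T ε 0 s1 * (E2 μ p n (fun k => Ck k * k.1) - s1 * E2 μ p n Ck)
      ≤ ε * E2 μ p n (fun k => ker T (m + 1) k.1 * Ck k) := by
    have e1 : ta (m + 1) T ε 0 s1 * E2 μ p n Ck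
        + tb (m + 1) T ε 0 s1 * (E2 μ p n (fun k => Ck k * k.1) - s1 * E2 μ p n Ck)
        = E2 μ p n (fun k => (ta (m + 1) T ε 0 s1 - tb (m + 1) T ε 0 s1 * s1) * Ck k
          + tb (m + 1) T ε 0 s1 * (Ck k * k.1)) := by
      rw [E2_add h (mC.const_mul _) (continuousOn_const.mul cC) (mCs.const_mul _)
        (continuousOn_const.mul cCs), E2_mul, E2_mul]
      ring
    rw [e1, ← E2_mul]
    refine E2_mono h ((mC.const_mul _).add (mCs.const_mul _))
      ((continuousOn_const.mul cC).add (continuousOn_const.mul cCs))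
      ((m1.comp measurable_fst).mul mC |>.const_mul _)
      (continuousOn_const.mul (c1.mul cC)) fun q => ?_
    have hk := h.pr_mem q
    set k := SM2.pr p n q
    have h1 := comb_tangent (T := T) (s := k.1) (s0 := s1) (α := ε) (β := 0) (q := m + 1) hT.1.le
      hT.2 hk.1.2 hs1 hε0 (by
        rw [mul_zero]
        have : 0 < 1 - T := by linarith [hT.2]
        positivity)
    have hC : 0 ≤ Ck k := sq_nonneg _
    have h2 := mul_le_mul_of_nonneg_right h1 hC
    unfold ta tb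
    rw [zero_mul, sub_zero] at h2
    linarith
  have p2 : 0 ≤ E2 μ p n (fun k => Xk k * (α * ker T (m + 1) k.1 - β * ker T (m + 2) k.1)) := by
    refine integral_nonneg fun q => ?_
    have hk := h.pr_mem q
    have hv := one_sub_pos' hT' hk.1.2
    change 0 ≤ Xk (SM2.pr p n q) * (α * ker T (m + 1) (SM2.pr p n q).1
      - β * ker T (m + 2) (SM2.pr p n q).1)
    refine mul_nonneg (sq_nonneg _) ?_
    have e2 : ker T (m + 2) (SM2.pr p n q).1
        = ker T (m + 1) (SM2.pr p n q).1 / (1 - T * (SM2.pr p n q).1) := by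
      have := ker_succ_div T (SM2.pr p n q).1 (m + 1) 1
      rw [pow_one] at this
      rw [← this]
    rw [e2]
    have hk1 := ker_pos (m + 1) hv
    have h1 := v_mem hT.1.le hk.1
    have h2 : β / (1 - T * (SM2.pr p n q).1) ≤ α := by
      rw [div_le_iff₀ hv]
      exact rel_pos hpos hrel h1.1 h1.2
    have h3 := mul_le_mul_of_nonneg_right h2 hk1.le
    have h4 : β * (ker T (m + 1) (SM2.pr p n q).1 / (1 - T * (SM2.pr p n q).1))
        = β / (1 - T * (SM2.pr p n q).1) * ker T (m + 1) (SM2.pr p n q).1 := by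
      field_simp
    linarith
  linarith

end

end Vale.Agent.P224.R2.H627
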