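import Vale.Agent.P224.R2.H627.Cmp
import Vale.Agent.P224.R2.H627.Mom

/-!
The normalised weights as functions of `h = (1 - T ^ 2) / (1 + T ^ 2)`: equations and end values.
-/

namespace Vale.Agent.P224.R2.H627

open MeasureTheory Set Filter Function Real Vale.Agent.P224.SM2 Vale.Agent.P224.R2.H820
open scoped Topology

/-- the variable -/
noncomputable def hv (T : ℝ) : ℝ := (1 - T ^ 2) / (1 + T ^ 2)

/-- normalised y: `y = (1 - T ^ 2) ^ (a - 1) W / √(1 + T ^ 2)` -/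
noncomputable def Wf (a c T : ℝ) : ℝ := c * II a T * √(1 + T ^ 2)

/-- the derivative of W in h -/
noncomputable def Pf (a c T : ℝ) : ℝ :=
  c * (II a T - (1 + T ^ 2) * Jc a T) * ((1 + T ^ 2) * √(1 + T ^ 2)) / (4 * T ^ 2)

/-- normalised e: `2 a e = (1 - T ^ 2) ^ a T E / (1 + T ^ 2) ^ (3 / 2)` -/
noncomputable def Ef (a c T : ℝ) : ℝ :=
  2 * a * eF a c T * (1 - T ^ 2) ^ (-a) * ((1 + T ^ 2) * √(1 + T ^ 2)) / T

/-- normalised r: `2 a r = (1 - T ^ 2) ^ (a - 1) R` -/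
noncomputable def Rf (a c T : ℝ) : ℝ := 2 * a * ∫ x in T..1, hF a c x

variable {a c : ℝ} {T : ℝ}

lemma hv_pos (hT : T ∈ Ioo (0 : ℝ) 1) : 0 < hv T :=
  div_pos (kap_pos ⟨hT.1.le, hT.2⟩) (by positivity)

lemma hv_lt_one (hT : T ∈ Ioo (0 : ℝ) 1) : hv T < 1 := by
  unfold hv
  have h0 := hT.1
  rw [div_lt_one (by positivity)]
  have : 0 < T ^ 2 := by positivity
  linarith

lemma one_sub_hv (T : ℝ) : 1 - hv T = 2 * T ^ 2 / (1 + T ^ 2) := by
  unfold hv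
  have : (1 : ℝ) + T ^ 2 ≠ 0 := by positivity
  field_simp
  ring

lemma one_add_hv (T : ℝ) : 1 + hv T = 2 / (1 + T ^ 2) := by
  unfold hv
  have : (1 : ℝ) + T ^ 2 ≠ 0 := by positivity
  field_simp
  ring

lemma one_sub_hv_sq (T : ℝ) : 1 - hv T ^ 2 = 4 * T ^ 2 / (1 + T ^ 2) ^ 2 := by
  unfold hv
  have : (1 : ℝ) + T ^ 2 ≠ 0 := by positivity
  field_simp
  ring

lemma hv_zero : hv 0 = 1 := by
  unfold hv
  norm_num

lemma hv_one : hv 1 = 0 := by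
  unfold hv
  norm_num

lemma continuous_hv : Continuous hv := by
  unfold hv
  exact Continuous.div (by fun_prop) (by fun_prop) fun T => by positivity

lemma hasDerivAt_hv (hT : T ≠ 0) : HasDerivAt hv (-(1 - hv T ^ 2) / T) T := by
  have h1 : HasDerivAt (fun T : ℝ => 1 + T ^ 2) (2 * T) T := by
    simpa using (hasDerivAt_pow 2 T).const_add 1
  have h0 : (1 : ℝ) + T ^ 2 ≠ 0 := by positivity
  have h2 := (hasDerivAt_kap T).fun_div h1 h0
  refine h2.congr_deriv ?_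
  rw [one_sub_hv_sq]
  field_simp
  ring

/-- the derivative of a function of h -/
lemma hasDerivAt_comp_hv {g : ℝ → ℝ} {g' : ℝ} (hT : T ≠ 0) (hg : HasDerivAt g g' (hv T)) :
    HasDerivAt (fun T => g (hv T)) (-(1 - hv T ^ 2) * g' / T) T := by
  refine (hg.comp T (hasDerivAt_hv hT)).congr_deriv ?_
  ring

lemma hasDerivAt_root (T : ℝ) : HasDerivAt (fun T : ℝ => √(1 + T ^ 2)) (T / √(1 + T ^ 2)) T := by
  have h1 : HasDerivAt (fun T : ℝ => 1 + T ^ 2) (2 * T) T := by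
    simpa using (hasDerivAt_pow 2 T).const_add 1
  have h2 : (1 + T ^ 2) ≠ 0 := by positivity
  refine (h1.sqrt h2).congr_deriv ?_
  have h3 : 0 < √(1 + T ^ 2) := sqrt_pos.2 (by positivity)
  field_simp

lemma root_sq (T : ℝ) : √(1 + T ^ 2) ^ 2 = 1 + T ^ 2 := sq_sqrt (by positivity)

lemma root_pos (T : ℝ) : 0 < √(1 + T ^ 2) := sqrt_pos.2 (by positivity)

theorem hasDerivAt_Wf (ha : 2 ≤ a) (hT : T ∈ Ioo (0 : ℝ) 1) :
    HasDerivAt (Wf a c) (-(1 - hv T ^ 2) * Pf a c T / T) T := by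
  have h1 := ((hasDerivAt_II (a := a) (by linarith) hT.1).const_mul c).fun_mul (hasDerivAt_root T)
  refine h1.congr_deriv ?_
  have h2 := II_rel (a := a) (by linarith) hT.1.ne'
  have h3 := root_pos T
  have h4 := root_sq T
  have hT0 := hT.1.ne'
  rw [one_sub_hv_sq]
  unfold Pf
  have h5 : Kc a T = (II a T - Jc a T) / T ^ 2 := by
    rw [eq_div_iff (pow_ne_zero 2 hT0)]
    linarith
  rw [h5]
  have h6 : (1 : ℝ) + T ^ 2 ≠ 0 := by positivity
  field_simp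
  rw [h4]
  ring

theorem hasDerivAt_Pf (ha : 2 ≤ a) (hT : T ∈ Ioo (0 : ℝ) 1) :
    HasDerivAt (Pf a c) (((a / hv T - 3 * hv T) * Pf a c T - 3 / 4 * Wf a c T) / T) T := by
  have hk := kap_pos ⟨hT.1.le, hT.2⟩
  have hT0 := hT.1.ne'
  have h1 : HasDerivAt (fun T : ℝ => 1 + T ^ 2) (2 * T) T := by
    simpa using (hasDerivAt_pow 2 T).const_add 1
  have hD := ((hasDerivAt_II (a := a) (by linarith) hT.1).fun_sub
    (h1.fun_mul (hasDerivAt_Jc (a := a) (by linarith) hT.1))).const_mul c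
  have hN := hD.fun_mul (h1.fun_mul (hasDerivAt_root T))
  have h4T : HasDerivAt (fun T : ℝ => 4 * T ^ 2) (4 * (2 * T)) T := by
    simpa using (hasDerivAt_pow 2 T).const_mul 4
  have h := hN.fun_div h4T (by positivity)
  refine h.congr_deriv ?_
  have h2 := II_rel (a := a) (by linarith) hT0
  have h2' := Jc_rel (a := a) (by linarith) hT0
  have h3 := root_pos T
  have h4 := root_sq T
  have h5 : Kc a T = (II a T - Jc a T) / T ^ 2 := by
    rw [eq_div_iff (pow_ne_zero 2 hT0)]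
    linarith
  have h6 : Lc a T = a * (II a T - (1 + T ^ 2) * Jc a T) / (3 * T ^ 2 * (1 - T ^ 2)) := by
    rw [eq_div_iff (by positivity)]
    linarith
  have h7 : (1 : ℝ) + T ^ 2 ≠ 0 := by positivity
  unfold Pf Wf hv
  rw [h5, h6]
  field_simp
  rw [h4]
  ring

theorem hasDerivAt_Ef (ha : 2 ≤ a) (hT : T ∈ Ioo (0 : ℝ) 1) :
    HasDerivAt (Ef a c) (((a / hv T + (1 - 3 * hv T) / 2) * Ef a c T
      - a * (Wf a c T - 2 * (1 - hv T) * Pf a c T)) / T) T := by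
  have hk := kap_pos ⟨hT.1.le, hT.2⟩
  have hT0 := hT.1.ne'
  have h1 : HasDerivAt (fun T : ℝ => 1 + T ^ 2) (2 * T) T := by
    simpa using (hasDerivAt_pow 2 T).const_add 1
  have he := ((hasDerivAt_eF (c := c) ha hT).const_mul (2 * a)).fun_mul
    ((hasDerivAt_kap T).rpow_const (p := -a) (Or.inl hk.ne'))
  have hN := he.fun_mul (h1.fun_mul (hasDerivAt_root T))
  have h := hN.fun_div (hasDerivAt_id' T) hT0
  refine h.congr_deriv ?_
  have h3 := root_pos T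
  have h4 := root_sq T
  have h7 : (1 : ℝ) + T ^ 2 ≠ 0 := by positivity
  have hka : (0 : ℝ) < (1 - T ^ 2) ^ (-a) := rpow_pos_of_pos hk _
  have e1 : (1 - T ^ 2) ^ (-a - 1) = (1 - T ^ 2) ^ (-a) / (1 - T ^ 2) := rpow_sub_one hk.ne' _
  have e2 : ZF a c T * (1 - T ^ 2) ^ (-a) = c * Jc a T := by
    unfold ZF
    have : (1 - T ^ 2) ^ a * (1 - T ^ 2) ^ (-a) = 1 := by
      rw [← rpow_add hk]; simp
    linear_combination (c * Jc a T) * this
  have e3 : c * Jc a T = ZF a c T * (1 - T ^ 2) ^ (-a) := e2.symm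
  have hw : Wf a c T - 2 * (1 - hv T) * Pf a c T = c * Jc a T * ((1 + T ^ 2) * √(1 + T ^ 2)) := by
    rw [one_sub_hv]
    unfold Wf Pf
    field_simp
    ring
  rw [hw, e3, e1]
  unfold Ef hv
  field_simp
  rw [h4]
  ring

theorem hasDerivAt_Rf (hc : 0 ≤ c) (ha : 2 ≤ a) (hT : T ∈ Ioo (0 : ℝ) 1) :
    HasDerivAt (Rf a c) (-(T / ((1 + T ^ 2) * √(1 + T ^ 2)) * Ef a c T) / T) T := by
  have hca : ContinuousAt (hF a c) T := (contOn_hF ha).continuousAt (Ioo_mem_nhds hT.1 hT.2)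
  have h2 := intervalIntegral.integral_hasDerivAt_left (intble_hF (c := c) hc ha ⟨hT.1.le, hT.2.le⟩)
    ((contOn_hF ha).stronglyMeasurableAtFilter isOpen_Ioo T hT) hca
  refine (h2.const_mul (2 * a)).congr_deriv ?_
  have hT0 := hT.1.ne'
  have h3 := (root_pos T).ne'
  have h7 : (1 : ℝ) + T ^ 2 ≠ 0 := by positivity
  unfold hF Ef
  field_simp

lemma Wf_pos (hc : 0 < c) (ha : 2 ≤ a) : 0 < Wf a c T :=
  mul_pos (mul_pos hc (II_pos ha T)) (root_pos T)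

lemma Pf_nonneg (hc : 0 ≤ c) (ha : 2 ≤ a) (hT : T ∈ Ioo (0 : ℝ) 1) : 0 ≤ Pf a c T := by
  have h1 := Jc_le ha hT
  have h2 := root_pos T
  unfold Pf
  have h3 : 0 ≤ II a T - (1 + T ^ 2) * Jc a T := by linarith
  positivity

lemma Ef_nonneg (hc : 0 ≤ c) (ha : 2 ≤ a) (hT : T ∈ Ioo (0 : ℝ) 1) : 0 ≤ Ef a c T := by
  have h1 := eF_nonneg hc ⟨hT.1.le, hT.2.le⟩ (a := a)
  have h2 := root_pos T
  have h3 : (0 : ℝ) < (1 - T ^ 2) ^ (-a) := rpow_pos_of_pos (kap_pos ⟨hT.1.le, hT.2⟩) _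
  have h4 := hT.1
  unfold Ef
  positivity

lemma Rf_nonneg (hc : 0 ≤ c) (ha : 2 ≤ a) (hT : T ∈ Icc (0 : ℝ) 1) : 0 ≤ Rf a c T := by
  unfold Rf
  refine mul_nonneg (by linarith) (intervalIntegral.integral_nonneg hT.2 fun x hx => ?_)
  exact hF_nonneg hc ⟨hT.1.trans hx.1, hx.2⟩

lemma continuous_Wf (ha : 2 ≤ a) : Continuous (Wf a c) := by
  have := continuous_II ha
  unfold Wf
  fun_prop

/-- recover y, e, r -/
lemma yF_eq : yF a c T = (1 - T ^ 2) ^ (a - 1) * (Wf a c T / √(1 + T ^ 2)) := by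
  have h3 := (root_pos T).ne'
  unfold yF Wf
  field_simp

lemma rF_eq (ha : 2 ≤ a) : 2 * a * rF a c T = (1 - T ^ 2) ^ (a - 1) * Rf a c T := by
  unfold rF Rf hF
  ring

lemma eF_eq (hT : T ∈ Ioo (0 : ℝ) 1) : 2 * a * eF a c T
    = (1 - T ^ 2) ^ a * (T / ((1 + T ^ 2) * √(1 + T ^ 2)) * Ef a c T) := by
  have hk := kap_pos ⟨hT.1.le, hT.2⟩
  have h3 := (root_pos T).ne'
  have h7 : (1 : ℝ) + T ^ 2 ≠ 0 := by positivity
  have hT0 := hT.1.ne'
  have : (1 - T ^ 2) ^ a * (1 - T ^ 2) ^ (-a) = 1 := by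
    rw [← rpow_add hk]; simp
  unfold Ef
  have e : (1 - T ^ 2) ^ a * (T / ((1 + T ^ 2) * √(1 + T ^ 2))
      * (2 * a * eF a c T * (1 - T ^ 2) ^ (-a) * ((1 + T ^ 2) * √(1 + T ^ 2)) / T))
      = 2 * a * eF a c T * ((1 - T ^ 2) ^ a * (1 - T ^ 2) ^ (-a)) := by
    field_simp
  rw [e, this]
  ring

/-- end values -/
lemma tendsto_Pf (hc : 0 ≤ c) (ha : 2 ≤ a) : Tendsto (Pf a c) (𝓝[<] 1) (𝓝 0) := by
  have h1 := continuous_II ha
  have h2 := continuous_Jc ha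
  have hc1 : ContinuousAt (Pf a c) 1 := by
    unfold Pf
    refine ContinuousAt.div (Continuous.continuousAt (by fun_prop))
      (Continuous.continuousAt (by fun_prop)) (by norm_num)
  have h3 := Jc_rel (a := a) (by linarith) (one_ne_zero (α := ℝ))
  have h4 : II a 1 - (1 + 1 ^ 2) * Jc a 1 = 0 := by
    have h5 : a * (II a 1 - (1 + 1 ^ 2) * Jc a 1) = 0 := by
      rw [← h3]; ring
    rcases mul_eq_zero.1 h5 with h | h
    · linarith
    · exact h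
  have h5 : Pf a c 1 = 0 := by
    unfold Pf
    rw [h4]
    ring
  rw [← h5]
  exact hc1.tendsto.mono_left nhdsWithin_le_nhds

lemma tendsto_Wf (ha : 2 ≤ a) : Tendsto (Wf a c) (𝓝[<] 1) (𝓝 (Wf a c 1)) :=
  (continuous_Wf ha).continuousAt.tendsto.mono_left nhdsWithin_le_nhds

lemma tendsto_hv : Tendsto hv (𝓝[<] 1) (𝓝 0) := by
  have := continuous_hv.continuousAt.tendsto (x := 1)
  rw [hv_one] at this
  exact this.mono_left nhdsWithin_le_nhds

lemma Ef_le_aux (hc : 0 ≤ c) (ha : 2 ≤ a) (hT : T ∈ Ioo (0 : ℝ) 1) :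
    Ef a c T ≤ 2 * a * (c * II a T) * ((1 - T ^ 2) * ((1 + T ^ 2) * √(1 + T ^ 2)) / DD a T) := by
  have hk := kap_pos ⟨hT.1.le, hT.2⟩
  have h1 := eF_le2 hc ha hT
  have h2 : 0 < (1 - T ^ 2) ^ (-a) := rpow_pos_of_pos hk _
  have h3 : (1 - T ^ 2) ^ (a - 1) * (1 - T ^ 2) ^ 2 * (1 - T ^ 2) ^ (-a) = 1 - T ^ 2 := by
    rw [← rpow_add_natCast hk.ne', ← rpow_add hk]
    rw [show a - 1 + ((2 : ℕ) : ℝ) + -a = 1 by push_cast; ring, rpow_one]
  have hT0 := hT.1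
  have hD := DD_pos ha T
  have hr := root_pos T
  unfold Ef
  calc 2 * a * eF a c T * (1 - T ^ 2) ^ (-a) * ((1 + T ^ 2) * √(1 + T ^ 2)) / T
      ≤ 2 * a * ((1 - T ^ 2) ^ (a - 1) * (c * II a T) * (T * (1 - T ^ 2) ^ 2 / DD a T))
        * (1 - T ^ 2) ^ (-a) * ((1 + T ^ 2) * √(1 + T ^ 2)) / T := by
        gcongr
    _ = 2 * a * (c * II a T) * ((1 + T ^ 2) * √(1 + T ^ 2)) / DD a T
          * ((1 - T ^ 2) ^ (a - 1) * (1 - T ^ 2) ^ 2 * (1 - T ^ 2) ^ (-a)) := by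
        field_simp
    _ = _ := by rw [h3]; ring

lemma tendsto_Ef (hc : 0 ≤ c) (ha : 2 ≤ a) : Tendsto (Ef a c) (𝓝[<] 1) (𝓝 0) := by
  have h1 : Tendsto (fun T : ℝ => 2 * a * (c * II a T)
      * ((1 - T ^ 2) * ((1 + T ^ 2) * √(1 + T ^ 2)) / DD a T)) (𝓝[<] 1) (𝓝 0) := by
    have h0 := continuous_II ha
    have h2 : Continuous (fun T : ℝ => 2 * a * (c * II a T)
        * ((1 - T ^ 2) * ((1 + T ^ 2) * √(1 + T ^ 2)) / DD a T)) := by
      refine Continuous.mul (by fun_prop) ?_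
      exact Continuous.div (by fun_prop) cont_DD fun T => (DD_pos ha T).ne'
    have h3 := (h2.tendsto 1).mono_left (nhdsWithin_le_nhds (s := Iio (1 : ℝ)))
    simpa using h3
  refine squeeze_zero' ?_ ?_ h1
  · filter_upwards [Ioo_mem_nhdsLT (zero_lt_one (α := ℝ))] with T hT
    exact Ef_nonneg hc ha hT
  · filter_upwards [Ioo_mem_nhdsLT (zero_lt_one (α := ℝ))] with T hT
    exact Ef_le_aux hc ha hT

lemma continuousOn_Rf (hc : 0 ≤ c) (ha : 2 ≤ a) : ContinuousOn (Rf a c) (Icc 0 1) := by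
  have h1 := intervalIntegral.continuousOn_primitive_interval_left (a := 0) (b := 1)
    (f := hF a c) (μ := volume) (by rw [uIcc_of_le zero_le_one]; exact intOn_hF hc ha)
  rw [uIcc_of_le zero_le_one] at h1
  exact continuousOn_const.mul h1

lemma Rf_one : Rf a c 1 = 0 := by
  unfold Rf
  simp

lemma tendsto_Rf (hc : 0 ≤ c) (ha : 2 ≤ a) : Tendsto (Rf a c) (𝓝[<] 1) (𝓝 0) := by
  have h := (continuousOn_Rf (c := c) hc ha) 1 ⟨zero_le_one, le_rfl⟩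
  rw [ContinuousWithinAt, Rf_one] at h
  refine h.mono_left (nhdsWithin_le_iff.2 ?_)
  filter_upwards [Ioo_mem_nhdsLT (zero_lt_one (α := ℝ))] with x hx
  exact ⟨hx.1.le, hx.2.le⟩

end Vale.Agent.P224.R2.H627
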