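import Vale.Agent.P224.R2.H627.RDef
import Vale.Agent.P224.R2.H627.DCond

/-!
The relaxed scalar conditions on the weights.
-/

namespace Vale.Agent.P224.R2.H627

open Set Real

variable {T s t W E ρ l : ℝ}

lemma le_of_sq_mul {x T c : ℝ} (hc : 0 < c) (hT : 0 ≤ T) (h : 0 ≤ (T ^ 2 - x ^ 2) * c) : x ≤ T := by
  have h1 : 0 ≤ T ^ 2 - x ^ 2 := nonneg_of_mul_nonneg_left h hc
  have h2 := abs_le_of_sq_le_sq (by linarith : x ^ 2 ≤ T ^ 2) hT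
  exact (le_abs_self x).trans h2

lemma Tlo_le (hs0 : 0 ≤ s) (hs1 : s ≤ 41 / 50) (hT0 : 0 ≤ T) (h : T ^ 2 * (2 - s ^ 2) = s ^ 2) :
    Tlo s ≤ T := by
  have h2 : 0 < 2 - s ^ 2 := by nlinarith
  have k := Tlo_aux (x := s ^ 2) (by positivity) (by nlinarith)
  have k2 := mul_nonneg (sq_nonneg s) k
  refine le_of_sq_mul h2 hT0 ?_
  have e : (T ^ 2 - Tlo s ^ 2) * (2 - s ^ 2) = T ^ 2 * (2 - s ^ 2) - Tlo s ^ 2 * (2 - s ^ 2) := by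
    ring
  rw [e, h, Tlo]
  nlinarith [k2]

lemma le_Thi (hs0 : 0 ≤ s) (hs1 : s ≤ 41 / 50) (h : T ^ 2 * (2 - s ^ 2) = s ^ 2) :
    T ≤ Thi s := by
  have h2 : 0 < 2 - s ^ 2 := by nlinarith
  have k := Thi_aux (x := s ^ 2) (by positivity) (by nlinarith)
  have k2 := mul_nonneg (sq_nonneg s) k
  refine le_of_sq_mul h2 (by unfold Thi; positivity) ?_
  have e : (Thi s ^ 2 - T ^ 2) * (2 - s ^ 2) = Thi s ^ 2 * (2 - s ^ 2) - T ^ 2 * (2 - s ^ 2) := by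
    ring
  rw [e, h, Thi]
  nlinarith [k2]

lemma Tlo3_le (hs0 : 81 / 100 ≤ s) (hs1 : s ≤ 1) (hT0 : 0 ≤ T) (h : T ^ 2 * (2 - s ^ 2) = s ^ 2) :
    Tlo3 s ≤ T := by
  have h2 : 0 < 2 - s ^ 2 := by nlinarith
  have k := Tlo3_aux hs0 hs1
  refine le_of_sq_mul h2 hT0 ?_
  have e : (T ^ 2 - Tlo3 s ^ 2) * (2 - s ^ 2)
      = T ^ 2 * (2 - s ^ 2) - Tlo3 s ^ 2 * (2 - s ^ 2) := by
    ring
  rw [e, h, Tlo3]
  refine k.trans (le_of_eq ?_)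
  ring

lemma le_Thi3 (hs0 : 81 / 100 ≤ s) (hs1 : s ≤ 1) (h : T ^ 2 * (2 - s ^ 2) = s ^ 2) :
    T ≤ Thi3 s := by
  have h2 : 0 < 2 - s ^ 2 := by nlinarith
  have k := Thi3_aux hs0 hs1
  have h0 : 0 ≤ Thi3 s := by
    unfold Thi3
    have a1 : 0 ≤ 1 - s := by linarith
    have a2 : 0 ≤ (1 - s) ^ 4 := by positivity
    nlinarith [mul_nonneg a1 a1, mul_nonneg a1 (mul_nonneg a1 a1)]
  refine le_of_sq_mul h2 h0 ?_
  have e : (Thi3 s ^ 2 - T ^ 2) * (2 - s ^ 2)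
      = Thi3 s ^ 2 * (2 - s ^ 2) - T ^ 2 * (2 - s ^ 2) := by
    ring
  rw [e, h, Thi3]
  refine k.trans (le_of_eq ?_)
  ring

/-- linear interpolation -/
lemma lin_mid {a b x y T : ℝ} (h1 : 0 ≤ a + x * b) (h2 : 0 ≤ a + y * b) (hx : x ≤ T) (hy : T ≤ y) :
    0 ≤ a + T * b := by
  rcases le_total 0 b with hb | hb
  · have := mul_le_mul_of_nonneg_right hx hb
    linarith
  · have := mul_le_mul_of_nonpos_right hy hb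
    linarith

/-- the general form of the two conditions with `κ` -/
lemma Bds2.gen_key (h : Bds2 T s t W E ρ) {X X0 a f : ℝ} (hX : X ≤ X0) (ha : 0 ≤ a) (hf : 0 ≤ f)
    (h4 : a * (X0 - 1) + 2 * f ≤ 0 → 31 / 10 * T ^ 4 ≤ 1)
    (h0 : 0 ≤ (2 - s ^ 2) ^ 2 * (a * (s * vW s t - (X0 - 1) * ((1 - s) ^ 2 * uU s t))
          - 2 * f * ((1 - s) ^ 2 * uU s t))
        + f * (1 + T) * (2 - s ^ 2) * s / 2 * dE s t) :
    0 ≤ a * (s * W + ρ - X * ρ) - f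
      * (2 * ρ - (1 + T) * (s * (2 - s ^ 2) * E / 2) * (1 - 31 / 10 * T ^ 4)) := by
  have hs0 := h.s0
  have hs1 := h.s1
  have hT0 := h.T0
  have hTs := h.Ts
  have h2' : 0 < 2 - s ^ 2 := by nlinarith
  have e2 : X * ρ ≤ X0 * ρ := mul_le_mul_of_nonneg_right hX h.R0
  have e3 := mul_le_mul_of_nonneg_left e2 ha
  have eT : (2 - s ^ 2) ^ 2 * T ^ 4 = s ^ 4 := by
    have : (T ^ 2 * (2 - s ^ 2)) ^ 2 = (s ^ 2) ^ 2 := by rw [hTs]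
    nlinarith
  have hEl := h.El
  have e4 : dE s t ≤ (2 - s ^ 2) ^ 2 * (1 - 31 / 10 * T ^ 4) * E :=
    abs_E eT h.El h.Eu rfl rfl
  have hW := h.Wl
  have hWs := mul_le_mul_of_nonneg_left (mul_le_mul_of_nonneg_left hW hs0.le) ha
  have hq : 0 ≤ f * (1 + T) * (2 - s ^ 2) * s / 2 := by positivity
  rcases le_total (a * (X0 - 1) + 2 * f) 0 with hx | hx
  · have k1 : 0 ≤ 1 - 31 / 10 * T ^ 4 := by linarith [h4 hx]
    have k2 : 0 ≤ f * ((1 + T) * (s * (2 - s ^ 2) * E / 2) * (1 - 31 / 10 * T ^ 4)) := by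
      have := h.E0
      positivity
    have k3 := mul_le_mul_of_nonneg_right hx h.R0
    have k4 : 0 ≤ a * (s * W) := by
      have := h.W0
      positivity
    linarith
  · have e5 := mul_le_mul_of_nonneg_left h.Ru hx
    have e6 := mul_le_mul_of_nonneg_left e4 hq
    have e7 : 0 ≤ (2 - s ^ 2) ^ 2 * (a * (s * vW s t - (X0 - 1) * ((1 - s) ^ 2 * uU s t))
          - 2 * f * ((1 - s) ^ 2 * uU s t)
          + f * (1 + T) * (2 - s ^ 2) * s / 2 * ((1 - 31 / 10 * T ^ 4) * E)) := by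
      linarith
    have e8 := nonneg_of_mul_nonneg_right e7 (by positivity)
    linarith

/-- the polynomial inequalities of one block of dimensions -/
structure Pk (L K tm : ℝ) : Prop where
  tm1 : tm ≤ 2 / 17
  L1 : 11 ≤ L
  L2 : L ≤ 20
  K1 : 12 ≤ K
  cl : ∀ {s t : ℝ}, 0 ≤ s → s ≤ 41 / 50 → 0 ≤ t → t ≤ tm → 0 ≤ dA L s t + Tlo s * dB s t
  ch : ∀ {s t : ℝ}, 0 ≤ s → s ≤ 41 / 50 → 0 ≤ t → t ≤ tm → 0 ≤ dA L s t + Thi s * dB s t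
  rl : ∀ {s t : ℝ}, 0 ≤ s → s ≤ 41 / 50 → 0 ≤ t → t ≤ tm → 0 ≤ rA L s t + Tlo s * rB L s t
  rh : ∀ {s t : ℝ}, 0 ≤ s → s ≤ 41 / 50 → 0 ≤ t → t ≤ tm → 0 ≤ rA L s t + Thi s * rB L s t
  dl : ∀ {s t : ℝ}, 0 ≤ s → s ≤ 41 / 50 → 0 ≤ t → t ≤ tm → 0 ≤ dA4 K s t + Tlo s * dB4 s t
  dh : ∀ {s t : ℝ}, 0 ≤ s → s ≤ 41 / 50 → 0 ≤ t → t ≤ tm → 0 ≤ dA4 K s t + Thi s * dB4 s t
  sl : ∀ {s t : ℝ}, 0 ≤ s → s ≤ 41 / 50 → 0 ≤ t → t ≤ tm → 0 ≤ rA4 K s t + Tlo s * rB4 K s t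
  sh : ∀ {s t : ℝ}, 0 ≤ s → s ≤ 41 / 50 → 0 ≤ t → t ≤ tm → 0 ≤ rA4 K s t + Thi s * rB4 K s t
  v : ∀ {s t : ℝ}, 81 / 100 ≤ s → s ≤ 1 → 0 ≤ t → t ≤ tm → 0 ≤ dV K s t
  ql : ∀ {s t : ℝ}, 81 / 100 ≤ s → s ≤ 1 → 0 ≤ t → t ≤ tm → 0 ≤ qA K s t + Tlo3 s * qB s t
  qh : ∀ {s t : ℝ}, 81 / 100 ≤ s → s ≤ 1 → 0 ≤ t → t ≤ tm → 0 ≤ qA K s t + Thi3 s * qB s t
  pl : ∀ {s t : ℝ}, 81 / 100 ≤ s → s ≤ 1 → 0 ≤ t → t ≤ tm → 0 ≤ pA K s t + Tlo3 s * pB s t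
  ph : ∀ {s t : ℝ}, 81 / 100 ≤ s → s ≤ 1 → 0 ≤ t → t ≤ tm → 0 ≤ pA K s t + Thi3 s * pB s t

/-- small values of the level -/
lemma Bds2.T4 (h : Bds2 T s t W E ρ) {X0 c : ℝ} (h17 : 11 * (s ^ 2 / (2 * (1 - s ^ 2))) ≤ X0)
    (hx : X0 ≤ c) (hc : c ≤ 1) : 31 / 10 * T ^ 4 ≤ 1 := by
  have hs0 := h.s0
  have hs1 := h.s1
  have h3 : 0 < 1 - s ^ 2 := by nlinarith
  have := abs_T4 h.Ts h3 (by linarith)
  linarith

/-- `X` and its upper bound, first type -/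
lemma Bds2.X1 (h : Bds2 T s t W E ρ) {L : ℝ} (hl : l ≤ L) (hL : 11 ≤ L) :
    l * ((1 + t / 2) * (1 + t)) * (s ^ 2 / (2 * (1 - s ^ 2)))
      ≤ L * ((1 + t / 2) * (1 + t)) * (s ^ 2 / (2 * (1 - s ^ 2))) ∧
    11 * (s ^ 2 / (2 * (1 - s ^ 2))) ≤ L * ((1 + t / 2) * (1 + t)) * (s ^ 2 / (2 * (1 - s ^ 2))) ∧
    dU L s t = 2 * (1 + s) * (s * vW s t
      - (L * ((1 + t / 2) * (1 + t)) * (s ^ 2 / (2 * (1 - s ^ 2))) - 1)
        * ((1 - s) ^ 2 * uU s t)) := by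
  have hs0 := h.s0
  have hs1 := h.s1
  have ht0 := h.t0
  have h1 : 0 < 1 - s := by linarith
  have h2 : 0 < 1 + s := by linarith
  have h3 : 0 < 1 - s ^ 2 := by nlinarith
  have hg1 : 1 ≤ (1 + t / 2) * (1 + t) := by nlinarith
  have hZ0 : 0 ≤ s ^ 2 / (2 * (1 - s ^ 2)) := by positivity
  refine ⟨?_, ?_, ?_⟩
  · exact mul_le_mul_of_nonneg_right (mul_le_mul_of_nonneg_right hl (by positivity)) hZ0
  · exact mul_le_mul_of_nonneg_right (by nlinarith) hZ0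
  · rw [dU]
    have : (1 - s ^ 2) = (1 - s) * (1 + s) := by ring
    rw [this]
    field_simp
    ring

/-- `X` and its upper bound, second type -/
lemma Bds2.X2 (h : Bds2 T s t W E ρ) {K : ℝ} (hl : (1 - T ^ 2) * l ≤ K) (hK : 11 ≤ K) :
    l * ((1 + t / 2) * (1 + t)) * (s ^ 2 / (2 * (1 - s ^ 2)))
      ≤ K * ((2 - s ^ 2) / (2 * (1 - s ^ 2))) * ((1 + t / 2) * (1 + t))
        * (s ^ 2 / (2 * (1 - s ^ 2))) ∧
    11 * (s ^ 2 / (2 * (1 - s ^ 2))) ≤ K * ((2 - s ^ 2) / (2 * (1 - s ^ 2)))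
        * ((1 + t / 2) * (1 + t)) * (s ^ 2 / (2 * (1 - s ^ 2))) ∧
    dV K s t = 4 * (1 + s) ^ 2 * (s * vW s t
      - (K * ((2 - s ^ 2) / (2 * (1 - s ^ 2))) * ((1 + t / 2) * (1 + t))
        * (s ^ 2 / (2 * (1 - s ^ 2))) - 1) * ((1 - s) ^ 2 * uU s t)) := by
  have hk := h.kap
  have hs0 := h.s0
  have hs1 := h.s1
  have ht0 := h.t0
  have h1 : 0 < 1 - s := by linarith
  have h2 : 0 < 1 + s := by linarith
  have h3 : 0 < 1 - s ^ 2 := by nlinarith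
  have h4 : 0 < 2 - s ^ 2 := by nlinarith
  have hg1 : 1 ≤ (1 + t / 2) * (1 + t) := by nlinarith
  have hZ0 : 0 ≤ s ^ 2 / (2 * (1 - s ^ 2)) := by positivity
  have hV1 : 1 ≤ (2 - s ^ 2) / (2 * (1 - s ^ 2)) := by
    rw [le_div_iff₀ (by positivity)]
    nlinarith [sq_nonneg s]
  have hl2 : l ≤ K * ((2 - s ^ 2) / (2 * (1 - s ^ 2))) := by
    rw [mul_div_assoc', le_div_iff₀ (by positivity), ← hk]
    have := mul_le_mul_of_nonneg_right hl h4.le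
    linarith
  have h5 : 11 ≤ K * ((2 - s ^ 2) / (2 * (1 - s ^ 2))) := by nlinarith
  refine ⟨?_, ?_, ?_⟩
  · exact mul_le_mul_of_nonneg_right (mul_le_mul_of_nonneg_right hl2 (by positivity)) hZ0
  · exact mul_le_mul_of_nonneg_right (by nlinarith) hZ0
  · rw [dV]
    have : (1 - s ^ 2) = (1 - s) * (1 + s) := by ring
    rw [this]
    field_simp
    ring

end Vale.Agent.P224.R2.H627
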