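import Vale.Agent.P224.R2.H627.Refl
import Vale.Agent.P224.R2.H627.RCond

/-!
The polynomial inequalities of a block of dimensions from a kernel computation.
-/

namespace Vale.Agent.P224.R2.H627.Rf

/-- the conditions for the threshold `n / d`, `A / D ≤ s ≤ (A + H) / D`, `0 ≤ t ≤ N / M` -/
def pkL (A H D : ℤ) (n : ℤ) (d : ℕ) (N M : ℤ) (f : ℕ) : Bool :=
  boxOK A H D N M f (.add (edA n d) (.mul eTlo edB))
  && boxOK A H D N M f (.add (edA n d) (.mul eThi edB))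
  && boxOK A H D N M f (.add (erA n d) (.mul eTlo (erB n d)))
  && boxOK A H D N M f (.add (erA n d) (.mul eThi (erB n d)))

/-- the conditions for the threshold `n / d / (1 - T ^ 2)` -/
def pkK (A H D : ℤ) (n : ℤ) (d : ℕ) (N M : ℤ) (f : ℕ) : Bool :=
  boxOK A H D N M f (.add (edA4 n d) (.mul eTlo edB4))
  && boxOK A H D N M f (.add (edA4 n d) (.mul eThi edB4))
  && boxOK A H D N M f (.add (erA4 n d) (.mul eTlo (erB4 n d)))
  && boxOK A H D N M f (.add (erA4 n d) (.mul eThi (erB4 n d)))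

/-- the conditions near `1` -/
def pkF (A H D : ℤ) (n : ℤ) (d : ℕ) (N M : ℤ) (f : ℕ) : Bool :=
  boxOK A H D N M f (edV n d)
  && boxOK A H D N M f (.add (eqA n d) (.mul eTlo3 eqB))
  && boxOK A H D N M f (.add (eqA n d) (.mul eThi3 eqB))
  && boxOK A H D N M f (.add (epA n d) (.mul eTlo3 epB))
  && boxOK A H D N M f (.add (epA n d) (.mul eThi3 epB))

/-- the conditions of `pkL` -/
structure PkL (L sa sb tm : ℝ) : Prop where
  cl : ∀ {s t : ℝ}, sa ≤ s → s ≤ sb → 0 ≤ t → t ≤ tm → 0 ≤ dA L s t + Tlo s * dB s t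
  ch : ∀ {s t : ℝ}, sa ≤ s → s ≤ sb → 0 ≤ t → t ≤ tm → 0 ≤ dA L s t + Thi s * dB s t
  rl : ∀ {s t : ℝ}, sa ≤ s → s ≤ sb → 0 ≤ t → t ≤ tm → 0 ≤ rA L s t + Tlo s * rB L s t
  rh : ∀ {s t : ℝ}, sa ≤ s → s ≤ sb → 0 ≤ t → t ≤ tm → 0 ≤ rA L s t + Thi s * rB L s t

/-- the conditions of `pkK` -/
structure PkK (K sa sb tm : ℝ) : Prop where
  dl : ∀ {s t : ℝ}, sa ≤ s → s ≤ sb → 0 ≤ t → t ≤ tm → 0 ≤ dA4 K s t + Tlo s * dB4 s t
  dh : ∀ {s t : ℝ}, sa ≤ s → s ≤ sb → 0 ≤ t → t ≤ tm → 0 ≤ dA4 K s t + Thi s * dB4 s t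
  sl : ∀ {s t : ℝ}, sa ≤ s → s ≤ sb → 0 ≤ t → t ≤ tm → 0 ≤ rA4 K s t + Tlo s * rB4 K s t
  sh : ∀ {s t : ℝ}, sa ≤ s → s ≤ sb → 0 ≤ t → t ≤ tm → 0 ≤ rA4 K s t + Thi s * rB4 K s t

/-- the conditions of `pkF` -/
structure PkF (K sa sb tm : ℝ) : Prop where
  v : ∀ {s t : ℝ}, sa ≤ s → s ≤ sb → 0 ≤ t → t ≤ tm → 0 ≤ dV K s t
  ql : ∀ {s t : ℝ}, sa ≤ s → s ≤ sb → 0 ≤ t → t ≤ tm → 0 ≤ qA K s t + Tlo3 s * qB s t
  qh : ∀ {s t : ℝ}, sa ≤ s → s ≤ sb → 0 ≤ t → t ≤ tm → 0 ≤ qA K s t + Thi3 s * qB s t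
  pl : ∀ {s t : ℝ}, sa ≤ s → s ≤ sb → 0 ≤ t → t ≤ tm → 0 ≤ pA K s t + Tlo3 s * pB s t
  ph : ∀ {s t : ℝ}, sa ≤ s → s ≤ sb → 0 ≤ t → t ≤ tm → 0 ≤ pA K s t + Thi3 s * pB s t

theorem pkL_sound {A H D n N M : ℤ} {d f : ℕ} (h : pkL A H D n d N M f = true) :
    PkL ((n : ℝ) / d) ((A : ℝ) / D) (((A : ℝ) + H) / D) ((N : ℝ) / M) := by
  simp only [pkL, Bool.and_eq_true] at h
  obtain ⟨⟨⟨h1, h2⟩, h3⟩, h4⟩ := h
  constructor
  · intro s t a b c e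
    simpa only [PolE.eval, eval_dA, eval_dB, eval_Tlo] using boxOK_sound h1 a b c e
  · intro s t a b c e
    simpa only [PolE.eval, eval_dA, eval_dB, eval_Thi] using boxOK_sound h2 a b c e
  · intro s t a b c e
    simpa only [PolE.eval, eval_rA, eval_rB, eval_Tlo] using boxOK_sound h3 a b c e
  · intro s t a b c e
    simpa only [PolE.eval, eval_rA, eval_rB, eval_Thi] using boxOK_sound h4 a b c e

theorem pkK_sound {A H D n N M : ℤ} {d f : ℕ} (h : pkK A H D n d N M f = true) :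
    PkK ((n : ℝ) / d) ((A : ℝ) / D) (((A : ℝ) + H) / D) ((N : ℝ) / M) := by
  simp only [pkK, Bool.and_eq_true] at h
  obtain ⟨⟨⟨h1, h2⟩, h3⟩, h4⟩ := h
  constructor
  · intro s t a b c e
    simpa only [PolE.eval, eval_dA4, eval_dB4, eval_Tlo] using boxOK_sound h1 a b c e
  · intro s t a b c e
    simpa only [PolE.eval, eval_dA4, eval_dB4, eval_Thi] using boxOK_sound h2 a b c e
  · intro s t a b c e
    simpa only [PolE.eval, eval_rA4, eval_rB4, eval_Tlo] using boxOK_sound h3 a b c e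
  · intro s t a b c e
    simpa only [PolE.eval, eval_rA4, eval_rB4, eval_Thi] using boxOK_sound h4 a b c e

theorem pkF_sound {A H D n N M : ℤ} {d f : ℕ} (h : pkF A H D n d N M f = true) :
    PkF ((n : ℝ) / d) ((A : ℝ) / D) (((A : ℝ) + H) / D) ((N : ℝ) / M) := by
  simp only [pkF, Bool.and_eq_true] at h
  obtain ⟨⟨⟨⟨h1, h2⟩, h3⟩, h4⟩, h5⟩ := h
  constructor
  · intro s t a b c e
    simpa only [PolE.eval, eval_dV] using boxOK_sound h1 a b c e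
  · intro s t a b c e
    simpa only [PolE.eval, eval_qA, eval_qB, eval_Tlo3] using boxOK_sound h2 a b c e
  · intro s t a b c e
    simpa only [PolE.eval, eval_qA, eval_qB, eval_Thi3] using boxOK_sound h3 a b c e
  · intro s t a b c e
    simpa only [PolE.eval, eval_pA, eval_pB, eval_Tlo3] using boxOK_sound h4 a b c e
  · intro s t a b c e
    simpa only [PolE.eval, eval_pA, eval_pB, eval_Thi3] using boxOK_sound h5 a b c e

/-- the polynomial inequalities of a block of dimensions -/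
theorem pk_of {L K tm : ℝ} (h1 : tm ≤ 2 / 17) (h2 : 11 ≤ L) (h3 : L ≤ 20) (h4 : 12 ≤ K)
    (hL : PkL L 0 (41 / 50) tm) (hK : PkK K 0 (41 / 50) tm) (hF : PkF K (81 / 100) 1 tm) :
    Pk L K tm where
  tm1 := h1
  L1 := h2
  L2 := h3
  K1 := h4
  cl := hL.cl
  ch := hL.ch
  rl := hL.rl
  rh := hL.rh
  dl := hK.dl
  dh := hK.dh
  sl := hK.sl
  sh := hK.sh
  v := hF.v
  ql := hF.ql
  qh := hF.qh
  pl := hF.pl
  ph := hF.ph

end Vale.Agent.P224.R2.H627.Rf
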