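import Vale.Agent.P224.R2.H627.PkR

/-!
The polynomial inequalities of one block of dimensions, by a kernel computation.
-/

namespace Vale.Agent.P224.R2.H627

open Rf

theorem pk_b_L : pkL 0 41 50 75 4 1 18 2 = true := by decide +kernel

theorem pk_b_K : pkK 0 41 50 261 20 1 18 0 = true := by decide +kernel

theorem pk_b_F : pkF 81 19 100 261 20 1 18 0 = true := by decide +kernel

theorem pk_b : Pk (75 / 4) (261 / 20) (1 / 18) := by
  have h1 := pkL_sound pk_b_L
  have h2 := pkK_sound pk_b_K
  have h3 := pkF_sound pk_b_F
  push_cast at h1 h2 h3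
  norm_num at h1 h2 h3
  exact pk_of (by norm_num) (by norm_num) (by norm_num) (by norm_num) h1 h2 h3

end Vale.Agent.P224.R2.H627
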