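import Vale.Agent.P224.R2.H627.Chk

/-!
A kernel checker for polynomial inequalities in two variables on a box: polynomial expressions are
normalised to integer coefficients, the second variable is removed by the Bernstein form, and the
first variable by the Bernstein form with bisection.
-/

namespace Vale.Agent.P224.R2.H627.Rf

/-! ### one variable -/

lemma ev_append (a b : List ℤ) (x : ℝ) : ev (a ++ b) x = ev a x + x ^ a.length * ev b x := by
  induction a with
  | nil => simp [ev]
  | cons c a ih =>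
    simp only [List.cons_append, ev, ih, List.length_cons]
    ring

lemma ev_reverse (l : List ℤ) {y : ℝ} (hy : y ≠ 0) :
    y * ev l.reverse y = y ^ l.length * ev l y⁻¹ := by
  induction l with
  | nil => simp [ev]
  | cons c l ih =>
    rw [List.reverse_cons, ev_append]
    simp only [ev, List.length_reverse, List.length_cons, mul_zero, add_zero]
    rw [mul_add, ih]
    field_simp
    ring

lemma ev_nonneg : ∀ (l : List ℤ), (l.all fun c => decide (0 ≤ c)) = true → ∀ x : ℝ, 0 ≤ x →
    0 ≤ ev l x := by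
  intro l
  induction l with
  | nil => intro _ x _; simp [ev]
  | cons c l ih =>
    intro h x hx
    simp only [List.all_cons, Bool.and_eq_true, decide_eq_true_eq] at h
    simp only [ev]
    have h1 : (0 : ℝ) ≤ c := by exact_mod_cast h.1
    have h2 := mul_nonneg hx (ih h.2 x hx)
    linarith

/-- the Bernstein coefficients on `[0, 1]` are nonnegative -/
def bernOK (p : List ℤ) : Bool :=
  decide (0 ≤ p.headD 0) && (shift1 p.reverse).all fun c => decide (0 ≤ c)

lemma ev_zero (p : List ℤ) : ev p 0 = (p.headD 0 : ℤ) := by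
  cases p <;> simp [ev]

lemma bernOK_sound {p : List ℤ} (h : bernOK p = true) {x : ℝ} (h0 : 0 ≤ x) (h1 : x ≤ 1) :
    0 ≤ ev p x := by
  simp only [bernOK, Bool.and_eq_true, decide_eq_true_eq] at h
  rcases eq_or_lt_of_le h0 with hx | hx
  · rw [← hx, ev_zero]
    exact_mod_cast h.1
  · have hy : x⁻¹ ≠ 0 := inv_ne_zero hx.ne'
    have hy1 : 1 ≤ x⁻¹ := (one_le_inv₀ hx).2 h1
    have e := ev_reverse p hy
    rw [inv_inv] at e
    have e2 := ev_shift1 p.reverse (x⁻¹ - 1)
    rw [sub_add_cancel] at e2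
    have h3 := ev_nonneg _ h.2 (x⁻¹ - 1) (by linarith)
    rw [e2] at h3
    have h4 : 0 ≤ x⁻¹ ^ p.length * ev p x := by
      rw [← e]
      exact mul_nonneg (by linarith) h3
    exact nonneg_of_mul_nonneg_right h4 (by positivity)

/-- `2 ^ (n - 1) p (x / 2)` and `2 ^ n`, `n` the length of `p` -/
def half : List ℤ → List ℤ × ℤ
  | [] => ([], 1)
  | c :: l => (c * (half l).2 :: (half l).1, 2 * (half l).2)

lemma half_spec (l : List ℤ) (x : ℝ) :
    0 < (half l).2 ∧ 2 * ev (half l).1 x = (half l).2 * ev l (x / 2) := by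
  induction l with
  | nil => simp [half, ev]
  | cons c l ih =>
    obtain ⟨h1, h2⟩ := ih
    refine ⟨by simp only [half]; positivity, ?_⟩
    simp only [half, ev]
    push_cast
    have : 2 * ((c : ℝ) * (half l).2 + x * ev (half l).1 x)
      = 2 * (c : ℝ) * (half l).2 + x * (2 * ev (half l).1 x) := by ring
    rw [this, h2]
    ring

/-- Bernstein test on `[0, 1]` with at most `n` bisections -/
def nn : ℕ → List ℤ → Bool
  | 0, p => bernOK p
  | n + 1, p => bernOK p || (nn n (half p).1 && nn n (shift1 (half p).1))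

theorem nn_sound : ∀ (n : ℕ) (p : List ℤ), nn n p = true → ∀ x : ℝ, 0 ≤ x → x ≤ 1 → 0 ≤ ev p x := by
  intro n
  induction n with
  | zero =>
    intro p h x h0 h1
    exact bernOK_sound h h0 h1
  | succ n ih =>
    intro p h x h0 h1
    simp only [nn, Bool.or_eq_true, Bool.and_eq_true] at h
    rcases h with h | ⟨ha, hb⟩
    · exact bernOK_sound h h0 h1
    · obtain ⟨hw, he⟩ := half_spec p (2 * x)
      rw [mul_div_cancel_left₀ x (two_ne_zero)] at he
      have hw' : (0 : ℝ) < (half p).2 := by exact_mod_cast hw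
      have key : 0 ≤ ev (half p).1 (2 * x) := by
        rcases le_total x (1 / 2) with h2 | h2
        · exact ih _ ha _ (by linarith) (by linarith)
        · have := ih _ hb (2 * x - 1) (by linarith) (by linarith)
          rwa [ev_shift1, sub_add_cancel] at this
      have : 0 ≤ ((half p).2 : ℝ) * ev p x := by
        rw [← he]
        linarith
      exact nonneg_of_mul_nonneg_right this hw'

/-! ### polynomials -/

/-- sum -/
def padd : List ℤ → List ℤ → List ℤ
  | [], q => q
  | a :: p, q => match q with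
    | [] => a :: p
    | b :: q => (a + b) :: padd p q

lemma ev_padd (p q : List ℤ) (x : ℝ) : ev (padd p q) x = ev p x + ev q x := by
  induction p generalizing q with
  | nil => simp [padd, ev]
  | cons a p ih =>
    cases q with
    | nil => simp [padd, ev]
    | cons b q =>
      simp only [padd, ev, ih]
      push_cast
      ring

/-- multiple -/
def psc (c : ℤ) : List ℤ → List ℤ
  | [] => []
  | a :: p => c * a :: psc c p

lemma ev_psc (c : ℤ) (p : List ℤ) (x : ℝ) : ev (psc c p) x = c * ev p x := by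
  induction p with
  | nil => simp [psc, ev]
  | cons a p ih =>
    simp only [psc, ev, ih]
    push_cast
    ring

/-- product -/
def pmul : List ℤ → List ℤ → List ℤ
  | [], _ => []
  | a :: p, q => padd (psc a q) (0 :: pmul p q)

lemma ev_pmul (p q : List ℤ) (x : ℝ) : ev (pmul p q) x = ev p x * ev q x := by
  induction p with
  | nil => simp [pmul, ev]
  | cons a p ih =>
    simp only [pmul, ev_padd, ev_psc, ev, ih]
    push_cast
    ring

/-- `D ^ n p ((A + H x) / D)` up to a factor `D`, and `D ^ n` -/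
def lin (A H D : ℤ) : List ℤ → List ℤ × ℤ
  | [] => ([], 1)
  | c :: l => (padd [c * (lin A H D l).2] (padd (psc A (lin A H D l).1)
      (0 :: psc H (lin A H D l).1)), D * (lin A H D l).2)

lemma lin_spec {A H D : ℤ} (hD : 0 < D) (l : List ℤ) (x y : ℝ) (hy : D * y = A + H * x) :
    0 < (lin A H D l).2 ∧ D * ev (lin A H D l).1 x = (lin A H D l).2 * ev l y := by
  induction l with
  | nil => simp [lin, ev]
  | cons c l ih =>
    obtain ⟨h1, h2⟩ := ih
    refine ⟨mul_pos hD h1, ?_⟩
    simp only [lin, ev, ev_padd, ev_psc]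
    push_cast
    have : (D : ℝ) * (c * (lin A H D l).2 + x * 0 + (A * ev (lin A H D l).1 x
        + (0 + x * (H * ev (lin A H D l).1 x))))
      = D * c * (lin A H D l).2 + (A + H * x) * (D * ev (lin A H D l).1 x) := by
        ring
    rw [this, h2, ← hy]
    ring

/-! ### two variables -/

/-- the value of a list of polynomials in `s`, the coefficients of the powers of `t` -/
def ev2 : List (List ℤ) → ℝ → ℝ → ℝ
  | [], _, _ => 0
  | p :: P, s, t => ev p s + t * ev2 P s t

/-- sum -/
def P2add : List (List ℤ) → List (List ℤ) → List (List ℤ)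
  | [], Q => Q
  | p :: P, Q => match Q with
    | [] => p :: P
    | q :: Q => padd p q :: P2add P Q

lemma ev2_add (P Q : List (List ℤ)) (s t : ℝ) : ev2 (P2add P Q) s t = ev2 P s t + ev2 Q s t := by
  induction P generalizing Q with
  | nil => simp [P2add, ev2]
  | cons p P ih =>
    cases Q with
    | nil => simp [P2add, ev2]
    | cons q Q =>
      simp only [P2add, ev2, ih, ev_padd]
      ring

/-- multiplication by a polynomial in `s` -/
def P2sc (p : List ℤ) : List (List ℤ) → List (List ℤ)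
  | [] => []
  | q :: Q => pmul p q :: P2sc p Q

lemma ev2_sc (p : List ℤ) (Q : List (List ℤ)) (s t : ℝ) :
    ev2 (P2sc p Q) s t = ev p s * ev2 Q s t := by
  induction Q with
  | nil => simp [P2sc, ev2]
  | cons q Q ih =>
    simp only [P2sc, ev2, ih, ev_pmul]
    ring

/-- product -/
def P2mul : List (List ℤ) → List (List ℤ) → List (List ℤ)
  | [], _ => []
  | p :: P, Q => P2add (P2sc p Q) ([] :: P2mul P Q)

lemma ev2_mul (P Q : List (List ℤ)) (s t : ℝ) : ev2 (P2mul P Q) s t = ev2 P s t * ev2 Q s t := by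
  induction P with
  | nil => simp [P2mul, ev2]
  | cons p P ih =>
    simp only [P2mul, ev2_add, ev2_sc, ev2, ih, ev]
    ring

/-- polynomial expressions -/
inductive PolE
  | c (n : ℤ) (d : ℕ)
  | s
  | t
  | add (a b : PolE)
  | mul (a b : PolE)

/-- evaluation -/
noncomputable def PolE.eval : PolE → ℝ → ℝ → ℝ
  | .c n d, _, _ => n / d
  | .s, x, _ => x
  | .t, _, y => y
  | .add a b, x, y => a.eval x y + b.eval x y
  | .mul a b, x, y => a.eval x y * b.eval x y

/-- powers -/
def PolE.pow (a : PolE) : ℕ → PolE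
  | 0 => .c 1 1
  | 1 => a
  | n + 2 => .mul a (PolE.pow a (n + 1))

lemma PolE.eval_pow (a : PolE) (n : ℕ) (x y : ℝ) : (a.pow n).eval x y = a.eval x y ^ n := by
  induction n with
  | zero => simp [PolE.pow, PolE.eval]
  | succ n ih =>
    cases n with
    | zero => simp [PolE.pow]
    | succ n =>
      simp only [PolE.pow, PolE.eval, ih]
      ring

/-- integer coefficients and the denominator -/
def PolE.norm : PolE → List (List ℤ) × ℕ
  | .c n d => ([[n]], d)
  | .s => ([[0, 1]], 1)
  | .t => ([[], [1]], 1)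
  | .add a b =>
    (P2add (P2sc [((b.norm.2 / Nat.gcd a.norm.2 b.norm.2 : ℕ) : ℤ)] a.norm.1)
      (P2sc [((a.norm.2 / Nat.gcd a.norm.2 b.norm.2 : ℕ) : ℤ)] b.norm.1),
      a.norm.2 * (b.norm.2 / Nat.gcd a.norm.2 b.norm.2))
  | .mul a b => (P2mul a.norm.1 b.norm.1, a.norm.2 * b.norm.2)

/-- all denominators are positive -/
def PolE.pos : PolE → Bool
  | .c _ d => decide (0 < d)
  | .s => true
  | .t => true
  | .add a b => a.pos && b.pos
  | .mul a b => a.pos && b.pos

theorem PolE.norm_spec (e : PolE) (h : e.pos = true) (x y : ℝ) :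
    0 < e.norm.2 ∧ e.norm.2 * e.eval x y = ev2 e.norm.1 x y := by
  induction e with
  | c n d =>
    simp only [PolE.pos, decide_eq_true_eq] at h
    refine ⟨h, ?_⟩
    have : (d : ℝ) ≠ 0 := by exact_mod_cast h.ne'
    simp only [PolE.norm, PolE.eval, ev2, ev]
    field_simp
    ring
  | s => simp [PolE.norm, PolE.eval, ev2, ev]
  | t => simp [PolE.norm, PolE.eval, ev2, ev]
  | add a b iha ihb =>
    simp only [PolE.pos, Bool.and_eq_true] at h
    obtain ⟨a1, a2⟩ := iha h.1
    obtain ⟨b1, b2⟩ := ihb h.2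
    have hg : 0 < Nat.gcd a.norm.2 b.norm.2 := Nat.gcd_pos_of_pos_left _ a1
    have hb : b.norm.2 / Nat.gcd a.norm.2 b.norm.2 * Nat.gcd a.norm.2 b.norm.2 = b.norm.2 :=
      Nat.div_mul_cancel (Nat.gcd_dvd_right _ _)
    have ha : a.norm.2 / Nat.gcd a.norm.2 b.norm.2 * Nat.gcd a.norm.2 b.norm.2 = a.norm.2 :=
      Nat.div_mul_cancel (Nat.gcd_dvd_left _ _)
    have hpb : 0 < b.norm.2 / Nat.gcd a.norm.2 b.norm.2 :=
      Nat.div_pos (Nat.le_of_dvd b1 (Nat.gcd_dvd_right _ _)) hg
    refine ⟨Nat.mul_pos a1 hpb, ?_⟩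
    simp only [PolE.norm, PolE.eval, ev2_add, ev2_sc, ev, mul_zero, add_zero]
    rw [← a2, ← b2]
    generalize b.norm.2 / Nat.gcd a.norm.2 b.norm.2 = v at *
    generalize a.norm.2 / Nat.gcd a.norm.2 b.norm.2 = u at *
    generalize Nat.gcd a.norm.2 b.norm.2 = g at *
    have hb' : (v : ℝ) * g = b.norm.2 := by exact_mod_cast hb
    have ha' : (u : ℝ) * g = a.norm.2 := by exact_mod_cast ha
    push_cast
    rw [← hb', ← ha']
    ring
  | mul a b iha ihb =>
    simp only [PolE.pos, Bool.and_eq_true] at h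
    obtain ⟨a1, a2⟩ := iha h.1
    obtain ⟨b1, b2⟩ := ihb h.2
    refine ⟨Nat.mul_pos a1 b1, ?_⟩
    simp only [PolE.norm, PolE.eval, ev2_mul]
    rw [← a2, ← b2]
    push_cast
    ring

/-! ### the second variable -/

/-- `D ^ n P (s, N t / D)` up to a factor `D`, and `D ^ n` -/
def sct (N D : ℤ) : List (List ℤ) → List (List ℤ) × ℤ
  | [] => ([], 1)
  | p :: P => (psc (sct N D P).2 p :: P2sc [N] (sct N D P).1, D * (sct N D P).2)

lemma sct_spec {N D : ℤ} (hD : 0 < D) (P : List (List ℤ)) (s t w : ℝ) (hw : D * t = N * w) :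
    0 < (sct N D P).2 ∧ D * ev2 (sct N D P).1 s w = (sct N D P).2 * ev2 P s t := by
  induction P with
  | nil => simp [sct, ev2]
  | cons p P ih =>
    obtain ⟨h1, h2⟩ := ih
    refine ⟨mul_pos hD h1, ?_⟩
    simp only [sct, ev2, ev_psc, ev2_sc, ev, mul_zero, add_zero]
    push_cast
    have e : (D : ℝ) * ((sct N D P).2 * ev p s + w * (N * ev2 (sct N D P).1 s w))
        = D * ((sct N D P).2 * ev p s) + (N * w) * (D * ev2 (sct N D P).1 s w) := by
      ring
    rw [e, h2, ← hw]
    ring

lemma ev2_append (P Q : List (List ℤ)) (s t : ℝ) :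
    ev2 (P ++ Q) s t = ev2 P s t + t ^ P.length * ev2 Q s t := by
  induction P with
  | nil => simp [ev2]
  | cons c a ih =>
    simp only [List.cons_append, ev2, ih, List.length_cons]
    ring

lemma ev2_reverse (P : List (List ℤ)) (s : ℝ) {y : ℝ} (hy : y ≠ 0) :
    y * ev2 P.reverse s y = y ^ P.length * ev2 P s y⁻¹ := by
  induction P with
  | nil => simp [ev2]
  | cons c l ih =>
    rw [List.reverse_cons, ev2_append]
    simp only [ev2, List.length_reverse, List.length_cons, mul_zero, add_zero]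
    rw [mul_add, ih]
    field_simp
    ring

/-- Taylor shift by one in the second variable -/
def sh2 : List (List ℤ) → List (List ℤ)
  | [] => []
  | p :: P => P2add [p] (P2add (sh2 P) ([] :: sh2 P))

lemma ev2_sh2 (P : List (List ℤ)) (s t : ℝ) : ev2 (sh2 P) s t = ev2 P s (t + 1) := by
  induction P with
  | nil => simp [sh2, ev2]
  | cons p P ih =>
    simp only [sh2, ev2_add, ev2, ih, ev]
    ring

/-- nonnegativity of the coefficients for `A / D ≤ s ≤ (A + H) / D` -/
def coefOK (A H D : ℤ) (n : ℕ) (P : List (List ℤ)) : Bool := P.all fun p => nn n (lin A H D p).1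

lemma coefOK_sound {A H D : ℤ} (hD : 0 < D) {n : ℕ} {P : List (List ℤ)}
    (h : coefOK A H D n P = true) {x s : ℝ} (h0 : 0 ≤ x) (h1 : x ≤ 1) (hs : D * s = A + H * x)
    {t : ℝ} (ht : 0 ≤ t) : 0 ≤ ev2 P s t := by
  induction P with
  | nil => simp [ev2]
  | cons p P ih =>
    simp only [coefOK, List.all_cons, Bool.and_eq_true] at h
    simp only [ev2]
    obtain ⟨w1, w2⟩ := lin_spec hD p x s hs
    have k1 := nn_sound n _ h.1 x h0 h1
    have hD' : (0 : ℝ) < D := by exact_mod_cast hD
    have hw' : (0 : ℝ) < (lin A H D p).2 := by exact_mod_cast w1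
    have k2 : 0 ≤ ((lin A H D p).2 : ℝ) * ev p s := by
      rw [← w2]
      positivity
    have k3 := nonneg_of_mul_nonneg_right k2 hw'
    have k4 := mul_nonneg ht (ih h.2)
    linarith

/-- the check of the box `A / D ≤ s ≤ (A + H) / D`, `0 ≤ t ≤ N / M` -/
def boxOK (A H D N M : ℤ) (n : ℕ) (e : PolE) : Bool :=
  e.pos && decide (0 < H) && decide (0 < D) && decide (0 < N) && decide (0 < M)
    && coefOK A H D n [e.norm.1.headD []]
    && coefOK A H D n (sh2 (sct N M e.norm.1).1.reverse)

lemma ev2_zero (P : List (List ℤ)) (s : ℝ) : ev2 P s 0 = ev (P.headD []) s := by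
  cases P <;> simp [ev2, ev]

theorem boxOK_sound {A H D N M : ℤ} {n : ℕ} {e : PolE} (h : boxOK A H D N M n e = true) {s t : ℝ}
    (hs0 : (A : ℝ) / D ≤ s) (hs1 : s ≤ (A + H) / D) (ht0 : 0 ≤ t) (ht1 : t ≤ N / M) :
    0 ≤ e.eval s t := by
  simp only [boxOK, Bool.and_eq_true, decide_eq_true_eq] at h
  obtain ⟨⟨⟨⟨⟨⟨hp, hH⟩, hD⟩, hN⟩, hM⟩, hc0⟩, hc⟩ := h
  have hD' : (0 : ℝ) < D := by exact_mod_cast hD
  have hH' : (0 : ℝ) < H := by exact_mod_cast hH
  have hN' : (0 : ℝ) < N := by exact_mod_cast hN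
  have hM' : (0 : ℝ) < M := by exact_mod_cast hM
  obtain ⟨q1, q2⟩ := e.norm_spec hp s t
  have q1' : (0 : ℝ) < e.norm.2 := by exact_mod_cast q1
  rw [div_le_iff₀ hD'] at hs0
  rw [le_div_iff₀ hD'] at hs1
  have x0 : 0 ≤ (D * s - A) / H := div_nonneg (by linarith) hH'.le
  have x1 : (D * s - A) / H ≤ 1 := by
    rw [div_le_one hH']
    linarith
  have hx : (D : ℝ) * s = A + H * ((D * s - A) / H) := by
    field_simp
    ring
  have key : 0 ≤ ev2 e.norm.1 s t := by
    rcases eq_or_lt_of_le ht0 with h0 | h0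
    · have h5 := coefOK_sound hD hc0 x0 x1 hx (t := 0) le_rfl
      rw [← h0, ev2_zero]
      simpa [ev2] using h5
    · rw [le_div_iff₀ hM'] at ht1
      have w0 : 0 < M * t / N := by positivity
      have w1 : M * t / N ≤ 1 := by
        rw [div_le_one hN']
        linarith
      have hw : (M : ℝ) * t = N * (M * t / N) := by
        field_simp
      obtain ⟨c1, c2⟩ := sct_spec hM e.norm.1 s t _ hw
      generalize M * t / N = w at w0 w1 c2
      have hy : w⁻¹ ≠ 0 := inv_ne_zero w0.ne'
      have hy1 : 1 ≤ w⁻¹ := (one_le_inv₀ w0).2 w1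
      have e1 := ev2_reverse (sct N M e.norm.1).1 s hy
      rw [inv_inv] at e1
      have e2 := ev2_sh2 (sct N M e.norm.1).1.reverse s (w⁻¹ - 1)
      rw [sub_add_cancel] at e2
      have h3 := coefOK_sound hD hc x0 x1 hx (t := w⁻¹ - 1) (by linarith)
      rw [e2] at h3
      have h4 : 0 ≤ w⁻¹ ^ (sct N M e.norm.1).1.length * ev2 (sct N M e.norm.1).1 s w := by
        rw [← e1]
        exact mul_nonneg (by linarith) h3
      have h5 := nonneg_of_mul_nonneg_right h4 (by positivity)
      have c1' : (0 : ℝ) < (sct N M e.norm.1).2 := by exact_mod_cast c1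
      have h6 : 0 ≤ ((sct N M e.norm.1).2 : ℝ) * ev2 e.norm.1 s t := by
        rw [← c2]
        positivity
      exact nonneg_of_mul_nonneg_right h6 c1'
  rw [← q2] at key
  exact nonneg_of_mul_nonneg_right key q1'

end Vale.Agent.P224.R2.H627.Rf
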