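import Vale.Agent.P224.R2.H627.W0q
import Vale.Agent.P224.R2.H627.DCondM

/-!
The integrals of the minorant over `(0, 1/2)`: bounds by the integrals over `(0, 1)`.
-/

namespace Vale.Agent.P224.R2.H627

open MeasureTheory Set Filter Function Real Vale.Agent.P224.SM2 Vale.Agent.P224.R2.H820
open Vale.Agent.P224.R2.H582
open scoped Topology

variable {m : ℕ} {T : ℝ}

lemma pr_alg {s W E ρ : ℝ} (hT0 : 1 / 2 ≤ T) (hT1 : T < 1) (hs0 : 0 < s) (hs1 : s < 1)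
    (hTs : T ^ 2 * (2 - s ^ 2) = s ^ 2) (hW : W ≤ 10 / 9) (hE : E ≤ 11 / 9 * (1 - s ^ 2))
    (hR : ρ ≤ 11 / 9 * J1 s) :
    s * W + ρ + 18 / 17 * (T * (s * (1 - s ^ 2) * E)) ≤ 2 * T := by
  have hs2 : 2 / 5 ≤ s ^ 2 := by nlinarith
  have hs3 : 632 / 1000 ≤ s := by nlinarith
  have h1 : s ^ 2 ≤ (1265 / 1000 * T) ^ 2 := by nlinarith
  have h2 : s ≤ 1265 / 1000 * T := by
    have := abs_le_of_sq_le_sq h1 (by positivity)
    exact (le_abs_self s).trans this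
  have h3 : s * W ≤ s * (10 / 9) := mul_le_mul_of_nonneg_left hW hs0.le
  have h4 : J1 s ≤ 1189 / 10000 := by
    unfold J1
    nlinarith [mul_nonneg (sub_nonneg.2 hs3) (sub_nonneg.2 hs1.le), sq_nonneg (s - 632 / 1000)]
  have h5 : s * (1 - s ^ 2) ^ 2 ≤ 228 / 1000 := by
    have hx0 : 0 ≤ 5 * s ^ 2 - 2 := by linarith
    have hx1 : 5 * s ^ 2 - 2 ≤ (2 : ℕ) + 1 := by
      push_cast
      nlinarith
    have h := chk_sound 2 [135, 0, -30, 10, -1] (by decide +kernel) (5 * s ^ 2 - 2) hx0 hx1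
    have h' := mul_nonneg hx0 h
    simp only [ev] at h'
    push_cast at h'
    have e1 : (s * (1 - s ^ 2) ^ 2) ^ 2 ≤ (228 / 1000) ^ 2 := by nlinarith
    have := abs_le_of_sq_le_sq e1 (by positivity)
    exact (le_abs_self _).trans this
  have h6 : s * (1 - s ^ 2) * E ≤ s * (1 - s ^ 2) * (11 / 9 * (1 - s ^ 2)) :=
    mul_le_mul_of_nonneg_left hE (mul_nonneg hs0.le (by nlinarith))
  have h7 : s * (1 - s ^ 2) * E ≤ 11 / 9 * (228 / 1000) := by nlinarith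
  have h8 := mul_le_mul_of_nonneg_left h7 (by linarith : 0 ≤ T)
  linarith

lemma int_Tk (h4 : 4 ≤ m) :
    IntervalIntegrable (fun T : ℝ => T * (1 - T ^ 2) ^ ((m : ℝ) / 2 - 1)) volume (1 / 2) 1
    ∧ ∫ T in (1 / 2 : ℝ)..1, T * (1 - T ^ 2) ^ ((m : ℝ) / 2 - 1)
      = (3 / 4 : ℝ) ^ ((m : ℝ) / 2) / m := by
  have hm : (4 : ℝ) ≤ m := by exact_mod_cast h4
  have hc : Continuous fun T : ℝ => T * (1 - T ^ 2) ^ ((m : ℝ) / 2 - 1) := by
    refine continuous_id.mul ?_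
    exact Continuous.rpow_const (by fun_prop) fun _ => Or.inr (by linarith)
  refine ⟨hc.intervalIntegrable _ _, ?_⟩
  have hd : ∀ T ∈ uIcc (1 / 2 : ℝ) 1, HasDerivAt (fun T : ℝ => -((1 - T ^ 2) ^ ((m : ℝ) / 2) / m))
      (T * (1 - T ^ 2) ^ ((m : ℝ) / 2 - 1)) T := by
    intro T _
    have h1 : HasDerivAt (fun T : ℝ => 1 - T ^ 2) (-(2 * T)) T := by
      have := (hasDerivAt_pow 2 T).const_sub 1
      refine this.congr_deriv ?_
      simp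
    have h2 := (h1.rpow_const (p := (m : ℝ) / 2) (Or.inr (by linarith))).div_const (m : ℝ)
    refine h2.neg.congr_deriv ?_
    have : (m : ℝ) ≠ 0 := by linarith
    field_simp
  rw [intervalIntegral.integral_eq_sub_of_hasDerivAt hd (hc.intervalIntegrable _ _)]
  have e1 : (1 - (1 : ℝ) ^ 2) ^ ((m : ℝ) / 2) = 0 := by
    rw [show (1 : ℝ) - 1 ^ 2 = 0 by norm_num]
    exact Real.zero_rpow (by linarith)
  rw [e1]
  norm_num

/-- the minorant is bounded by its positive part, with the kernels replaced by an upper bound -/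
lemma b0_le_ker {κ σ lam y e r c : ℝ} (hκ : 0 ≤ κ) (hσ : 0 ≤ σ) (hl : 0 ≤ lam) (hT0 : 0 ≤ T)
    (hT1 : T ≤ 1) (hy : 0 ≤ y) (he : 0 ≤ e) (hr : 0 ≤ r)
    (h1 : SM2.ker T (m + 1) (-σ) ≤ c) (h2 : SM2.ker T (m + 2) (-σ) ≤ c) :
    b0 m κ σ T y e r lam ≤ 1 / 2 * c * (m * (T * y + m * r) + m * (m + 1) * T * e) := by
  have l1 := (Lt_le_ker (m + 1) hT0 hσ).trans h1
  have l2 := (Lt_le_ker (m + 2) hT0 hσ).trans h2
  have hv : 0 < 1 - T * -σ := by nlinarith [mul_nonneg hT0 hσ]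
  have u1 := (ker_pos (m + 1) hv).le.trans (ker_le_Ut (m + 1) hT0 hσ)
  have u2 := (ker_pos (m + 2) hv).le.trans (ker_le_Ut (m + 2) hT0 hσ)
  push_cast at l1 l2 u1 u2
  have h1T : 0 ≤ 1 - T := by linarith
  have a1 : m * (T * y + m * r) * Lt (m + 1) (σ * T) ≤ m * (T * y + m * r) * c :=
    mul_le_mul_of_nonneg_left l1 (by positivity)
  have a2 : 0 ≤ ((m : ℝ) + 1) * (m + 2) * T ^ 2 * r * lam * Ut (m + 1) (σ * T) := by positivity
  have a3 : m * (m + 1) * T * e * Lt (m + 2) (σ * T) ≤ m * (m + 1) * T * e * c :=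
    mul_le_mul_of_nonneg_left l2 (by positivity)
  have a4 : 0 ≤ (m : ℝ) * (m + 1) * κ * T ^ 5 * e * Ut (m + 2) (σ * T) := by positivity
  have a5 : 0 ≤ 2 * (m : ℝ) * (m + 1) * T * (1 - T) * r * Ut (m + 2) (σ * T) := by positivity
  unfold b0
  linarith

lemma half_alg {K s W E ρ y e r M : ℝ} (hM : 17 ≤ M) (hK : 0 ≤ K) (hT0 : 0 ≤ T) (he : 0 ≤ e)
    (h1 : √2 * (T * y) = K * (s * W)) (h2 : √2 * (M * r) = K * ρ)
    (h3 : √2 * (M * e) = K * (s * (1 - s ^ 2) * E))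
    (key : s * W + ρ + 18 / 17 * (T * (s * (1 - s ^ 2) * E)) ≤ 2 * T) (hy : 0 ≤ y) (hr : 0 ≤ r) :
    M * (T * y + M * r) + M * (M + 1) * T * e ≤ M * (142 / 100) * (T * K) := by
  have hfin : √2 * (M * (T * y + M * r) + M * (M + 1) * T * e) ≤ M * K * (2 * T) := by
    have e5 : √2 * (M * (T * y + M * r) + M * (M + 1) * T * e)
        = M * (√2 * (T * y) + √2 * (M * r)) + (M + 1) * (T * (√2 * (M * e))) := by
      ring
    have h7 : 0 ≤ T * (√2 * (M * e)) := by positivity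
    have h6 : M + 1 ≤ 18 / 17 * M := by linarith
    have h8 := mul_le_mul_of_nonneg_right h6 h7
    rw [h3] at h8
    rw [e5, h1, h2, h3]
    have h9 := mul_le_mul_of_nonneg_left key (by positivity : 0 ≤ M * K)
    linarith
  have hs2 : 1414 / 1000 ≤ √(2 : ℝ) := by
    rw [show (1414 / 1000 : ℝ) = √((1414 / 1000) ^ 2) by
      rw [Real.sqrt_sq (by norm_num)]]
    exact Real.sqrt_le_sqrt (by norm_num)
  have hpos : 0 ≤ M * (T * y + M * r) + M * (M + 1) * T * e := by positivity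
  have h10 := mul_le_mul_of_nonneg_right hs2 hpos
  have h12 : 0 ≤ M * (T * K) := by positivity
  nlinarith

/-- pointwise bound of the minorant on `[1/2, 1)` -/
theorem b0_le_half {κ σ lam : ℝ} (hm : 17 ≤ m) (hκ : 0 ≤ κ) (hσ : 0 ≤ σ) (hl : 0 ≤ lam)
    (hT : T ∈ Ioo (1 / 2 : ℝ) 1) :
    b0 m κ σ T (yM m T) (eM m T) (rM m T) lam
      ≤ ((1 + σ / 2) ^ (m + 1))⁻¹ * (m * (71 / 100)) * (T * (1 - T ^ 2) ^ ((m : ℝ) / 2 - 1)) := by
  have hT' : T ∈ Ioo (0 : ℝ) 1 := ⟨by linarith [hT.1], hT.2⟩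
  have hmR : (17 : ℝ) ≤ m := by exact_mod_cast hm
  have hk : 0 < 1 - T ^ 2 := by nlinarith [hT'.1, hT'.2]
  have hb := bds2_M hm hT'
  have ha := half17_le hm
  have hn := nrm_cn (m := m) (by omega)
  have ht := inv_bds ha
  have hh0 := (hv_pos hT').le
  have hh1 := (hv_lt_one hT').le
  have hK0 : 0 < (1 - T ^ 2) ^ ((m : ℝ) / 2 - 1) := rpow_pos_of_pos hk _
  have kW : Wf (m / 2) (cn m) T ≤ 10 / 9 := (sh_Wp ha hn T ⟨hT'.1.le, hT'.2⟩).trans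
    (evR_Wp_le ht.1.le ht.2 hh0 hh1)
  have kE : Ef (m / 2) (cn m) T ≤ 11 / 9 * (1 - sv T ^ 2) := by
    refine (sh_Ep ha hn T hT').trans ((evR_Ep_le ht.1.le ht.2 hh0 hh1).trans (le_of_eq ?_))
    rw [sv_sq]
    ring
  have kR : √2 * Rf (m / 2) (cn m) T ≤ 11 / 9 * J1 (sv T) := sh_R_le ha hn hT'
  have key := pr_alg hT.1.le hT.2 hb.s0 hb.s1 hb.Ts kW kE kR
  have e4 : √2 * (m * eM m T) = (1 - T ^ 2) ^ ((m : ℝ) / 2 - 1)
      * (sv T * (1 - sv T ^ 2) * Ef (m / 2) (cn m) T) := by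
    rw [he_M (m := m) hT']
    have : (1 - T ^ 2) * (sv T * (2 - sv T ^ 2) * Ef (m / 2) (cn m) T / 2)
        = (1 - T ^ 2) * (2 - sv T ^ 2) * (sv T * Ef (m / 2) (cn m) T / 2) := by
      ring
    rw [this, hb.kap]
    ring
  have hc := certO_M (m := m) (by omega)
  have hy := yM_nonneg (m := m) (by omega) (T := T) ⟨hT'.1.le, hT'.2.le⟩
  have he := hc.e0 T hT'
  have hr := hc.r0 T hT'
  have hq := half_alg hmR hK0.le hT'.1.le he (hy_M T) (hr_M T) e4 key hy hr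
  have hker : ∀ q : ℕ, m + 1 ≤ q → SM2.ker T q (-σ) ≤ ((1 + σ / 2) ^ (m + 1))⁻¹ := by
    intro q hq
    have e : SM2.ker T q (-σ) = ((1 + σ * T) ^ q)⁻¹ := by
      unfold SM2.ker
      rw [show 1 - T * -σ = 1 + σ * T by ring]
    rw [e]
    refine inv_anti₀ (by positivity) ?_
    have h5 : 1 + σ / 2 ≤ 1 + σ * T := by nlinarith [hT.1]
    calc (1 + σ / 2) ^ (m + 1) ≤ (1 + σ * T) ^ (m + 1) :=
          pow_le_pow_left₀ (by positivity) h5 _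
      _ ≤ (1 + σ * T) ^ q := pow_le_pow_right₀ (by nlinarith [hT.1]) hq
  refine (b0_le_ker hκ hσ hl hT'.1.le hT'.2.le hy he hr (hker (m + 1) le_rfl)
    (hker (m + 2) (by omega))).trans ?_
  have hc0 : 0 ≤ ((1 + σ / 2) ^ (m + 1))⁻¹ := by positivity
  have := mul_le_mul_of_nonneg_left hq hc0
  linarith

/-- bound of the integral of the minorant over `(1/2, 1)` -/
theorem int_b0_half {κ σ : ℝ} {lam : ℝ → ℝ} (hm : 17 ≤ m) (hκ : 0 ≤ κ) (hσ : 0 ≤ σ)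
    (hl : ∀ T ∈ Ioo (1 / 2 : ℝ) 1, 0 ≤ lam T)
    (hi : IntervalIntegrable (fun T => b0 m κ σ T (yM m T) (eM m T) (rM m T) (lam T)) volume
      (1 / 2) 1) :
    ∫ T in (1 / 2 : ℝ)..1, b0 m κ σ T (yM m T) (eM m T) (rM m T) (lam T)
      ≤ 71 / 100 * (3 / 4) ^ ((m : ℝ) / 2) * ((1 + σ / 2) ^ (m + 1))⁻¹ := by
  obtain ⟨i1, i2⟩ := int_Tk (m := m) (by omega)
  have hm0 : (m : ℝ) ≠ 0 := by
    have : (17 : ℝ) ≤ m := by exact_mod_cast hm
    linarith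
  have h := intervalIntegral.integral_mono_on_of_le_Ioo (by norm_num) hi
    (i1.const_mul (((1 + σ / 2) ^ (m + 1))⁻¹ * (m * (71 / 100)))) fun T hT =>
      b0_le_half (lam := lam T) hm hκ hσ (hl T hT) hT
  refine h.trans (le_of_eq ?_)
  rw [intervalIntegral.integral_const_mul, i2]
  field_simp

/-- rational version of the price -/
def prQ (m : ℕ) (σ : ℚ) : ℚ := 71 / 100 * bhi ((3 / 4) ^ m) / (1 + σ / 2) ^ (m + 1)

lemma le_prQ {σ : ℚ} (hσ : 0 ≤ σ) :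
    71 / 100 * (3 / 4 : ℝ) ^ ((m : ℝ) / 2) * ((1 + (σ : ℝ) / 2) ^ (m + 1))⁻¹ ≤ (prQ m σ : ℝ) := by
  have h1 := (Rat.cast_le (K := ℝ)).2 (bhi_sq (q := (3 / 4) ^ m) (by positivity))
  push_cast at h1
  have h2 : ((3 / 4 : ℝ) ^ ((m : ℝ) / 2)) ^ 2 = (3 / 4) ^ m := by
    rw [← rpow_natCast, ← rpow_mul (by norm_num)]
    norm_num
  have h3 : (3 / 4 : ℝ) ^ ((m : ℝ) / 2) ≤ (bhi ((3 / 4) ^ m) : ℝ) := by
    rw [← h2] at h1
    have h4 : (0 : ℝ) ≤ (bhi ((3 / 4) ^ m) : ℝ) := by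
      exact_mod_cast bhi_nonneg (q := (3 / 4) ^ m) (by positivity)
    exact (le_abs_self _).trans (abs_le_of_sq_le_sq h1 h4)
  have hσ' : (0 : ℝ) ≤ σ := by exact_mod_cast hσ
  unfold prQ
  push_cast
  have h5 : (0 : ℝ) ≤ ((1 + (σ : ℝ) / 2) ^ (m + 1))⁻¹ := by positivity
  have h6 := mul_le_mul_of_nonneg_right
    (mul_le_mul_of_nonneg_left h3 (by norm_num : (0 : ℝ) ≤ 71 / 100)) h5
  refine h6.trans (le_of_eq ?_)
  ring

end Vale.Agent.P224.R2.H627
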