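import Vale.Agent.P224.R2.H627.Const

/-!
Rational arithmetic for linear combinations of the moments.
-/

namespace Vale.Agent.P224.R2.H627

open Real Vale.Agent.P224.SM2 Vale.Agent.P224.R2.H820

/-- the coefficient in the recursion of the moments of y -/
def rc (m : ℚ) (j : ℕ) : ℚ := (j + 1) * (m + 2 * j) / ((m + j) * (m + 2 * j + 2))

/-- state: `Ya j, Yb j, Ya (j+1), Yb (j+1)`, `Ra, Rb, Rc, Rd` at `j` and `j + 1` -/
structure St8 where
  ya : ℚ
  yb : ℚ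
  ya' : ℚ
  yb' : ℚ
  ra : ℚ
  rb : ℚ
  rcc : ℚ
  rd : ℚ
  ra' : ℚ
  rb' : ℚ
  rc' : ℚ
  rd' : ℚ

def st0 (m : ℚ) : St8 := ⟨0, 1, 1 / m, 0, 0, 0, 1, 0, 0, -1 / (m * (m + 2)), 0, 1 / m⟩

/-- the factor of `Y (j + 1)` in `E j` -/
def ef (m : ℚ) (j : ℕ) : ℚ := m / ((m + 2 * j + 2) * (m + 2 * j + 4))

def stn (m : ℚ) (j : ℕ) (s : St8) : St8 :=
  let c := rc m j
  let e := ef m j
  let d := m + j + 1
  ⟨s.ya', s.yb', c * s.ya, c * s.yb, s.ra', s.rb', s.rc', s.rd',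
    ((j + 1) * s.ra - e * s.ya') / d, ((j + 1) * s.rb - e * s.yb') / d,
    ((j + 1) * s.rcc) / d, ((j + 1) * s.rd) / d⟩

/-- accumulates `A, B, C, D` -/
def acc (m : ℚ) : List (ℚ × ℚ × ℚ) → ℕ → St8 → ℚ → ℚ → ℚ → ℚ → ℚ × ℚ × ℚ × ℚ
  | [], _, _, A, B, C, D => (A, B, C, D)
  | (cy, ce, cr) :: l, j, s, A, B, C, D =>
    let e := ce * ef m j
    acc m l (j + 1) (stn m j s) (A + (cy * s.ya + e * s.ya' + cr * s.ra))
      (B + (cy * s.yb + e * s.yb' + cr * s.rb)) (C + cr * s.rcc) (D + cr * s.rd)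

/-- the linear combination of moments with coefficients in a list, starting at index `j` -/
noncomputable def lc3 (Y E R : ℕ → ℝ) : List (ℚ × ℚ × ℚ) → ℕ → ℝ
  | [], _ => 0
  | (cy, ce, cr) :: l, j => (cy * Y j + ce * E j + cr * R j) + lc3 Y E R l (j + 1)

/-- the state represents the moments -/
def Rep (m j : ℕ) (s : St8) : Prop :=
  YM m j = s.ya + s.yb * YM m 0 ∧ YM m (j + 1) = s.ya' + s.yb' * YM m 0 ∧
  RM m j = s.ra + s.rb * YM m 0 + s.rcc * RM m 0 + s.rd * rM m 0 ∧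
  RM m (j + 1) = s.ra' + s.rb' * YM m 0 + s.rc' * RM m 0 + s.rd' * rM m 0

variable {m : ℕ}

lemma rep_zero (h4 : 4 ≤ m) : Rep m 0 (st0 m) := by
  have hm := m_pos h4
  refine ⟨?_, ?_, ?_, ?_⟩
  · simp [st0]
  · rw [YM_one h4]
    simp [st0]
  · simp [st0]
  · have h := RM_one h4
    simp only [st0]
    push_cast
    field_simp at h ⊢
    linarith

lemma EM_ef (h4 : 4 ≤ m) (j : ℕ) : EM m j = (ef m j : ℚ) * YM m (j + 1) := by
  have hm := m_pos h4
  have h1 := EM_eq h4 j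
  have h2 := ZZM_eq h4 (j + 1)
  have hj : (0 : ℝ) ≤ j := Nat.cast_nonneg j
  unfold ef
  push_cast at h2 ⊢
  have e1 : EM m j = ZZM m (j + 1) / (m + 2 * j + 2) := by
    rw [eq_div_iff (by positivity)]
    linarith
  have e2 : ZZM m (j + 1) = m * YM m (j + 1) / (m + 2 * j + 4) := by
    rw [eq_div_iff (by positivity)]
    linarith
  rw [e1, e2]
  field_simp

lemma rep_succ (h4 : 4 ≤ m) {j : ℕ} {s : St8} (h : Rep m j s) : Rep m (j + 1) (stn m j s) := by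
  have hm := m_pos h4
  obtain ⟨h1, h2, h3, h5⟩ := h
  have hj : (0 : ℝ) ≤ j := Nat.cast_nonneg j
  refine ⟨?_, ?_, ?_, ?_⟩
  · simpa [stn] using h2
  · have r := YM_rec h4 j
    have e : YM m (j + 1 + 1) = (rc m j : ℚ) * YM m j := by
      unfold rc
      push_cast
      rw [div_mul_eq_mul_div, eq_div_iff (by positivity)]
      linarith
    rw [e, h1]
    simp only [stn]
    push_cast
    ring
  · simpa [stn] using h5
  · have r := RM_rec h4 j
    have e : RM m (j + 1 + 1) = ((j + 1) * RM m j - (ef m j : ℚ) * YM m (j + 1)) / (m + j + 1) := by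
      rw [← EM_ef h4, eq_div_iff (by positivity)]
      linarith
    rw [e, h2, h3]
    simp only [stn]
    push_cast
    ring

/-- the value of `A + B Y_0 + C R_0 + D r (0)` -/
noncomputable def val4 (m : ℕ) (v : ℚ × ℚ × ℚ × ℚ) : ℝ :=
  v.1 + v.2.1 * YM m 0 + v.2.2.1 * RM m 0 + v.2.2.2 * rM m 0

lemma acc_val (h4 : 4 ≤ m) (l : List (ℚ × ℚ × ℚ)) : ∀ (j : ℕ) (s : St8) (A B C D : ℚ),
    Rep m j s → val4 m (acc m l j s A B C D)
      = (A + B * YM m 0 + C * RM m 0 + D * rM m 0) + lc3 (YM m) (EM m) (RM m) l j := by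
  induction l with
  | nil =>
    intro j s A B C D _
    simp [acc, val4, lc3]
  | cons c l ih =>
    obtain ⟨cy, ce, cr⟩ := c
    intro j s A B C D h
    rw [acc, lc3]
    rw [ih (j + 1) _ _ _ _ _ (rep_succ h4 h)]
    obtain ⟨h1, h2, h3, h5⟩ := h
    rw [EM_ef h4 j, h1, h2, h3]
    push_cast
    ring

/-- all linear combinations of moments -/
def red (m : ℕ) (l : List (ℚ × ℚ × ℚ)) : ℚ × ℚ × ℚ × ℚ := acc m l 0 (st0 m) 0 0 0 0

theorem red_val (h4 : 4 ≤ m) (l : List (ℚ × ℚ × ℚ)) :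
    val4 m (red m l) = lc3 (YM m) (EM m) (RM m) l 0 := by
  unfold red
  rw [acc_val h4 l 0 _ _ _ _ _ (rep_zero h4)]
  simp

end Vale.Agent.P224.R2.H627
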