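import Vale.Agent.P224.R2.H627.KMom
import Vale.Agent.P224.R2.H627.R0Pol
import Vale.Agent.P224.R2.H627.ShR

/-!
Two sided bounds of `R_0 = int r`.
-/

namespace Vale.Agent.P224.R2.H627

open MeasureTheory Set Filter Function Real Vale.Agent.P224.SM2 Vale.Agent.P224.R2.H820
open scoped Topology

variable {a c T : ℝ}

/-- primitive of `xU` -/
noncomputable def XpU (T t : ℝ) : ℝ :=
  (1 + 3 / 2 * t + 59 / 25 * t ^ 2) * T
    + (-(7 / 2) - 1873 / 100 * t - 2182 / 25 * t ^ 2) * (T ^ 3 / 3)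
    + (691 / 100 + 8851 / 100 * t + 76441 / 100 * t ^ 2) * (T ^ 5 / 5)
    + (-(543 / 50) - 6202 / 25 * t - 239249 / 100 * t ^ 2) * (T ^ 7 / 7)
    + (1323 / 100 + 30087 / 100 * t + 242489 / 100 * t ^ 2) * (T ^ 9 / 9)


/-- primitive of `xL` -/
noncomputable def XpL (T t : ℝ) : ℝ :=
  (1 + 3 / 2 * t + 199 / 100 * t ^ 2) * T
    + (-(7 / 2) - 377 / 20 * t - 2753 / 25 * t ^ 2) * (T ^ 3 / 3)
    + (27 / 4 + 1841 / 20 * t + 31698 / 25 * t ^ 2) * (T ^ 5 / 5)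
    + (-(531 / 50) - 17327 / 50 * t - 323137 / 50 * t ^ 2) * (T ^ 7 / 7)
    + (311 / 20 + 55977 / 50 * t + 337689 / 25 * t ^ 2) * (T ^ 9 / 9)
    + (-(3097 / 100) - 14337 / 10 * t - 220473 / 25 * t ^ 2) * (T ^ 11 / 11)


/-- integral of `XpU` -/
noncomputable def XkU (m t : ℝ) : ℝ :=
  (1 + 3 / 2 * t + 59 / 25 * t ^ 2) * (1 / m)
    + (-(7 / 2) - 1873 / 100 * t - 2182 / 25 * t ^ 2) * (2 / (m * (m + 2)) / 3)
    + (691 / 100 + 8851 / 100 * t + 76441 / 100 * t ^ 2) * (8 / (m * (m + 2) * (m + 4)) / 5)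
    + (-(543 / 50) - 6202 / 25 * t - 239249 / 100 * t ^ 2) * (48 / (m * (m + 2) * (m + 4) * (m + 6)) / 7)
    + (1323 / 100 + 30087 / 100 * t + 242489 / 100 * t ^ 2) * (384 / (m * (m + 2) * (m + 4) * (m + 6) * (m + 8)) / 9)


/-- integral of `XpL` -/
noncomputable def XkL (m t : ℝ) : ℝ :=
  (1 + 3 / 2 * t + 199 / 100 * t ^ 2) * (1 / m)
    + (-(7 / 2) - 377 / 20 * t - 2753 / 25 * t ^ 2) * (2 / (m * (m + 2)) / 3)
    + (27 / 4 + 1841 / 20 * t + 31698 / 25 * t ^ 2) * (8 / (m * (m + 2) * (m + 4)) / 5)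
    + (-(531 / 50) - 17327 / 50 * t - 323137 / 50 * t ^ 2) * (48 / (m * (m + 2) * (m + 4) * (m + 6)) / 7)
    + (311 / 20 + 55977 / 50 * t + 337689 / 25 * t ^ 2) * (384 / (m * (m + 2) * (m + 4) * (m + 6) * (m + 8)) / 9)
    + (-(3097 / 100) - 14337 / 10 * t - 220473 / 25 * t ^ 2) * (3840 / (m * (m + 2) * (m + 4) * (m + 6) * (m + 8) * (m + 10)) / 11)



lemma hasDerivAt_XpU (T t : ℝ) : HasDerivAt (fun T => XpU T t) (xU (T ^ 2) t) T := by
  have h1 := ((((((hasDerivAt_id' T).const_mul (1 + 3 / 2 * t + 59 / 25 * t ^ 2)).fun_add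
    (((hasDerivAt_pow 3 T).div_const 3).const_mul
      (-(7 / 2) - 1873 / 100 * t - 2182 / 25 * t ^ 2))).fun_add
    (((hasDerivAt_pow 5 T).div_const 5).const_mul
      (691 / 100 + 8851 / 100 * t + 76441 / 100 * t ^ 2))).fun_add
    (((hasDerivAt_pow 7 T).div_const 7).const_mul
      (-(543 / 50) - 6202 / 25 * t - 239249 / 100 * t ^ 2))).fun_add
    (((hasDerivAt_pow 9 T).div_const 9).const_mul
      (1323 / 100 + 30087 / 100 * t + 242489 / 100 * t ^ 2)))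
  refine h1.congr_deriv ?_
  unfold xU
  push_cast
  ring

lemma hasDerivAt_XpL (T t : ℝ) : HasDerivAt (fun T => XpL T t) (xL (T ^ 2) t) T := by
  have h1 := (((((((hasDerivAt_id' T).const_mul (1 + 3 / 2 * t + 199 / 100 * t ^ 2)).fun_add
    (((hasDerivAt_pow 3 T).div_const 3).const_mul
      (-(7 / 2) - 377 / 20 * t - 2753 / 25 * t ^ 2))).fun_add
    (((hasDerivAt_pow 5 T).div_const 5).const_mul
      (27 / 4 + 1841 / 20 * t + 31698 / 25 * t ^ 2))).fun_add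
    (((hasDerivAt_pow 7 T).div_const 7).const_mul
      (-(531 / 50) - 17327 / 50 * t - 323137 / 50 * t ^ 2))).fun_add
    (((hasDerivAt_pow 9 T).div_const 9).const_mul
      (311 / 20 + 55977 / 50 * t + 337689 / 25 * t ^ 2))).fun_add
    (((hasDerivAt_pow 11 T).div_const 11).const_mul
      (-(3097 / 100) - 14337 / 10 * t - 220473 / 25 * t ^ 2)))
  refine h1.congr_deriv ?_
  unfold xL
  push_cast
  ring

lemma sU_nonneg {s : ℝ} (h0 : 0 ≤ s) (h1 : s ≤ 1) : 0 ≤ sU s := by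
  unfold sU
  nlinarith [pow_nonneg h0 2, pow_nonneg h0 3, pow_nonneg h0 4, pow_le_one₀ h0 h1 (n := 2),
    pow_le_one₀ h0 h1 (n := 3), pow_le_one₀ h0 h1 (n := 4)]

lemma sL_nonneg {s : ℝ} (h0 : 0 ≤ s) (h1 : s ≤ 1) : 0 ≤ sL s := by
  unfold sL
  nlinarith [pow_nonneg h0 2, pow_nonneg h0 3, pow_nonneg h0 5, pow_le_one₀ h0 h1 (n := 2),
    pow_le_one₀ h0 h1 (n := 4)]

lemma eU5_eq (t : ℝ) {u h : ℝ} (hh : h * (1 + u) = 1 - u) :
    (1 + u) ^ 5 * evR (EpL t) h = eU5 u t := by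
  simp only [EpL, evR, eU5]
  rw [← hh]
  ring

lemma eL6_eq (t : ℝ) {u h : ℝ} (hh : h * (1 + u) = 1 - u) :
    (1 + u) ^ 6 * evR (EmL t) h = eL6 u t := by
  simp only [EmL, evR, eL6]
  rw [← hh]
  ring

lemma hv_mul (T : ℝ) : hv T * (1 + T ^ 2) = 1 - T ^ 2 := by
  unfold hv
  have : (1 : ℝ) + T ^ 2 ≠ 0 := by positivity
  field_simp

lemma Rd_abs {u w E : ℝ} (hw : 0 < w) (hw2 : w ^ 2 = 1 + u) (hT : T ≠ 0) :
    T / ((1 + u) * w) * E / T = E * w / (1 + u) ^ 2 := by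
  rw [← hw2]
  have := hw.ne'
  field_simp

lemma Rder_le (ha : 17 / 2 ≤ a) (hn : Nrm a c) (hT : T ∈ Ioo (0 : ℝ) 1) :
    T / ((1 + T ^ 2) * √(1 + T ^ 2)) * Ef a c T / T ≤ xU (T ^ 2) (1 / a) := by
  have ht := inv_bds ha
  have h1 := sh_Ep ha hn T hT
  have hE0 := Ef_nonneg (hn.pos' ha).le (by linarith : 2 ≤ a) hT
  have hu0 : 0 ≤ T ^ 2 := sq_nonneg T
  have hu1 : T ^ 2 ≤ 1 := by nlinarith [hT.1, hT.2]
  have hu2 : 0 < 1 + T ^ 2 := by positivity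
  have h2 := yU_nonneg hu0 hu1 ht.1.le ht.2
  unfold yU at h2
  rw [← eU5_eq (1 / a) (hv_mul T)] at h2
  have h3 := sU_sq hu0 hu1
  have h4 := sU_nonneg hu0 hu1
  have h5 : √(1 + T ^ 2) ≤ sU (T ^ 2) := sqrt_le_iff.2 ⟨h4, h3⟩
  rw [Rd_abs (root_pos T) (root_sq T) hT.1.ne', div_le_iff₀ (by positivity)]
  have h6 : Ef a c T * √(1 + T ^ 2) ≤ evR (EpL (1 / a)) (hv T) * sU (T ^ 2) :=
    mul_le_mul h1 h5 (root_pos T).le (hE0.trans h1)
  refine h6.trans ?_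
  have h7 : 0 ≤ (1 + T ^ 2) ^ 5 * (xU (T ^ 2) (1 / a) * (1 + T ^ 2) ^ 2
      - evR (EpL (1 / a)) (hv T) * sU (T ^ 2)) := by linarith
  have h8 := nonneg_of_mul_nonneg_right h7 (by positivity)
  linarith

lemma Rder_ge (ha : 17 / 2 ≤ a) (hn : Nrm a c) (hT : T ∈ Ioo (0 : ℝ) 1) :
    xL (T ^ 2) (1 / a) ≤ T / ((1 + T ^ 2) * √(1 + T ^ 2)) * Ef a c T / T := by
  have ht := inv_bds ha
  have h1 := sh_Em ha hn T hT
  have hE0 := Ef_nonneg (hn.pos' ha).le (by linarith : 2 ≤ a) hT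
  have hu0 : 0 ≤ T ^ 2 := sq_nonneg T
  have hu1 : T ^ 2 ≤ 1 := by nlinarith [hT.1, hT.2]
  have hu2 : 0 < 1 + T ^ 2 := by positivity
  have h2 := yL_nonneg hu0 hu1 ht.1.le ht.2
  unfold yL at h2
  rw [← eL6_eq (1 / a) (hv_mul T)] at h2
  have h3 := sL_sq hu0 hu1
  have h4 := sL_nonneg hu0 hu1
  have h5 : sL (T ^ 2) ≤ √(1 + T ^ 2) := le_sqrt_of_sq_le h3
  rw [Rd_abs (root_pos T) (root_sq T) hT.1.ne', le_div_iff₀ (by positivity)]
  have h6 : evR (EmL (1 / a)) (hv T) * sL (T ^ 2) ≤ Ef a c T * √(1 + T ^ 2) :=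
    (mul_le_mul_of_nonneg_right h1 h4).trans (mul_le_mul_of_nonneg_left h5 hE0)
  refine le_trans ?_ h6
  have h7 : 0 ≤ (1 + T ^ 2) ^ 6 * (evR (EmL (1 / a)) (hv T) * sL (T ^ 2)
      - xL (T ^ 2) (1 / a) * (1 + T ^ 2) ^ 2) := by linarith
  have h8 := nonneg_of_mul_nonneg_right h7 (by positivity)
  linarith

lemma contXpU (t : ℝ) : Continuous fun T => XpU T t :=
  continuous_iff_continuousAt.2 fun T => (hasDerivAt_XpU T t).continuousAt

lemma contXpL (t : ℝ) : Continuous fun T => XpL T t :=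
  continuous_iff_continuousAt.2 fun T => (hasDerivAt_XpL T t).continuousAt

theorem Rf_ge_X (ha : 17 / 2 ≤ a) (hn : Nrm a c) (hT : T ∈ Icc (0 : ℝ) 1) :
    Rf a c 0 - XpU T (1 / a) ≤ Rf a c T := by
  have hc := (hn.pos' ha).le
  have ha2 : 2 ≤ a := by linarith
  have hd : ∀ T ∈ Ioo (0 : ℝ) 1, HasDerivAt (fun T => Rf a c T + XpU T (1 / a))
      (-(T / ((1 + T ^ 2) * √(1 + T ^ 2)) * Ef a c T) / T + xU (T ^ 2) (1 / a)) T :=
    fun T hT => (hasDerivAt_Rf hc ha2 hT).fun_add (hasDerivAt_XpU T _)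
  have hm : MonotoneOn (fun T => Rf a c T + XpU T (1 / a)) (Icc 0 1) := by
    refine monotoneOn_of_deriv_nonneg (convex_Icc 0 1)
      ((continuousOn_Rf hc ha2).add (contXpU _).continuousOn) ?_ ?_
    · rw [interior_Icc]
      exact fun T hT => (hd T hT).differentiableAt.differentiableWithinAt
    · rw [interior_Icc]
      intro T hT
      rw [(hd T hT).deriv]
      have := Rder_le ha hn hT
      rw [neg_div]
      linarith
  have h := hm ⟨le_rfl, zero_le_one⟩ hT hT.1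
  have e : XpU 0 (1 / a) = 0 := by unfold XpU; ring
  simp only [e] at h
  linarith

theorem Rf_le_X (ha : 17 / 2 ≤ a) (hn : Nrm a c) (hT : T ∈ Icc (0 : ℝ) 1) :
    Rf a c T ≤ Rf a c 0 - XpL T (1 / a) := by
  have hc := (hn.pos' ha).le
  have ha2 : 2 ≤ a := by linarith
  have hd : ∀ T ∈ Ioo (0 : ℝ) 1, HasDerivAt (fun T => Rf a c T + XpL T (1 / a))
      (-(T / ((1 + T ^ 2) * √(1 + T ^ 2)) * Ef a c T) / T + xL (T ^ 2) (1 / a)) T :=
    fun T hT => (hasDerivAt_Rf hc ha2 hT).fun_add (hasDerivAt_XpL T _)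
  have hm : AntitoneOn (fun T => Rf a c T + XpL T (1 / a)) (Icc 0 1) := by
    refine antitoneOn_of_deriv_nonpos (convex_Icc 0 1)
      ((continuousOn_Rf hc ha2).add (contXpL _).continuousOn) ?_ ?_
    · rw [interior_Icc]
      exact fun T hT => (hd T hT).differentiableAt.differentiableWithinAt
    · rw [interior_Icc]
      intro T hT
      rw [(hd T hT).deriv]
      have := Rder_ge ha hn hT
      rw [neg_div]
      linarith
  have h := hm ⟨le_rfl, zero_le_one⟩ hT hT.1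
  have e : XpL 0 (1 / a) = 0 := by unfold XpL; ring
  simp only [e] at h
  linarith

section dim

variable {m : ℕ}

lemma KM_odd (h1 : 2 ≤ m) : KM ((m : ℝ) / 2) 1 = 1 / m ∧ KM ((m : ℝ) / 2) 3 = 2 / (m * (m + 2))
    ∧ KM ((m : ℝ) / 2) 5 = 8 / (m * (m + 2) * (m + 4))
    ∧ KM ((m : ℝ) / 2) 7 = 48 / (m * (m + 2) * (m + 4) * (m + 6))
    ∧ KM ((m : ℝ) / 2) 9 = 384 / (m * (m + 2) * (m + 4) * (m + 6) * (m + 8))
    ∧ KM ((m : ℝ) / 2) 11 = 3840 / (m * (m + 2) * (m + 4) * (m + 6) * (m + 8) * (m + 10)) := by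
  have hm : (2 : ℝ) ≤ m := by exact_mod_cast h1
  have ha : (1 : ℝ) ≤ m / 2 := by linarith
  have k1 := KM_one ha
  have k3 := KM_rec ha 1
  have k5 := KM_rec ha 3
  have k7 := KM_rec ha 5
  have k9 := KM_rec ha 7
  have k11 := KM_rec ha 9
  push_cast at k3 k5 k7 k9 k11
  rw [show 2 * ((m : ℝ) / 2) = m by ring] at k1 k3 k5 k7 k9 k11
  have e1 : KM ((m : ℝ) / 2) 1 = 1 / m := by
    rw [eq_div_iff (by positivity)]
    linarith
  have e3 : KM ((m : ℝ) / 2) 3 = 2 / (m * (m + 2)) := by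
    have : KM ((m : ℝ) / 2) (1 + 2) = 2 * KM (m / 2) 1 / (m + 2) := by
      rw [eq_div_iff (by positivity)]
      linarith
    rw [show (3 : ℕ) = 1 + 2 by norm_num, this, e1]
    field_simp
  have e5 : KM ((m : ℝ) / 2) 5 = 8 / (m * (m + 2) * (m + 4)) := by
    have : KM ((m : ℝ) / 2) (3 + 2) = 4 * KM (m / 2) 3 / (m + 4) := by
      rw [eq_div_iff (by positivity)]
      linarith
    rw [show (5 : ℕ) = 3 + 2 by norm_num, this, e3]
    field_simp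
    norm_num
  have e7 : KM ((m : ℝ) / 2) 7 = 48 / (m * (m + 2) * (m + 4) * (m + 6)) := by
    have : KM ((m : ℝ) / 2) (5 + 2) = 6 * KM (m / 2) 5 / (m + 6) := by
      rw [eq_div_iff (by positivity)]
      linarith
    rw [show (7 : ℕ) = 5 + 2 by norm_num, this, e5]
    field_simp
    norm_num
  have e9 : KM ((m : ℝ) / 2) 9 = 384 / (m * (m + 2) * (m + 4) * (m + 6) * (m + 8)) := by
    have : KM ((m : ℝ) / 2) (7 + 2) = 8 * KM (m / 2) 7 / (m + 8) := by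
      rw [eq_div_iff (by positivity)]
      linarith
    rw [show (9 : ℕ) = 7 + 2 by norm_num, this, e7]
    field_simp
    norm_num
  have e11 : KM ((m : ℝ) / 2) 11
      = 3840 / (m * (m + 2) * (m + 4) * (m + 6) * (m + 8) * (m + 10)) := by
    have : KM ((m : ℝ) / 2) (9 + 2) = 10 * KM (m / 2) 9 / (m + 10) := by
      rw [eq_div_iff (by positivity)]
      linarith
    rw [show (11 : ℕ) = 9 + 2 by norm_num, this, e9]
    field_simp
    norm_num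
  exact ⟨e1, e3, e5, e7, e9, e11⟩

end dim

end Vale.Agent.P224.R2.H627
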