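import Vale.Agent.P224.R2.H627.RCond

/-!
The relaxed scalar conditions on the weights, for one block of dimensions.
-/

namespace Vale.Agent.P224.R2.H627

open Set Real

variable {T s t W E ρ l L K tm : ℝ}

lemma Bds2.s_le (h : Bds2 T s t W E ρ) (hT : T ≤ 7 / 10) : s ≤ 41 / 50 := by
  have hTs := h.Ts
  have hs0 := h.s0
  have hT2 : T ^ 2 ≤ 49 / 100 := by
    have := h.T0
    nlinarith
  have h2 : 0 < 2 - s ^ 2 := by nlinarith [h.s1]
  have h3 : s ^ 2 ≤ (41 / 50) ^ 2 := by nlinarith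
  exact (le_abs_self s).trans (abs_le_of_sq_le_sq h3 (by norm_num))

lemma Bds2.le_s (h : Bds2 T s t W E ρ) (hT : 7 / 10 ≤ T) : 81 / 100 ≤ s := by
  have hTs := h.Ts
  have hs0 := h.s0
  have hT2 : 49 / 100 ≤ T ^ 2 := by nlinarith
  have h2 : 0 < 2 - s ^ 2 := by nlinarith [h.s1]
  have h3 : (81 / 100) ^ 2 ≤ s ^ 2 := by nlinarith
  exact (le_abs_self _).trans (abs_le_of_sq_le_sq h3 hs0.le)

/-- the conditions for `T ≤ 7/10`, first type -/
lemma Bds2.near1 (h : Bds2 T s t W E ρ) (P : Pk L K tm) (ht : t ≤ tm) (hT : T ≤ 7 / 10)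
    (hl : l ≤ L) :
    0 ≤ 1 * (s * W + ρ - l * ((1 + t / 2) * (1 + t)) * (s ^ 2 / (2 * (1 - s ^ 2))) * ρ)
      - ((1 + 3 * t / 2) * T)
        * (2 * ρ - (1 + T) * (s * (2 - s ^ 2) * E / 2) * (1 - 31 / 10 * T ^ 4)) ∧
    0 ≤ (1 + T) * (s * W + ρ - l * ((1 + t / 2) * (1 + t)) * (s ^ 2 / (2 * (1 - s ^ 2))) * ρ)
      - ((1 + t / 2) * T * (1 - T))
        * (2 * ρ - (1 + T) * (s * (2 - s ^ 2) * E / 2) * (1 - 31 / 10 * T ^ 4)) := by
  have hT0 := h.T0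
  have hs0 := h.s0
  have ht0 := h.t0
  have hsl := h.s_le hT
  have hTs := h.Ts
  have hk := h.kap
  have hT4 : 31 / 10 * T ^ 4 ≤ 1 := by
    have h1 : T ^ 4 ≤ (7 / 10) ^ 4 := pow_le_pow_left₀ hT0.le hT 4
    norm_num at h1
    linarith
  obtain ⟨x1, -, x3⟩ := h.X1 hl P.L1
  have b1 := Tlo_le hs0.le hsl hT0.le hTs
  have b2 := le_Thi hs0.le hsl hTs
  refine ⟨?_, ?_⟩
  · refine h.gen_key x1 zero_le_one (by positivity) (fun _ => hT4) ?_
    have e5 := lin_mid (P.cl hs0.le hsl ht0 ht) (P.ch hs0.le hsl ht0 ht) b1 b2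
    rw [dA, dB, x3] at e5
    generalize L * ((1 + t / 2) * (1 + t)) * (s ^ 2 / (2 * (1 - s ^ 2))) = X0 at e5 ⊢
    have e6 : 0 ≤ (2 * (1 + s)) * ((2 - s ^ 2) ^ 2 * (1 * (s * vW s t
          - (X0 - 1) * ((1 - s) ^ 2 * uU s t))
          - 2 * ((1 + 3 * t / 2) * T) * ((1 - s) ^ 2 * uU s t))
          + (1 + 3 * t / 2) * T * (1 + T) * (2 - s ^ 2) * s / 2 * dE s t) := by
      refine e5.trans (le_of_eq ?_)
      linear_combination (-(1 + s) * (1 + 3 * t / 2) * s * dE s t) * hTs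
    exact nonneg_of_mul_nonneg_right e6 (by positivity)
  · have hT1 : 0 ≤ 1 - T := by linarith
    refine h.gen_key x1 (by positivity) (by positivity) (fun _ => hT4) ?_
    have e5 := lin_mid (P.rl hs0.le hsl ht0 ht) (P.rh hs0.le hsl ht0 ht) b1 b2
    rw [rA, rB, x3] at e5
    generalize L * ((1 + t / 2) * (1 + t)) * (s ^ 2 / (2 * (1 - s ^ 2))) = X0 at e5 ⊢
    have e6 : 0 ≤ (2 * (1 + s)) * ((2 - s ^ 2) ^ 2 * ((1 + T) * (s * vW s t
          - (X0 - 1) * ((1 - s) ^ 2 * uU s t))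
          - 2 * ((1 + t / 2) * T * (1 - T)) * ((1 - s) ^ 2 * uU s t))
          + (1 + t / 2) * T * (1 - T) * (1 + T) * (2 - s ^ 2) * s / 2 * dE s t) := by
      refine e5.trans (le_of_eq ?_)
      linear_combination (-4 * (1 + s) * (1 + t / 2) * (2 - s ^ 2) * ((1 - s) ^ 2 * uU s t)) * hTs
        - ((1 + s) * (1 + t / 2) * T * s * dE s t) * hk
    exact nonneg_of_mul_nonneg_right e6 (by positivity)

/-- the conditions for `T ≤ 7/10`, second type -/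
lemma Bds2.near2 (h : Bds2 T s t W E ρ) (P : Pk L K tm) (ht : t ≤ tm) (hT : T ≤ 7 / 10)
    (hl : (1 - T ^ 2) * l ≤ K) :
    0 ≤ 1 * (s * W + ρ - l * ((1 + t / 2) * (1 + t)) * (s ^ 2 / (2 * (1 - s ^ 2))) * ρ)
      - ((1 + 3 * t / 2) * T)
        * (2 * ρ - (1 + T) * (s * (2 - s ^ 2) * E / 2) * (1 - 31 / 10 * T ^ 4)) ∧
    0 ≤ (1 + T) * (s * W + ρ - l * ((1 + t / 2) * (1 + t)) * (s ^ 2 / (2 * (1 - s ^ 2))) * ρ)
      - ((1 + t / 2) * T * (1 - T))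
        * (2 * ρ - (1 + T) * (s * (2 - s ^ 2) * E / 2) * (1 - 31 / 10 * T ^ 4)) := by
  have hT0 := h.T0
  have hs0 := h.s0
  have ht0 := h.t0
  have hsl := h.s_le hT
  have hTs := h.Ts
  have hk := h.kap
  have hT4 : 31 / 10 * T ^ 4 ≤ 1 := by
    have h1 : T ^ 4 ≤ (7 / 10) ^ 4 := pow_le_pow_left₀ hT0.le hT 4
    norm_num at h1
    linarith
  obtain ⟨x1, -, x3⟩ := h.X2 hl (by linarith [P.K1] : 11 ≤ K)
  have b1 := Tlo_le hs0.le hsl hT0.le hTs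
  have b2 := le_Thi hs0.le hsl hTs
  refine ⟨?_, ?_⟩
  · refine h.gen_key x1 zero_le_one (by positivity) (fun _ => hT4) ?_
    have e5 := lin_mid (P.dl hs0.le hsl ht0 ht) (P.dh hs0.le hsl ht0 ht) b1 b2
    rw [dA4, dB4, x3] at e5
    generalize K * ((2 - s ^ 2) / (2 * (1 - s ^ 2))) * ((1 + t / 2) * (1 + t))
      * (s ^ 2 / (2 * (1 - s ^ 2))) = X0 at e5 ⊢
    have e6 : 0 ≤ (4 * (1 + s) ^ 2) * ((2 - s ^ 2) ^ 2 * (1 * (s * vW s t
          - (X0 - 1) * ((1 - s) ^ 2 * uU s t))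
          - 2 * ((1 + 3 * t / 2) * T) * ((1 - s) ^ 2 * uU s t))
          + (1 + 3 * t / 2) * T * (1 + T) * (2 - s ^ 2) * s / 2 * dE s t) := by
      refine e5.trans (le_of_eq ?_)
      linear_combination (-2 * (1 + s) ^ 2 * (1 + 3 * t / 2) * s * dE s t) * hTs
    exact nonneg_of_mul_nonneg_right e6 (by positivity)
  · have hT1 : 0 ≤ 1 - T := by linarith
    refine h.gen_key x1 (by positivity) (by positivity) (fun _ => hT4) ?_
    have e5 := lin_mid (P.sl hs0.le hsl ht0 ht) (P.sh hs0.le hsl ht0 ht) b1 b2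
    rw [rA4, rB4, x3] at e5
    generalize K * ((2 - s ^ 2) / (2 * (1 - s ^ 2))) * ((1 + t / 2) * (1 + t))
      * (s ^ 2 / (2 * (1 - s ^ 2))) = X0 at e5 ⊢
    have e6 : 0 ≤ (4 * (1 + s) ^ 2) * ((2 - s ^ 2) ^ 2 * ((1 + T) * (s * vW s t
          - (X0 - 1) * ((1 - s) ^ 2 * uU s t))
          - 2 * ((1 + t / 2) * T * (1 - T)) * ((1 - s) ^ 2 * uU s t))
          + (1 + t / 2) * T * (1 - T) * (1 + T) * (2 - s ^ 2) * s / 2 * dE s t) := by
      refine e5.trans (le_of_eq ?_)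
      linear_combination (-8 * (1 + s) ^ 2 * (1 + t / 2) * (2 - s ^ 2)
          * ((1 - s) ^ 2 * uU s t)) * hTs
        - (2 * (1 + s) ^ 2 * (1 + t / 2) * T * s * dE s t) * hk
    exact nonneg_of_mul_nonneg_right e6 (by positivity)

/-- the conditions for `7/10 ≤ T` -/
lemma Bds2.far2 (h : Bds2 T s t W E ρ) (P : Pk L K tm) (ht : t ≤ tm) (hT : 7 / 10 ≤ T)
    (hT1 : T < 1) (hl : (1 - T ^ 2) * l ≤ K) :
    0 ≤ s * W + ρ - l * ((1 + t / 2) * (1 + t)) * (s ^ 2 / (2 * (1 - s ^ 2))) * ρ ∧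
    0 ≤ s * W + ρ - l * ((1 + t / 2) * (1 + t)) * (s ^ 2 / (2 * (1 - s ^ 2))) * ρ
      - (1 + t / 2) * T * (2 * ρ - (1 + T) * (s * (2 - s ^ 2) * E / 2)) ∧
    0 ≤ (1 - T ^ 2)
        * (s * W + ρ - l * ((1 + t / 2) * (1 + t)) * (s ^ 2 / (2 * (1 - s ^ 2))) * ρ)
      - (1 + t / 2) * T * (1 + T) * (s * (1 - s ^ 2) * E - 2 * (1 + T) * ρ) := by
  have hT0 := h.T0
  have hs0 := h.s0
  have hs1 := h.s1
  have ht0 := h.t0
  have ht2 : t ≤ 2 / 17 := ht.trans P.tm1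
  have hsl := h.le_s hT
  have hTs := h.Ts
  have hk := h.kap
  have hkp := h.kpos
  have h1 : 0 < 1 - s := by linarith
  have h3 : 0 < 1 - s ^ 2 := by nlinarith
  have h4 : 0 < 2 - s ^ 2 := by nlinarith
  obtain ⟨x1, x2, x3⟩ := h.X2 hl (by linarith [P.K1] : 11 ≤ K)
  have b1 := Tlo3_le hsl hs1.le hT0.le hTs
  have b2 := le_Thi3 hsl hs1.le hTs
  have hZ : 95 / 100 ≤ s ^ 2 / (2 * (1 - s ^ 2)) := by
    rw [le_div_iff₀ (by positivity)]
    nlinarith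
  -- κ X0
  have hkX : (1 - T ^ 2) * (K * ((2 - s ^ 2) / (2 * (1 - s ^ 2))) * ((1 + t / 2) * (1 + t))
      * (s ^ 2 / (2 * (1 - s ^ 2)))) = K * ((1 + t / 2) * (1 + t)) * (s ^ 2 / (2 * (1 - s ^ 2))) := by
    have e1 : (1 - T ^ 2) * ((2 - s ^ 2) / (2 * (1 - s ^ 2))) = 1 := by
      rw [mul_div_assoc', hk, div_self (by positivity)]
    calc _ = ((1 - T ^ 2) * ((2 - s ^ 2) / (2 * (1 - s ^ 2))))
          * (K * ((1 + t / 2) * (1 + t)) * (s ^ 2 / (2 * (1 - s ^ 2)))) := by ring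
      _ = _ := by rw [e1, one_mul]
  have hkX2 : 114 / 10 ≤ K * ((1 + t / 2) * (1 + t)) * (s ^ 2 / (2 * (1 - s ^ 2))) := by
    have hg : 1 ≤ (1 + t / 2) * (1 + t) := by nlinarith
    have k1 : 12 * 1 ≤ K * ((1 + t / 2) * (1 + t)) :=
      mul_le_mul P.K1 hg zero_le_one (by linarith [P.K1])
    have k2 : 12 * 1 * (95 / 100) ≤ K * ((1 + t / 2) * (1 + t)) * (s ^ 2 / (2 * (1 - s ^ 2))) :=
      mul_le_mul k1 hZ (by norm_num) (by linarith)
    linarith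
  have hv := P.v hsl hs1.le ht0 ht
  have hp := lin_mid (P.pl hsl hs1.le ht0 ht) (P.ph hsl hs1.le ht0 ht) b1 b2
  have hq := lin_mid (P.ql hsl hs1.le ht0 ht) (P.qh hsl hs1.le ht0 ht) b1 b2
  rw [pA, pB, x3] at hp
  rw [qA, qB, x3] at hq
  rw [x3] at hv
  rw [← hkX] at hkX2
  have hX11 : 10 ≤ K * ((2 - s ^ 2) / (2 * (1 - s ^ 2))) * ((1 + t / 2) * (1 + t))
      * (s ^ 2 / (2 * (1 - s ^ 2))) := by linarith
  clear hkX x2 x3
  generalize K * ((2 - s ^ 2) / (2 * (1 - s ^ 2))) * ((1 + t / 2) * (1 + t))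
      * (s ^ 2 / (2 * (1 - s ^ 2))) = X0 at *
  generalize l * ((1 + t / 2) * (1 + t)) * (s ^ 2 / (2 * (1 - s ^ 2))) = X at *
  have hR0 := h.R0
  have hRu := h.Ru
  have hW := mul_le_mul_of_nonneg_left h.Wl hs0.le
  have e2 : X * ρ ≤ X0 * ρ := mul_le_mul_of_nonneg_right x1 hR0
  have e3 : s * vW s t + ρ - X0 * ρ ≤ s * W + ρ - X * ρ := by linarith
  refine ⟨?_, ?_, ?_⟩
  · have k1 := nonneg_of_mul_nonneg_right hv (by positivity)
    have k2 : (X0 - 1) * ρ ≤ (X0 - 1) * ((1 - s) ^ 2 * uU s t) :=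
      mul_le_mul_of_nonneg_left hRu (by linarith)
    linarith
  · have k1 : 0 ≤ (4 * (1 + s) ^ 2) * (s * vW s t - (X0 - 1) * ((1 - s) ^ 2 * uU s t)
        - (1 + t / 2) * T * (2 * ((1 - s) ^ 2 * uU s t)
          - (1 + T) * (s * (2 - s ^ 2) * vL s t / 2))) := by
      refine hp.trans (le_of_eq ?_)
      linear_combination (-2 * (1 + t / 2) * (1 + s) ^ 2 * s * vL s t) * hTs
    have k2 := nonneg_of_mul_nonneg_right k1 (by positivity)
    have k3 : 0 ≤ X0 - 1 + 2 * ((1 + t / 2) * T) := by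
      have : 0 ≤ (1 + t / 2) * T := by positivity
      linarith
    have k4 := mul_le_mul_of_nonneg_left hRu k3
    have k5 := mul_le_mul_of_nonneg_left h.El
      (by positivity : 0 ≤ (1 + t / 2) * T * ((1 + T) * (s * (2 - s ^ 2) / 2)))
    linarith
  · have k1 : 0 ≤ (2 * (1 + s) * (2 - s ^ 2))
        * ((1 - T ^ 2) * (s * vW s t - (X0 - 1) * ((1 - s) ^ 2 * uU s t))
          - (1 + t / 2) * T * (1 + T)
            * (s * (1 - s ^ 2) * vU s t - 2 * (1 + T) * ((1 - s) ^ 2 * uU s t))) := by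
      have k0 := mul_nonneg h1.le hq
      refine k0.trans (le_of_eq ?_)
      linear_combination (-2 * (1 + s) * (s * vW s t - (X0 - 1) * ((1 - s) ^ 2 * uU s t))) * hk
        + (2 * (1 + s) ^ 2 * (1 - s) * (1 + t / 2) * s * vU s t
          - 4 * (1 + s) * (1 + t / 2) * (1 - s) ^ 2 * uU s t * (2 + T)) * hTs
    have k2 := nonneg_of_mul_nonneg_right k1 (by positivity)
    have k3 : 0 ≤ (1 - T ^ 2) * (X0 - 1) - 2 * ((1 + t / 2) * T * (1 + T)) * (1 + T) := by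
      have a0 : T * (1 + T) ≤ 1 * 2 := mul_le_mul hT1.le (by linarith) (by positivity) zero_le_one
      have a2 : T * (1 + T) * (1 + T) ≤ 1 * 2 * 2 :=
        mul_le_mul a0 (by linarith) (by positivity) (by norm_num)
      have a3 : (1 + t / 2) * (T * (1 + T) * (1 + T)) ≤ (1 + 1 / 17) * (1 * 2 * 2) :=
        mul_le_mul (by linarith) a2 (by positivity) (by norm_num)
      have a4 : 0 ≤ T ^ 2 := sq_nonneg T
      have a5 : (1 - T ^ 2) * (X0 - 1) = (1 - T ^ 2) * X0 - (1 - T ^ 2) := by ring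
      have a6 : 2 * ((1 + t / 2) * T * (1 + T)) * (1 + T)
          = 2 * ((1 + t / 2) * (T * (1 + T) * (1 + T))) := by ring
      rw [a5, a6]
      linarith
    have k4 := mul_le_mul_of_nonneg_left hRu k3
    have k5 := mul_le_mul_of_nonneg_left h.Eu
      (by positivity : 0 ≤ (1 + t / 2) * T * (1 + T) * (s * (1 - s ^ 2)))
    have k6 := mul_le_mul_of_nonneg_left e3 hkp.le
    linarith

end Vale.Agent.P224.R2.H627
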