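import Vale.Agent.P224.R2.H627.DPolDef
import Vale.Agent.P224.R2.H627.Chk

/-!
Polynomial inequalities for the relaxed scalar conditions (generated, checked by the kernel).
-/

namespace Vale.Agent.P224.R2.H627

set_option linter.unusedSimpArgs false

noncomputable def Tlo (s : ℝ) : ℝ :=
  s * (7071 / 10000 + 17677 / 100000 * s ^ 2 + 6629 / 100000 * s ^ 4 + 276 / 10000 * s ^ 6)
noncomputable def Thi (s : ℝ) : ℝ :=
  s * (70711 / 100000 + 17678 / 100000 * s ^ 2 + 66295 / 1000000 * s ^ 4 + 1 / 25 * s ^ 6)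
noncomputable def Tlo3 (s : ℝ) : ℝ :=
  1 - 2 * (1 - s) + 3 * (1 - s) ^ 2 - 6 * (1 - s) ^ 3 + 44 / 5 * (1 - s) ^ 4
noncomputable def Thi3 (s : ℝ) : ℝ :=
  1 - 2 * (1 - s) + 3 * (1 - s) ^ 2 - 6 * (1 - s) ^ 3 + 25 / 2 * (1 - s) ^ 4

noncomputable def rA (l s t : ℝ) : ℝ := (2 - s ^ 2) ^ 2 * dU l s t
  + 4 * (1 + s) * (1 + t / 2) * (s ^ 2 * (2 - s ^ 2)) * ((1 - s) ^ 2 * uU s t)
noncomputable def rB (l s t : ℝ) : ℝ := (2 - s ^ 2) ^ 2 * dU l s t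
  - 4 * (1 + s) * (1 + t / 2) * (2 - s ^ 2) ^ 2 * ((1 - s) ^ 2 * uU s t)
  + 2 * (1 + s) * (1 + t / 2) * (s * (1 - s ^ 2)) * dE s t
noncomputable def rA4 (l s t : ℝ) : ℝ := (2 - s ^ 2) ^ 2 * dV l s t
  + 8 * (1 + s) ^ 2 * (1 + t / 2) * (s ^ 2 * (2 - s ^ 2)) * ((1 - s) ^ 2 * uU s t)
noncomputable def rB4 (l s t : ℝ) : ℝ := (2 - s ^ 2) ^ 2 * dV l s t
  - 8 * (1 + s) ^ 2 * (1 + t / 2) * (2 - s ^ 2) ^ 2 * ((1 - s) ^ 2 * uU s t)
  + 4 * (1 + s) ^ 2 * (1 + t / 2) * (s * (1 - s ^ 2)) * dE s t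
noncomputable def qA (l s t : ℝ) : ℝ := dV l s t
  - 2 * (1 + t / 2) * (1 + s) ^ 2 * s ^ 3 * vU s t
  + 8 * (1 + t / 2) * (1 + s) * (1 - s) * s ^ 2 * uU s t
noncomputable def qB (s t : ℝ) : ℝ := 8 * (1 + t / 2) * (1 + s) * (1 - s) * uU s t
  - 2 * (1 + t / 2) * (1 + s) ^ 2 * s * (2 - s ^ 2) * vU s t
noncomputable def pA (l s t : ℝ) : ℝ := dV l s t
  + 2 * (1 + t / 2) * (1 + s) ^ 2 * s ^ 3 * vL s t
noncomputable def pB (s t : ℝ) : ℝ := 2 * (1 + t / 2) * (1 + s) ^ 2 * s * (2 - s ^ 2) * vL s t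
  - 8 * (1 + t / 2) * (1 + s) ^ 2 * ((1 - s) ^ 2 * uU s t)

lemma Tlo_aux {x : ℝ} (h0 : 0 ≤ x) (h1 : x ≤ 27 / 40) : 0 ≤ 959 / 50000000 + 7071 / 500000000 * x - 8839 / 5000000000 * x ^ 2 + 587777 / 10000000000 *
      x ^ 3 + 21352469 / 625000000 * x ^ 4 + 68336521 / 10000000000 * x ^ 5 + 266961 / 125000000
      * x ^ 6 + 4761 / 6250000 * x ^ 7 := by
  have h := chk_sound 26 [19640320000000, 362035200000, -1131392000, 940443200, 13665580160, 68336521, 533922,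
      4761]
    (by decide +kernel) (40 * x - 0) (by linarith) (by norm_num; linarith)
  have e : ev [19640320000000, 362035200000, -1131392000, 940443200, 13665580160, 68336521, 533922,
      4761] (40 * x - 0)
      = 1024000000000000000 * (959 / 50000000 + 7071 / 500000000 * x - 8839 / 5000000000 * x ^ 2 + 587777 / 10000000000 *
      x ^ 3 + 21352469 / 625000000 * x ^ 4 + 68336521 / 10000000000 * x ^ 5 + 266961 / 125000000
      * x ^ 6 + 4761 / 6250000 * x ^ 7) := by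
    simp only [ev]
    push_cast
    ring
  rw [e] at h
  exact nonneg_of_mul_nonneg_right h (by norm_num)

lemma Thi_aux {x : ℝ} (h0 : 0 ≤ x) (h1 : x ≤ 27 / 40) : 0 ≤ 45521 / 5000000000 + 70711 / 10000000000 * x + 1591 / 200000000 * x ^ 2 + 350092371 /
      10000000000 * x ^ 3 - 858664123 / 20000000000 * x ^ 4 - 317209081 / 40000000000 * x ^ 5 -
      5259 / 2500000 * x ^ 6 - 1 / 625 * x ^ 7 := by
  have h := chk_sound 26 [37290803200000, 724080640000, 20364800000, 2240591174400, -68693129840, -317209081,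
      -2103600, -40000]
    (by decide +kernel) (40 * x - 0) (by linarith) (by norm_num; linarith)
  have e : ev [37290803200000, 724080640000, 20364800000, 2240591174400, -68693129840, -317209081,
      -2103600, -40000] (40 * x - 0)
      = 4096000000000000000 * (45521 / 5000000000 + 70711 / 10000000000 * x + 1591 / 200000000 * x ^ 2 + 350092371 /
      10000000000 * x ^ 3 - 858664123 / 20000000000 * x ^ 4 - 317209081 / 40000000000 * x ^ 5 -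
      5259 / 2500000 * x ^ 6 - 1 / 625 * x ^ 7) := by
    simp only [ev]
    push_cast
    ring
  rw [e] at h
  exact nonneg_of_mul_nonneg_right h (by norm_num)

lemma Tlo3_aux_q {s : ℝ} (h0 : 81 / 100 ≤ s) (h1 : s ≤ 1) : 0 ≤ -(1152 / 25) + 5568 / 25 * s - 10831 / 25 * s ^ 2 + 7724 / 25 * s ^ 3 + 2044 / 25 * s ^ 4
      - 5104 / 25 * s ^ 5 + 1936 / 25 * s ^ 6 := by
  have h := chk_sound 18 [232186599801, 396697735626, 8504684615, 89788220, 266215, 26906, 121]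
    (by decide +kernel) (100 * s - 81) (by linarith) (by norm_num; linarith)
  have e : ev [232186599801, 396697735626, 8504684615, 89788220, 266215, 26906, 121] (100 * s - 81)
      = 1562500000000 * (-(1152 / 25) + 5568 / 25 * s - 10831 / 25 * s ^ 2 + 7724 / 25 * s ^ 3 + 2044 / 25 * s ^ 4
      - 5104 / 25 * s ^ 5 + 1936 / 25 * s ^ 6) := by
    simp only [ev]
    push_cast
    ring
  rw [e] at h
  exact nonneg_of_mul_nonneg_right h (by norm_num)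

lemma Tlo3_aux {s : ℝ} (h0 : 81 / 100 ≤ s) (h1 : s ≤ 1) : 0 ≤ -(1152 / 25) + 10176 / 25 * s - 8003 / 5 * s ^ 2 + 89064 / 25 * s ^ 3 - 117262 / 25 * s ^
      4 + 81956 / 25 * s ^ 5 - 7111 / 25 * s ^ 6 - 7764 / 5 * s ^ 7 + 34076 / 25 * s ^ 8 - 12848
      / 25 * s ^ 9 + 1936 / 25 * s ^ 10 := by
  have h := mul_nonneg (pow_nonneg (by linarith : 0 ≤ 1 - s) 4) (Tlo3_aux_q h0 h1)
  have e : (1 - s) ^ 4 * (-(1152 / 25) + 5568 / 25 * s - 10831 / 25 * s ^ 2 + 7724 / 25 * s ^ 3 + 2044 / 25 * s ^ 4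
      - 5104 / 25 * s ^ 5 + 1936 / 25 * s ^ 6) = -(1152 / 25) + 10176 / 25 * s - 8003 / 5 * s ^ 2 + 89064 / 25 * s ^ 3 - 117262 / 25 * s ^
      4 + 81956 / 25 * s ^ 5 - 7111 / 25 * s ^ 6 - 7764 / 5 * s ^ 7 + 34076 / 25 * s ^ 8 - 12848
      / 25 * s ^ 9 + 1936 / 25 * s ^ 10 := by
    ring
  rw [e] at h
  exact h

lemma Thi3_aux_q {s : ℝ} (h0 : 81 / 100 ≤ s) (h1 : s ≤ 1) : 0 ≤ 289 / 2 - 1003 / 2 * s + 2425 / 4 * s ^ 2 - 131 / 4 * s ^ 3 - 1275 / 4 * s ^ 4 + 625 / 4 *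
      s ^ 5 := by
  have h := chk_sound 18 [2298272981, 47922181, 654418, -2582, 201, 1]
    (by decide +kernel) (100 * s - 81) (by linarith) (by norm_num; linarith)
  have e : ev [2298272981, 47922181, 654418, -2582, 201, 1] (100 * s - 81)
      = 64000000 * (289 / 2 - 1003 / 2 * s + 2425 / 4 * s ^ 2 - 131 / 4 * s ^ 3 - 1275 / 4 * s ^ 4 + 625 / 4 *
      s ^ 5) := by
    simp only [ev]
    push_cast
    ring
  rw [e] at h
  exact nonneg_of_mul_nonneg_right h (by norm_num)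

lemma Thi3_aux {s : ℝ} (h0 : 81 / 100 ≤ s) (h1 : s ≤ 1) : 0 ≤ 289 / 2 - 1224 * s + 18235 / 4 * s ^ 2 - 9524 * s ^ 3 + 11645 * s ^ 4 - 7292 * s ^ 5 - 217
      / 2 * s ^ 6 + 3980 * s ^ 7 - 6247 / 2 * s ^ 8 + 1100 * s ^ 9 - 625 / 4 * s ^ 10 := by
  have h := mul_nonneg (pow_nonneg (by linarith : 0 ≤ 1 - s) 5) (Thi3_aux_q h0 h1)
  have e : (1 - s) ^ 5 * (289 / 2 - 1003 / 2 * s + 2425 / 4 * s ^ 2 - 131 / 4 * s ^ 3 - 1275 / 4 * s ^ 4 + 625 / 4 *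
      s ^ 5) = 289 / 2 - 1224 * s + 18235 / 4 * s ^ 2 - 9524 * s ^ 3 + 11645 * s ^ 4 - 7292 * s ^ 5 - 217
      / 2 * s ^ 6 + 3980 * s ^ 7 - 6247 / 2 * s ^ 8 + 1100 * s ^ 9 - 625 / 4 * s ^ 10 := by
    ring
  rw [e] at h
  exact h

end Vale.Agent.P224.R2.H627
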