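import Vale.Agent.P224.R2.H627.PolE
import Vale.Agent.P224.R2.H627.RDef

/-!
The polynomials of the scalar conditions as expressions (generated).
-/

namespace Vale.Agent.P224.R2.H627.Rf

variable {n : ℤ} {d : ℕ} {x y : ℝ}

def eTu : PolE :=
  .mul .s (.add (.add (.c 70711 100000) (.mul (.c 17678 100000) (PolE.pow .s 2))) (.mul (.c 1162
    10000) (PolE.pow .s 4)))

lemma eval_Tu : (eTu).eval x y = Tu x := by
  simp only [eTu, Tu, PolE.eval, PolE.eval_pow]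
  push_cast
  ring

def eQ1 : PolE :=
  .mul (.c 1 3) (.add (.c 2 1) .s)

lemma eval_Q1 : (eQ1).eval x y = Q1 x := by
  simp only [eQ1, Q1, PolE.eval, PolE.eval_pow]
  push_cast
  ring

def eQ2 : PolE :=
  .mul (.c 1 15) (.mul (.add (.c 1 1) (.mul (.c (-1) 1) .s)) (.add (.add (.c 8 1) (.mul (.c 9 1)
    .s)) (.mul (.c 3 1) (PolE.pow .s 2))))

lemma eval_Q2 : (eQ2).eval x y = Q2 x := by
  simp only [eQ2, Q2, PolE.eval, PolE.eval_pow]
  push_cast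
  ring

def eQ4 : PolE :=
  .add (.add (.add (.add (.add (.add (.add (.c 128 315) (.mul (.c (-59) 315) .s)) (.mul (.c (-82)
    105) (PolE.pow .s 2))) (.mul (.c (-13) 315) (PolE.pow .s 3))) (.mul (.c 44 63) (PolE.pow .s 4)))
    (.mul (.c 5 21) (PolE.pow .s 5))) (.mul (.c (-2) 9) (PolE.pow .s 6))) (.mul (.c (-1) 9) (PolE.pow .s
    7))

lemma eval_Q4 : (eQ4).eval x y = Q4 x := by
  simp only [eQ4, Q4, PolE.eval, PolE.eval_pow]
  push_cast
  ring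

def eQ3 : PolE :=
  .add (.add (.add (.add (.add (.c 16 35) (.mul (.c (-3) 35) .s)) (.mul (.c (-22) 35) (PolE.pow .s
    2))) (.mul (.c (-6) 35) (PolE.pow .s 3))) (.mul (.c 2 7) (PolE.pow .s 4))) (.mul (.c 1 7) (PolE.pow
    .s 5))

lemma eval_Q3 : (eQ3).eval x y = Q3 x := by
  simp only [eQ3, Q3, PolE.eval, PolE.eval_pow]
  push_cast
  ring

def eQ5 : PolE :=
  .add (.add (.add (.add (.add (.add (.add (.add (.add (.c 256 693) (.mul (.c (-181) 693) .s)) (.mul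
    (.c (-206) 231) (PolE.pow .s 2))) (.mul (.c 100 693) (PolE.pow .s 3))) (.mul (.c 818 693) (PolE.pow
    .s 4))) (.mul (.c 50 231) (PolE.pow .s 5))) (.mul (.c (-74) 99) (PolE.pow .s 6))) (.mul (.c (-28)
    99) (PolE.pow .s 7))) (.mul (.c 2 11) (PolE.pow .s 8))) (.mul (.c 1 11) (PolE.pow .s 9))

lemma eval_Q5 : (eQ5).eval x y = Q5 x := by
  simp only [eQ5, Q5, PolE.eval, PolE.eval_pow]
  push_cast
  ring

def eQ6 : PolE :=
  .add (.add (.add (.add (.add (.add (.add (.add (.add (.add (.add (.c 1024 3003) (.mul (.c (-955)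
    3003) .s)) (.mul (.c (-978) 1001) (PolE.pow .s 2))) (.mul (.c 1093 3003) (PolE.pow .s 3))) (.mul
    (.c 5120 3003) (PolE.pow .s 4))) (.mul (.c 46 1001) (PolE.pow .s 5))) (.mul (.c (-692) 429)
    (PolE.pow .s 6))) (.mul (.c (-178) 429) (PolE.pow .s 7))) (.mul (.c 112 143) (PolE.pow .s 8))) (.mul
    (.c 45 143) (PolE.pow .s 9))) (.mul (.c (-2) 13) (PolE.pow .s 10))) (.mul (.c (-1) 13) (PolE.pow .s
    11))

lemma eval_Q6 : (eQ6).eval x y = Q6 x := by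
  simp only [eQ6, Q6, PolE.eval, PolE.eval_pow]
  push_cast
  ring

def evW : PolE :=
  .add (.add (.add (.add (.add (.c 1 1) (.mul (.c 1 8) .t)) (.mul (.c (-39) 64) (PolE.pow .t 2)))
    (.mul (.add (.mul (.c 3 8) .t) (.mul (.c (-69) 200) (PolE.pow .t 2))) (PolE.pow (.add (.c 1 1)
    (.mul (.c (-1) 1) (PolE.pow .s 2))) 2))) (.mul (.mul (.c 131 200) (PolE.pow .t 2)) (PolE.pow (.add
    (.c 1 1) (.mul (.c (-1) 1) (PolE.pow .s 2))) 4))) (.mul (.mul (.c 11 100) (PolE.pow .t 2)) (PolE.pow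
    (.add (.c 1 1) (.mul (.c (-1) 1) (PolE.pow .s 2))) 6))

lemma eval_vW : (evW).eval x y = vW x y := by
  simp only [evW, vW, PolE.eval, PolE.eval_pow]
  push_cast
  ring

def evU : PolE :=
  .add (.add (.add (.add (.mul (.add (.add (.c 1 1) (.mul (.c (-7) 8) .t)) (.mul (.c 18 5) (PolE.pow
    .t 2))) (.add (.c 1 1) (.mul (.c (-1) 1) (PolE.pow .s 2)))) (.mul (.add (.mul (.c (-1) 1) (.mul
    (.c 2 1) .t)) (.mul (.c (-1639) 100) (PolE.pow .t 2))) (PolE.pow (.add (.c 1 1) (.mul (.c (-1) 1)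
    (PolE.pow .s 2))) 2))) (.mul (.add (.mul (.c 35 8) .t) (.mul (.c 6331 100) (PolE.pow .t 2)))
    (PolE.pow (.add (.c 1 1) (.mul (.c (-1) 1) (PolE.pow .s 2))) 3))) (.mul (.mul (.c (-1) 1) (.mul
    (.c 6089 50) (PolE.pow .t 2))) (PolE.pow (.add (.c 1 1) (.mul (.c (-1) 1) (PolE.pow .s 2))) 4)))
    (.mul (.mul (.c 7417 100) (PolE.pow .t 2)) (PolE.pow (.add (.c 1 1) (.mul (.c (-1) 1) (PolE.pow .s
    2))) 5))

lemma eval_vU : (evU).eval x y = vU x y := by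
  simp only [evU, vU, PolE.eval, PolE.eval_pow]
  push_cast
  ring

def evL : PolE :=
  .add (.add (.add (.add (.add (.mul (.add (.add (.c 1 1) (.mul (.c (-7) 8) .t)) (.mul (.c (-21) 5)
    (PolE.pow .t 2))) (.add (.c 1 1) (.mul (.c (-1) 1) (PolE.pow .s 2)))) (.mul (.add (.mul (.c (-1)
    1) (.mul (.c 2 1) .t)) (.mul (.c 2867 50) (PolE.pow .t 2))) (PolE.pow (.add (.c 1 1) (.mul (.c
    (-1) 1) (PolE.pow .s 2))) 2))) (.mul (.add (.mul (.c 35 8) .t) (.mul (.c (-25269) 100) (PolE.pow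
    .t 2))) (PolE.pow (.add (.c 1 1) (.mul (.c (-1) 1) (PolE.pow .s 2))) 3))) (.mul (.mul (.c 9783 20)
    (PolE.pow .t 2)) (PolE.pow (.add (.c 1 1) (.mul (.c (-1) 1) (PolE.pow .s 2))) 4))) (.mul (.mul (.c
    (-1) 1) (.mul (.c 23651 50) (PolE.pow .t 2))) (PolE.pow (.add (.c 1 1) (.mul (.c (-1) 1) (PolE.pow
    .s 2))) 5))) (.mul (.mul (.c 9243 50) (PolE.pow .t 2)) (PolE.pow (.add (.c 1 1) (.mul (.c (-1) 1)
    (PolE.pow .s 2))) 6))

lemma eval_vL : (evL).eval x y = vL x y := by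
  simp only [evL, vL, PolE.eval, PolE.eval_pow]
  push_cast
  ring

def euU : PolE :=
  .add (.add (.add (.add (.mul (.add (.add (.c 1 1) (.mul (.c (-7) 8) .t)) (.mul (.c 18 5) (PolE.pow
    .t 2))) eQ1) (.mul (.add (.mul (.c (-1) 1) (.mul (.c 2 1) .t)) (.mul (.c (-1639) 100) (PolE.pow
    .t 2))) eQ2)) (.mul (.add (.mul (.c 35 8) .t) (.mul (.c 6331 100) (PolE.pow .t 2))) eQ3)) (.mul
    (.mul (.c (-1) 1) (.mul (.c 6089 50) (PolE.pow .t 2))) eQ4)) (.mul (.mul (.c 7417 100) (PolE.pow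
    .t 2)) eQ5)

lemma eval_uU : (euU).eval x y = uU x y := by
  simp only [euU, uU, PolE.eval, PolE.eval_pow, eval_Q1, eval_Q2, eval_Q3, eval_Q4, eval_Q5]
  push_cast
  ring

def euL : PolE :=
  .add (.add (.add (.add (.add (.mul (.add (.add (.c 1 1) (.mul (.c (-7) 8) .t)) (.mul (.c (-21) 5)
    (PolE.pow .t 2))) eQ1) (.mul (.add (.mul (.c (-1) 1) (.mul (.c 2 1) .t)) (.mul (.c 2867 50)
    (PolE.pow .t 2))) eQ2)) (.mul (.add (.mul (.c 35 8) .t) (.mul (.c (-25269) 100) (PolE.pow .t 2)))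
    eQ3)) (.mul (.mul (.c 9783 20) (PolE.pow .t 2)) eQ4)) (.mul (.mul (.c (-1) 1) (.mul (.c 23651
    50) (PolE.pow .t 2))) eQ5)) (.mul (.mul (.c 9243 50) (PolE.pow .t 2)) eQ6)

lemma eval_uL : (euL).eval x y = uL x y := by
  simp only [euL, uL, PolE.eval, PolE.eval_pow, eval_Q1, eval_Q2, eval_Q3, eval_Q4, eval_Q5, eval_Q6]
  push_cast
  ring

def edU (n : ℤ) (d : ℕ) : PolE :=
  .add (.mul (.mul (.c 2 1) (.add (.c 1 1) .s)) (.add (.mul .s evW) (.mul (PolE.pow (.add (.c 1 1)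
    (.mul (.c (-1) 1) .s)) 2) euU))) (.mul (.c (-1) 1) (.mul (.mul (.mul (.mul (.c n d) (.mul
    (.add (.c 1 1) (.mul (.c 1 2) .t)) (.add (.c 1 1) .t))) (PolE.pow .s 2)) (.add (.c 1 1) (.mul
    (.c (-1) 1) .s))) euU))

lemma eval_dU : (edU n d).eval x y = dU (n / d) x y := by
  simp only [edU, dU, PolE.eval, PolE.eval_pow, eval_uU, eval_vW]
  push_cast
  ring

def edE : PolE :=
  .add (.mul evL (PolE.pow (.add (.c 2 1) (.mul (.c (-1) 1) (PolE.pow .s 2))) 2)) (.mul (.c (-1) 1)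
    (.mul (.mul (.c 31 10) (PolE.pow .s 4)) evU))

lemma eval_dE : (edE).eval x y = dE x y := by
  simp only [edE, dE, PolE.eval, PolE.eval_pow, eval_vL, eval_vU]
  push_cast
  ring

def edA (n : ℤ) (d : ℕ) : PolE :=
  .add (.mul (PolE.pow (.add (.c 2 1) (.mul (.c (-1) 1) (PolE.pow .s 2))) 2) (edU n d)) (.mul (.mul
    (.add (.c 1 1) .s) (.add (.c 1 1) (.mul (.c 1 2) (.mul (.c 3 1) .t)))) (.mul (PolE.pow .s 3)
    edE))

lemma eval_dA : (edA n d).eval x y = dA (n / d) x y := by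
  simp only [edA, dA, PolE.eval, PolE.eval_pow, eval_dE, eval_dU]
  push_cast
  ring

def edB : PolE :=
  .mul (.mul (.add (.c 1 1) .s) (.add (.c 1 1) (.mul (.c 1 2) (.mul (.c 3 1) .t)))) (.add (.mul
    (.mul (.add (.c 2 1) (.mul (.c (-1) 1) (PolE.pow .s 2))) .s) edE) (.mul (.c (-1) 1) (.mul (.mul
    (.c 4 1) (PolE.pow (.add (.c 2 1) (.mul (.c (-1) 1) (PolE.pow .s 2))) 2)) (.mul (PolE.pow (.add (.c
    1 1) (.mul (.c (-1) 1) .s)) 2) euU))))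

lemma eval_dB : (edB).eval x y = dB x y := by
  simp only [edB, dB, PolE.eval, PolE.eval_pow, eval_dE, eval_uU]
  push_cast
  ring

def edV (n : ℤ) (d : ℕ) : PolE :=
  .add (.mul (.mul (.c 4 1) (PolE.pow (.add (.c 1 1) .s) 2)) (.add (.mul .s evW) (.mul (PolE.pow (.add
    (.c 1 1) (.mul (.c (-1) 1) .s)) 2) euU))) (.mul (.c (-1) 1) (.mul (.mul (.mul (.mul (.c n d)
    (.mul (.add (.c 1 1) (.mul (.c 1 2) .t)) (.add (.c 1 1) .t))) (PolE.pow .s 2)) (.add (.c 2 1)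
    (.mul (.c (-1) 1) (PolE.pow .s 2)))) euU))

lemma eval_dV : (edV n d).eval x y = dV (n / d) x y := by
  simp only [edV, dV, PolE.eval, PolE.eval_pow, eval_uU, eval_vW]
  push_cast
  ring

def edA4 (n : ℤ) (d : ℕ) : PolE :=
  .add (.mul (PolE.pow (.add (.c 2 1) (.mul (.c (-1) 1) (PolE.pow .s 2))) 2) (edV n d)) (.mul (.mul
    (.mul (.c 2 1) (PolE.pow (.add (.c 1 1) .s) 2)) (.add (.c 1 1) (.mul (.c 1 2) (.mul (.c 3 1)
    .t)))) (.mul (PolE.pow .s 3) edE))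

lemma eval_dA4 : (edA4 n d).eval x y = dA4 (n / d) x y := by
  simp only [edA4, dA4, PolE.eval, PolE.eval_pow, eval_dE, eval_dV]
  push_cast
  ring

def edB4 : PolE :=
  .mul (.mul (.mul (.c 2 1) (PolE.pow (.add (.c 1 1) .s) 2)) (.add (.c 1 1) (.mul (.c 1 2) (.mul (.c 3
    1) .t)))) (.add (.mul (.mul (.add (.c 2 1) (.mul (.c (-1) 1) (PolE.pow .s 2))) .s) edE) (.mul
    (.c (-1) 1) (.mul (.mul (.c 4 1) (PolE.pow (.add (.c 2 1) (.mul (.c (-1) 1) (PolE.pow .s 2))) 2))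
    (.mul (PolE.pow (.add (.c 1 1) (.mul (.c (-1) 1) .s)) 2) euU))))

lemma eval_dB4 : (edB4).eval x y = dB4 x y := by
  simp only [edB4, dB4, PolE.eval, PolE.eval_pow, eval_dE, eval_uU]
  push_cast
  ring

def edF1 : PolE :=
  .add (.mul (.mul (.c 2 1) (.mul (PolE.pow (.add (.c 1 1) (.mul (.c (-1) 1) .s)) 2) euL)) (PolE.pow
    (.add (.c 2 1) (.mul (.c (-1) 1) (PolE.pow .s 2))) 2)) (.mul (.c (-1) 1) (.mul (.add (PolE.pow
    (.add (.c 2 1) (.mul (.c (-1) 1) (PolE.pow .s 2))) 2) (.mul (.c (-31) 20) (PolE.pow .s 4))) (.mul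
    (.mul .s (.add (.c 1 1) (.mul (.c (-1) 1) (PolE.pow .s 2)))) evU)))

lemma eval_dF1 : (edF1).eval x y = dF1 x y := by
  simp only [edF1, dF1, PolE.eval, PolE.eval_pow, eval_uL, eval_vU]
  push_cast
  ring

def edF2 : PolE :=
  .add (.mul (.mul (.c 2 1) (.mul (PolE.pow (.add (.c 1 1) (.mul (.c (-1) 1) .s)) 2) euL)) (PolE.pow
    (.add (.c 2 1) (.mul (.c (-1) 1) (PolE.pow .s 2))) 2)) (.mul (.c (-1) 1) (.mul (.mul .s (.add
    (.c 1 1) (.mul (.c (-1) 1) (PolE.pow .s 2)))) (.add (.mul (PolE.pow (.add (.c 2 1) (.mul (.c (-1)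
    1) (PolE.pow .s 2))) 2) evU) (.mul (.c (-1) 1) (.mul (.mul (.c 31 20) (PolE.pow .s 4)) evL)))))

lemma eval_dF2 : (edF2).eval x y = dF2 x y := by
  simp only [edF2, dF2, PolE.eval, PolE.eval_pow, eval_uL, eval_vL, eval_vU]
  push_cast
  ring

def eTlo : PolE :=
  .mul .s (.add (.add (.add (.c 7071 10000) (.mul (.c 17677 100000) (PolE.pow .s 2))) (.mul (.c 6629
    100000) (PolE.pow .s 4))) (.mul (.c 276 10000) (PolE.pow .s 6)))

lemma eval_Tlo : (eTlo).eval x y = Tlo x := by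
  simp only [eTlo, Tlo, PolE.eval, PolE.eval_pow]
  push_cast
  ring

def eThi : PolE :=
  .mul .s (.add (.add (.add (.c 70711 100000) (.mul (.c 17678 100000) (PolE.pow .s 2))) (.mul (.c
    66295 1000000) (PolE.pow .s 4))) (.mul (.c 1 25) (PolE.pow .s 6)))

lemma eval_Thi : (eThi).eval x y = Thi x := by
  simp only [eThi, Thi, PolE.eval, PolE.eval_pow]
  push_cast
  ring

def eTlo3 : PolE :=
  .add (.add (.add (.add (.c 1 1) (.mul (.c (-2) 1) (.add (.c 1 1) (.mul (.c (-1) 1) .s)))) (.mul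
    (.c 3 1) (PolE.pow (.add (.c 1 1) (.mul (.c (-1) 1) .s)) 2))) (.mul (.c (-6) 1) (PolE.pow (.add
    (.c 1 1) (.mul (.c (-1) 1) .s)) 3))) (.mul (.c 44 5) (PolE.pow (.add (.c 1 1) (.mul (.c (-1) 1)
    .s)) 4))

lemma eval_Tlo3 : (eTlo3).eval x y = Tlo3 x := by
  simp only [eTlo3, Tlo3, PolE.eval, PolE.eval_pow]
  push_cast
  ring

def eThi3 : PolE :=
  .add (.add (.add (.add (.c 1 1) (.mul (.c (-2) 1) (.add (.c 1 1) (.mul (.c (-1) 1) .s)))) (.mul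
    (.c 3 1) (PolE.pow (.add (.c 1 1) (.mul (.c (-1) 1) .s)) 2))) (.mul (.c (-6) 1) (PolE.pow (.add
    (.c 1 1) (.mul (.c (-1) 1) .s)) 3))) (.mul (.c 25 2) (PolE.pow (.add (.c 1 1) (.mul (.c (-1) 1)
    .s)) 4))

lemma eval_Thi3 : (eThi3).eval x y = Thi3 x := by
  simp only [eThi3, Thi3, PolE.eval, PolE.eval_pow]
  push_cast
  ring

def erA (n : ℤ) (d : ℕ) : PolE :=
  .add (.mul (PolE.pow (.add (.c 2 1) (.mul (.c (-1) 1) (PolE.pow .s 2))) 2) (edU n d)) (.mul (.mul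
    (.mul (.mul (.c 4 1) (.add (.c 1 1) .s)) (.add (.c 1 1) (.mul (.c 1 2) .t))) (.mul (PolE.pow .s
    2) (.add (.c 2 1) (.mul (.c (-1) 1) (PolE.pow .s 2))))) (.mul (PolE.pow (.add (.c 1 1) (.mul (.c
    (-1) 1) .s)) 2) euU))

lemma eval_rA : (erA n d).eval x y = rA (n / d) x y := by
  simp only [erA, rA, PolE.eval, PolE.eval_pow, eval_dU, eval_uU]
  push_cast
  ring

def erB (n : ℤ) (d : ℕ) : PolE :=
  .add (.add (.mul (PolE.pow (.add (.c 2 1) (.mul (.c (-1) 1) (PolE.pow .s 2))) 2) (edU n d)) (.mul (.c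
    (-1) 1) (.mul (.mul (.mul (.mul (.c 4 1) (.add (.c 1 1) .s)) (.add (.c 1 1) (.mul (.c 1 2)
    .t))) (PolE.pow (.add (.c 2 1) (.mul (.c (-1) 1) (PolE.pow .s 2))) 2)) (.mul (PolE.pow (.add (.c 1
    1) (.mul (.c (-1) 1) .s)) 2) euU)))) (.mul (.mul (.mul (.mul (.c 2 1) (.add (.c 1 1) .s))
    (.add (.c 1 1) (.mul (.c 1 2) .t))) (.mul .s (.add (.c 1 1) (.mul (.c (-1) 1) (PolE.pow .s
    2))))) edE)

lemma eval_rB : (erB n d).eval x y = rB (n / d) x y := by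
  simp only [erB, rB, PolE.eval, PolE.eval_pow, eval_dE, eval_dU, eval_uU]
  push_cast
  ring

def erA4 (n : ℤ) (d : ℕ) : PolE :=
  .add (.mul (PolE.pow (.add (.c 2 1) (.mul (.c (-1) 1) (PolE.pow .s 2))) 2) (edV n d)) (.mul (.mul
    (.mul (.mul (.c 8 1) (PolE.pow (.add (.c 1 1) .s) 2)) (.add (.c 1 1) (.mul (.c 1 2) .t))) (.mul
    (PolE.pow .s 2) (.add (.c 2 1) (.mul (.c (-1) 1) (PolE.pow .s 2))))) (.mul (PolE.pow (.add (.c 1 1)
    (.mul (.c (-1) 1) .s)) 2) euU))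

lemma eval_rA4 : (erA4 n d).eval x y = rA4 (n / d) x y := by
  simp only [erA4, rA4, PolE.eval, PolE.eval_pow, eval_dV, eval_uU]
  push_cast
  ring

def erB4 (n : ℤ) (d : ℕ) : PolE :=
  .add (.add (.mul (PolE.pow (.add (.c 2 1) (.mul (.c (-1) 1) (PolE.pow .s 2))) 2) (edV n d)) (.mul (.c
    (-1) 1) (.mul (.mul (.mul (.mul (.c 8 1) (PolE.pow (.add (.c 1 1) .s) 2)) (.add (.c 1 1) (.mul
    (.c 1 2) .t))) (PolE.pow (.add (.c 2 1) (.mul (.c (-1) 1) (PolE.pow .s 2))) 2)) (.mul (PolE.pow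
    (.add (.c 1 1) (.mul (.c (-1) 1) .s)) 2) euU)))) (.mul (.mul (.mul (.mul (.c 4 1) (PolE.pow
    (.add (.c 1 1) .s) 2)) (.add (.c 1 1) (.mul (.c 1 2) .t))) (.mul .s (.add (.c 1 1) (.mul (.c
    (-1) 1) (PolE.pow .s 2))))) edE)

lemma eval_rB4 : (erB4 n d).eval x y = rB4 (n / d) x y := by
  simp only [erB4, rB4, PolE.eval, PolE.eval_pow, eval_dE, eval_dV, eval_uU]
  push_cast
  ring

def eqA (n : ℤ) (d : ℕ) : PolE :=
  .add (.add (edV n d) (.mul (.c (-1) 1) (.mul (.mul (.mul (.mul (.c 2 1) (.add (.c 1 1) (.mul (.c 1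
    2) .t))) (PolE.pow (.add (.c 1 1) .s) 2)) (PolE.pow .s 3)) evU))) (.mul (.mul (.mul (.mul (.mul
    (.c 8 1) (.add (.c 1 1) (.mul (.c 1 2) .t))) (.add (.c 1 1) .s)) (.add (.c 1 1) (.mul (.c (-1)
    1) .s))) (PolE.pow .s 2)) euU)

lemma eval_qA : (eqA n d).eval x y = qA (n / d) x y := by
  simp only [eqA, qA, PolE.eval, PolE.eval_pow, eval_dV, eval_uU, eval_vU]
  push_cast
  ring

def eqB : PolE :=
  .add (.mul (.mul (.mul (.mul (.c 8 1) (.add (.c 1 1) (.mul (.c 1 2) .t))) (.add (.c 1 1) .s))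
    (.add (.c 1 1) (.mul (.c (-1) 1) .s))) euU) (.mul (.c (-1) 1) (.mul (.mul (.mul (.mul (.mul
    (.c 2 1) (.add (.c 1 1) (.mul (.c 1 2) .t))) (PolE.pow (.add (.c 1 1) .s) 2)) .s) (.add (.c 2 1)
    (.mul (.c (-1) 1) (PolE.pow .s 2)))) evU))

lemma eval_qB : (eqB).eval x y = qB x y := by
  simp only [eqB, qB, PolE.eval, PolE.eval_pow, eval_uU, eval_vU]
  push_cast
  ring

def epA (n : ℤ) (d : ℕ) : PolE :=
  .add (edV n d) (.mul (.mul (.mul (.mul (.c 2 1) (.add (.c 1 1) (.mul (.c 1 2) .t))) (PolE.pow (.add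
    (.c 1 1) .s) 2)) (PolE.pow .s 3)) evL)

lemma eval_pA : (epA n d).eval x y = pA (n / d) x y := by
  simp only [epA, pA, PolE.eval, PolE.eval_pow, eval_dV, eval_vL]
  push_cast
  ring

def epB : PolE :=
  .add (.mul (.mul (.mul (.mul (.mul (.c 2 1) (.add (.c 1 1) (.mul (.c 1 2) .t))) (PolE.pow (.add (.c
    1 1) .s) 2)) .s) (.add (.c 2 1) (.mul (.c (-1) 1) (PolE.pow .s 2)))) evL) (.mul (.c (-1) 1)
    (.mul (.mul (.mul (.c 8 1) (.add (.c 1 1) (.mul (.c 1 2) .t))) (PolE.pow (.add (.c 1 1) .s) 2))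
    (.mul (PolE.pow (.add (.c 1 1) (.mul (.c (-1) 1) .s)) 2) euU)))

lemma eval_pB : (epB).eval x y = pB x y := by
  simp only [epB, pB, PolE.eval, PolE.eval_pow, eval_uU, eval_vL]
  push_cast
  ring

end Vale.Agent.P224.R2.H627.Rf
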