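import Vale.Agent.P224.R2.H627.Chk

/-!
Polynomial inequalities for the sharp bounds of the weights (generated, checked by the kernel).
-/

namespace Vale.Agent.P224.R2.H627

lemma shPm_0 {s : ℝ} (h0 : 0 ≤ s) (h1 : s ≤ 1) : 0 ≤ 27 / 800 + 63 / 100 * s ^ 2 - 33 / 50 * s ^ 4 := by
  have h := chk_sound 9 [5625, 0, 1050, 0, -11]
    (by decide +kernel) (10 * s - 0) (by linarith) (by norm_num; linarith)
  have e : ev [5625, 0, 1050, 0, -11] (10 * s - 0)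
      = 500000 / 3 * (27 / 800 + 63 / 100 * s ^ 2 - 33 / 50 * s ^ 4) := by
    simp only [ev]
    push_cast
    ring
  rw [e] at h
  exact nonneg_of_mul_nonneg_right h (by norm_num)

lemma shPm_1 {s : ℝ} (h0 : 0 ≤ s) (h1 : s ≤ 1) : 0 ≤ 5727 / 54400 - 1053 / 1700 * s ^ 2 + 681 / 850 * s ^ 4 + 264 / 425 * s ^ 6 := by
  have h := chk_sound 19 [119312500, 0, -1755000, 0, 5675, 0, 11]
    (by decide +kernel) (20 * s - 0) (by linarith) (by norm_num; linarith)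
  have e : ev [119312500, 0, -1755000, 0, 5675, 0, 11] (20 * s - 0)
      = 3400000000 / 3 * (5727 / 54400 - 1053 / 1700 * s ^ 2 + 681 / 850 * s ^ 4 + 264 / 425 * s ^ 6) := by
    simp only [ev]
    push_cast
    ring
  rw [e] at h
  exact nonneg_of_mul_nonneg_right h (by norm_num)

lemma shPm_nonneg {s t : ℝ} (h0 : 0 ≤ s) (h1 : s ≤ 1) (ht : 0 ≤ t) (ht1 : t ≤ 2 / 17) :
    0 ≤ (27 / 800 + 63 / 100 * s ^ 2 - 33 / 50 * s ^ 4) + t ^ 1 * (3891 / 6400 - 531 / 50 * s ^ 2 + 621 / 50 * s ^ 4 + 132 / 25 * s ^ 6) := by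
  have g : 0 ≤ 1 - 17 / 2 * t := by linarith
  have k0 := mul_nonneg (mul_nonneg (mul_nonneg (by norm_num : (0 : ℝ) ≤ 1) (pow_nonneg (by linarith : 0 ≤ 17 / 2 * t) 0)) (pow_nonneg g 1)) (shPm_0 h0 h1)
  have k1 := mul_nonneg (mul_nonneg (mul_nonneg (by norm_num : (0 : ℝ) ≤ 1) (pow_nonneg (by linarith : 0 ≤ 17 / 2 * t) 1)) (pow_nonneg g 0)) (shPm_1 h0 h1)
  have e : (27 / 800 + 63 / 100 * s ^ 2 - 33 / 50 * s ^ 4) + t ^ 1 * (3891 / 6400 - 531 / 50 * s ^ 2 + 621 / 50 * s ^ 4 + 132 / 25 * s ^ 6) = 1 * (17 / 2 * t) ^ 0 * (1 - 17 / 2 * t) ^ 1 * (27 / 800 + 63 / 100 * s ^ 2 - 33 / 50 * s ^ 4) + 1 * (17 / 2 * t) ^ 1 * (1 - 17 / 2 * t) ^ 0 * (5727 / 54400 - 1053 / 1700 * s ^ 2 + 681 / 850 * s ^ 4 + 264 / 425 * s ^ 6) := by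
    ring
  rw [e]
  linarith

lemma shPp_0 {s : ℝ} (h0 : 0 ≤ s) (h1 : s ≤ 1) : 0 ≤ 341 / 800 - 1937 / 800 * s ^ 2 + 88 / 25 * s ^ 4 := by
  have h := chk_sound 24 [133203125, 0, -1210625, 0, 2816]
    (by decide +kernel) (25 * s - 0) (by linarith) (by norm_num; linarith)
  have e : ev [133203125, 0, -1210625, 0, 2816] (25 * s - 0)
      = 312500000 * (341 / 800 - 1937 / 800 * s ^ 2 + 88 / 25 * s ^ 4) := by
    simp only [ev]
    push_cast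
    ring
  rw [e] at h
  exact nonneg_of_mul_nonneg_right h (by norm_num)

lemma shPp_1 {s : ℝ} (h0 : 0 ≤ s) (h1 : s ≤ 1) : 0 ≤ 1113 / 2720 - 14961 / 6800 * s ^ 2 + 57431 / 13600 * s ^ 4 - 11297 / 6800 * s ^ 6 := by
  have h := chk_sound 9 [2782500000, 0, -149610000, 0, 2871550, 0, -11297]
    (by decide +kernel) (10 * s - 0) (by linarith) (by norm_num; linarith)
  have e : ev [2782500000, 0, -149610000, 0, 2871550, 0, -11297] (10 * s - 0)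
      = 6800000000 * (1113 / 2720 - 14961 / 6800 * s ^ 2 + 57431 / 13600 * s ^ 4 - 11297 / 6800 * s ^ 6) := by
    simp only [ev]
    push_cast
    ring
  rw [e] at h
  exact nonneg_of_mul_nonneg_right h (by norm_num)

lemma shPp_2 {s : ℝ} (h0 : 0 ≤ s) (h1 : s ≤ 1) : 0 ≤ 309 / 800 - 5383 / 2720 * s ^ 2 + 6699 / 1360 * s ^ 4 - 11297 / 3400 * s ^ 6 := by
  have h := chk_sound 9 [1313250000, 0, -67287500, 0, 1674750, 0, -11297]
    (by decide +kernel) (10 * s - 0) (by linarith) (by norm_num; linarith)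
  have e : ev [1313250000, 0, -67287500, 0, 1674750, 0, -11297] (10 * s - 0)
      = 3400000000 * (309 / 800 - 5383 / 2720 * s ^ 2 + 6699 / 1360 * s ^ 4 - 11297 / 3400 * s ^ 6) := by
    simp only [ev]
    push_cast
    ring
  rw [e] at h
  exact nonneg_of_mul_nonneg_right h (by norm_num)

lemma shPp_nonneg {s t : ℝ} (h0 : 0 ≤ s) (h1 : s ≤ 1) (ht : 0 ≤ t) (ht1 : t ≤ 2 / 17) :
    0 ≤ (341 / 800 - 1937 / 800 * s ^ 2 + 88 / 25 * s ^ 4) + t ^ 1 * (-(29 / 100) + 3007 / 800 * s ^ 2 + 9559 / 800 * s ^ 4 - 11297 / 400 * s ^ 6) + t ^ 2 * (-(17 / 40)) := by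
  have g : 0 ≤ 1 - 17 / 2 * t := by linarith
  have k0 := mul_nonneg (mul_nonneg (mul_nonneg (by norm_num : (0 : ℝ) ≤ 1) (pow_nonneg (by linarith : 0 ≤ 17 / 2 * t) 0)) (pow_nonneg g 2)) (shPp_0 h0 h1)
  have k1 := mul_nonneg (mul_nonneg (mul_nonneg (by norm_num : (0 : ℝ) ≤ 2) (pow_nonneg (by linarith : 0 ≤ 17 / 2 * t) 1)) (pow_nonneg g 1)) (shPp_1 h0 h1)
  have k2 := mul_nonneg (mul_nonneg (mul_nonneg (by norm_num : (0 : ℝ) ≤ 1) (pow_nonneg (by linarith : 0 ≤ 17 / 2 * t) 2)) (pow_nonneg g 0)) (shPp_2 h0 h1)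
  have e : (341 / 800 - 1937 / 800 * s ^ 2 + 88 / 25 * s ^ 4) + t ^ 1 * (-(29 / 100) + 3007 / 800 * s ^ 2 + 9559 / 800 * s ^ 4 - 11297 / 400 * s ^ 6) + t ^ 2 * (-(17 / 40)) = 1 * (17 / 2 * t) ^ 0 * (1 - 17 / 2 * t) ^ 2 * (341 / 800 - 1937 / 800 * s ^ 2 + 88 / 25 * s ^ 4) + 2 * (17 / 2 * t) ^ 1 * (1 - 17 / 2 * t) ^ 1 * (1113 / 2720 - 14961 / 6800 * s ^ 2 + 57431 / 13600 * s ^ 4 - 11297 / 6800 * s ^ 6) + 1 * (17 / 2 * t) ^ 2 * (1 - 17 / 2 * t) ^ 0 * (309 / 800 - 5383 / 2720 * s ^ 2 + 6699 / 1360 * s ^ 4 - 11297 / 3400 * s ^ 6) := by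
    ring
  rw [e]
  linarith

lemma shEp_0 {s : ℝ} (h0 : 0 ≤ s) (h1 : s ≤ 1) : 0 ≤ 419 / 200 - 8883 / 400 * s + 31739 / 400 * s ^ 2 - 42941 / 400 * s ^ 3 + 3887 / 80 * s ^ 4
      + 33 / 25 * s ^ 5 - 143 / 100 * s ^ 6 := by
  have h := chk_sound 39 [858112000000, -227404800000, 20312960000, -687056000, 7774000, 5280, -143]
    (by decide +kernel) (40 * s - 0) (by linarith) (by norm_num; linarith)
  have e : ev [858112000000, -227404800000, 20312960000, -687056000, 7774000, 5280, -143] (40 * s - 0)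
      = 409600000000 * (419 / 200 - 8883 / 400 * s + 31739 / 400 * s ^ 2 - 42941 / 400 * s ^ 3 + 3887 / 80 * s ^ 4
      + 33 / 25 * s ^ 5 - 143 / 100 * s ^ 6) := by
    simp only [ev]
    push_cast
    ring
  rw [e] at h
  exact nonneg_of_mul_nonneg_right h (by norm_num)

lemma shEp_1 {s : ℝ} (h0 : 0 ≤ s) (h1 : s ≤ 1) : 0 ≤ 24349 / 10200 - 35203 / 1360 * s + 678851 / 6800 * s ^ 2 - 1048477 / 6800 * s ^ 3 + 350447
      / 6800 * s ^ 4 + 143619 / 1700 * s ^ 5 - 24713 / 425 * s ^ 6 := by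
  have h := chk_sound 39 [12466688000000, -3379488000000, 325848480000, -12581724000, 105134100, 4308570, -74139]
    (by decide +kernel) (40 * s - 0) (by linarith) (by norm_num; linarith)
  have e : ev [12466688000000, -3379488000000, 325848480000, -12581724000, 105134100, 4308570, -74139] (40 * s - 0)
      = 5222400000000 * (24349 / 10200 - 35203 / 1360 * s + 678851 / 6800 * s ^ 2 - 1048477 / 6800 * s ^ 3 + 350447
      / 6800 * s ^ 4 + 143619 / 1700 * s ^ 5 - 24713 / 425 * s ^ 6) := by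
    simp only [ev]
    push_cast
    ring
  rw [e] at h
  exact nonneg_of_mul_nonneg_right h (by norm_num)

lemma shEp_nonneg {s t : ℝ} (h0 : 0 ≤ s) (h1 : s ≤ 1) (ht : 0 ≤ t) (ht1 : t ≤ 2 / 17) :
    0 ≤ (419 / 200 - 8883 / 400 * s + 31739 / 400 * s ^ 2 - 42941 / 400 * s ^ 3 + 3887 / 80 * s ^ 4
      + 33 / 25 * s ^ 5 - 143 / 100 * s ^ 6) + t ^ 1 * (149 / 60 - 6251 / 200 * s + 17411 / 100 * s ^ 2 - 3981 / 10 * s ^ 3 + 5013 / 200 * s ^ 4 +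
      5655 / 8 * s ^ 5 - 96421 / 200 * s ^ 6) := by
  have g : 0 ≤ 1 - 17 / 2 * t := by linarith
  have k0 := mul_nonneg (mul_nonneg (mul_nonneg (by norm_num : (0 : ℝ) ≤ 1) (pow_nonneg (by linarith : 0 ≤ 17 / 2 * t) 0)) (pow_nonneg g 1)) (shEp_0 h0 h1)
  have k1 := mul_nonneg (mul_nonneg (mul_nonneg (by norm_num : (0 : ℝ) ≤ 1) (pow_nonneg (by linarith : 0 ≤ 17 / 2 * t) 1)) (pow_nonneg g 0)) (shEp_1 h0 h1)
  have e : (419 / 200 - 8883 / 400 * s + 31739 / 400 * s ^ 2 - 42941 / 400 * s ^ 3 + 3887 / 80 * s ^ 4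
      + 33 / 25 * s ^ 5 - 143 / 100 * s ^ 6) + t ^ 1 * (149 / 60 - 6251 / 200 * s + 17411 / 100 * s ^ 2 - 3981 / 10 * s ^ 3 + 5013 / 200 * s ^ 4 +
      5655 / 8 * s ^ 5 - 96421 / 200 * s ^ 6) = 1 * (17 / 2 * t) ^ 0 * (1 - 17 / 2 * t) ^ 1 * (419 / 200 - 8883 / 400 * s + 31739 / 400 * s ^ 2 - 42941 / 400 * s ^ 3 + 3887 / 80 * s ^ 4
      + 33 / 25 * s ^ 5 - 143 / 100 * s ^ 6) + 1 * (17 / 2 * t) ^ 1 * (1 - 17 / 2 * t) ^ 0 * (24349 / 10200 - 35203 / 1360 * s + 678851 / 6800 * s ^ 2 - 1048477 / 6800 * s ^ 3 + 350447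
      / 6800 * s ^ 4 + 143619 / 1700 * s ^ 5 - 24713 / 425 * s ^ 6) := by
    ring
  rw [e]
  linarith

lemma shEm_0 {s : ℝ} (h0 : 0 ≤ s) (h1 : s ≤ 1) : 0 ≤ 1413 / 320 - 20977 / 400 * s + 1139977 / 4800 * s ^ 2 - 200023 / 400 * s ^ 3 + 7925 / 16 *
      s ^ 4 - 1919 / 10 * s ^ 5 + 671 / 100 * s ^ 6 + 143 / 300 * s ^ 8 := by
  have h := chk_sound 24 [3234100341796875, -1536401367187500, 278314697265625, -23440195312500, 928710937500,
      -14392500000, 20130000, 0, 2288]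
    (by decide +kernel) (25 * s - 0) (by linarith) (by norm_num; linarith)
  have e : ev [3234100341796875, -1536401367187500, 278314697265625, -23440195312500, 928710937500,
      -14392500000, 20130000, 0, 2288] (25 * s - 0)
      = 732421875000000 * (1413 / 320 - 20977 / 400 * s + 1139977 / 4800 * s ^ 2 - 200023 / 400 * s ^ 3 + 7925 / 16 *
      s ^ 4 - 1919 / 10 * s ^ 5 + 671 / 100 * s ^ 6 + 143 / 300 * s ^ 8) := by
    simp only [ev]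
    push_cast
    ring
  rw [e] at h
  exact nonneg_of_mul_nonneg_right h (by norm_num)

lemma shEm_1 {s : ℝ} (h0 : 0 ≤ s) (h1 : s ≤ 1) : 0 ≤ 26357 / 5440 - 446893 / 6800 * s + 26294249 / 81600 * s ^ 2 - 4704043 / 6800 * s ^ 3 +
      4154861 / 6800 * s ^ 4 + 7461 / 340 * s ^ 5 - 124401 / 340 * s ^ 6 + 27729 / 170 * s ^ 7 +
      143 / 300 * s ^ 8 := by
  have h := chk_sound 79 [41455976448000000000, -7029019115520000000, 430804975616000000, -11560656076800000,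
      127637329920000, 57300480000, -11942496000, 66549600, 2431]
    (by decide +kernel) (80 * s - 0) (by linarith) (by norm_num; linarith)
  have e : ev [41455976448000000000, -7029019115520000000, 430804975616000000, -11560656076800000,
      127637329920000, 57300480000, -11942496000, 66549600, 2431] (80 * s - 0)
      = 8556380160000000000 * (26357 / 5440 - 446893 / 6800 * s + 26294249 / 81600 * s ^ 2 - 4704043 / 6800 * s ^ 3 +
      4154861 / 6800 * s ^ 4 + 7461 / 340 * s ^ 5 - 124401 / 340 * s ^ 6 + 27729 / 170 * s ^ 7 +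
      143 / 300 * s ^ 8) := by
    simp only [ev]
    push_cast
    ring
  rw [e] at h
  exact nonneg_of_mul_nonneg_right h (by norm_num)

lemma shEm_nonneg {s t : ℝ} (h0 : 0 ≤ s) (h1 : s ≤ 1) (ht : 0 ≤ t) (ht1 : t ≤ 2 / 17) :
    0 ≤ (1413 / 320 - 20977 / 400 * s + 1139977 / 4800 * s ^ 2 - 200023 / 400 * s ^ 3 + 7925 / 16 *
      s ^ 4 - 1919 / 10 * s ^ 5 + 671 / 100 * s ^ 6 + 143 / 300 * s ^ 8) + t ^ 1 * (73 / 20 - 22571 / 200 * s + 28811 / 40 * s ^ 2 - 325913 / 200 * s ^ 3 + 49171 / 50 * s ^ 4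
      + 72707 / 40 * s ^ 5 - 158353 / 50 * s ^ 6 + 27729 / 20 * s ^ 7) := by
  have g : 0 ≤ 1 - 17 / 2 * t := by linarith
  have k0 := mul_nonneg (mul_nonneg (mul_nonneg (by norm_num : (0 : ℝ) ≤ 1) (pow_nonneg (by linarith : 0 ≤ 17 / 2 * t) 0)) (pow_nonneg g 1)) (shEm_0 h0 h1)
  have k1 := mul_nonneg (mul_nonneg (mul_nonneg (by norm_num : (0 : ℝ) ≤ 1) (pow_nonneg (by linarith : 0 ≤ 17 / 2 * t) 1)) (pow_nonneg g 0)) (shEm_1 h0 h1)
  have e : (1413 / 320 - 20977 / 400 * s + 1139977 / 4800 * s ^ 2 - 200023 / 400 * s ^ 3 + 7925 / 16 *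
      s ^ 4 - 1919 / 10 * s ^ 5 + 671 / 100 * s ^ 6 + 143 / 300 * s ^ 8) + t ^ 1 * (73 / 20 - 22571 / 200 * s + 28811 / 40 * s ^ 2 - 325913 / 200 * s ^ 3 + 49171 / 50 * s ^ 4
      + 72707 / 40 * s ^ 5 - 158353 / 50 * s ^ 6 + 27729 / 20 * s ^ 7) = 1 * (17 / 2 * t) ^ 0 * (1 - 17 / 2 * t) ^ 1 * (1413 / 320 - 20977 / 400 * s + 1139977 / 4800 * s ^ 2 - 200023 / 400 * s ^ 3 + 7925 / 16 *
      s ^ 4 - 1919 / 10 * s ^ 5 + 671 / 100 * s ^ 6 + 143 / 300 * s ^ 8) + 1 * (17 / 2 * t) ^ 1 * (1 - 17 / 2 * t) ^ 0 * (26357 / 5440 - 446893 / 6800 * s + 26294249 / 81600 * s ^ 2 - 4704043 / 6800 * s ^ 3 +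
      4154861 / 6800 * s ^ 4 + 7461 / 340 * s ^ 5 - 124401 / 340 * s ^ 6 + 27729 / 170 * s ^ 7 +
      143 / 300 * s ^ 8) := by
    ring
  rw [e]
  linarith

end Vale.Agent.P224.R2.H627
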