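import Vale.Agent.P224.R2.H627.ShB
import Vale.Agent.P224.R2.H627.ShPol

/-!
Sharp two sided bounds of the weights, for all `a ≥ 17 / 2`.
-/

namespace Vale.Agent.P224.R2.H627

open MeasureTheory Set Filter Function Real Vale.Agent.P224.SM2 Vale.Agent.P224.R2.H820
open scoped Topology

variable {a c : ℝ} {T : ℝ}

/-- lower bound of P -/
noncomputable def PmL (t : ℝ) : List ℝ := [0, 3 / 4 * t - 69 / 100 * t ^ 2, 0, 131 / 50 * t ^ 2, 0, 33 / 50 * t ^ 2]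
/-- upper bound of P -/
noncomputable def PpL (t : ℝ) : List ℝ := [0, 3 / 4 * t - 23 / 100 * t ^ 2, 0, 43 / 50 * t ^ 2, 0, 88 / 25 * t ^ 2]
/-- lower bound of W, good near `h = 0` -/
noncomputable def WmL (t : ℝ) : List ℝ := [1 + 1 / 8 * t - 7 / 64 * t ^ 2, 0, 3 / 8 * t - 69 / 200 * t ^ 2, 0, 131 / 200 * t ^ 2, 0,
    11 / 100 * t ^ 2]
/-- upper bound of W -/
noncomputable def WpL (t : ℝ) : List ℝ := [1 + 1 / 8 * t + 2 / 25 * t ^ 2 + 17 / 30 * t ^ 3, 0, 3 / 8 * t - 69 / 200 * t ^ 2, 0, 131 /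
    200 * t ^ 2, 0, 11 / 100 * t ^ 2]
/-- lower bound of W, good near `h = 1` -/
noncomputable def WnL (t : ℝ) : List ℝ := [1 + 1 / 8 * t - 14 / 75 * t ^ 2, 0, 3 / 8 * t - 23 / 200 * t ^ 2, 0, 43 / 200 * t ^ 2, 0,
    44 / 75 * t ^ 2]
/-- lower bound of W -/
noncomputable def WxL (t : ℝ) : List ℝ := [1 + 1 / 8 * t - 7 / 64 * t ^ 2, 0, 3 / 8 * t - 2027 / 4800 * t ^ 2, 0, 177 / 200 * t ^ 2,
    0, -(33 / 100 * t ^ 2), 0, 143 / 300 * t ^ 2]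
/-- upper bound of E -/
noncomputable def EpL (t : ℝ) : List ℝ := [0, 1 - 7 / 8 * t + 61 / 20 * t ^ 2, -(2 * t) - 1639 / 100 * t ^ 2, 35 / 8 * t + 6331 / 100
    * t ^ 2, -(6089 / 50 * t ^ 2), 7417 / 100 * t ^ 2]
/-- lower bound of E -/
noncomputable def EmL (t : ℝ) : List ℝ := [0, 1 - 7 / 8 * t - 73 / 20 * t ^ 2, -(2 * t) + 2867 / 50 * t ^ 2, 35 / 8 * t - 25269 / 100
    * t ^ 2, 9783 / 20 * t ^ 2, -(23651 / 50 * t ^ 2), 9243 / 50 * t ^ 2]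

lemma inv_bds (ha : 17 / 2 ≤ a) : 0 < 1 / a ∧ 1 / a ≤ 2 / 17 := by
  have ha0 : 0 < a := by linarith
  refine ⟨by positivity, ?_⟩
  rw [div_le_div_iff₀ ha0 (by norm_num)]
  linarith

theorem sh_P0 (ha : 17 / 2 ≤ a) (hn : Nrm a c) : ∀ T ∈ Ioo (0 : ℝ) 1,
    evR [0, 2 / 3 * (1 / a)] (hv T) ≤ Pf a c T := by
  have ha0 : 0 < a := by linarith
  have ht := inv_bds ha
  refine Pf_ge_l (Wb := fun _ => 1) (hn.pos' ha).le (by linarith) _
    (fun T hT => Wf_ge_one2 ha hn ⟨hT.1.le, hT.2.le⟩) (by simp [evR]) fun h h0 h1 => ?_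
  have e : (a / h - 3 * h) * evR [0, 2 / 3 * (1 / a)] h
      + (1 - h ^ 2) * evD [0, 2 / 3 * (1 / a)] h
      = 2 / 3 + (2 / 3 - 8 / 3 * h ^ 2) * (1 / a) := by
    simp only [evR, evD]
    field_simp
    ring
  rw [e]
  have : (2 / 3 - 8 / 3 * h ^ 2) * (1 / a) ≤ 2 / 3 * (1 / a) :=
    mul_le_mul_of_nonneg_right (by nlinarith [sq_nonneg h]) ht.1.le
  linarith

theorem sh_W1 (ha : 17 / 2 ≤ a) (hn : Nrm a c) : ∀ T ∈ Ioo (0 : ℝ) 1,
    evR [1 + 1 / 8 * (1 / a) - 7 / 64 * (1 / a) ^ 2, 0, 1 / 3 * (1 / a)] (hv T) ≤ Wf a c T := by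
  have ha0 : 0 < a := by linarith
  have ht := inv_bds ha
  refine Wf_ge_r (by linarith) _ (sh_P0 ha hn) ?_ fun h h0 h1 => ?_
  · refine le_trans ?_ (Wf_one_ge2 ha hn)
    simp only [evR]
    have h8 : 0 < 8 * a + 7 := by linarith
    have : 1 + 1 / (8 * a + 7) - (1 + 1 / 8 * (1 / a) - 7 / 64 * (1 / a) ^ 2)
        = 49 / (64 * a ^ 2 * (8 * a + 7)) := by
      field_simp
      ring
    have : 0 ≤ 49 / (64 * a ^ 2 * (8 * a + 7)) := by positivity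
    linarith
  · simp only [evR, evD]
    linarith

/-- the lower bound of P -/
theorem sh_Pm (ha : 17 / 2 ≤ a) (hn : Nrm a c) : ∀ T ∈ Ioo (0 : ℝ) 1,
    evR (PmL (1 / a)) (hv T) ≤ Pf a c T := by
  have ha0 : 0 < a := by linarith
  have ht := inv_bds ha
  refine Pf_ge_l (hn.pos' ha).le (by linarith) _
    (Wb := evR [1 + 1 / 8 * (1 / a) - 7 / 64 * (1 / a) ^ 2, 0, 1 / 3 * (1 / a)])
    (sh_W1 ha hn) (by simp [PmL, evR]) fun h h0 h1 => ?_
  have k := mul_nonneg ht.1.le (shPm_nonneg h0.le h1.le ht.1.le ht.2)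
  have e : 3 / 4 * evR [1 + 1 / 8 * (1 / a) - 7 / 64 * (1 / a) ^ 2, 0, 1 / 3 * (1 / a)] h
      - ((a / h - 3 * h) * evR (PmL (1 / a)) h + (1 - h ^ 2) * evD (PmL (1 / a)) h)
      = 1 / a * ((27 / 800 + 63 / 100 * h ^ 2 - 33 / 50 * h ^ 4) + (1 / a) ^ 1 * (3891 / 6400
        - 531 / 50 * h ^ 2 + 621 / 50 * h ^ 4 + 132 / 25 * h ^ 6)) := by
    simp only [PmL, evR, evD]
    field_simp
    ring
  linarith

/-- the lower bound of W, good near `h = 0` -/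
theorem sh_Wm (ha : 17 / 2 ≤ a) (hn : Nrm a c) : ∀ T ∈ Ioo (0 : ℝ) 1,
    evR (WmL (1 / a)) (hv T) ≤ Wf a c T := by
  have ha0 : 0 < a := by linarith
  refine Wf_ge_r (by linarith) _ (sh_Pm ha hn) ?_ fun h h0 h1 => ?_
  · refine le_trans ?_ (Wf_one_ge2 ha hn)
    simp only [WmL, evR]
    have h8 : 0 < 8 * a + 7 := by linarith
    have : 1 + 1 / (8 * a + 7) - (1 + 1 / 8 * (1 / a) - 7 / 64 * (1 / a) ^ 2)
        = 49 / (64 * a ^ 2 * (8 * a + 7)) := by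
      field_simp
      ring
    have : 0 ≤ 49 / (64 * a ^ 2 * (8 * a + 7)) := by positivity
    linarith
  · simp only [WmL, PmL, evR, evD]
    linarith

/-- the upper bound of W -/
theorem sh_Wp (ha : 17 / 2 ≤ a) (hn : Nrm a c) : ∀ T ∈ Ico (0 : ℝ) 1,
    Wf a c T ≤ evR (WpL (1 / a)) (hv T) := by
  have ha0 : 0 < a := by linarith
  have ht := inv_bds ha
  refine Wf_le_l (by linarith) _ (sh_Pm ha hn) ?_ fun h h0 h1 => ?_
  · rw [Wf_zero' hn, div_le_iff₀ (by linarith)]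
    have e : evR (WpL (1 / a)) 1 * (2 * a - 2) - (2 * a - 1)
        = 17 / 15 * (1 / a) ^ 2 * (2 / 17 - 1 / a) := by
      simp only [WpL, evR]
      field_simp
      ring
    have : 0 ≤ 17 / 15 * (1 / a) ^ 2 * (2 / 17 - 1 / a) :=
      mul_nonneg (by positivity) (by linarith)
    linarith
  · simp only [WpL, PmL, evR, evD]
    linarith

/-- the upper bound of P -/
theorem sh_Pp (ha : 17 / 2 ≤ a) (hn : Nrm a c) : ∀ T ∈ Ioo (0 : ℝ) 1,
    Pf a c T ≤ evR (PpL (1 / a)) (hv T) := by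
  have ha0 : 0 < a := by linarith
  have ht := inv_bds ha
  refine Pf_le_l (hn.pos' ha).le (by linarith) _ (Wb := evR (WpL (1 / a)))
    (fun T hT => sh_Wp ha hn T (Ioo_subset_Ico_self hT)) (by simp [PpL, evR]) fun h h0 h1 => ?_
  have k := mul_nonneg ht.1.le (shPp_nonneg h0.le h1.le ht.1.le ht.2)
  have e : (a / h - 3 * h) * evR (PpL (1 / a)) h + (1 - h ^ 2) * evD (PpL (1 / a)) h
      - 3 / 4 * evR (WpL (1 / a)) h
      = 1 / a * ((341 / 800 - 1937 / 800 * h ^ 2 + 88 / 25 * h ^ 4) + (1 / a) ^ 1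
        * (-(29 / 100) + 3007 / 800 * h ^ 2 + 9559 / 800 * h ^ 4 - 11297 / 400 * h ^ 6)
        + (1 / a) ^ 2 * (-(17 / 40))) := by
    simp only [PpL, WpL, evR, evD]
    field_simp
    ring
  linarith

/-- the lower bound of W, good near `h = 1` -/
theorem sh_Wn (ha : 17 / 2 ≤ a) (hn : Nrm a c) : ∀ T ∈ Ico (0 : ℝ) 1,
    evR (WnL (1 / a)) (hv T) ≤ Wf a c T := by
  have ha0 : 0 < a := by linarith
  have ht := inv_bds ha
  refine Wf_ge_l (by linarith) _ (sh_Pp ha hn) ?_ fun h h0 h1 => ?_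
  · rw [Wf_zero' hn, le_div_iff₀ (by linarith)]
    have e : (2 * a - 1) - evR (WnL (1 / a)) 1 * (2 * a - 2)
        = (1 / a) ^ 2 := by
      simp only [WnL, evR]
      field_simp
      ring
    have : 0 ≤ (1 / a) ^ 2 := by positivity
    linarith
  · simp only [WnL, PpL, evR, evD]
    linarith

/-- the lower bound of W -/
theorem sh_Wx (ha : 17 / 2 ≤ a) (hn : Nrm a c) : ∀ T ∈ Ioo (0 : ℝ) 1,
    evR (WxL (1 / a)) (hv T) ≤ Wf a c T := by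
  intro T hT
  have h1 := sh_Wm ha hn T hT
  have h2 := sh_Wn ha hn T (Ioo_subset_Ico_self hT)
  have h3 := hv_pos hT
  have h4 := hv_lt_one hT
  have e : evR (WxL (1 / a)) (hv T)
      = (1 - hv T ^ 2) * evR (WmL (1 / a)) (hv T) + hv T ^ 2 * evR (WnL (1 / a)) (hv T) := by
    simp only [WxL, WmL, WnL, evR]
    ring
  rw [e]
  have k1 := mul_le_mul_of_nonneg_left h1 (by nlinarith : 0 ≤ 1 - hv T ^ 2)
  have k2 := mul_le_mul_of_nonneg_left h2 (sq_nonneg (hv T))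
  linarith

/-- the upper bound of E -/
theorem sh_Ep (ha : 17 / 2 ≤ a) (hn : Nrm a c) : ∀ T ∈ Ioo (0 : ℝ) 1,
    Ef a c T ≤ evR (EpL (1 / a)) (hv T) := by
  have ha0 : 0 < a := by linarith
  have ht := inv_bds ha
  refine Ef_le_l (hn.pos' ha).le (by linarith) _ (Wb := evR (WpL (1 / a)))
    (Pb := evR (PmL (1 / a))) (fun T hT => sh_Wp ha hn T (Ioo_subset_Ico_self hT))
    (sh_Pm ha hn) (by simp [EpL, evR]) fun h h0 h1 => ?_
  have k := mul_nonneg ht.1.le (shEp_nonneg h0.le h1.le ht.1.le ht.2)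
  have e : (a / h + (1 - 3 * h) / 2) * evR (EpL (1 / a)) h + (1 - h ^ 2) * evD (EpL (1 / a)) h
      - a * (evR (WpL (1 / a)) h - 2 * (1 - h) * evR (PmL (1 / a)) h)
      = 1 / a * ((419 / 200 - 8883 / 400 * h + 31739 / 400 * h ^ 2 - 42941 / 400 * h ^ 3 + 3887 / 80 * h ^ 4
      + 33 / 25 * h ^ 5 - 143 / 100 * h ^ 6) + (1 / a) ^ 1 * (149 / 60 - 6251 / 200 * h + 17411 / 100 * h ^ 2 - 3981 / 10 * h ^ 3 + 5013 / 200 * h ^ 4 +
      5655 / 8 * h ^ 5 - 96421 / 200 * h ^ 6)) := by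
    simp only [EpL, WpL, PmL, evR, evD]
    field_simp
    ring
  linarith

/-- the lower bound of E -/
theorem sh_Em (ha : 17 / 2 ≤ a) (hn : Nrm a c) : ∀ T ∈ Ioo (0 : ℝ) 1,
    evR (EmL (1 / a)) (hv T) ≤ Ef a c T := by
  have ha0 : 0 < a := by linarith
  have ht := inv_bds ha
  refine Ef_ge_l (hn.pos' ha).le (by linarith) _ (Wb := evR (WxL (1 / a)))
    (Pb := evR (PpL (1 / a))) (sh_Wx ha hn)
    (sh_Pp ha hn) (by simp [EmL, evR]) fun h h0 h1 => ?_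
  have k := mul_nonneg ht.1.le (shEm_nonneg h0.le h1.le ht.1.le ht.2)
  have e : a * (evR (WxL (1 / a)) h - 2 * (1 - h) * evR (PpL (1 / a)) h)
      - ((a / h + (1 - 3 * h) / 2) * evR (EmL (1 / a)) h + (1 - h ^ 2) * evD (EmL (1 / a)) h)
      = 1 / a * ((1413 / 320 - 20977 / 400 * h + 1139977 / 4800 * h ^ 2 - 200023 / 400 * h ^ 3 + 7925 / 16 *
      h ^ 4 - 1919 / 10 * h ^ 5 + 671 / 100 * h ^ 6 + 143 / 300 * h ^ 8) + (1 / a) ^ 1 * (73 / 20 - 22571 / 200 * h + 28811 / 40 * h ^ 2 - 325913 / 200 * h ^ 3 + 49171 / 50 * h ^ 4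
      + 72707 / 40 * h ^ 5 - 158353 / 50 * h ^ 6 + 27729 / 20 * h ^ 7)) := by
    simp only [EmL, WxL, PpL, evR, evD]
    field_simp
    ring
  linarith

end Vale.Agent.P224.R2.H627
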