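import Vale.Agent.P224.R2.H627.Inst

/-!
Kernel checked numbers of the law with `T₁ = 1/2`, threshold `17 (1 - T ^ 10)`, for `17 ≤ m ≤ 36`.
-/

namespace Vale.Agent.P224.R2.H627

/-- the rows: dimension, `W0`, `W1`, lower and upper bound of `m (m + 1) E_1`, upper bound of
`m r (0)` -/
def tab17 : List NRow :=
  [⟨17, 45197 / 100000, 29079 / 20000, 3601 / 20000, 18007 / 100000, 100393 / 200000⟩,
   ⟨18, 3033 / 6250, 76171 / 50000, 17951 / 100000, 17953 / 100000, 500191 / 1000000⟩,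
   ⟨19, 51727 / 100000, 4993 / 3125, 8941 / 50000, 4471 / 25000, 124653 / 250000⟩,
   ⟨20, 54809 / 100000, 83823 / 50000, 17801 / 100000, 17803 / 100000, 497197 / 1000000⟩,
   ⟨21, 57767 / 100000, 175913 / 100000, 17711 / 100000, 17713 / 100000, 495921 / 1000000⟩,
   ⟨22, 15161 / 25000, 5767 / 3125, 17613 / 100000, 3523 / 20000, 247383 / 500000⟩,
   ⟨23, 63441 / 100000, 193511 / 100000, 1751 / 10000, 17511 / 100000, 246857 / 500000⟩,
   ⟨24, 33077 / 50000, 20279 / 10000, 8701 / 50000, 17403 / 100000, 492753 / 1000000⟩,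
   ⟨25, 68809 / 100000, 106181 / 50000, 17291 / 100000, 4323 / 25000, 15371 / 31250⟩,
   ⟨26, 7141 / 10000, 111103 / 50000, 17177 / 100000, 8589 / 50000, 24553 / 50000⟩,
   ⟨27, 36981 / 50000, 232309 / 100000, 8531 / 50000, 17063 / 100000, 49031 / 100000⟩,
   ⟨28, 38233 / 50000, 121327 / 50000, 3389 / 20000, 16947 / 100000, 97923 / 200000⟩,
   ⟨29, 78927 / 100000, 50649 / 20000, 4207 / 25000, 1683 / 10000, 488969 / 1000000⟩,
   ⟨30, 81347 / 100000, 26407 / 10000, 16711 / 100000, 2089 / 12500, 30523 / 62500⟩,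
   ⟨31, 5233 / 6250, 34387 / 12500, 8297 / 50000, 3319 / 20000, 243903 / 500000⟩,
   ⟨32, 86073 / 100000, 71579 / 25000, 16477 / 100000, 16479 / 100000, 6091 / 12500⟩,
   ⟨33, 88383 / 100000, 297721 / 100000, 8181 / 50000, 16363 / 100000, 486787 / 1000000⟩,
   ⟨34, 90661 / 100000, 309303 / 100000, 8123 / 50000, 2031 / 12500, 121581 / 250000⟩,
   ⟨35, 23227 / 25000, 321057 / 100000, 4033 / 25000, 8067 / 50000, 7592 / 15625⟩,
   ⟨36, 47563 / 50000, 166487 / 50000, 801 / 5000, 16021 / 100000, 121369 / 250000⟩]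

theorem tab17_ok : tab17.all (nrowOK 17 17 17 17 17) = true := by decide +kernel

end Vale.Agent.P224.R2.H627
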