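import Vale.Agent.P224.R2.H627.Qb
import Vale.Agent.P224.R2.H582.Int

/-!
The coefficient lists of `W0` and `W1`.
-/

namespace Vale.Agent.P224.R2.H627

open Real Vale.Agent.P224.SM2 Vale.Agent.P224.R2.H820

/-- the coefficients of `W0` -/
def w0L (m κ σ l0 l1 l2 l3 l4 : ℚ) : List (ℚ × ℚ × ℚ) :=
  [(0, 0, 1 / 2 * m ^ 2),
   (1 / 2 * m, 1 / 2 * m * (m + 1), -(1 / 2 * m ^ 2 * ((m + 1) * σ)) - m * (m + 1)),
   (-(1 / 2 * m * ((m + 1) * σ)), -(1 / 2 * m * (m + 1) * ((m + 2) * σ)),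
    1 / 2 * m ^ 2 * ((m + 1) * (m + 2) / 2 * σ ^ 2) - 1 / 2 * (m + 1) * (m + 2) * l0
      + m * (m + 1) + m * (m + 1) * ((m + 2) * σ)),
   (1 / 2 * m * ((m + 1) * (m + 2) / 2 * σ ^ 2),
    1 / 2 * m * (m + 1) * ((m + 2) * (m + 3) / 2 * σ ^ 2),
    -(1 / 2 * m ^ 2 * ((m + 1) * (m + 2) * (m + 3) / 6 * σ ^ 3))
      + 1 / 2 * (m + 1) * (m + 2) * ((m + 1) * σ) * l0
      - m * (m + 1) * ((m + 2) * σ) - m * (m + 1) * ((m + 2) * (m + 3) / 2 * σ ^ 2)),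
   (-(1 / 2 * m * ((m + 1) * (m + 2) * (m + 3) / 6 * σ ^ 3)),
    -(1 / 2 * m * (m + 1) * ((m + 2) * (m + 3) * (m + 4) / 6 * σ ^ 3)),
    -(1 / 2 * (m + 1) * (m + 2) * l1)
      - 1 / 2 * (m + 1) * (m + 2) * ((m + 1) * (m + 2) / 2 * σ ^ 2) * l0
      + m * (m + 1) * ((m + 2) * (m + 3) / 2 * σ ^ 2)),
   (0, -(1 / 2 * m * (m + 1) * κ), 1 / 2 * (m + 1) * (m + 2) * ((m + 1) * σ) * l1),
   (0, 1 / 2 * m * (m + 1) * κ * ((m + 2) * σ), -(1 / 2 * (m + 1) * (m + 2) * l2)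
      - 1 / 2 * (m + 1) * (m + 2) * ((m + 1) * (m + 2) / 2 * σ ^ 2) * l1),
   (0, -(1 / 2 * m * (m + 1) * κ * ((m + 2) * (m + 3) / 2 * σ ^ 2)),
    1 / 2 * (m + 1) * (m + 2) * ((m + 1) * σ) * l2),
   (0, 0, -(1 / 2 * (m + 1) * (m + 2) * l3)
      - 1 / 2 * (m + 1) * (m + 2) * ((m + 1) * (m + 2) / 2 * σ ^ 2) * l2),
   (0, 0, 1 / 2 * (m + 1) * (m + 2) * ((m + 1) * σ) * l3),
   (0, 0, -(1 / 2 * (m + 1) * (m + 2) * l4)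
      - 1 / 2 * (m + 1) * (m + 2) * ((m + 1) * (m + 2) / 2 * σ ^ 2) * l3),
   (0, 0, 1 / 2 * (m + 1) * (m + 2) * ((m + 1) * σ) * l4),
   (0, 0, -(1 / 2 * (m + 1) * (m + 2) * ((m + 1) * (m + 2) / 2 * σ ^ 2) * l4))]

lemma w0_eq (m κ σ l0 l1 l2 l3 l4 : ℚ) (Y E R : ℕ → ℝ) :
    H582.W0 m κ σ l0 l1 l2 l3 l4 Y E R = lc3 Y E R (w0L m κ σ l0 l1 l2 l3 l4) 0 := by
  simp only [H582.W0, w0L, lc3]
  push_cast
  ring

/-- the coefficients of `W1` -/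
def w1L (m κ σ l0 l1 l2 l3 l4 : ℚ) : List (ℚ × ℚ × ℚ) :=
  let p := 1 / 2 * (m + 1) * m
  let q := 1 / 2 * (m + 1) ^ 2 * (m + 2)
  let u := (m + 2) * (m * (m + 1))
  let a1 := (m + 2) * σ
  let a2 := (m + 2) * (m + 3) / 2 * σ ^ 2
  let a3 := (m + 2) * (m + 3) * (m + 4) / 6 * σ ^ 3
  let c1 := (m + 3) * σ
  let c2 := (m + 3) * (m + 4) / 2 * σ ^ 2
  let c3 := (m + 3) * (m + 4) * (m + 5) / 6 * σ ^ 3
  [(0, 0, 0),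
   (0, 0, p * m),
   (p, 1 / 2 * u, -(p * m * a1) - u),
   (-(p * a1), -(1 / 2 * u * c1), p * m * a2 - q * l0 + u + u * c1),
   (p * a2, 1 / 2 * u * c2, q * a1 * l0 - u * c1 - u * c2),
   (0, 0, -(q * l1) - q * a2 * l0 + u * c2 + u * c3),
   (0, -(1 / 2 * u * κ), q * a1 * l1 + q * a3 * l0 - u * c3),
   (0, 1 / 2 * u * κ * c1, -(q * l2) - q * a2 * l1),
   (0, -(1 / 2 * u * κ * c2), q * a1 * l2 + q * a3 * l1),
   (0, 1 / 2 * u * κ * c3, -(q * l3) - q * a2 * l2),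
   (0, 0, q * a1 * l3 + q * a3 * l2),
   (0, 0, -(q * l4) - q * a2 * l3),
   (0, 0, q * a1 * l4 + q * a3 * l3),
   (0, 0, -(q * a2 * l4)),
   (0, 0, q * a3 * l4)]

lemma w1_eq (m κ σ l0 l1 l2 l3 l4 : ℚ) (Y E R : ℕ → ℝ) :
    H582.W1 m κ σ l0 l1 l2 l3 l4 Y E R = lc3 Y E R (w1L m κ σ l0 l1 l2 l3 l4) 0 := by
  simp only [H582.W1, w1L, lc3]
  push_cast
  ring

/-- minus a list -/
def ng (l : List (ℚ × ℚ × ℚ)) : List (ℚ × ℚ × ℚ) := l.map fun c => (-c.1, -c.2.1, -c.2.2)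

lemma lc3_ng (Y E R : ℕ → ℝ) (l : List (ℚ × ℚ × ℚ)) : ∀ j, lc3 Y E R (ng l) j = -lc3 Y E R l j := by
  induction l with
  | nil => intro j; simp [ng, lc3]
  | cons c l ih =>
    intro j
    obtain ⟨cy, ce, cr⟩ := c
    have h := ih (j + 1)
    simp only [ng, List.map_cons, lc3] at h ⊢
    rw [h]
    push_cast
    ring

theorem upOK_sound {m : ℕ} {w : ℚ} {l : List (ℚ × ℚ × ℚ)} (hm : 17 ≤ m)
    (h : lowOK m (-w) (ng l) = true) : lc3 (YM m) (EM m) (RM m) l 0 ≤ (w : ℝ) := by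
  have h1 := lowOK_sound hm h
  rw [lc3_ng] at h1
  push_cast at h1
  linarith

end Vale.Agent.P224.R2.H627
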