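import Vale.Agent.P224.R2.H627.Bnd

/-!
Explicit two sided bounds of the normalised weights, uniform in `a ≥ 9`, linear in `1 / a`.
-/

namespace Vale.Agent.P224.R2.H627

open MeasureTheory Set Filter Function Real Vale.Agent.P224.SM2 Vale.Agent.P224.R2.H820
open scoped Topology

variable {a c : ℝ} {T : ℝ}

/-- the normalisation of the constant c -/
def Nrm (a c : ℝ) : Prop := c * II a 0 = (2 * a - 1) / (2 * a - 2)

lemma Nrm.pos (ha : 9 ≤ a) (hn : Nrm a c) : 0 < c := by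
  have hI := II_pos (a := a) (by linarith) 0
  have h : 0 < c * II a 0 := by
    rw [hn]
    exact div_pos (by linarith) (by linarith)
  exact (pos_iff_pos_of_mul_pos h).2 hI

lemma nrm_cn {m : ℕ} (h4 : 4 ≤ m) : Nrm ((m : ℝ) / 2) (cn m) := by
  have hm4 : (4 : ℝ) ≤ m := by exact_mod_cast h4
  have hI := II_pos (a := (m : ℝ) / 2) (by linarith) 0
  unfold Nrm cn
  rw [div_mul_cancel₀ _ hI.ne', show 2 * ((m : ℝ) / 2) = m by ring]

lemma Wf_zero : Wf a c 0 = c * II a 0 := by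
  unfold Wf
  simp

lemma Wf_zero' (hn : Nrm a c) : Wf a c 0 = (2 * a - 1) / (2 * a - 2) := by
  rw [Wf_zero, hn]

lemma Wf_one_ge (ha : 9 ≤ a) (hn : Nrm a c) : 1 + 1 / (8 * a + 7) ≤ Wf a c 1 := by
  have hI := II_pos (a := a) (by linarith) 0
  have h1 := Rr_ge (a := a) (by linarith)
  have h2 : √(2 : ℝ) ^ 2 = 2 := sq_sqrt (by norm_num)
  have h3 : 0 < √(2 : ℝ) := by positivity
  have e1 : Wf a c 1 = Rr a / √2 := by
    unfold Wf Rr
    rw [show (1 : ℝ) + 1 ^ 2 = 2 by norm_num]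
    have hn' : c = (2 * a - 1) / (2 * a - 2) / II a 0 := by
      rw [eq_div_iff hI.ne']
      exact hn
    rw [hn']
    have h5 : a - 1 ≠ 0 := by linarith
    have h6 : 2 * a - 2 ≠ 0 := by linarith
    field_simp
    rw [h2]
    ring
  rw [e1, le_div_iff₀ h3]
  have e2 : (1 + 1 / (8 * a + 7)) = (8 * a + 8) / (8 * a + 7) := by
    have : 8 * a + 7 ≠ 0 := by linarith
    field_simp
    ring
  rw [e2, mul_comm]
  exact h1

lemma Wf_ge_one (ha : 9 ≤ a) (hn : Nrm a c) (hT : T ∈ Icc (0 : ℝ) 1) : 1 ≤ Wf a c T := by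
  have hc := hn.pos ha
  have h1 := IS_anti (a := a) (by linarith) hT ⟨zero_le_one, le_rfl⟩ hT.2
  have h2 := Wf_one_ge ha hn
  have h3 : 0 < 1 / (8 * a + 7) := by
    have : 0 < 8 * a + 7 := by linarith
    positivity
  have h4 : Wf a c 1 ≤ Wf a c T := by
    have e : ∀ x, Wf a c x = c * IS a x := fun x => by
      unfold Wf IS
      ring
    rw [e, e]
    exact mul_le_mul_of_nonneg_left h1 hc.le
  linarith

/-- first lower bound of P -/
theorem Pf_ge (ha : 9 ≤ a) (hn : Nrm a c) (hT : T ∈ Ioo (0 : ℝ) 1) :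
    27 / 40 / a * hv T ≤ Pf a c T := by
  have hc := hn.pos ha
  have ha0 : 0 < a := by linarith
  refine Pf_ge_of (q := fun h => 27 / 40 / a * h) (q' := fun _ => 27 / 40 / a) hc.le (by linarith)
    (fun h _ => by simpa using (hasDerivAt_id h).const_mul (27 / 40 / a)) (by fun_prop) (by simp)
    (fun T hT => ?_) hT
  have h1 := Wf_ge_one ha hn ⟨hT.1.le, hT.2.le⟩
  have h2 := hv_pos hT
  have e : (a / hv T - 3 * hv T) * (27 / 40 / a * hv T) + (1 - hv T ^ 2) * (27 / 40 / a)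
      = 27 / 40 + 27 / 40 / a * (1 - 4 * hv T ^ 2) := by
    field_simp
    ring
  rw [e]
  have h3 : 27 / 40 / a * (1 - 4 * hv T ^ 2) ≤ 27 / 40 / a * 1 := by
    refine mul_le_mul_of_nonneg_left ?_ (by positivity)
    nlinarith [sq_nonneg (hv T)]
  have h4 : 27 / 40 / a ≤ 3 / 40 := by
    rw [div_le_iff₀ ha0]
    linarith
  linarith

/-- upper bound of W -/
theorem Wf_le (ha : 9 ≤ a) (hn : Nrm a c) (hT : T ∈ Ico (0 : ℝ) 1) :
    Wf a c T ≤ (2 * a - 1) / (2 * a - 2) - 27 / 80 / a * (1 - hv T ^ 2) := by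
  have hd : ∀ h ∈ Ioo (0 : ℝ) 1, HasDerivAt
      (fun h : ℝ => (2 * a - 1) / (2 * a - 2) - 27 / 80 / a * (1 - h ^ 2)) (27 / 40 / a * h) h := by
    intro h _
    have h1 := (((hasDerivAt_pow 2 h).const_sub 1).const_mul (27 / 80 / a)).const_sub
      ((2 * a - 1) / (2 * a - 2))
    refine h1.congr_deriv ?_
    push_cast
    ring
  refine Wf_le_of (q := fun h => (2 * a - 1) / (2 * a - 2) - 27 / 80 / a * (1 - h ^ 2))
    (by linarith) hd (by fun_prop) ?_ (fun T hT => Pf_ge ha hn hT) hT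
  rw [Wf_zero' hn]
  simp

/-- upper bound of W, linear in `1 / a` -/
theorem Wf_le' (ha : 9 ≤ a) (hn : Nrm a c) (hT : T ∈ Ico (0 : ℝ) 1) :
    Wf a c T ≤ 1 + (9 / 40 + 27 / 80 * hv T ^ 2) / a := by
  have h := Wf_le ha hn hT
  have ha0 : 0 < a := by linarith
  have h1 : (2 * a - 1) / (2 * a - 2) ≤ 1 + 9 / 16 / a := by
    rw [div_le_iff₀ (by linarith)]
    have e : (1 + 9 / 16 / a) * (2 * a - 2) = 2 * a - 2 + 9 / 8 - 9 / 8 / a := by
      field_simp
      ring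
    rw [e]
    have : 9 / 8 / a ≤ 1 / 8 := by
      rw [div_le_iff₀ ha0]
      linarith
    linarith
  have e : 1 + (9 / 40 + 27 / 80 * hv T ^ 2) / a
      = 1 + 9 / 16 / a - 27 / 80 / a * (1 - hv T ^ 2) := by ring
  rw [e]
  linarith

/-- upper bound of P -/
theorem Pf_le (ha : 9 ≤ a) (hn : Nrm a c) (hT : T ∈ Ioo (0 : ℝ) 1) :
    Pf a c T ≤ (3 / 4 * hv T + 223 / 500 * hv T ^ 3) / a := by
  have hc := hn.pos ha
  have ha0 : 0 < a := by linarith
  refine Pf_le_of (q := fun h => (3 / 4 * h + 223 / 500 * h ^ 3) / a)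
    (q' := fun h => (3 / 4 + 669 / 500 * h ^ 2) / a) hc.le (by linarith) ?_ (by fun_prop) (by simp)
    (fun T hT => ?_) hT
  · intro h _
    have h1 := (((hasDerivAt_id' h).const_mul (3 / 4)).fun_add
      ((hasDerivAt_pow 3 h).const_mul (223 / 500))).div_const a
    refine h1.congr_deriv ?_
    push_cast
    ring
  have h1 := Wf_le' ha hn (Ioo_subset_Ico_self hT)
  have h2 := hv_pos hT
  have h3 := hv_lt_one hT
  set h := hv T with hh
  have e : (a / h - 3 * h) * ((3 / 4 * h + 223 / 500 * h ^ 3) / a)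
      + (1 - h ^ 2) * ((3 / 4 + 669 / 500 * h ^ 2) / a)
      - 3 / 4 * (1 + (9 / 40 + 27 / 80 * h ^ 2) / a)
      = (223 / 500 * h ^ 2 * a + (93 / 160 - 15321 / 8000 * h ^ 2
        - 1338 / 500 * h ^ 4)) / a := by
    field_simp
    ring
  have h4 : h ^ 2 ≤ 1 := by nlinarith
  have h5 : 0 ≤ h ^ 2 := sq_nonneg h
  have h6 : 0 ≤ (223 / 500 * h ^ 2 * a + (93 / 160 - 15321 / 8000 * h ^ 2
        - 1338 / 500 * h ^ 4)) / a := by
    refine div_nonneg ?_ ha0.le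
    have h7 : 223 / 500 * h ^ 2 * 9 ≤ 223 / 500 * h ^ 2 * a :=
      mul_le_mul_of_nonneg_left ha (by positivity)
    have h8 : h ^ 4 ≤ h ^ 2 := by nlinarith
    nlinarith
  linarith

/-- lower bound of W, sharp near `T = 0` -/
theorem Wf_ge (ha : 9 ≤ a) (hn : Nrm a c) (hT : T ∈ Ico (0 : ℝ) 1) :
    1 + (27 / 2000 + 3 / 8 * hv T ^ 2 + 223 / 2000 * hv T ^ 4) / a ≤ Wf a c T := by
  have ha0 : 0 < a := by linarith
  have hd : ∀ h ∈ Ioo (0 : ℝ) 1, HasDerivAt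
      (fun h : ℝ => 1 + (27 / 2000 + 3 / 8 * h ^ 2 + 223 / 2000 * h ^ 4) / a)
      ((3 / 4 * h + 223 / 500 * h ^ 3) / a) h := by
    intro h _
    have h1 := ((((hasDerivAt_pow 2 h).const_mul (3 / 8)).const_add (27 / 2000)).fun_add
      ((hasDerivAt_pow 4 h).const_mul (223 / 2000))).div_const a |>.const_add 1
    refine h1.congr_deriv ?_
    push_cast
    ring
  refine Wf_ge_of (q := fun h => 1 + (27 / 2000 + 3 / 8 * h ^ 2 + 223 / 2000 * h ^ 4) / a)
    (by linarith) hd (by fun_prop) ?_ (fun T hT => Pf_le ha hn hT) hT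
  rw [Wf_zero' hn, le_div_iff₀ (by linarith)]
  have e : (1 + (27 / 2000 + 3 / 8 * (1 : ℝ) ^ 2 + 223 / 2000 * 1 ^ 4) / a) * (2 * a - 2)
      = 2 * a - 2 + 1 - 1 / a := by
    field_simp
    ring
  rw [e]
  have : 0 < 1 / a := by positivity
  linarith

/-- lower bound of W, sharp near `T = 1` -/
theorem Wf_ge' (ha : 9 ≤ a) (hn : Nrm a c) (hT : T ∈ Ioo (0 : ℝ) 1) :
    1 + (1 / 9 + 27 / 80 * hv T ^ 2) / a ≤ Wf a c T := by
  have ha0 : 0 < a := by linarith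
  have hc := hn.pos ha
  have h := cmp (X := fun T => Wf a c T - (1 + (1 / 9 + 27 / 80 * hv T ^ 2) / a)) (A := fun _ => 0)
    (B := fun T => (1 - hv T ^ 2) * (Pf a c T - 27 / 40 / a * hv T))
    (l := Wf a c 1 - (1 + (1 / 9 + 27 / 80 * 0 ^ 2) / a)) ?_ ?_ ?_ ?_ ?_ hT
  · linarith
  · intro T hT
    have hT0 := hT.1.ne'
    have h1 := (((hasDerivAt_hv hT0).fun_pow 2).const_mul (27 / 80)).const_add (1 / 9)
      |>.div_const a |>.const_add 1
    refine ((hasDerivAt_Wf (c := c) (by linarith) hT).fun_sub h1).congr_deriv ?_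
    push_cast
    field_simp
    ring
  · intro T _
    exact le_rfl
  · intro T hT
    have h1 := Pf_ge ha hn hT
    have h2 := hv_pos hT
    have h3 := hv_lt_one hT
    exact mul_nonneg (by nlinarith) (by linarith)
  · refine (tendsto_Wf (by linarith)).sub ?_
    have h1 : Continuous fun h : ℝ => 1 + (1 / 9 + 27 / 80 * h ^ 2) / a := by fun_prop
    exact (h1.tendsto 0).comp tendsto_hv
  · have h1 := Wf_one_ge ha hn
    have h2 : (1 + (1 / 9 + 27 / 80 * (0 : ℝ) ^ 2) / a) ≤ 1 + 1 / (8 * a + 7) := by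
      have : (1 / 9 + 27 / 80 * (0 : ℝ) ^ 2) / a ≤ 1 / (8 * a + 7) := by
        rw [div_le_div_iff₀ ha0 (by linarith)]
        linarith
      linarith
    linarith

lemma lin_pos {a r₀ r₁ : ℝ} (ha : 9 ≤ a) (h0 : 0 ≤ r₀) (h1 : 0 ≤ 9 * r₀ + r₁) :
    0 ≤ r₀ + r₁ / a := by
  have ha0 : 0 < a := by linarith
  have e : r₀ + r₁ / a = ((a - 9) * r₀ + (9 * r₀ + r₁)) / a := by
    field_simp
    ring
  rw [e]
  exact div_nonneg (add_nonneg (mul_nonneg (by linarith) h0) h1) ha0.le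

lemma pol_up0 {h : ℝ} (h0 : 0 ≤ h) :
    0 ≤ 17 / 200 + 71 / 50 * h - 67 / 16 * h ^ 2 + 289 / 100 * h ^ 3 := by
  nlinarith [mul_nonneg h0 (sq_nonneg (h - 3 / 4)), sq_nonneg (h - 3 / 4)]

lemma pol_up1 {h : ℝ} (h0 : 0 ≤ h) (h1 : h ≤ 1) :
    0 ≤ 3 / 40 + 463 / 40 * h - 14471 / 400 * h ^ 2 + 1563 / 40 * h ^ 3 + 289 / 200 * h ^ 4
      - 3179 / 200 * h ^ 5 := by
  have g : 0 ≤ 1 - h := by linarith
  have := mul_nonneg h0 g
  nlinarith [mul_nonneg (mul_nonneg h0 g) (sq_nonneg (h - 1 / 2)), mul_nonneg h0 (pow_nonneg g 4),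
    mul_nonneg (pow_nonneg h0 2) (pow_nonneg g 3), mul_nonneg (pow_nonneg h0 3) (pow_nonneg g 2),
    mul_nonneg (pow_nonneg h0 4) g, pow_nonneg h0 5, pow_nonneg g 5]

lemma pol_lo0 {h : ℝ} (h0 : 0 ≤ h) (h1 : h ≤ 1) :
    0 ≤ 167 / 2000 - 21 / 20 * h + 35 / 8 * h ^ 2 - 2201 / 500 * h ^ 3 + 2007 / 2000 * h ^ 4 := by
  have g : 0 ≤ 1 - h := by linarith
  nlinarith [mul_nonneg h0 (sq_nonneg (h - 3 / 4)), sq_nonneg (h - 3 / 20),
    mul_nonneg g (sq_nonneg (h - 3 / 20)), mul_nonneg h0 g,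
    mul_nonneg (mul_nonneg h0 g) (sq_nonneg (h - 1 / 2)), sq_nonneg (h ^ 2 - h),
    mul_nonneg g (sq_nonneg (h - 1 / 7))]

lemma pol_lo1 {h : ℝ} (h0 : 0 ≤ h) (h1 : h ≤ 1) :
    0 ≤ 3643 / 2000 - 1403 / 200 * h + 1487 / 40 * h ^ 2 - 56983 / 1000 * h ^ 3
      + 14553 / 2000 * h ^ 4 + 3861 / 200 * h ^ 5 := by
  have g : 0 ≤ 1 - h := by linarith
  nlinarith [mul_nonneg h0 (sq_nonneg (h - 17 / 20)), sq_nonneg (h - 17 / 20),
    mul_nonneg (mul_nonneg h0 h0) (mul_nonneg h0 (sq_nonneg (h - 21 / 25))),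
    mul_nonneg (mul_nonneg h0 h0) (sq_nonneg (h - 21 / 25)), mul_nonneg h0 g,
    mul_nonneg (mul_nonneg h0 g) (sq_nonneg (h - 21 / 25))]

/-- the upper bound of E -/
noncomputable def qU (a h : ℝ) : ℝ :=
  h + (-(69 / 100) * h - 43 / 100 * h ^ 2 + 289 / 100 * h ^ 4) / a

/-- the lower bound of E -/
noncomputable def qL (a h : ℝ) : ℝ :=
  h + (-(107 / 100) * h - 95 / 100 * h ^ 2 + 351 / 100 * h ^ 4) / a

theorem Ef_le (ha : 9 ≤ a) (hn : Nrm a c) (hT : T ∈ Ioo (0 : ℝ) 1) :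
    Ef a c T ≤ qU a (hv T) := by
  have hc := hn.pos ha
  have ha0 : 0 < a := by linarith
  refine Ef_le_of (q := qU a)
    (q' := fun h => 1 + (-(69 / 100) - 86 / 100 * h + 1156 / 100 * h ^ 3) / a) hc.le (by linarith)
    ?_ ?_ ?_ (fun T hT => ?_) hT
  · intro h _
    have h1 := (hasDerivAt_id' h).fun_add (((((hasDerivAt_id' h).const_mul (-(69 / 100))).fun_sub
      ((hasDerivAt_pow 2 h).const_mul (43 / 100))).fun_add
      ((hasDerivAt_pow 4 h).const_mul (289 / 100))).div_const a)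
    refine h1.congr_deriv ?_
    push_cast
    ring
  · unfold qU
    fun_prop
  · unfold qU
    simp
  · have h1 := Wf_le' ha hn (Ioo_subset_Ico_self hT)
    have h2 := Pf_ge ha hn hT
    have h3 := hv_pos hT
    have h4 := hv_lt_one hT
    set h := hv T with hh
    have h5 : a * Wf a c T ≤ a + (9 / 40 + 27 / 80 * h ^ 2) := by
      have := mul_le_mul_of_nonneg_left h1 ha0.le
      have e : a * (1 + (9 / 40 + 27 / 80 * h ^ 2) / a) = a + (9 / 40 + 27 / 80 * h ^ 2) := by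
        field_simp
      linarith
    have h6 : 27 / 40 * h ≤ a * Pf a c T := by
      have := mul_le_mul_of_nonneg_left h2 ha0.le
      have e : a * (27 / 40 / a * h) = 27 / 40 * h := by
        field_simp
      linarith
    have h7 : 2 * (1 - h) * (27 / 40 * h) ≤ 2 * (1 - h) * (a * Pf a c T) :=
      mul_le_mul_of_nonneg_left h6 (by linarith)
    have h8 := lin_pos ha (pol_up0 h3.le) (r₁ := 3 / 40 + 463 / 40 * h - 14471 / 400 * h ^ 2
      + 1563 / 40 * h ^ 3 + 289 / 200 * h ^ 4 - 3179 / 200 * h ^ 5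
      - 9 * (17 / 200 + 71 / 50 * h - 67 / 16 * h ^ 2 + 289 / 100 * h ^ 3))
      (by linarith [pol_up1 h3.le h4.le])
    have e : (a / h + (1 - 3 * h) / 2) * qU a h + (1 - h ^ 2)
          * (1 + (-(69 / 100) - 86 / 100 * h + 1156 / 100 * h ^ 3) / a)
        = a + (9 / 40 + 27 / 80 * h ^ 2) - 2 * (1 - h) * (27 / 40 * h)
          + (17 / 200 + 71 / 50 * h - 67 / 16 * h ^ 2 + 289 / 100 * h ^ 3
          + (3 / 40 + 463 / 40 * h - 14471 / 400 * h ^ 2
      + 1563 / 40 * h ^ 3 + 289 / 200 * h ^ 4 - 3179 / 200 * h ^ 5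
      - 9 * (17 / 200 + 71 / 50 * h - 67 / 16 * h ^ 2 + 289 / 100 * h ^ 3)) / a) := by
      unfold qU
      field_simp
      ring
    rw [e]
    linarith

theorem Ef_ge (ha : 9 ≤ a) (hn : Nrm a c) (hT : T ∈ Ioo (0 : ℝ) 1) :
    qL a (hv T) ≤ Ef a c T := by
  have hc := hn.pos ha
  have ha0 : 0 < a := by linarith
  refine Ef_ge_of (q := qL a)
    (q' := fun h => 1 + (-(107 / 100) - 190 / 100 * h + 1404 / 100 * h ^ 3) / a) hc.le (by linarith)
    ?_ ?_ ?_ (fun T hT => ?_) hT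
  · intro h _
    have h1 := (hasDerivAt_id' h).fun_add (((((hasDerivAt_id' h).const_mul (-(107 / 100))).fun_sub
      ((hasDerivAt_pow 2 h).const_mul (95 / 100))).fun_add
      ((hasDerivAt_pow 4 h).const_mul (351 / 100))).div_const a)
    refine h1.congr_deriv ?_
    push_cast
    ring
  · unfold qL
    fun_prop
  · unfold qL
    simp
  · have h1 := Wf_ge ha hn (Ioo_subset_Ico_self hT)
    have h2 := Pf_le ha hn hT
    have h3 := hv_pos hT
    have h4 := hv_lt_one hT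
    set h := hv T with hh
    have h5 : a + (27 / 2000 + 3 / 8 * h ^ 2 + 223 / 2000 * h ^ 4) ≤ a * Wf a c T := by
      have := mul_le_mul_of_nonneg_left h1 ha0.le
      have e : a * (1 + (27 / 2000 + 3 / 8 * h ^ 2 + 223 / 2000 * h ^ 4) / a)
          = a + (27 / 2000 + 3 / 8 * h ^ 2 + 223 / 2000 * h ^ 4) := by
        field_simp
      linarith
    have h6 : a * Pf a c T ≤ 3 / 4 * h + 223 / 500 * h ^ 3 := by
      have := mul_le_mul_of_nonneg_left h2 ha0.le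
      have e : a * ((3 / 4 * h + 223 / 500 * h ^ 3) / a) = 3 / 4 * h + 223 / 500 * h ^ 3 := by
        field_simp
      linarith
    have h7 : 2 * (1 - h) * (a * Pf a c T) ≤ 2 * (1 - h) * (3 / 4 * h + 223 / 500 * h ^ 3) :=
      mul_le_mul_of_nonneg_left h6 (by linarith)
    have h8 := lin_pos ha (pol_lo0 h3.le h4.le) (r₁ := 3643 / 2000 - 1403 / 200 * h
      + 1487 / 40 * h ^ 2 - 56983 / 1000 * h ^ 3 + 14553 / 2000 * h ^ 4 + 3861 / 200 * h ^ 5
      - 9 * (167 / 2000 - 21 / 20 * h + 35 / 8 * h ^ 2 - 2201 / 500 * h ^ 3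
      + 2007 / 2000 * h ^ 4))
      (by linarith [pol_lo1 h3.le h4.le])
    have e : (a / h + (1 - 3 * h) / 2) * qL a h + (1 - h ^ 2)
          * (1 + (-(107 / 100) - 190 / 100 * h + 1404 / 100 * h ^ 3) / a)
        = a + (27 / 2000 + 3 / 8 * h ^ 2 + 223 / 2000 * h ^ 4)
          - 2 * (1 - h) * (3 / 4 * h + 223 / 500 * h ^ 3)
          - (167 / 2000 - 21 / 20 * h + 35 / 8 * h ^ 2 - 2201 / 500 * h ^ 3
          + 2007 / 2000 * h ^ 4 + (3643 / 2000 - 1403 / 200 * h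
      + 1487 / 40 * h ^ 2 - 56983 / 1000 * h ^ 3 + 14553 / 2000 * h ^ 4 + 3861 / 200 * h ^ 5
      - 9 * (167 / 2000 - 21 / 20 * h + 35 / 8 * h ^ 2 - 2201 / 500 * h ^ 3
      + 2007 / 2000 * h ^ 4)) / a) := by
      unfold qL
      field_simp
      ring
    rw [e]
    linarith

end Vale.Agent.P224.R2.H627
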