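import Vale.Agent.P224.R2.H627.Gam
import Vale.Agent.P224.R2.H627.Mom

/-!
The exact value of `Y_0 = int y` and sharp two sided bounds.
-/

namespace Vale.Agent.P224.R2.H627

open MeasureTheory Set Filter Function Real Vale.Agent.P224.SM2 Vale.Agent.P224.R2.H820
open scoped Topology

variable {x y : ℝ} {m : ℕ}

lemma tendsto_Gq (hx : 0 < x) :
    Tendsto (fun j : ℕ => Gq (x + j) ^ 2 * ((x + j) / 2)) atTop (𝓝 1) := by
  have h2 : Tendsto (fun j : ℕ => 1 + 1 / ((x - 1) + 1 * (j : ℝ))) atTop (𝓝 (1 + 0)) :=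
    (tendsto_inv_lin (by norm_num : (0 : ℝ) < 1) (x - 1)).const_add _
  rw [add_zero] at h2
  refine tendsto_of_tendsto_of_tendsto_of_le_of_le' tendsto_const_nhds h2 ?_ ?_
  · refine Eventually.of_forall fun j => ?_
    have hj : (0 : ℝ) ≤ j := Nat.cast_nonneg j
    have h0 : 0 < x + j := by linarith
    have h := Gq_sq_ge h0
    rw [div_le_iff₀ h0] at h
    show (1 : ℝ) ≤ _
    linarith
  · filter_upwards [eventually_ge_atTop 1] with j hj
    have hj : (1 : ℝ) ≤ j := by exact_mod_cast hj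
    have h0 : 1 < x + j := by linarith
    have h := Gq_sq_le h0
    have h1 : 0 < x + j - 1 := by linarith
    have e : 1 + 1 / (x - 1 + 1 * (j : ℝ)) = 2 / (x + j - 1) * ((x + j) / 2) := by
      have e1 : x - 1 + 1 * (j : ℝ) = x + j - 1 := by ring
      rw [e1]
      field_simp
      ring
    rw [e]
    exact mul_le_mul_of_nonneg_right h (by linarith)

lemma tendsto_lin_ratio (hx : 0 < x) (y : ℝ) :
    Tendsto (fun j : ℕ => (y + j) / (x + j)) atTop (𝓝 1) := by
  have h : Tendsto (fun j : ℕ => 1 + (y - x) * (1 / (x + 1 * (j : ℝ)))) atTop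
      (𝓝 (1 + (y - x) * 0)) :=
    ((tendsto_inv_lin (by norm_num : (0 : ℝ) < 1) x).const_mul _).const_add _
  rw [mul_zero, add_zero] at h
  refine h.congr fun j => ?_
  have hj : (0 : ℝ) ≤ j := Nat.cast_nonneg j
  have h0 : 0 < x + j := by linarith
  have e1 : x + 1 * (j : ℝ) = x + j := by ring
  rw [e1]
  field_simp
  ring

lemma tendsto_Gq_ratio (hx : 0 < x) (hy : 0 < y) :
    Tendsto (fun j : ℕ => Gq (x + j) / Gq (y + j)) atTop (𝓝 1) := by
  have h : Tendsto (fun j : ℕ => √(Gq (x + j) ^ 2 * ((x + j) / 2) / (Gq (y + j) ^ 2 * ((y + j) / 2))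
      * ((y + j) / (x + j)))) atTop (𝓝 (√(1 / 1 * 1))) :=
    (continuous_sqrt.tendsto _).comp
      (((tendsto_Gq hx).div (tendsto_Gq hy) one_ne_zero).mul (tendsto_lin_ratio hx y))
  rw [div_one, mul_one, sqrt_one] at h
  refine h.congr fun j => ?_
  have hj : (0 : ℝ) ≤ j := Nat.cast_nonneg j
  have h0 : 0 < x + j := by linarith
  have h1 : 0 < y + j := by linarith
  have h2 := Gq_pos h0
  have h3 := Gq_pos h1
  have e : Gq (x + j) ^ 2 * ((x + j) / 2) / (Gq (y + j) ^ 2 * ((y + j) / 2))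
      * ((y + j) / (x + j)) = (Gq (x + j) / Gq (y + j)) ^ 2 := by
    field_simp
  rw [e, sqrt_sq (by positivity)]

lemma contOn_yM (h4 : 4 ≤ m) (j : ℕ) : ContinuousOn (fun T => T ^ j * yM m T) (Icc 0 1) :=
  contOn_pow_mul (continuous_yF (c := cn m) (half_le h4)).continuousOn j

lemma yM_nonneg (h4 : 4 ≤ m) {T : ℝ} (hT : T ∈ Icc (0 : ℝ) 1) : 0 ≤ yM m T := by
  rcases hT.2.lt_or_eq with h | h
  · exact yF_nonneg (cn_nonneg h4) (half_le h4) ⟨hT.1, h⟩
  · rw [h]
    exact (yF_one (c := cn m) (half_le h4)).ge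

lemma YM_nonneg (h4 : 4 ≤ m) (j : ℕ) : 0 ≤ YM m j :=
  intervalIntegral.integral_nonneg zero_le_one fun T hT =>
    mul_nonneg (pow_nonneg hT.1 _) (yM_nonneg h4 hT)

lemma YM_succ_le (h4 : 4 ≤ m) (j : ℕ) : YM m (j + 1) ≤ YM m j := by
  refine intervalIntegral.integral_mono_on zero_le_one (intble (contOn_yM h4 _))
    (intble (contOn_yM h4 _)) fun T hT => ?_
  exact mul_le_mul_of_nonneg_right (pow_le_pow_of_le_one hT.1 hT.2 (Nat.le_succ j))
    (yM_nonneg h4 hT)

lemma YM_pos (h4 : 4 ≤ m) (j : ℕ) : 0 < YM m j := by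
  have hm := m_pos h4
  have h0 : ∀ j, 0 < YM m j ∧ 0 < YM m (j + 1) := by
    intro j
    induction j with
    | zero =>
      have h1 : 0 < YM m (0 + 1) := by
        rw [zero_add, YM_one h4]
        positivity
      exact ⟨h1.trans_le (YM_succ_le h4 0), h1⟩
    | succ j ih =>
      refine ⟨ih.2, ?_⟩
      have h := YM_rec h4 j
      have h2 : 0 < ((m : ℝ) + j) * (m + 2 * j + 2) * YM m (j + 2) := by
        rw [h]
        have := ih.1
        positivity
      exact pos_of_mul_pos_right h2 (by positivity)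
  exact (h0 j).1

/-- the product which is constant -/
noncomputable def Qs (m j : ℕ) : ℝ := YM m j / YM m (j + 1) * (Gq (m + j) / Gq (1 + j))
  * (Gq (m / 2 + 1 + j) / Gq (m / 2 + j))

lemma Qs_add_two (h4 : 4 ≤ m) (j : ℕ) : Qs m (j + 2) = Qs m j := by
  have hm := m_pos h4
  have y0 := (YM_pos h4 j).ne'
  have y1 := (YM_pos h4 (j + 1)).ne'
  have y2 := (YM_pos h4 (j + 2)).ne'
  have y3 := (YM_pos h4 (j + 3)).ne'
  have hj : (0 : ℝ) ≤ j := Nat.cast_nonneg j
  have r0 := YM_rec h4 j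
  have r1 := YM_rec h4 (j + 1)
  have g1 := Gq_add_two (x := (m : ℝ) + j) (by positivity)
  have g2 := Gq_add_two (x := 1 + (j : ℝ)) (by positivity)
  have g3 := Gq_add_two (x := (m : ℝ) / 2 + 1 + j) (by positivity)
  have g4 := Gq_add_two (x := (m : ℝ) / 2 + j) (by positivity)
  have p1 := (Gq_pos (x := (m : ℝ) + j) (by positivity)).ne'
  have p2 := (Gq_pos (x := 1 + (j : ℝ)) (by positivity)).ne'
  have p3 := (Gq_pos (x := (m : ℝ) / 2 + 1 + j) (by positivity)).ne'
  have p4 := (Gq_pos (x := (m : ℝ) / 2 + j) (by positivity)).ne'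
  unfold Qs
  push_cast at r0 r1 ⊢
  rw [show (m : ℝ) + (j + 2) = m + j + 2 by ring, show (1 : ℝ) + (j + 2) = 1 + j + 2 by ring,
    show (m : ℝ) / 2 + 1 + (j + 2) = m / 2 + 1 + j + 2 by ring,
    show (m : ℝ) / 2 + (j + 2) = m / 2 + j + 2 by ring, g1, g2, g3, g4,
    show j + 2 + 1 = j + 3 by ring]
  have e0 : YM m (j + 2) = (j + 1) * (m + 2 * j) * YM m j / (((m : ℝ) + j) * (m + 2 * j + 2)) := by
    rw [eq_div_iff (by positivity)]
    linarith
  have e1 : YM m (j + 3) = (j + 1 + 1) * (m + 2 * (j + 1)) * YM m (j + 1)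
      / (((m : ℝ) + (j + 1)) * (m + 2 * (j + 1) + 2)) := by
    rw [eq_div_iff (by positivity)]
    linarith
  rw [e0, e1]
  field_simp
  ring

lemma Qs_even (h4 : 4 ≤ m) (k : ℕ) : Qs m (2 * k) = Qs m 0 := by
  induction k with
  | zero => rfl
  | succ k ih =>
    rw [show 2 * (k + 1) = 2 * k + 2 by ring, Qs_add_two h4, ih]

lemma tendsto_YM_ratio (h4 : 4 ≤ m) :
    Tendsto (fun j : ℕ => YM m j / YM m (j + 1)) atTop (𝓝 1) := by
  have hm := m_pos h4
  have h1 : Tendsto (fun j : ℕ => ((m : ℝ) + j) / (1 + j) * (((m : ℝ) / 2 + 1 + j) / (m / 2 + j)))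
      atTop (𝓝 (1 * 1)) :=
    (tendsto_lin_ratio one_pos _).mul (tendsto_lin_ratio (by positivity) _)
  rw [mul_one] at h1
  refine tendsto_of_tendsto_of_tendsto_of_le_of_le tendsto_const_nhds h1 (fun j => ?_) fun j => ?_
  · exact (one_le_div (YM_pos h4 _)).2 (YM_succ_le h4 j)
  · have y0 := YM_pos h4 j
    have y1 := YM_pos h4 (j + 1)
    have y2 := YM_pos h4 (j + 2)
    have h2 := YM_succ_le h4 (j + 1)
    have hj : (0 : ℝ) ≤ j := Nat.cast_nonneg j
    have r0 := YM_rec h4 j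
    show YM m j / YM m (j + 1) ≤ _
    have e0 : YM m j = YM m (j + 2) * (((m : ℝ) + j) / (1 + j)
        * (((m : ℝ) / 2 + 1 + j) / (m / 2 + j))) := by
      have : YM m (j + 2) = (j + 1) * (m + 2 * j) * YM m j
          / (((m : ℝ) + j) * (m + 2 * j + 2)) := by
        rw [eq_div_iff (by positivity)]
        linarith
      rw [this]
      field_simp
      ring
    rw [e0, div_le_iff₀ y1, mul_comm]
    exact mul_le_mul_of_nonneg_left h2 (by positivity)

lemma Qs_zero (h4 : 4 ≤ m) : Qs m 0 = 1 := by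
  have hm := m_pos h4
  have h : Tendsto (fun j : ℕ => Qs m j) atTop (𝓝 (1 * 1 * 1)) :=
    ((tendsto_YM_ratio h4).mul (tendsto_Gq_ratio hm one_pos)).mul
      (tendsto_Gq_ratio (by positivity) (by positivity))
  have h2 : Tendsto (fun k : ℕ => Qs m (2 * k)) atTop (𝓝 (1 * 1 * 1)) :=
    h.comp (tendsto_id.const_mul_atTop' (by norm_num : 0 < 2))
  simp only [Qs_even h4] at h2
  have := tendsto_nhds_unique h2 tendsto_const_nhds
  rw [← this]
  norm_num

lemma Gq_one : Gq 1 = √π := by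
  unfold Gq
  rw [Gamma_one_half_eq]
  norm_num

/-- the exact value of `Y_0` -/
theorem YM_zero_eq (h4 : 4 ≤ m) : YM m 0 = √π * Gq (m / 2) ^ 2 / (4 * Gq m) := by
  have hm := m_pos h4
  have h := Qs_zero h4
  unfold Qs at h
  have p1 := (Gq_pos hm).ne'
  have p2 := (Gq_pos (x := (m : ℝ) / 2) (by positivity)).ne'
  have p3 := (Gq_pos (x := (m : ℝ) / 2 + 1) (by positivity)).ne'
  have p4 : √π ≠ 0 := (sqrt_pos.2 pi_pos).ne'
  have h5 := Gq_mul (x := (m : ℝ) / 2) (by positivity)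
  rw [zero_add, YM_one h4] at h
  push_cast at h
  rw [add_zero, add_zero, add_zero, add_zero, Gq_one] at h
  have e3 : Gq ((m : ℝ) / 2 + 1) = 2 / (m / 2) / Gq (m / 2) := by
    rw [eq_div_iff p2]
    linarith
  rw [e3] at h
  field_simp at h ⊢
  linarith

end Vale.Agent.P224.R2.H627
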